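import Mathlib

/-! Balog-Szemeredi-Gowers, graph version with a dense induced graph (task F). -/

namespace Vale.Agent.P065

open Finset Pointwise

theorem bsg_filter {α : Type*} (s : Finset α) (f : α → ℝ) {c N : ℝ} (hc : 0 ≤ c)
    (hs : (s.card : ℝ) ≤ N) : ∑ x ∈ s, f x - N * c ≤ ∑ x ∈ s.filter (fun x => c ≤ f x), f x := by
  rw [← sum_filter_add_sum_filter_not s (fun x => c ≤ f x) f]
  have h1 : ∑ x ∈ s.filter (fun x => ¬c ≤ f x), f x ≤ (s.filter (fun x => ¬c ≤ f x)).card • c :=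
    sum_le_card_nsmul _ _ _ fun x hx => (not_le.mp (mem_filter.mp hx).2).le
  have h2 : ((s.filter (fun x => ¬c ≤ f x)).card : ℝ) ≤ N :=
    le_trans (by exact_mod_cast card_filter_le _ _) hs
  rw [nsmul_eq_mul] at h1
  nlinarith

theorem bsg_pick {α β : Type*} (A : Finset α) (B : Finset β) (e : α → β → ℝ) (b : α → α → ℝ)
    {N δ : ℝ} (hN : 0 < N) (hδ : 0 < δ) (hA : (A.card : ℝ) ≤ N) (hB : (B.card : ℝ) ≤ N)
    (hg : δ * N ^ 2 / 2 ≤ ∑ x ∈ A, ∑ y ∈ B, e x y)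
    (hb : ∀ x x', b x x' * ∑ y ∈ B, e x y * e x' y ≤ δ ^ 3 / 256 * N) :
    ∃ y ∈ B, δ ^ 3 * N ^ 2 / 256 + ∑ x ∈ A, ∑ x' ∈ A, b x x' * (e x y * e x' y)
      ≤ δ / 32 * (∑ x ∈ A, e x y) ^ 2 := by
  have hne : B.Nonempty := by
    rcases B.eq_empty_or_nonempty with rfl | h
    · simp only [sum_empty, sum_const_zero] at hg
      have : 0 < δ * N ^ 2 / 2 := by positivity
      linarith
    · exact h
  refine exists_le_of_sum_le hne ?_
  rw [sum_comm] at hg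
  have h1 := sq_sum_le_card_mul_sum_sq (s := B) (f := fun y => ∑ x ∈ A, e x y)
  have h0 : 0 ≤ ∑ y ∈ B, (∑ x ∈ A, e x y) ^ 2 := sum_nonneg fun _ _ => sq_nonneg _
  have h2 : N * (δ ^ 2 * N ^ 3 / 4) ≤ N * ∑ y ∈ B, (∑ x ∈ A, e x y) ^ 2 := by
    have := pow_le_pow_left₀ (by positivity) hg 2
    have := mul_le_mul_of_nonneg_right hB h0
    nlinarith
  have h3 := le_of_mul_le_mul_left h2 hN
  have h4 : ∑ y ∈ B, ∑ x ∈ A, ∑ x' ∈ A, b x x' * (e x y * e x' y) ≤ δ ^ 3 * N ^ 3 / 256 := by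
    rw [sum_comm]
    have h5 : ∀ x ∈ A, ∑ y ∈ B, ∑ x' ∈ A, b x x' * (e x y * e x' y)
        ≤ N * (δ ^ 3 / 256 * N) := by
      intro x _
      rw [sum_comm]
      refine (sum_le_card_nsmul _ _ (δ ^ 3 / 256 * N) fun x' _ => ?_).trans ?_
      · rw [← mul_sum]; exact hb x x'
      · rw [nsmul_eq_mul]; exact mul_le_mul_of_nonneg_right hA (by positivity)
    refine (sum_le_card_nsmul _ _ _ h5).trans ?_
    rw [nsmul_eq_mul]
    refine (mul_le_mul_of_nonneg_right hA (by positivity)).trans (le_of_eq (by ring))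
  rw [sum_add_distrib, ← mul_sum, sum_const, nsmul_eq_mul]
  have h6 := mul_le_mul_of_nonneg_right hB (show 0 ≤ δ ^ 3 * N ^ 2 / 256 by positivity)
  have h7 := mul_le_mul_of_nonneg_left h3 (show 0 ≤ δ / 32 by positivity)
  nlinarith

theorem bsg_graph {α β : Type*} (A : Finset α) (B : Finset β) (e : α → β → ℝ)
    (he : ∀ x y, e x y = 0 ∨ e x y = 1) {N δ : ℝ} (hN : 0 < N) (hδ : 0 < δ)
    (hA : (A.card : ℝ) ≤ N) (hB : (B.card : ℝ) ≤ N) (hg : δ * N ^ 2 ≤ ∑ x ∈ A, ∑ y ∈ B, e x y) :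
    ∃ A' ⊆ A, ∃ B' ⊆ B, δ ^ 2 * N ^ 2 / 24 ≤ ∑ x ∈ A', ∑ y ∈ B', e x y ∧
      ∀ x ∈ A', ∀ y ∈ B',
        δ ^ 5 * N ^ 2 / 12288 ≤ ∑ x' ∈ A, ∑ y' ∈ B, e x y' * e x' y' * e x' y := by
  classical
  have e0 : ∀ x y, 0 ≤ e x y := fun x y => by rcases he x y with h | h <;> simp [h]
  have e1 : ∀ x y, e x y ≤ 1 := fun x y => by rcases he x y with h | h <;> simp [h]
  have h1 := bsg_filter A (fun x => ∑ y ∈ B, e x y) (c := δ * N / 2) (by positivity) hA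
  obtain ⟨A₀, hA₀⟩ : ∃ S, S = A.filter (fun x => δ * N / 2 ≤ ∑ y ∈ B, e x y) := ⟨_, rfl⟩
  rw [← hA₀] at h1
  have s0 : A₀ ⊆ A := hA₀ ▸ filter_subset _ _
  obtain ⟨b, hb⟩ : ∃ b : α → α → ℝ, ∀ x x', b x x' =
      if ∑ y ∈ B, e x y * e x' y < δ ^ 3 / 256 * N then 1 else 0 := ⟨_, fun _ _ => rfl⟩
  have b0 : ∀ x x', 0 ≤ b x x' := fun x x' => by rw [hb]; split_ifs <;> norm_num
  obtain ⟨y₀, -, h2⟩ := bsg_pick A₀ B e b hN hδ
    (le_trans (by exact_mod_cast card_le_card s0) hA) hB (by nlinarith) (fun x x' => by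
      rw [hb]
      split_ifs with h
      · linarith
      · rw [zero_mul]; positivity)
  obtain ⟨A₁, hA₁⟩ : ∃ S, S = A₀.filter (fun x => e x y₀ = 1) := ⟨_, rfl⟩
  have s1 : A₁ ⊆ A₀ := hA₁ ▸ filter_subset _ _
  have k1 : ∀ f : α → ℝ, ∑ x ∈ A₀, f x * e x y₀ = ∑ x ∈ A₁, f x := by
    intro f
    rw [hA₁, sum_filter]
    refine sum_congr rfl fun x _ => ?_
    rcases he x y₀ with h | h <;> simp [h]
  have k2 : ∑ x ∈ A₀, e x y₀ = A₁.card := by simpa using k1 fun _ => 1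
  have k3 : ∑ x ∈ A₀, ∑ x' ∈ A₀, b x x' * (e x y₀ * e x' y₀) = ∑ x ∈ A₁, ∑ x' ∈ A₁, b x x' := by
    rw [← k1]
    refine sum_congr rfl fun x _ => ?_
    rw [← k1, sum_mul]
    exact sum_congr rfl fun x' _ => by ring
  rw [k2, k3] at h2
  obtain ⟨M, hM⟩ : ∃ M : ℝ, M = A₁.card := ⟨_, rfl⟩
  rw [← hM] at h2
  have M0 : 0 ≤ M := hM ▸ Nat.cast_nonneg _
  have k4 : 0 ≤ ∑ x ∈ A₁, ∑ x' ∈ A₁, b x x' := sum_nonneg fun x _ => sum_nonneg fun x' _ => b0 x x'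
  have k5 : δ * N / 3 ≤ M := by
    refine (pow_le_pow_iff_left₀ (by positivity) M0 two_ne_zero).mp ?_
    have h3 : δ * (δ ^ 2 * N ^ 2 / 8) ≤ δ * M ^ 2 := by linarith
    have h4 := le_of_mul_le_mul_left h3 hδ
    have h5 : 0 ≤ δ ^ 2 * N ^ 2 := by positivity
    nlinarith
  have M1 : 0 < M := lt_of_lt_of_le (by positivity) k5
  obtain ⟨A', hA'⟩ : ∃ S, S = A₁.filter (fun x => ∑ x' ∈ A₁, b x x' ≤ δ * M / 16) := ⟨_, rfl⟩
  have s2 : A' ⊆ A₁ := hA' ▸ filter_subset _ _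
  have k6 : M / 2 ≤ A'.card := by
    have h3 := card_filter_add_card_filter_not (s := A₁) (fun x => ∑ x' ∈ A₁, b x x' ≤ δ * M / 16)
    have h4 := card_nsmul_le_sum (A₁.filter fun x => ¬∑ x' ∈ A₁, b x x' ≤ δ * M / 16)
      (fun x => ∑ x' ∈ A₁, b x x') (δ * M / 16) fun x hx => (not_le.mp (mem_filter.mp hx).2).le
    have h5 := sum_le_sum_of_subset_of_nonneg (f := fun x => ∑ x' ∈ A₁, b x x')
      (filter_subset (fun x => ¬∑ x' ∈ A₁, b x x' ≤ δ * M / 16) A₁)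
      fun x _ _ => sum_nonneg fun x' _ => b0 x x'
    rw [← hA'] at h3
    have h6 : (A'.card : ℝ) + (A₁.filter fun x => ¬∑ x' ∈ A₁, b x x' ≤ δ * M / 16).card = M := by
      refine Eq.trans ?_ hM.symm
      exact_mod_cast h3
    rw [nsmul_eq_mul] at h4
    generalize ((A₁.filter fun x => ¬∑ x' ∈ A₁, b x x' ≤ δ * M / 16).card : ℝ) = u at h4 h6
    have h7 : 0 < δ ^ 3 * N ^ 2 / 256 := by positivity
    have h8 : δ * M / 16 * u ≤ δ * M / 16 * (M / 2) := by linarith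
    have h9 := le_of_mul_le_mul_left h8 (by positivity)
    linarith
  have h3 := bsg_filter B (fun y => ∑ x ∈ A', e x y) (c := δ * M / 8) (by positivity) hB
  refine ⟨A', s2.trans (s1.trans s0), _, filter_subset (fun y => δ * M / 8 ≤ ∑ x ∈ A', e x y) B,
    ?_, fun x hx y hy => ?_⟩
  · rw [sum_comm]
    refine le_trans ?_ h3
    rw [sum_comm]
    have h4 := card_nsmul_le_sum A' (fun x => ∑ y ∈ B, e x y) (δ * N / 2) fun x hx => by
      have := s1 (s2 hx)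
      rw [hA₀] at this
      exact (mem_filter.mp this).2
    rw [nsmul_eq_mul] at h4
    have h5 := mul_le_mul_of_nonneg_right k6 (show 0 ≤ δ * N / 2 by positivity)
    have h6 := mul_le_mul_of_nonneg_right k5 (show 0 ≤ δ * N / 8 by positivity)
    linarith
  · have hy' := (mem_filter.mp hy).2
    have hx' : ∑ x' ∈ A₁, b x x' ≤ δ * M / 16 := by
      rw [hA'] at hx
      exact (mem_filter.mp hx).2
    have h4 : ∑ x' ∈ A', b x x' ≤ ∑ x' ∈ A₁, b x x' :=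
      sum_le_sum_of_subset_of_nonneg s2 fun x' _ _ => b0 x x'
    have h5 : ∑ x' ∈ A', (e x' y - b x x') * (δ ^ 3 / 256 * N)
        ≤ ∑ x' ∈ A', ∑ y' ∈ B, e x y' * e x' y' * e x' y := by
      refine sum_le_sum fun x' _ => ?_
      rw [← sum_mul, hb]
      have h6 : 0 ≤ ∑ y' ∈ B, e x y' * e x' y' :=
        sum_nonneg fun y' _ => mul_nonneg (e0 _ _) (e0 _ _)
      have h7 : 0 ≤ δ ^ 3 / 256 * N := by positivity
      split_ifs with h
      · exact le_trans (mul_nonpos_of_nonpos_of_nonneg (by linarith [e1 x' y]) h7)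
          (mul_nonneg h6 (e0 _ _))
      · rw [sub_zero, mul_comm]
        exact mul_le_mul_of_nonneg_right (not_lt.mp h) (e0 _ _)
    have h6 : ∑ x' ∈ A', ∑ y' ∈ B, e x y' * e x' y' * e x' y
        ≤ ∑ x' ∈ A, ∑ y' ∈ B, e x y' * e x' y' * e x' y :=
      sum_le_sum_of_subset_of_nonneg (s2.trans (s1.trans s0)) fun x' _ _ =>
        sum_nonneg fun y' _ => mul_nonneg (mul_nonneg (e0 _ _) (e0 _ _)) (e0 _ _)
    rw [← sum_mul, sum_sub_distrib] at h5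
    have h7 : δ * (δ * N / 3) / 16 ≤ ∑ x' ∈ A', e x' y - ∑ x' ∈ A', b x x' := by
      have := mul_le_mul_of_nonneg_left k5 hδ.le
      linarith
    have h8 := mul_le_mul_of_nonneg_right h7 (show 0 ≤ δ ^ 3 / 256 * N by positivity)
    linarith

theorem bsg_paths (A B : Finset ℤ) (G : Finset (ℤ × ℤ)) (x y : ℤ) :
    ∑ x' ∈ A, ∑ y' ∈ B, (if (x, y') ∈ G then (1 : ℝ) else 0) * (if (x', y') ∈ G then 1 else 0) *
      (if (x', y) ∈ G then 1 else 0) ≤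
    ((((G.image fun p => p.1 + p.2) ×ˢ (G.image fun p => p.1 + p.2) ×ˢ
      (G.image fun p => p.1 + p.2)).filter fun t => t.1 - t.2.1 + t.2.2 = x + y).card : ℝ) := by
  have h1 : ∑ x' ∈ A, ∑ y' ∈ B, (if (x, y') ∈ G then (1 : ℝ) else 0) *
      (if (x', y') ∈ G then 1 else 0) * (if (x', y) ∈ G then 1 else 0)
      = ((A ×ˢ B).filter fun p => ((x, p.2) ∈ G ∧ (p.1, p.2) ∈ G) ∧ (p.1, y) ∈ G).card := by
    rw [natCast_card_filter, sum_product]
    simp only [ite_zero_mul_ite_zero, mul_one]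
  rw [h1, Nat.cast_le]
  refine card_le_card_of_injOn (fun p => (x + p.2, p.1 + p.2, p.1 + y)) (fun p hp => ?_)
    fun p _ q _ h => ?_
  · obtain ⟨-, ⟨h2, h3⟩, h4⟩ := mem_filter.mp hp
    refine mem_filter.mpr ⟨mem_product.mpr ⟨mem_image_of_mem _ h2,
      mem_product.mpr ⟨mem_image_of_mem _ h3, mem_image_of_mem _ h4⟩⟩, ?_⟩
    ring
  · simp only [Prod.mk.injEq] at h
    exact Prod.ext (by linarith [h.2.2]) (by linarith [h.1])

theorem bsg_count (A B : Finset ℤ) (G : Finset (ℤ × ℤ)) :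
    ∑ x ∈ A, ∑ y ∈ B, (if (x, y) ∈ G then (1 : ℝ) else 0)
      = ((G.filter fun x => x.1 ∈ A ∧ x.2 ∈ B).card : ℝ) := by
  have : (G.filter fun x => x.1 ∈ A ∧ x.2 ∈ B) = (A ×ˢ B).filter fun p => (p.1, p.2) ∈ G := by
    ext p; simp [and_comm]
  rw [this, natCast_card_filter, sum_product]

theorem bsg : ∃ C : ℕ, ∀ (A B : Finset ℤ) (G : Finset (ℤ × ℤ)) (a K : ℝ), 0 < a → 2 ≤ K →
    G ⊆ A ×ˢ B → (A.card : ℝ) ≤ K * a → (B.card : ℝ) ≤ K * a → a ^ 2 / K ≤ G.card →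
    ((G.image fun x => x.1 + x.2).card : ℝ) ≤ K * a →
    ∃ A' ⊆ A, ∃ B' ⊆ B, ((A' + B').card : ℝ) ≤ K ^ C * a ∧
      a ^ 2 / K ^ C ≤ ((G.filter fun x => x.1 ∈ A' ∧ x.2 ∈ B').card : ℝ) := by
  refine ⟨30, fun A B G a K ha hK hG hA hB hg hS => ?_⟩
  have K0 : 0 < K := by linarith
  obtain ⟨A', s1, B', s2, h1, h2⟩ := bsg_graph A B (fun x y => if (x, y) ∈ G then 1 else 0)
    (fun x y => by by_cases h : (x, y) ∈ G <;> simp [h]) (N := K * a) (δ := 1 / K ^ 3)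
    (by positivity) (by positivity) hA hB (by
      rw [bsg_count, filter_true_of_mem fun p hp => mem_product.mp (hG hp)]
      refine le_trans (le_of_eq ?_) hg
      field_simp)
  refine ⟨A', s1, B', s2, ?_, ?_⟩
  · set S := G.image fun p => p.1 + p.2 with hSd
    have h3 := card_nsmul_le_sum (A' + B')
      (fun s => (((S ×ˢ S ×ˢ S).filter fun t => t.1 - t.2.1 + t.2.2 = s).card : ℝ))
      ((1 / K ^ 3) ^ 5 * (K * a) ^ 2 / 12288) fun s hs => by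
        obtain ⟨x, hx, y, hy, rfl⟩ := mem_add.mp hs
        exact (h2 x hx y hy).trans (bsg_paths A B G x y)
    have h4 := sum_card_fiberwise_eq_card_filter (S ×ˢ S ×ˢ S) (A' + B')
      fun t => t.1 - t.2.1 + t.2.2
    have h5 := card_filter_le (S ×ˢ S ×ˢ S) fun t => t.1 - t.2.1 + t.2.2 ∈ A' + B'
    rw [← h4, card_product, card_product] at h5
    have h6 : ∑ s ∈ A' + B',
        (((S ×ˢ S ×ˢ S).filter fun t => t.1 - t.2.1 + t.2.2 = s).card : ℝ) ≤ (S.card : ℝ) ^ 3 := by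
      rw [pow_three]
      exact_mod_cast h5
    have h7 := pow_le_pow_left₀ (Nat.cast_nonneg _) hS 3
    rw [nsmul_eq_mul] at h3
    have h8 := (le_div_iff₀ (by positivity)).mpr (h3.trans (h6.trans h7))
    refine h8.trans ?_
    have h9 : (12288 : ℝ) ≤ K ^ 14 := le_trans (by norm_num) (pow_le_pow_left₀ (by norm_num) hK 14)
    have e : (K * a) ^ 3 / ((1 / K ^ 3) ^ 5 * (K * a) ^ 2 / 12288) = 12288 * (K ^ 16 * a) := by
      field_simp
    rw [e, show K ^ 30 * a = K ^ 14 * (K ^ 16 * a) by ring]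
    exact mul_le_mul_of_nonneg_right h9 (by positivity)
  · rw [bsg_count] at h1
    refine le_trans ?_ h1
    have h9 : (24 : ℝ) ≤ K ^ 26 := le_trans (by norm_num) (pow_le_pow_left₀ (by norm_num) hK 26)
    have e : (1 / K ^ 3) ^ 2 * (K * a) ^ 2 / 24 = a ^ 2 / (K ^ 4 * 24) := by field_simp
    rw [e, show K ^ 30 = K ^ 4 * K ^ 26 by ring]
    exact div_le_div_of_nonneg_left (by positivity) (by positivity)
      (mul_le_mul_of_nonneg_left h9 (by positivity))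

end Vale.Agent.P065
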