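import Vale.Agent.P065.TokL

/-! The token system of all vertices of one level (task D), and the reduction of the final
statement to token systems. -/

namespace Vale.Agent.P065

open Classical Finset

/-- number of events strictly before time `s` -/
noncomputable def Tok.idx {P : Finset Pt} (S : Tok P) (s : ℝ) : ℕ :=
  ((range S.m).filter fun i => S.t i < s).card

/-- `S` is the full system of level `j`: `j + 1` tokens, every pair with exactly `j` points
strictly below its line is an event, and the holders are the lowest points at every time -/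
structure Tok.Full {P : Finset Pt} (S : Tok P) (j : ℕ) : Prop where
  card_T : S.T.card = j + 1
  all : ∀ p ∈ P, ∀ q ∈ P, p.1 < q.1 → ∀ s : ℝ, ht p s = ht q s →
    (P.filter fun r => ht r s < ht p s).card = j → ∃ i < S.m, S.a i = p ∧ S.b i = q
  sep : ∀ s : ℝ, ∀ p ∈ S.low (S.idx s), ∀ q ∈ P, q ∉ S.low (S.idx s) → ht p s ≤ ht q s

theorem Tok.idx_le {P : Finset Pt} (S : Tok P) (s : ℝ) : S.idx s ≤ S.m :=
  (card_filter_le _ _).trans (card_range _).le

theorem Tok.lt_idx {P : Finset Pt} (S : Tok P) (s : ℝ) {k : ℕ} (hk : k < S.m) :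
    k < S.idx s ↔ S.t k < s := by
  constructor
  · intro h
    by_contra h'
    have : S.idx s ≤ (range k).card := card_le_card fun i hi => by
      rw [mem_filter] at hi
      exact mem_range.2 (by_contra fun k1 =>
        h' ((S.t_le (not_lt.1 k1) (mem_range.1 hi.1)).trans_lt hi.2))
    rw [card_range] at this
    omega
  · intro h
    have : (range (k + 1)).card ≤ S.idx s := card_le_card fun i hi => by
      rw [mem_range] at hi
      exact mem_filter.2 ⟨mem_range.2 (by omega), (S.t_le (by omega) hk).trans_lt h⟩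
    rw [card_range] at this
    omega

/-- slope of the segment `pq` -/
noncomputable def sl (p q : Pt) : ℝ := (q.2 - p.2) / (q.1 - p.1)

theorem ht_sub {p q : Pt} (h : p.1 < q.1) (s : ℝ) :
    ht p s - ht q s = (q.1 - p.1) * (s - sl p q) := by
  have : q.1 - p.1 ≠ 0 := (sub_pos.2 h).ne'
  unfold ht sl
  field_simp
  ring

theorem ht_lt_iff {p q : Pt} (h : p.1 < q.1) (s : ℝ) : ht p s < ht q s ↔ s < sl p q := by
  rw [← sub_neg, ht_sub h, ← not_le, mul_nonneg_iff_of_pos_left (sub_pos.2 h), not_le, sub_neg]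

theorem ht_gt_iff {p q : Pt} (h : p.1 < q.1) (s : ℝ) : ht q s < ht p s ↔ sl p q < s := by
  rw [← sub_pos, ht_sub h, mul_pos_iff_of_pos_left (sub_pos.2 h), sub_pos]

theorem ht_eq_iff {p q : Pt} (h : p.1 < q.1) (s : ℝ) : ht p s = ht q s ↔ s = sl p q := by
  rw [← sub_eq_zero, ht_sub h, mul_eq_zero, or_iff_right (sub_pos.2 h).ne', sub_eq_zero]

/-- number of points strictly below `p` at time `s` -/
noncomputable def nb (P : Finset Pt) (s : ℝ) (p : Pt) : ℕ :=
  (P.filter fun r => ht r s < ht p s).card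

/-- rank at time `s`, ties broken by `c` -/
noncomputable def rk (P : Finset Pt) (c : Pt → Pt → Prop) (s : ℝ) (p : Pt) : ℕ :=
  (P.filter fun q => ht q s < ht p s ∨ (ht q s = ht p s ∧ c q p)).card

/-- the points of rank at most `j` -/
noncomputable def lowest (P : Finset Pt) (j : ℕ) (c : Pt → Pt → Prop) (s : ℝ) : Finset Pt :=
  P.filter fun p => rk P c s p ≤ j

/-- ties just before a time -/
def cL (q p : Pt) : Prop := q.1 < p.1

/-- ties just after a time -/
def cR (q p : Pt) : Prop := p.1 < q.1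

theorem cL_irr (p : Pt) : ¬ cL p p := lt_irrefl _

theorem cR_irr (p : Pt) : ¬ cR p p := lt_irrefl _

variable {P : Finset Pt} {j : ℕ}

theorem nb_lt {s : ℝ} {p q : Pt} (hp : p ∈ P) (h : ht p s < ht q s) : nb P s p < nb P s q :=
  card_lt_card ⟨fun _ hr => mem_filter.2 ⟨(mem_filter.1 hr).1, (mem_filter.1 hr).2.trans h⟩,
    fun k => lt_irrefl _ (mem_filter.1 (k (mem_filter.2 ⟨hp, h⟩))).2⟩

theorem mem_lowest (hP : GP P) {c : Pt → Pt → Prop} (hc : ∀ p, ¬ c p p) {s : ℝ} {p : Pt} :
    p ∈ lowest P j c s ↔ p ∈ P ∧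
      (nb P s p < j ∨ (nb P s p = j ∧ ∀ q ∈ P, ht q s = ht p s → ¬ c q p)) := by
  rw [lowest, mem_filter]
  refine and_congr_right fun hp => ?_
  have h1 : rk P c s p = nb P s p + (P.filter fun q => ht q s = ht p s ∧ c q p).card := by
    rw [rk, filter_or, card_union_of_disjoint, nb]
    exact disjoint_filter.2 fun q _ h k => h.ne k.1
  have h2 : (P.filter fun q => ht q s = ht p s ∧ c q p).card ≤ 1 := card_le_one.2 fun a ha b hb => by
    rw [mem_filter] at ha hb
    rcases hP.three p hp a ha.1 b hb.1 s ha.2.1.symm hb.2.1.symm with k | k | k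
    · exact absurd (k ▸ ha.2.2) (hc p)
    · exact absurd (k ▸ hb.2.2) (hc p)
    · exact k
  have h3 : (∀ q ∈ P, ht q s = ht p s → ¬ c q p) ↔
      (P.filter fun q => ht q s = ht p s ∧ c q p).card = 0 := by
    simp only [card_eq_zero, filter_eq_empty_iff, not_and]
  rw [h1, h3]
  omega

theorem card_lowest (hP : GP P) (hj : j < P.card) (s : ℝ) : (lowest P j cL s).card = j + 1 := by
  have hlt : ∀ p ∈ P, ∀ q, (ht p s < ht q s ∨ (ht p s = ht q s ∧ cL p q)) →
      rk P cL s p < rk P cL s q := fun p hp q h => by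
    refine card_lt_card ⟨fun r hr => ?_, fun k => ?_⟩
    · rw [mem_filter] at hr ⊢
      refine ⟨hr.1, ?_⟩
      rcases hr.2 with k | k <;> rcases h with h | h
      · exact Or.inl (k.trans h)
      · exact Or.inl (h.1 ▸ k)
      · exact Or.inl (k.1 ▸ h)
      · exact Or.inr ⟨k.1.trans h.1, lt_trans k.2 h.2⟩
    · simpa [cL] using (mem_filter.1 (k (mem_filter.2 ⟨hp, h⟩))).2
  have hinj : Set.InjOn (rk P cL s) P := fun p hp q hq e => by
    by_contra k
    rcases lt_trichotomy (ht p s) (ht q s) with h | h | h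
    · exact (hlt p hp q (Or.inl h)).ne e
    · rcases lt_trichotomy p.1 q.1 with h' | h' | h'
      · exact (hlt p hp q (Or.inr ⟨h, h'⟩)).ne e
      · exact k (hP.xinj p hp q hq h')
      · exact (hlt q hq p (Or.inr ⟨h.symm, h'⟩)).ne' e
    · exact (hlt q hq p (Or.inl h)).ne' e
  have him : P.image (rk P cL s) = range P.card := by
    refine eq_of_subset_of_card_le (fun n hn => ?_) (by rw [card_range, card_image_of_injOn hinj])
    obtain ⟨p, hp, rfl⟩ := mem_image.1 hn
    exact mem_range.2 (card_lt_card ⟨filter_subset _ _, fun k => by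
      simpa [cL] using (mem_filter.1 (k hp)).2⟩)
  rw [lowest, ← card_image_of_injOn (hinj.mono (coe_subset.2 (filter_subset _ _))),
    ← filter_image (p := fun n => n ≤ j), him]
  rw [show (range P.card).filter (fun n => n ≤ j) = range (j + 1) by ext; simp; omega, card_range]

/-- a vertex of level `j` -/
def IsEv (P : Finset Pt) (j : ℕ) (s : ℝ) (e : Pt × Pt) : Prop :=
  e.1 ∈ P ∧ e.2 ∈ P ∧ e.1.1 < e.2.1 ∧ ht e.1 s = ht e.2 s ∧ nb P s e.1 = j

theorem IsEv.nb2 {s : ℝ} {e : Pt × Pt} (h : IsEv P j s e) : nb P s e.2 = j := by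
  rw [nb, ← h.2.2.2.1]; exact h.2.2.2.2

theorem IsEv.mem (hP : GP P) {s : ℝ} {e : Pt × Pt} (h : IsEv P j s e) {p : Pt} (hp : p ∈ P)
    (h' : nb P s p = j) : p = e.1 ∨ p = e.2 := by
  rcases lt_trichotomy (ht p s) (ht e.1 s) with k | k | k
  · have := nb_lt hp k
    have := h.2.2.2.2
    omega
  · rcases hP.three p hp _ h.1 _ h.2.1 s k (k.trans h.2.2.2.1) with l | l | l
    · exact Or.inl l
    · exact Or.inr l
    · exact absurd (congrArg Prod.fst l) h.2.2.1.ne
  · have := nb_lt h.1 k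
    have := h.2.2.2.2
    omega

theorem IsEv.unique (hP : GP P) {s : ℝ} {e f : Pt × Pt} (h : IsEv P j s e) (h' : IsEv P j s f) :
    e = f := by
  have k1 := h.2.2.1
  have k2 := h'.2.2.1
  rcases h.mem hP h'.1 h'.2.2.2.2 with l | l <;> rcases h.mem hP h'.2.1 h'.nb2 with l' | l'
  · rw [l, l'] at k2; exact absurd k2 (lt_irrefl _)
  · exact Prod.ext l.symm l'.symm
  · rw [l, l'] at k2; exact absurd k2 (lt_asymm k1)
  · rw [l, l'] at k2; exact absurd k2 (lt_irrefl _)

theorem lowest_noev (hP : GP P) {s : ℝ} (h : ∀ e, ¬ IsEv P j s e) :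
    lowest P j cL s = lowest P j cR s := by
  ext p
  rw [mem_lowest hP cL_irr, mem_lowest hP cR_irr]
  refine and_congr_right fun hp => or_congr_right (and_congr_right fun k => ?_)
  exact iff_of_true (fun q hq e c => h (q, p) ⟨hq, hp, c, e, by rw [nb, e]; exact k⟩)
    fun q hq e c => h (p, q) ⟨hp, hq, c, e.symm, k⟩

theorem IsEv.lowest (hP : GP P) {s : ℝ} {e : Pt × Pt} (h : IsEv P j s e) :
    e.1 ∈ lowest P j cL s ∧ e.2 ∉ lowest P j cL s ∧
      lowest P j cR s = insert e.2 ((lowest P j cL s).erase e.1) := by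
  have key : ∀ q ∈ P, ht q s = ht e.1 s → q = e.1 ∨ q = e.2 := fun q hq k =>
    h.mem hP hq (by rw [nb, k]; exact h.2.2.2.2)
  have hne : e.1 ≠ e.2 := fun k => h.2.2.1.ne (congrArg Prod.fst k)
  refine ⟨?_, ?_, ?_⟩
  · rw [mem_lowest hP cL_irr]
    refine ⟨h.1, Or.inr ⟨h.2.2.2.2, fun q hq k => ?_⟩⟩
    rcases key q hq k with rfl | rfl
    · exact lt_irrefl _
    · exact lt_asymm h.2.2.1
  · rw [mem_lowest hP cL_irr, h.nb2]
    rintro ⟨-, k | k⟩
    · exact lt_irrefl _ k
    · exact k.2 _ h.1 h.2.2.2.1 h.2.2.1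
  · ext p
    rw [mem_insert, mem_erase, mem_lowest hP cL_irr, mem_lowest hP cR_irr]
    constructor
    · rintro ⟨hp, k | k⟩
      · exact Or.inr ⟨fun l => by rw [l, h.2.2.2.2] at k; exact lt_irrefl _ k, hp, Or.inl k⟩
      · rcases h.mem hP hp k.1 with rfl | l
        · exact absurd h.2.2.1 (k.2 _ h.2.1 h.2.2.2.1.symm)
        · exact Or.inl l
    · rintro (rfl | ⟨k0, hp, k | k⟩)
      · refine ⟨h.2.1, Or.inr ⟨h.nb2, fun q hq k => ?_⟩⟩
        rcases key q hq (k.trans h.2.2.2.1.symm) with rfl | rfl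
        · exact lt_asymm h.2.2.1
        · exact lt_irrefl _
      · exact ⟨hp, Or.inl k⟩
      · rcases h.mem hP hp k.1 with l | rfl
        · exact absurd l k0
        · exact absurd h.2.2.1 (k.2 _ h.1 h.2.2.2.1)

/-- all slopes -/
noncomputable def slopes (P : Finset Pt) : Finset ℝ :=
  ((P ×ˢ P).filter fun e => e.1.1 < e.2.1).image fun e => sl e.1 e.2

theorem sl_mem {p q : Pt} (hp : p ∈ P) (hq : q ∈ P) (h : p.1 < q.1) : sl p q ∈ slopes P :=
  mem_image.2 ⟨(p, q), mem_filter.2 ⟨mem_product.2 ⟨hp, hq⟩, h⟩, rfl⟩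

theorem lowest_gap (hP : GP P) {s s' : ℝ} (hs : s < s')
    (h : ∀ u, s < u → u < s' → ∀ e, ¬ IsEv P j u e) : lowest P j cR s = lowest P j cL s' := by
  induction hn : ((slopes P).filter fun u => s < u ∧ u < s').card using Nat.strong_induction_on
    generalizing s s' with
  | _ n ih =>
  by_cases k : ∃ u ∈ slopes P, s < u ∧ u < s'
  · obtain ⟨u, k1, k2, k3⟩ := k
    have hu : u ∈ (slopes P).filter fun u => s < u ∧ u < s' := mem_filter.2 ⟨k1, k2, k3⟩
    rw [ih _ ?_ k2 (fun v l1 l2 => h v l1 (l2.trans k3)) rfl, lowest_noev hP (h u k2 k3),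
      ih _ ?_ k3 (fun v l1 l2 => h v (k2.trans l1) l2) rfl]
    · exact hn ▸ card_lt_card ⟨fun v hv => by
        rw [mem_filter] at hv ⊢; exact ⟨hv.1, k2.trans hv.2.1, hv.2.2⟩,
        fun l => lt_irrefl _ (mem_filter.1 (l hu)).2.1⟩
    · exact hn ▸ card_lt_card ⟨fun v hv => by
        rw [mem_filter] at hv ⊢; exact ⟨hv.1, hv.2.1, hv.2.2.trans k3⟩,
        fun l => lt_irrefl _ (mem_filter.1 (l hu)).2.2⟩
  · refine filter_congr fun p hp => ?_
    refine iff_of_eq (congrArg (· ≤ j) (congrArg card (filter_congr fun q hq => ?_)))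
    unfold cL cR
    rcases lt_trichotomy q.1 p.1 with l | l | l
    · rw [ht_lt_iff l, ht_lt_iff l, ht_eq_iff l, ht_eq_iff l]
      have := fun a b => k ⟨_, sl_mem hq hp l, a, b⟩
      simp only [l, l.not_gt, and_false, or_false, and_true]
      exact ⟨fun a => (not_lt.1 (this a)).lt_or_eq, fun a => hs.trans_le (le_iff_lt_or_eq.2 a)⟩
    · rw [hP.xinj q hq p hp l]; simp
    · rw [ht_gt_iff l, ht_gt_iff l, eq_comm (a := ht q s), ht_eq_iff l]
      have := fun a b => k ⟨_, sl_mem hp hq l, a, b⟩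
      simp only [l, l.not_gt, and_false, or_false, and_true]
      exact ⟨fun a => lt_of_le_of_lt (a.elim le_of_lt fun b => b.ge) hs,
        fun a => (not_lt.1 fun b => this b a).lt_or_eq.imp_right Eq.symm⟩

theorem lowest_gap' (hP : GP P) {s s' : ℝ} (hs : s ≤ s')
    (h : ∀ u, s ≤ u → u < s' → ∀ e, ¬ IsEv P j u e) : lowest P j cL s = lowest P j cL s' := by
  rcases hs.lt_or_eq with hs | rfl
  · rw [lowest_noev hP (h s le_rfl hs), lowest_gap hP hs fun u k => h u k.le]
  · rfl

/-- the holders of the tokens -/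
noncomputable def holdOf (a b : ℕ → Pt) : ℕ → Pt → Pt
  | 0, τ => τ
  | i + 1, τ => if holdOf a b i τ = a i then b i else holdOf a b i τ

theorem exists_level {P : Finset Pt} (hP : GP P) {j : ℕ} (hj : j < P.card) :
    ∃ S : Tok P, S.Full j := by
  let Tm : Finset ℝ := (slopes P).filter fun s => ∃ e, IsEv P j s e
  have hTm : ∀ s e, IsEv P j s e → s ∈ Tm := fun s e h => mem_filter.2
    ⟨(ht_eq_iff h.2.2.1 s).1 h.2.2.2.1 ▸ sl_mem h.1 h.2.1 h.2.2.1, e, h⟩
  obtain ⟨M, hM⟩ := Tm.bddAbove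
  let t : ℕ → ℝ := fun i => if h : i < Tm.card then Tm.orderEmbOfFin rfl ⟨i, h⟩ else M + 1
  have ht1 : ∀ i, i < Tm.card → t i ∈ Tm := fun i h => by
    simp only [t, dif_pos h]; exact orderEmbOfFin_mem _ _ _
  have ht2 : ∀ s ∈ Tm, ∃ i < Tm.card, t i = s := fun s hs => by
    obtain ⟨i, hi⟩ : s ∈ Set.range (Tm.orderEmbOfFin rfl) := by
      rw [range_orderEmbOfFin]; exact hs
    exact ⟨i, i.2, by simp only [t, dif_pos i.2]; exact hi⟩
  have ht3 : ∀ i k, i < k → i < Tm.card → t i < t k := fun i k h hi => by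
    by_cases hk : k < Tm.card
    · simp only [t, dif_pos hi, dif_pos hk]
      exact (Tm.orderEmbOfFin rfl).strictMono h
    · have := hM (ht1 i hi)
      simp only [t, dif_neg hk] at this ⊢
      linarith
  have ht4 : ∀ i k, i ≤ k → k ≤ Tm.card → t i ≤ t k := fun i k h hk => by
    rcases h.lt_or_eq with h | rfl
    · exact (ht3 i k h (by omega)).le
    · exact le_rfl
  choose! e he using fun i h => (mem_filter.1 (ht1 i h)).2
  clear_value t
  generalize Tm.card = m at *
  have hsucc : ∀ i < m, lowest P j cL (t (i + 1)) =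
      insert (e i).2 ((lowest P j cL (t i)).erase (e i).1) := fun i hi => by
    rw [← ((he i hi).lowest hP).2.2]
    refine (lowest_gap hP (ht3 i _ (by omega) hi) fun u k1 k2 f hf => ?_).symm
    obtain ⟨k, l1, rfl⟩ := ht2 u (hTm u f hf)
    rcases le_or_gt k i with l | l
    · exact absurd (ht4 k i l hi.le) (not_le.2 k1)
    · exact absurd (ht4 (i + 1) k l l1.le) (not_le.2 k2)
  let T := lowest P j cL (t 0)
  let hold := holdOf (fun i => (e i).1) fun i => (e i).2
  have hinv : ∀ i ≤ m, T.image (hold i) = lowest P j cL (t i) ∧ Set.InjOn (hold i) T := by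
    intro i
    induction i with
    | zero => exact fun _ => ⟨image_id, fun _ _ _ _ h => h⟩
    | succ i ih =>
      intro hi
      obtain ⟨h1, h2⟩ := ih (by omega)
      obtain ⟨h3, h4, -⟩ := (he i hi).lowest hP
      rw [hsucc i hi]
      rw [← h1] at h3 h4 ⊢
      have h5 : ∀ τ, hold (i + 1) τ = if hold i τ = (e i).1 then (e i).2 else hold i τ :=
        fun _ => rfl
      refine ⟨?_, fun τ hτ τ' hτ' k => ?_⟩
      · ext p
        simp only [mem_image, mem_insert, mem_erase, h5]
        constructor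
        · rintro ⟨τ, k1, rfl⟩
          split_ifs with k2
          · exact Or.inl rfl
          · exact Or.inr ⟨k2, τ, k1, rfl⟩
        · rintro (rfl | ⟨k2, τ, k1, rfl⟩)
          · obtain ⟨τ, k1, k2⟩ := mem_image.1 h3
            exact ⟨τ, k1, if_pos k2⟩
          · exact ⟨τ, k1, if_neg k2⟩
      · rw [h5, h5] at k
        split_ifs at k with k1 k2 k2
        · exact h2 hτ hτ' (k1.trans k2.symm)
        · exact absurd (mem_image.2 ⟨τ', hτ', k.symm⟩) h4
        · exact absurd (mem_image.2 ⟨τ, hτ, k⟩) h4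
        · exact h2 hτ hτ' k
  choose! tok htok1 htok2 using fun i (hi : i < m) =>
    mem_image.1 ((hinv i hi.le).1 ▸ ((he i hi).lowest hP).1)
  have hmem : ∀ i ≤ m, ∀ τ ∈ T, hold i τ ∈ lowest P j cL (t i) := fun i hi τ hτ =>
    (hinv i hi).1 ▸ mem_image_of_mem _ hτ
  have hsep : ∀ s, ∀ p ∈ lowest P j cL s, ∀ q ∈ P, q ∉ lowest P j cL s → ht p s ≤ ht q s :=
    fun s p hp q hq k => by
      by_contra k1
      have k2 := nb_lt hq (not_le.1 k1)
      rw [mem_lowest hP cL_irr] at hp k
      exact k ⟨hq, Or.inl (by rcases hp.2 with l | l <;> omega)⟩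
  let S : Tok P :=
    { m := m
      a := fun i => (e i).1
      b := fun i => (e i).2
      t := t
      T := T
      hold := hold
      tok := tok
      t_lt := fun i k h hk => ht3 i k h (by omega)
      ab_lt := fun i hi => (he i hi).2.2.1
      ab_ht := fun i hi => (he i hi).2.2.2.1
      tok_mem := htok1
      hold_mem := fun i hi τ hτ => (mem_filter.1 (hmem i hi τ hτ)).1
      hold_inj := fun i hi τ hτ τ' hτ' => (hinv i hi).2 hτ hτ'
      hold_tok := htok2
      hold_succ_tok := fun i hi => if_pos (htok2 i hi)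
      hold_succ_ne := fun i hi τ hτ k => if_neg fun l =>
        k ((hinv i hi.le).2 hτ (htok1 i hi) (l.trans (htok2 i hi).symm))
      below := fun i hi τ hτ => (he i hi).2.2.2.1 ▸
        hsep _ _ (hmem i hi.le τ hτ) _ (he i hi).2.1 ((he i hi).lowest hP).2.1
      above := fun i hi q hq k => hsep _ _ ((he i hi).lowest hP).1 q hq fun l => by
        rw [← (hinv i hi.le).1] at l
        obtain ⟨τ, l1, l2⟩ := mem_image.1 l
        exact k τ l1 l2 }
  refine ⟨S, card_lowest hP hj _, fun p hp q hq h s h1 h2 => ?_, fun s => ?_⟩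
  · have h3 : IsEv P j s (p, q) := ⟨hp, hq, h, h1, h2⟩
    obtain ⟨i, hi, rfl⟩ := ht2 s (hTm _ _ h3)
    have := (he i hi).unique hP h3
    exact ⟨i, hi, congrArg Prod.fst this, congrArg Prod.snd this⟩
  · have h1 : S.idx s ≤ m := S.idx_le s
    have h2 : ∀ k < m, k < S.idx s ↔ t k < s := fun k hk => S.lt_idx s hk
    have h3 : S.low (S.idx s) = lowest P j cL s := by
      rw [show S.low (S.idx s) = lowest P j cL (t (S.idx s)) from (hinv _ h1).1]
      rcases le_total s (t (S.idx s)) with k | k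
      · refine (lowest_gap' hP k fun u k1 k2 f hf => ?_).symm
        obtain ⟨i, l1, rfl⟩ := ht2 u (hTm u f hf)
        exact absurd (ht4 _ i (not_lt.1 fun l => absurd ((h2 i l1).1 l) (not_lt.2 k1)) l1.le)
          (not_le.2 k2)
      · refine lowest_gap' hP k fun u k1 k2 f hf => ?_
        obtain ⟨i, l1, rfl⟩ := ht2 u (hTm u f hf)
        exact absurd (ht3 i _ ((h2 i l1).2 k2) l1) (not_lt.2 k1)
    rw [h3]
    exact hsep s

theorem lv_orient_eq {p q : Pt} (h : p.1 < q.1) (r : Pt) :
    orient p q r = (q.1 - p.1) * (ht r (sl p q) - ht p (sl p q)) := by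
  have : q.1 - p.1 ≠ 0 := (sub_pos.2 h).ne'
  unfold orient ht sl
  field_simp
  ring

theorem halving_le (hP : GP P) {S : Tok P} (hS : S.Full ((P.card - 2) / 2)) :
    halvingCount P ≤ S.m := by
  have key : ∀ p ∈ P, ∀ q ∈ P, p.1 < q.1 →
      (P.filter fun r => orient p q r < 0).card = (P.card - 2) / 2 →
      ({p, q} : Finset Pt) ∈ (range S.m).image fun i => {S.a i, S.b i} := by
    intro p hp q hq h k
    obtain ⟨i, hi, rfl, rfl⟩ := hS.all p hp q hq h _ ((ht_eq_iff h _).2 rfl) (by
      rw [← k]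
      refine congrArg card (filter_congr fun r _ => ?_)
      rw [lv_orient_eq h, ← not_le, ← not_le, mul_nonneg_iff_of_pos_left (sub_pos.2 h), sub_nonneg])
    exact mem_image.2 ⟨i, mem_range.2 hi, rfl⟩
  refine le_trans (card_le_card fun e he => ?_)
    ((card_image_le (f := fun i => ({S.a i, S.b i} : Finset Pt))).trans (card_range _).le)
  obtain ⟨p, hp, q, hq, hne, rfl, h1, h2⟩ := (mem_filter.1 he).2
  rcases lt_trichotomy p.1 q.1 with k | k | k
  · exact key p hp q hq k h2
  · exact absurd (hP.xinj p hp q hq k) hne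
  · rw [pair_comm]
    refine key q hq p hp k ?_
    rw [← h1]
    refine congrArg card (filter_congr fun r _ => ?_)
    rw [show orient q p r = -orient p q r by unfold orient; ring, neg_lt_zero]

/-- `A` is a `k`-subset cut off from below by a non-vertical line -/
def IsLow (P : Finset Pt) (k : ℕ) (A : Finset Pt) : Prop :=
  A.card = k ∧ ∃ s γ : ℝ, (∀ p ∈ A, ht p s < γ) ∧ ∀ p ∈ P, p ∉ A → γ < ht p s

theorem low_le {S : Tok P} (hS : S.Full j) :
    (P.powerset.filter (IsLow P (j + 1))).card ≤ S.m + 1 := by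
  refine le_trans (card_le_card fun A hA => ?_)
    ((card_image_le (f := S.low)).trans (card_range _).le)
  obtain ⟨h0, h1, s, γ, h2, h3⟩ := mem_filter.1 hA
  have hi := S.idx_le s
  refine mem_image.2 ⟨S.idx s, mem_range.2 (by omega), ?_⟩
  have hc : (S.low (S.idx s)).card = A.card := by rw [S.card_low hi, hS.card_T, h1]
  refine eq_of_subset_of_card_le (fun p hp => by_contra fun k => ?_) hc.ge
  obtain ⟨q, k1, k2⟩ := not_subset.1 fun l : A ⊆ S.low (S.idx s) =>
    k (eq_of_subset_of_card_le l hc.le ▸ hp)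
  have := hS.sep s p hp q (mem_powerset.1 h0 k1) k2
  linarith [h2 q k1, h3 p (S.low_subset hi hp) k]

/-- shear, possibly followed by a reflection -/
def shear (η σ : ℝ) (p : Pt) : Pt := (p.1 + η * p.2, σ * p.2)

theorem shear_inj (η : ℝ) {σ : ℝ} (hσ : σ ≠ 0) : Function.Injective (shear η σ) := fun p q h => by
  have h2 : p.2 = q.2 := mul_left_cancel₀ hσ (congrArg Prod.snd h)
  have h1 : p.1 + η * p.2 = q.1 + η * q.2 := congrArg Prod.fst h
  rw [h2] at h1
  exact Prod.ext (add_right_cancel h1) h2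

theorem exists_shear {P : Finset Pt} (hP : NoThreeCollinear P) :
    ∃ η : ℝ, ∀ σ : ℝ, σ * σ = 1 → GP (P.image (shear η σ)) := by
  obtain ⟨η, hη⟩ := Infinite.exists_notMem_finset
    ((P ×ˢ P).image fun e => (e.2.1 - e.1.1) / (e.1.2 - e.2.2))
  refine ⟨η, fun σ hσ => ⟨?_, ?_⟩⟩
  · simp only [forall_mem_image]
    intro p hp q hq h
    by_cases k : p.2 = q.2
    · simp only [shear, k] at h ⊢
      rw [h]
    · refine absurd (mem_image.2 ⟨(p, q), mem_product.2 ⟨hp, hq⟩, ?_⟩) hη
      simp only [shear] at h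
      rw [div_eq_iff (sub_ne_zero.2 k)]
      linarith
  · simp only [forall_mem_image]
    intro p hp q hq r hr s h1 h2
    by_contra k
    simp only [not_or] at k
    refine hP p hp q hq r hr (fun e => k.1 (e ▸ rfl)) (fun e => k.2.1 (e ▸ rfl))
      (fun e => k.2.2 (e ▸ rfl)) ((collinear_iff_of_mem (p₀ := p) (by simp)).2
        ⟨(1 - η * σ * s, σ * s), ?_⟩)
    have key : ∀ q : Pt, ht (shear η σ p) s = ht (shear η σ q) s → ∃ c : ℝ,
        q = c • ((1 - η * σ * s, σ * s) : Pt) +ᵥ p := fun q h => by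
      simp only [ht, shear] at h
      have h2 : q.2 - p.2 = σ * s * (q.1 + η * q.2 - (p.1 + η * p.2)) := by
        linear_combination (-σ) * h - (q.2 - p.2) * hσ
      refine ⟨q.1 + η * q.2 - (p.1 + η * p.2), Prod.ext ?_ ?_⟩
      · simp only [vadd_eq_add, Prod.fst_add, Prod.smul_fst, smul_eq_mul]
        linear_combination (-η) * h2
      · simp only [vadd_eq_add, Prod.snd_add, Prod.smul_snd, smul_eq_mul]
        linear_combination h2
    intro x hx
    simp only [Set.mem_insert_iff, Set.mem_singleton_iff] at hx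
    rcases hx with rfl | rfl | rfl
    · exact key _ rfl
    · exact key _ h1
    · exact key _ h2

theorem halving_shear (P : Finset Pt) (η : ℝ) :
    halvingCount P ≤ halvingCount (P.image (shear η 1)) := by
  have hi := shear_inj η one_ne_zero
  refine card_le_card_of_injOn (image (shear η 1)) (fun e he => ?_)
    (image_injective hi).injOn
  obtain ⟨h0, p, hp, q, hq, hne, rfl, h1, h2⟩ := mem_filter.1 (mem_coe.1 he)
  have ho : ∀ r, orient (shear η 1 p) (shear η 1 q) (shear η 1 r) = orient p q r := fun r => by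
    simp only [orient, shear]; ring
  refine mem_coe.2 (mem_filter.2 ⟨mem_powerset.2 (image_subset_image (mem_powerset.1 h0)),
    _, mem_image_of_mem _ hp, _, mem_image_of_mem _ hq, hi.ne hne, by simp, ?_, ?_⟩) <;>
    simp only [filter_image, card_image_of_injective _ hi, ho] <;> assumption

theorem kset_shear (P : Finset Pt) (η : ℝ) (k : ℕ) : kSetCount P k ≤
    ((P.image (shear η 1)).powerset.filter (IsLow (P.image (shear η 1)) k)).card +
    ((P.image (shear η (-1))).powerset.filter (IsLow (P.image (shear η (-1))) k)).card := by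
  have key : ∀ σ : ℝ, σ ≠ 0 → (P.powerset.filter fun A => IsLow (P.image (shear η σ)) k
      (A.image (shear η σ))).card ≤
      ((P.image (shear η σ)).powerset.filter (IsLow (P.image (shear η σ)) k)).card := fun σ hσ =>
    card_le_card_of_injOn (image (shear η σ)) (fun A hA => by
      rw [mem_coe, mem_filter, mem_powerset] at hA ⊢
      exact ⟨image_subset_image hA.1, hA.2⟩) (image_injective (shear_inj η hσ)).injOn
  refine le_trans ?_ (add_le_add (key 1 one_ne_zero) (key (-1) (by norm_num)))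
  refine le_trans (card_le_card fun A hA => ?_) (card_union_le _ _)
  obtain ⟨h0, -, h1, α, β, γ, -, h2, h3⟩ := mem_filter.1 hA
  obtain ⟨b, hb, h4, h5⟩ : ∃ b : ℝ, b ≠ 0 ∧ (∀ p ∈ A, α * (p.1 + η * p.2) + b * p.2 < γ) ∧
      ∀ p ∈ P, p ∉ A → γ < α * (p.1 + η * p.2) + b * p.2 := by
    have k1 : ∀ᶠ b in nhds (β - α * η), ∀ p ∈ A, α * (p.1 + η * p.2) + b * p.2 < γ :=
      (Filter.eventually_all_finset A).2 fun p hp =>
        ContinuousAt.eventually_lt (by fun_prop) continuousAt_const (by linarith [h2 p hp])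
    have k2 : ∀ᶠ b in nhds (β - α * η), ∀ p ∈ P \ A, γ < α * (p.1 + η * p.2) + b * p.2 :=
      (Filter.eventually_all_finset _).2 fun p hp =>
        ContinuousAt.eventually_lt continuousAt_const (by fun_prop)
          (by linarith [h3 p (mem_sdiff.1 hp).1 (mem_sdiff.1 hp).2])
    obtain ⟨b, k3, k4, k5⟩ := ((Set.finite_singleton (0 : ℝ)).countable.dense_compl ℝ).exists_mem_open
      isOpen_interior ⟨_, mem_interior_iff_mem_nhds.2 (k1.and k2)⟩ |>.imp fun b h =>
        And.intro h.1 (interior_subset h.2)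
    exact ⟨b, k3, k4, fun p l1 l2 => k5 p (mem_sdiff.2 ⟨l1, l2⟩)⟩
  have fin : ∀ σ : ℝ, σ * σ = 1 → 0 < σ * b →
      IsLow (P.image (shear η σ)) k (A.image (shear η σ)) := fun σ hσ hb => by
    have h6 : σ ≠ 0 := fun e => by simp [e] at hσ
    have h7 : ∀ p, σ * b * ht (shear η σ p) (-α / (σ * b)) = α * (p.1 + η * p.2) + b * p.2 :=
      fun p => by
        simp only [ht, shear]
        have := mul_div_cancel₀ (-α) hb.ne'
        linear_combination b * p.2 * hσ - (p.1 + η * p.2) * this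
    refine ⟨by rw [card_image_of_injective _ (shear_inj η h6), h1], -α / (σ * b), γ / (σ * b),
      forall_mem_image.2 fun p hp => ?_, forall_mem_image.2 fun p hp l => ?_⟩
    · rw [lt_div_iff₀' hb, h7]
      exact h4 p hp
    · rw [div_lt_iff₀' hb, h7]
      exact h5 p hp fun l' => l (mem_image_of_mem _ l')
  rw [mem_union, mem_filter, mem_filter]
  rcases lt_or_gt_of_ne hb with l | l
  · exact Or.inr ⟨h0, fin _ (by norm_num) (by linarith)⟩
  · exact Or.inl ⟨h0, fin _ (by norm_num) (by linarith)⟩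

/-- from token systems to halving lines and `k`-sets -/
theorem final_of_tok {ε C : ℝ} (hε : 0 < ε) (hε' : ε ≤ 1 / 3)
    (h₁ : ∀ P : Finset Pt, GP P → ∀ S : Tok P, (S.m : ℝ) ≤ C * (P.card : ℝ) ^ (4 / 3 - ε))
    (h₂ : ∀ P : Finset Pt, GP P → ∀ S : Tok P, 1 ≤ S.T.card →
      (S.m : ℝ) ≤ C * P.card * (S.T.card : ℝ) ^ (1 / 3 - ε)) :
    ∃ C' : ℝ, (∀ P : Finset (ℝ × ℝ), NoThreeCollinear P → Even P.card →
        (halvingCount P : ℝ) ≤ C' * (P.card : ℝ) ^ (4 / 3 - ε)) ∧
      (∀ (P : Finset (ℝ × ℝ)) (k : ℕ), NoThreeCollinear P → 1 ≤ k → 2 * k ≤ P.card →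
        (kSetCount P k : ℝ) ≤ C' * P.card * (k : ℝ) ^ (1 / 3 - ε)) := by
  have hC := le_abs_self C
  have hC' := abs_nonneg C
  refine ⟨2 * |C| + 2, fun P hP _ => ?_, fun P k hP hk hk' => ?_⟩
  · have h0 : 0 ≤ (P.card : ℝ) ^ (4 / 3 - ε) := by positivity
    rcases P.eq_empty_or_nonempty with rfl | hne
    · rw [show halvingCount (∅ : Finset (ℝ × ℝ)) = 0 by simp [halvingCount, IsHalvingPair]]
      push_cast
      positivity
    obtain ⟨η, hη⟩ := exists_shear hP
    have hG := hη 1 (by norm_num)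
    have hc : (P.image (shear η 1)).card = P.card :=
      card_image_of_injective _ (shear_inj η one_ne_zero)
    have := hne.card_pos
    obtain ⟨S, hS⟩ := exists_level hG (j := ((P.image (shear η 1)).card - 2) / 2) (by omega)
    have k1 : (halvingCount P : ℝ) ≤ S.m := by
      exact_mod_cast (halving_shear P η).trans (halving_le hG hS)
    have k2 := h₁ _ hG S
    rw [hc] at k2
    nlinarith
  · obtain ⟨η, hη⟩ := exists_shear hP
    obtain ⟨k, rfl⟩ : ∃ j, k = j + 1 := ⟨k - 1, by omega⟩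
    have h0 : (1 : ℝ) ≤ ((k + 1 : ℕ) : ℝ) ^ (1 / 3 - ε) :=
      Real.one_le_rpow (by exact_mod_cast hk) (by linarith)
    have h1 : (1 : ℝ) ≤ P.card := by exact_mod_cast (show 1 ≤ P.card by omega)
    have h3 : (1 : ℝ) ≤ P.card * ((k + 1 : ℕ) : ℝ) ^ (1 / 3 - ε) := one_le_mul_of_one_le_of_one_le h1 h0
    have key : ∀ σ : ℝ, σ * σ = 1 → (((P.image (shear η σ)).powerset.filter
        (IsLow (P.image (shear η σ)) (k + 1))).card : ℝ) ≤
        (|C| + 1) * (P.card * ((k + 1 : ℕ) : ℝ) ^ (1 / 3 - ε)) := fun σ hσ => by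
      have hG := hη σ hσ
      have hc : (P.image (shear η σ)).card = P.card :=
        card_image_of_injective _ (shear_inj η fun e => by simp [e] at hσ)
      obtain ⟨S, hS⟩ := exists_level hG (j := k) (by omega)
      have k1 : (((P.image (shear η σ)).powerset.filter
        (IsLow (P.image (shear η σ)) (k + 1))).card : ℝ) ≤ S.m + 1 := by exact_mod_cast low_le hS
      have k2 := h₂ _ hG S (by rw [hS.card_T]; omega)
      rw [hc, hS.card_T, mul_assoc] at k2
      nlinarith
    have k1 := key 1 (by norm_num)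
    have k2 := key (-1) (by norm_num)
    have k3 := (Nat.cast_le (α := ℝ)).2 (kset_shear P η (k + 1))
    rw [Nat.cast_add] at k3
    rw [mul_assoc]
    linarith

end Vale.Agent.P065
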