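import Vale.Agent.P065.Meet
import Vale.Agent.P065.Level

/-! Band bound, travel argument, and the passage to `k`-dependent bounds (task E). -/

namespace Vale.Agent.P065

open Classical Finset

/-- pairs (left point, right point) having between `j₁` and `j₂` points strictly below their line -/
noncomputable def bandPairs (P : Finset Pt) (j₁ j₂ : ℕ) : Finset (Pt × Pt) :=
  (P ×ˢ P).filter fun e => e.1.1 < e.2.1 ∧ ∃ s : ℝ, ht e.1 s = ht e.2 s ∧
    j₁ ≤ (P.filter fun r => ht r s < ht e.1 s).card ∧ (P.filter fun r => ht r s < ht e.1 s).card ≤ j₂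

theorem mem_band {P : Finset Pt} {j₁ j₂ : ℕ} {e : Pt × Pt} : e ∈ bandPairs P j₁ j₂ ↔
    e.1 ∈ P ∧ e.2 ∈ P ∧ e.1.1 < e.2.1 ∧ j₁ ≤ nb P (sl e.1 e.2) e.1 ∧
      nb P (sl e.1 e.2) e.1 ≤ j₂ := by
  rw [bandPairs, mem_filter, mem_product, and_assoc]
  refine and_congr_right fun _ => and_congr_right fun _ => and_congr_right fun h => ?_
  constructor
  · rintro ⟨s, h1, h2⟩
    rwa [(ht_eq_iff h s).1 h1] at h2
  · exact fun k => ⟨_, (ht_eq_iff h _).2 rfl, k⟩

theorem nb_lt_card {P : Finset Pt} {p : Pt} (hp : p ∈ P) (s : ℝ) : nb P s p < P.card :=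
  card_lt_card ⟨filter_subset _ _, fun k => lt_irrefl _ (mem_filter.1 (k hp)).2⟩

theorem band_cr {P : Finset Pt} (hP : GP P) (j₁ j₂ : ℕ) :
    crNum (bandPairs P j₁ j₂) ≤ (j₂ + 1 - j₁) ^ 2 * (2 * P.card ^ 2) := by
  rcases P.eq_empty_or_nonempty with rfl | hne
  · simp [crNum, bandPairs]
  obtain ⟨S0, -⟩ := exists_level hP hne.card_pos
  have : Nonempty (Tok P) := ⟨S0⟩
  choose! S hS using fun j (h : j < P.card) => exists_level hP h
  have key : ∀ e ∈ bandPairs P j₁ j₂, ∃ j ∈ Icc j₁ j₂, ∃ i < (S j).m, (S j).seg i = e := by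
    intro e he
    obtain ⟨h1, h2, h3, h4⟩ := mem_band.1 he
    obtain ⟨i, k1, k2, k3⟩ := (hS _ (nb_lt_card h1 _)).all _ h1 _ h2 h3 _
      ((ht_eq_iff h3 _).2 rfl) rfl
    exact ⟨_, mem_Icc.2 h4, i, k1, Prod.ext k2 k3⟩
  let M : ℕ → ℕ → Finset (ℕ × ℕ) := fun j j' =>
    (range (S j).m ×ˢ range (S j').m).filter fun x => Tok.Meet (S j) (S j') x.1 x.2
  refine le_trans (card_le_card (t := (Icc j₁ j₂ ×ˢ Icc j₁ j₂).biUnion fun y =>
    (M y.1 y.2).image (fun x => ((S y.1).seg x.1, (S y.2).seg x.2)) ∪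
      (M y.2 y.1).image fun x => ((S y.1).seg x.2, (S y.2).seg x.1)) fun x hx => ?_)
    ((card_biUnion_le_card_mul _ _ (2 * P.card ^ 2) fun y _ => ?_).trans (by simp [sq]))
  · obtain ⟨h1, h2⟩ := mem_filter.1 hx
    obtain ⟨j, k1, i, k2, k3⟩ := key _ (mem_product.1 h1).1
    obtain ⟨j', l1, i', l2, l3⟩ := key _ (mem_product.1 h1).2
    refine mem_biUnion.2 ⟨(j, j'), mem_product.2 ⟨k1, l1⟩, mem_union.2 ?_⟩
    rw [← k3, ← l3] at h2
    refine (Tok.cross_meet hP _ _ k2 l2 h2).imp (fun h => ?_) fun h => ?_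
    · exact mem_image.2 ⟨(i, i'), mem_filter.2 ⟨by simp [k2, l2], h⟩, Prod.ext k3 l3⟩
    · exact mem_image.2 ⟨(i', i), mem_filter.2 ⟨by simp [k2, l2], h⟩, Prod.ext k3 l3⟩
  · refine (card_union_le _ _).trans ?_
    rw [two_mul]
    exact add_le_add (card_image_le.trans (Tok.meet_count_all hP _ _))
      (card_image_le.trans (Tok.meet_count_all hP _ _))

theorem band_bound {P : Finset Pt} (hP : GP P) {j₁ j₂ : ℕ} {N ω : ℝ} (hN : 1 ≤ N) (hω : 1 ≤ ω)
    (hn : (P.card : ℝ) ≤ N ^ 3) (hw : ((j₂ + 1 - j₁ : ℕ) : ℝ) ≤ ω ^ 3) :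
    ((bandPairs P j₁ j₂).card : ℝ) ≤ 6 * N ^ 4 * ω ^ 2 := by
  have hF : SegsOn P (bandPairs P j₁ j₂) := fun e he =>
    let h := mem_band.1 he; ⟨h.1, h.2.1, h.2.2.1⟩
  rcases crossing_cube hP hF with h | h
  · have h1 : N ^ 3 ≤ N ^ 4 := pow_le_pow_right₀ hN (by norm_num)
    have h2 : 1 ≤ ω ^ 2 := one_le_pow₀ hω
    have h3 : 0 ≤ N ^ 4 := by positivity
    nlinarith
  · have h1 : (crNum (bandPairs P j₁ j₂) : ℝ) ≤ (ω ^ 3) ^ 2 * (2 * (N ^ 3) ^ 2) := by
      refine le_trans (by exact_mod_cast band_cr hP j₁ j₂ : _ ≤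
        ((j₂ + 1 - j₁ : ℕ) : ℝ) ^ 2 * (2 * (P.card : ℝ) ^ 2)) ?_
      gcongr
    refine le_of_pow_le_pow_left₀ (n := 3) (by norm_num) (by positivity) (h.trans ?_)
    calc _ ≤ 72 * (N ^ 3) ^ 2 * ((ω ^ 3) ^ 2 * (2 * (N ^ 3) ^ 2)) := by gcongr
      _ = 144 * (N ^ 12 * ω ^ 6) := by ring
      _ ≤ 216 * (N ^ 12 * ω ^ 6) := by gcongr; norm_num
      _ = _ := by ring

theorem low_band_bound {P : Finset Pt} (hP : GP P) (j₂ : ℕ) :
    (bandPairs P 0 j₂).card ≤ (j₂ + 1) * P.card := by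
  refine (card_le_mul_card_image (f := Prod.fst) _ (j₂ + 1) fun p _ => ?_).trans
    (Nat.mul_le_mul_left _ (card_le_card fun p hp => ?_))
  · rcases ((bandPairs P 0 j₂).filter fun x => x.1 = p).eq_empty_or_nonempty with h | h
    · simp [h]
    obtain ⟨e, he, hmax⟩ := exists_max_image _ (fun e : Pt × Pt => sl e.1 e.2) h
    rw [← card_erase_add_one he]
    obtain ⟨h1, rfl⟩ := mem_filter.1 he
    obtain ⟨k1, k2, k3, -, k4⟩ := mem_band.1 h1
    refine Nat.succ_le_succ (le_trans (card_le_card_of_injOn Prod.snd (fun f hf => ?_)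
      fun f hf g hg k => ?_) k4)
    · obtain ⟨l0, l⟩ := mem_erase.1 (mem_coe.1 hf)
      have l5 := hmax f l
      obtain ⟨l1, l2⟩ := mem_filter.1 l
      obtain ⟨-, l3, l4, -⟩ := mem_band.1 l1
      rw [l2] at l4 l5
      refine mem_coe.2 (mem_filter.2 ⟨l3, (ht_gt_iff l4 _).2 (l5.lt_of_ne fun l6 => ?_)⟩)
      rcases hP.three _ k1 _ k2 _ l3 _ ((ht_eq_iff k3 _).2 rfl) ((ht_eq_iff l4 _).2 l6.symm)
        with k | k | k
      · exact k3.ne (congrArg Prod.fst k)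
      · exact l4.ne (congrArg Prod.fst k)
      · exact l0 (Prod.ext l2 k.symm)
    · exact Prod.ext ((mem_filter.1 (mem_erase.1 (mem_coe.1 hf)).2).2.trans
        (mem_filter.1 (mem_erase.1 (mem_coe.1 hg)).2).2.symm) k
  · obtain ⟨e, he, rfl⟩ := mem_image.1 hp
    exact (mem_band.1 he).1

theorem Tok.Full.nb_le {P : Finset Pt} {S : Tok P} {k : ℕ} (hS : S.Full k) {s : ℝ} {p : Pt}
    (hp : p ∈ S.low (S.idx s)) : nb P s p ≤ k := by
  have h1 := card_erase_add_one hp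
  rw [S.card_low (S.idx_le s), hS.card_T] at h1
  refine le_trans (card_le_card fun q hq => ?_) (Nat.succ_injective h1).le
  rw [mem_filter] at hq
  exact mem_erase.2 ⟨fun e => lt_irrefl _ (e ▸ hq.2),
    by_contra fun k => absurd (hS.sep s p hp q hq.1 k) (not_le.2 hq.2)⟩

theorem Tok.Full.le_nb {P : Finset Pt} (hP : GP P) {S : Tok P} {k : ℕ} (hS : S.Full k) {s : ℝ}
    {p : Pt} (hp : p ∈ P) (h : p ∉ S.low (S.idx s)) : k ≤ nb P s p := by
  have h1 : (P.filter fun q => ht q s = ht p s ∧ q ≠ p).card ≤ 1 := card_le_one.2 fun a ha b hb => by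
    rw [mem_filter] at ha hb
    rcases hP.three p hp a ha.1 b hb.1 s ha.2.1.symm hb.2.1.symm with k | k | k
    · exact absurd k.symm ha.2.2
    · exact absurd k.symm hb.2.2
    · exact k
  have h2 : (S.low (S.idx s)).card ≤ _ := (card_le_card (t := (P.filter fun r => ht r s < ht p s) ∪
      P.filter fun q => ht q s = ht p s ∧ q ≠ p) fun q hq => by
    have k := S.low_subset (S.idx_le s) hq
    rw [mem_union, mem_filter, mem_filter]
    exact (hS.sep s q hq p hp h).lt_or_eq.imp (fun l => ⟨k, l⟩)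
      fun l => ⟨k, l, fun e => h (e ▸ hq)⟩).trans (card_union_le _ _)
  rw [S.card_low (S.idx_le s), hS.card_T] at h2
  rw [nb]
  omega

theorem nb_event {P : Finset Pt} (hP : GP P) (S : Tok P) {i : ℕ} (hi : i < S.m) {p : Pt}
    (h : S.a i = p ∨ S.b i = p) : nb P (S.t i) p + 1 = S.T.card := by
  rcases h with rfl | rfl
  · exact S.depth_event hP hi
  · rw [nb, ← S.ab_ht i hi]; exact S.depth_event hP hi

/-- a point that crosses level `k` between two times is an endpoint of a vertex of level `k` -/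
theorem cross_level {P : Finset Pt} (hP : GP P) {k : ℕ} {s s' : ℝ} (hs : s ≤ s') {p : Pt}
    (hp : p ∈ P) (h : (k < nb P s p ∧ nb P s' p < k) ∨ (nb P s p < k ∧ k < nb P s' p)) :
    ∃ e : Pt × Pt, e.1 ∈ P ∧ e.2 ∈ P ∧ e.1.1 < e.2.1 ∧ nb P (sl e.1 e.2) e.1 = k ∧
      s ≤ sl e.1 e.2 ∧ sl e.1 e.2 ≤ s' ∧ (p = e.1 ∨ p = e.2) := by
  obtain ⟨S, hS⟩ := exists_level hP (j := k) (by
    have := nb_lt_card hp s
    have := nb_lt_card hp s'
    omega)
  have h1 : S.idx s ≤ S.idx s' :=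
    card_le_card fun i hi => mem_filter.2 ⟨(mem_filter.1 hi).1, (mem_filter.1 hi).2.trans_le hs⟩
  have h2 : p ∈ S.act (S.idx s) (S.idx s') := by
    by_contra k1
    have k2 := S.low_const (S.idx_le s') k1 le_rfl h1 h1 le_rfl
    have k3 := fun s => hS.nb_le (s := s) (p := p)
    have k4 := fun s => hS.le_nb hP (s := s) hp
    by_cases k5 : p ∈ S.low (S.idx s)
    · have := k3 s k5
      have := k3 s' (k2.1 k5)
      omega
    · have := k4 s k5
      have := k4 s' fun l => k5 (k2.2 l)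
      omega
  obtain ⟨i, k1, k2, k3⟩ := S.mem_act.1 h2
  have hi : i < S.m := k2.trans_le (S.idx_le s')
  have e := (ht_eq_iff (S.ab_lt i hi) _).1 (S.ab_ht i hi)
  have k4 := nb_event hP S hi (Or.inl rfl)
  rw [hS.card_T] at k4
  refine ⟨(S.a i, S.b i), S.a_mem hi, S.b_mem hi, S.ab_lt i hi, ?_, ?_, ?_,
    k3.imp Eq.symm Eq.symm⟩ <;> rw [← e]
  · exact Nat.succ_injective k4
  · exact not_lt.1 fun l => absurd ((S.lt_idx s hi).2 l) (not_lt.2 k1)
  · exact ((S.lt_idx s' hi).1 k2).le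

theorem card_nb_le {P : Finset Pt} (hP : GP P) (s : ℝ) (J : Finset ℕ) :
    (P.filter fun p => nb P s p ∈ J).card ≤ 2 * J.card := by
  refine (card_le_mul_card_image (f := nb P s) _ 2 fun n _ => ?_).trans
    (Nat.mul_le_mul_left _ (card_le_card fun n hn => ?_))
  · by_contra k
    obtain ⟨a, b, c, ha, hb, hc, h1, h2, h3⟩ := two_lt_card_iff.1 (not_le.1 k)
    simp only [mem_filter] at ha hb hc
    have key : ∀ p ∈ P, ∀ q ∈ P, nb P s p = n → nb P s q = n → ht p s = ht q s :=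
      fun p hp q hq k1 k2 => le_antisymm (not_lt.1 fun l => by have := nb_lt hq l; omega)
        (not_lt.1 fun l => by have := nb_lt hp l; omega)
    rcases hP.three a ha.1.1 b hb.1.1 c hc.1.1 s (key _ ha.1.1 _ hb.1.1 ha.2 hb.2)
      (key _ ha.1.1 _ hc.1.1 ha.2 hc.2) with l | l | l
    exacts [h1 l, h2 l, h3 l]
  · obtain ⟨p, hp, rfl⟩ := mem_image.1 hn
    exact (mem_filter.1 hp).2

/-- travel: a window with many active points contains many vertices of nearby levels -/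
theorem travel {P : Finset Pt} (hP : GP P) (S : Tok P) {i₀ i₁ y : ℕ} (h₁ : i₁ ≤ S.m) (hy : 1 ≤ y)
    (hA : 8 * y ≤ (S.act i₀ i₁).card) :
    y ^ 2 ≤ ((bandPairs P (S.T.card - 1 - y) (S.T.card - 1 + y)).filter fun e =>
      ∃ s : ℝ, ht e.1 s = ht e.2 s ∧ S.t i₀ ≤ s ∧ s ≤ S.t (i₁ - 1)).card := by
  generalize hj : S.T.card - 1 = j
  have h1 := card_nb_le hP (S.t i₀) (Icc (j - y) (j + y))
  have h2 := card_filter_add_card_filter_not (s := S.act i₀ i₁)
    fun p => nb P (S.t i₀) p ∈ Icc (j - y) (j + y)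
  have h3 := card_le_card (filter_subset_filter (fun p => nb P (S.t i₀) p ∈ Icc (j - y) (j + y))
    (S.act_subset (i₀ := i₀) h₁))
  rw [Nat.card_Icc] at h1
  have h4 := card_mul_le_card_mul (fun (p : Pt) (e : Pt × Pt) => p = e.1 ∨ p = e.2)
    (s := (S.act i₀ i₁).filter fun p => ¬ nb P (S.t i₀) p ∈ Icc (j - y) (j + y))
    (t := (bandPairs P (j - y) (j + y)).filter fun e =>
      ∃ s : ℝ, ht e.1 s = ht e.2 s ∧ S.t i₀ ≤ s ∧ s ≤ S.t (i₁ - 1)) (m := y) (n := 2)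
    (fun p hp => ?_) fun e _ => ?_
  · have h5 : 2 * y ≤ ((S.act i₀ i₁).filter fun p =>
        ¬ nb P (S.t i₀) p ∈ Icc (j - y) (j + y)).card := by omega
    have h6 := Nat.mul_le_mul_right y h5
    nlinarith
  · obtain ⟨k1, k2⟩ := mem_filter.1 hp
    have hpP := S.act_subset h₁ k1
    obtain ⟨i, k3, k4, k5⟩ := S.mem_act.1 k1
    have k6 := nb_event hP S (by omega) k5
    have key : ∀ J : Finset ℕ, (∀ k ∈ J, j - y ≤ k ∧ k ≤ j + y ∧
        ((k < nb P (S.t i₀) p ∧ j < k) ∨ (nb P (S.t i₀) p < k ∧ k < j))) → J.card ≤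
        (bipartiteAbove (fun (p : Pt) (e : Pt × Pt) => p = e.1 ∨ p = e.2)
          ((bandPairs P (j - y) (j + y)).filter fun e =>
            ∃ s : ℝ, ht e.1 s = ht e.2 s ∧ S.t i₀ ≤ s ∧ s ≤ S.t (i₁ - 1)) p).card := by
      intro J hJ
      refine le_trans (card_le_card fun k hk => ?_)
        (card_image_le (f := fun e => nb P (sl e.1 e.2) e.1))
      obtain ⟨l1, l2, l3⟩ := hJ k hk
      obtain ⟨e, m1, m2, m3, m4, m5, m6, m7⟩ := cross_level hP (k := k)
        (S.t_le k3 (by omega)) hpP (by omega)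
      exact mem_image.2 ⟨e, (mem_bipartiteAbove _).2 ⟨mem_filter.2 ⟨mem_band.2
        ⟨m1, m2, m3, by omega, by omega⟩, _, (ht_eq_iff m3 _).2 rfl, m5,
        m6.trans (S.t_le (by omega) (by omega))⟩, m7⟩, m4⟩
    rw [mem_Icc, not_and_or, not_le, not_le] at k2
    rcases k2 with k2 | k2
    · simpa [show j - (j - y) = y by omega] using key (Ico (j - y) j) fun k hk => by
        rw [mem_Ico] at hk; omega
    · simpa using key (Ico (j + 1) (j + 1 + y)) fun k hk => by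
        rw [mem_Ico] at hk; omega
  · refine le_trans (card_le_card (t := {e.1, e.2}) fun p hp => ?_) card_le_two
    simpa using ((mem_bipartiteBelow _).1 hp).2

theorem few_fat_windows : ∃ C : ℝ, 0 < C ∧ ∀ (P : Finset Pt), GP P → ∀ (S : Tok P) (W : ℕ) (N ω : ℝ),
    0 < W → 1 ≤ N → 1 ≤ ω → (P.card : ℝ) ≤ N ^ 3 →
    (((range S.m).filter fun k => 16 * ω ^ 3 ≤ ((S.wact W k).card : ℝ)).card : ℝ) ≤
      C * N ^ 4 / ω ^ 4 := by
  refine ⟨24, by norm_num, fun P hP S W N ω hW hN hω hn => ?_⟩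
  have h3 : 1 ≤ ω ^ 3 := one_le_pow₀ hω
  obtain ⟨y, hy1, hy2⟩ : ∃ y : ℕ, ω ^ 3 ≤ y ∧ (y : ℝ) ≤ 2 * ω ^ 3 :=
    ⟨⌊2 * ω ^ 3⌋₊, by linarith [Nat.lt_floor_add_one (2 * ω ^ 3)], Nat.floor_le (by positivity)⟩
  have hy : 1 ≤ y := by exact_mod_cast h3.trans hy1
  generalize hF : ((range S.m).filter fun k => 16 * ω ^ 3 ≤ ((S.wact W k).card : ℝ)) = F
  have hA : ∀ k ∈ F, 8 * y ≤ (S.act (k * W) (S.wend W k)).card := fun k hk => by
    rw [← hF] at hk
    have := (mem_filter.1 hk).2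
    have h : ((8 * y : ℕ) : ℝ) ≤ (S.wact W k).card := by push_cast; linarith
    exact_mod_cast h
  have hB : ∀ k ∈ F, k * W < S.wend W k := fun k hk =>
    let ⟨_, hp⟩ := card_pos.1 (show 0 < _ from lt_of_lt_of_le (by omega) (hA k hk))
    S.act_lt hp
  let G : ℕ → Finset (Pt × Pt) := fun k =>
    (bandPairs P (S.T.card - 1 - y) (S.T.card - 1 + y)).filter fun e =>
      ∃ s : ℝ, ht e.1 s = ht e.2 s ∧ S.t (k * W) ≤ s ∧ s ≤ S.t (S.wend W k - 1)
  have aux : ∀ k ∈ F, ∀ k' ∈ F, k < k' → Disjoint (G k) (G k') := fun k hk k' hk' h =>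
    disjoint_left.2 fun e h1 h2 => by
      obtain ⟨k1, s, k2, -, k3⟩ := mem_filter.1 h1
      obtain ⟨-, s', l2, l3, -⟩ := mem_filter.1 h2
      obtain rfl := ht_slope_eq (mem_band.1 k1).2.2.1 k2 l2
      have m1 := hB k hk
      have m2 := (hB k' hk').trans_le (S.wend_le W k')
      have m3 : S.wend W k ≤ k' * W := (min_le_left _ _).trans (Nat.mul_le_mul_right _ h)
      exact absurd (l3.trans k3) (not_le.2 (S.t_lt _ _ (by omega) m2))
  have h1 : F.card * y ^ 2 ≤ (bandPairs P (S.T.card - 1 - y) (S.T.card - 1 + y)).card := by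
    calc _ ≤ ∑ k ∈ F, (G k).card := by
          rw [← smul_eq_mul]
          exact card_nsmul_le_sum _ _ _ fun k hk => travel hP S (S.wend_le W k) hy (hA k hk)
      _ = (F.biUnion G).card := (card_biUnion fun k hk k' hk' h => by
          rcases lt_or_gt_of_ne h with l | l
          · exact aux k hk k' hk' l
          · exact (aux k' hk' k hk l).symm).symm
      _ ≤ _ := card_le_card (biUnion_subset.2 fun k _ => filter_subset _ _)
  have h2 := band_bound hP (j₁ := S.T.card - 1 - y) (j₂ := S.T.card - 1 + y) (ω := 2 * ω) hN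
    (by linarith) hn (by
      have : ((S.T.card - 1 + y + 1 - (S.T.card - 1 - y) : ℕ) : ℝ) ≤ ((2 * y + 1 : ℕ) : ℝ) := by
        exact_mod_cast (by omega)
      push_cast at this
      linarith [show (2 * ω) ^ 3 = 8 * ω ^ 3 by ring])
  have h4 : (F.card : ℝ) * (y : ℝ) ^ 2 ≤ _ := le_trans (by exact_mod_cast h1) h2
  have h5 : (F.card : ℝ) * (ω ^ 3) ^ 2 ≤ (F.card : ℝ) * (y : ℝ) ^ 2 := by gcongr
  rw [le_div_iff₀ (by positivity)]
  refine le_of_mul_le_mul_right (a := ω ^ 2) ?_ (by positivity)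
  nlinarith

theorem card_act_succ {P : Finset Pt} (S : Tok P) (i₀ i : ℕ) :
    (S.act i₀ (i + 1)).card ≤ (S.act i₀ i).card + 2 := by
  refine le_trans (card_le_card (t := S.act i₀ i ∪ {S.a i, S.b i}) fun p hp => ?_)
    ((card_union_le _ _).trans (Nat.add_le_add_left card_le_two _))
  obtain ⟨l, h1, h2, h3⟩ := S.mem_act.1 hp
  rw [mem_union]
  rcases (Nat.le_of_lt_succ h2).lt_or_eq with h | rfl
  · exact Or.inl (S.mem_act.2 ⟨l, h1, h, h3⟩)
  · exact Or.inr (by rcases h3 with rfl | rfl <;> simp)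

theorem tok_k_bound {ε C : ℝ} (hε : 0 < ε) (hε' : ε ≤ 1 / 3)
    (h₁ : ∀ P : Finset Pt, GP P → ∀ S : Tok P, (S.m : ℝ) ≤ C * (P.card : ℝ) ^ (4 / 3 - ε)) :
    ∃ C' : ℝ, ∀ P : Finset Pt, GP P → ∀ S : Tok P, 1 ≤ S.T.card →
      (S.m : ℝ) ≤ C' * P.card * (S.T.card : ℝ) ^ (1 / 3 - ε) := by
  refine ⟨3 * (|C| * 9 ^ (4 / 3 - ε)), fun P hP S hk => ?_⟩
  have hkn : S.T.card ≤ P.card := S.card_low (Nat.zero_le _) ▸
    card_le_card (S.low_subset (Nat.zero_le _))
  generalize hT : S.T.card = k at *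
  have hk0 : (0 : ℝ) < k := by exact_mod_cast hk
  obtain ⟨B, hB⟩ : ∃ B, B = |C| * ((9 * k : ℕ) : ℝ) ^ (4 / 3 - ε) := ⟨_, rfl⟩
  have hB0 : 0 ≤ B := by rw [hB]; positivity
  have win : ∀ i₀ i₁, i₀ ≤ i₁ → i₁ ≤ S.m → (S.act i₀ i₁).card ≤ 9 * k →
      ((i₁ - i₀ : ℕ) : ℝ) ≤ B := fun i₀ i₁ a b c => by
    obtain ⟨S', e⟩ := S.exists_restrict a b
    rw [← e, hB]
    refine (h₁ _ (hP.mono (S.act_subset b)) S').trans ?_
    gcongr
    · exact le_abs_self C
    · linarith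
  let G : ℕ → Finset (Pt × Pt) := fun i =>
    (bandPairs P (k - 1 - k) (k - 1 + k)).filter fun e => ∀ l < i, S.t l < sl e.1 e.2
  have key : ∀ d i₀, i₀ + d = S.m → (d : ℝ) * k ^ 2 ≤ B * (k ^ 2 + (G i₀).card) := by
    intro d
    induction d using Nat.strong_induction_on with
    | _ d ih =>
    intro i₀ hd
    by_cases h : ∃ i, i ≤ S.m ∧ 8 * k ≤ (S.act i₀ i).card
    · obtain ⟨h1, h2⟩ := Nat.find_spec h
      have h3 := fun i => Nat.find_min h (m := i)
      generalize Nat.find h = i₁ at *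
      have h4 : i₀ < i₁ :=
        let ⟨_, hp⟩ := card_pos.1 (show 0 < _ from lt_of_lt_of_le (by omega) h2)
        S.act_lt hp
      have h5 := card_act_succ S i₀ (i₁ - 1)
      have h6 := h3 (i₁ - 1) (by omega)
      rw [show i₁ - 1 + 1 = i₁ by omega] at h5
      have h7 := win i₀ i₁ h4.le h1 (by omega)
      have h8 := ih (S.m - i₁) (by omega) i₁ (by omega)
      have h9 := travel hP S h1 hk h2
      rw [hT] at h9
      have h10 : k ^ 2 + (G i₁).card ≤ (G i₀).card := by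
        refine le_trans (Nat.add_le_add_right h9 _) ?_
        rw [← card_union_of_disjoint (disjoint_left.2 fun e k1 k2 => ?_)]
        · refine card_le_card (union_subset (fun e k1 => ?_) fun e k1 => ?_)
          · obtain ⟨l1, s, l2, l3, -⟩ := mem_filter.1 k1
            rw [(ht_eq_iff (mem_band.1 l1).2.2.1 s).1 l2] at l3
            exact mem_filter.2 ⟨l1, fun l hl => (S.t_lt l i₀ hl (by omega)).trans_le l3⟩
          · exact mem_filter.2 ⟨(mem_filter.1 k1).1, fun l hl => (mem_filter.1 k1).2 l (by omega)⟩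
        · obtain ⟨l1, s, l2, -, l3⟩ := mem_filter.1 k1
          rw [(ht_eq_iff (mem_band.1 l1).2.2.1 s).1 l2] at l3
          exact absurd ((mem_filter.1 k2).2 (i₁ - 1) (by omega)) (not_lt.2 l3)
      have h11 : (k : ℝ) ^ 2 + (G i₁).card ≤ (G i₀).card := by exact_mod_cast h10
      have h12 : (d : ℝ) = ((i₁ - i₀ : ℕ) : ℝ) + ((S.m - i₁ : ℕ) : ℝ) := by
        exact_mod_cast (by omega)
      have h13 := mul_le_mul_of_nonneg_left h11 hB0
      have h14 := mul_le_mul_of_nonneg_right h7 (sq_nonneg (k : ℝ))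
      rw [h12]
      linarith
    · have h1 := win i₀ S.m (by omega) le_rfl (by
        by_contra l
        exact h ⟨S.m, le_rfl, by omega⟩)
      rw [show S.m - i₀ = d by omega] at h1
      have h2 := mul_le_mul_of_nonneg_right h1 (sq_nonneg (k : ℝ))
      have h3 : 0 ≤ B * (G i₀).card := by positivity
      linarith
  have h1 := key S.m 0 (by omega)
  have h2 : (G 0).card ≤ 2 * k * P.card := by
    refine (card_filter_le _ _).trans ?_
    rw [show k - 1 - k = 0 by omega, show 2 * k = k - 1 + k + 1 by omega]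
    exact low_band_bound hP _
  have h3 : ((G 0).card : ℝ) ≤ 2 * k * P.card := by exact_mod_cast h2
  have h4 : (k : ℝ) ≤ P.card := by exact_mod_cast hkn
  have h5 : B = |C| * 9 ^ (4 / 3 - ε) * (k : ℝ) ^ (1 / 3 - ε) * k := by
    rw [hB, Nat.cast_mul, Real.mul_rpow (by positivity) hk0.le,
      show (k : ℝ) ^ (4 / 3 - ε) = (k : ℝ) ^ (1 / 3 - ε) * k by
        rw [← Real.rpow_add_one hk0.ne']; congr 1; ring]
    push_cast
    ring
  refine le_of_mul_le_mul_right (a := (k : ℝ) ^ 2) (h1.trans ?_) (by positivity)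
  calc _ ≤ B * (3 * k * P.card) := mul_le_mul_of_nonneg_left (by nlinarith) hB0
    _ = _ := by rw [h5]; ring

end Vale.Agent.P065
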