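import Vale.Agent.P065.Defs

/-!
Token systems.  A point `p` moves on the real line as `ht p s = y - s x` (time `s` = slope).
A token system is a consecutive run of vertices (events) of one level.
-/

namespace Vale.Agent.P065

open Classical Finset

abbrev Pt := ℝ × ℝ

/-- height of the point `p` at time (slope) `s` -/
def ht (p : Pt) (s : ℝ) : ℝ := p.2 - s * p.1

/-- general position: distinct `x`-coordinates and no three points on a common line -/
structure GP (P : Finset Pt) : Prop where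
  xinj : ∀ p ∈ P, ∀ q ∈ P, p.1 = q.1 → p = q
  three : ∀ p ∈ P, ∀ q ∈ P, ∀ r ∈ P, ∀ s : ℝ, ht p s = ht q s → ht p s = ht r s →
    p = q ∨ p = r ∨ q = r

theorem GP.mono {P Q : Finset Pt} (h : GP P) (hQ : Q ⊆ P) : GP Q :=
  ⟨fun p hp q hq => h.xinj p (hQ hp) q (hQ hq),
   fun p hp q hq r hr => h.three p (hQ hp) q (hQ hq) r (hQ hr)⟩

/-- A token system on `P`.  Events `i < m` happen at times `t i`; at event `i` the token `tok i`
passes from the point `a i` to the point `b i` (to the right of it; the segment has slope `t i`).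
`hold i τ` is the holder of token `τ` after `i` events.  At the time of event `i` the holders lie
weakly below the line of the event, the other points weakly above. -/
structure Tok (P : Finset Pt) where
  m : ℕ
  a : ℕ → Pt
  b : ℕ → Pt
  t : ℕ → ℝ
  T : Finset Pt
  hold : ℕ → Pt → Pt
  tok : ℕ → Pt
  t_lt : ∀ i j, i < j → j < m → t i < t j
  ab_lt : ∀ i, i < m → (a i).1 < (b i).1
  ab_ht : ∀ i, i < m → ht (a i) (t i) = ht (b i) (t i)
  tok_mem : ∀ i, i < m → tok i ∈ T
  hold_mem : ∀ i, i ≤ m → ∀ τ ∈ T, hold i τ ∈ P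
  hold_inj : ∀ i, i ≤ m → ∀ τ ∈ T, ∀ τ' ∈ T, hold i τ = hold i τ' → τ = τ'
  hold_tok : ∀ i, i < m → hold i (tok i) = a i
  hold_succ_tok : ∀ i, i < m → hold (i + 1) (tok i) = b i
  hold_succ_ne : ∀ i, i < m → ∀ τ ∈ T, τ ≠ tok i → hold (i + 1) τ = hold i τ
  below : ∀ i, i < m → ∀ τ ∈ T, ht (hold i τ) (t i) ≤ ht (a i) (t i)
  above : ∀ i, i < m → ∀ q ∈ P, (∀ τ ∈ T, hold i τ ≠ q) → ht (a i) (t i) ≤ ht q (t i)

namespace Tok

variable {P : Finset Pt} (S : Tok P)

/-- the set of holders after `i` events -/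
noncomputable def low (i : ℕ) : Finset Pt := S.T.image (S.hold i)

/-- points active (endpoint of an event) in the index window `[i₀, i₁)` -/
noncomputable def act (i₀ i₁ : ℕ) : Finset Pt :=
  (Ico i₀ i₁).image S.a ∪ (Ico i₀ i₁).image S.b

/-- `p` is left of `q` and the slope of `pq` lies in `[t i₀, t (i₁ - 1)]` -/
def sw (i₀ i₁ : ℕ) (p q : Pt) : Prop :=
  p.1 < q.1 ∧ ht p (S.t i₀) ≤ ht q (S.t i₀) ∧ ht q (S.t (i₁ - 1)) ≤ ht p (S.t (i₁ - 1))

/-- end of the `k`-th window of size `W` (windows are `[k W, wend W k)`) -/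
def wend (W k : ℕ) : ℕ := min ((k + 1) * W) S.m

/-- active points of the `k`-th window of size `W` -/
noncomputable def wact (W k : ℕ) : Finset Pt := S.act (k * W) (S.wend W k)

/-- swap relation of the `k`-th window of size `W` -/
def wsw (W k : ℕ) (p q : Pt) : Prop := S.sw (k * W) (S.wend W k) p q

end Tok

end Vale.Agent.P065
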