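import Vale.Agent.P065.Basic

/-! The crossing lemma for straight-line graphs (task B). -/

namespace Vale.Agent.P065

open Classical Finset

/-- proper crossing of two segments, each given as (left endpoint, right endpoint) -/
def Cross (e f : Pt × Pt) : Prop :=
  e ≠ f ∧ ∃ ζ : Pt, e.1.1 < ζ.1 ∧ ζ.1 < e.2.1 ∧ f.1.1 < ζ.1 ∧ ζ.1 < f.2.1 ∧
    orient e.1 e.2 ζ = 0 ∧ orient f.1 f.2 ζ = 0

/-- number of ordered crossing pairs -/
noncomputable def crNum (F : Finset (Pt × Pt)) : ℕ :=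
  ((F ×ˢ F).filter fun x => Cross x.1 x.2).card

/-- `F` is a set of segments with endpoints in `U` -/
def SegsOn (U : Finset Pt) (F : Finset (Pt × Pt)) : Prop :=
  ∀ e ∈ F, e.1 ∈ U ∧ e.2 ∈ U ∧ e.1.1 < e.2.1

/-- slope of a segment -/
noncomputable def slp (e : Pt × Pt) : ℝ := (e.2.2 - e.1.2) / (e.2.1 - e.1.1)

/-- ordinate of the line of a segment at abscissa `x` -/
noncomputable def val (e : Pt × Pt) (x : ℝ) : ℝ := e.1.2 + slp e * (x - e.1.1)

theorem val_left (e : Pt × Pt) : val e e.1.1 = e.1.2 := by simp [val]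

theorem val_right {e : Pt × Pt} (h : e.1.1 < e.2.1) : val e e.2.1 = e.2.2 := by
  have : e.2.1 - e.1.1 ≠ 0 := (sub_pos.2 h).ne'
  simp only [val, slp]
  field_simp
  ring

theorem orient_eq {e : Pt × Pt} (h : e.1.1 < e.2.1) (ζ : Pt) :
    orient e.1 e.2 ζ = (e.2.1 - e.1.1) * (ζ.2 - val e ζ.1) := by
  have : e.2.1 - e.1.1 ≠ 0 := (sub_pos.2 h).ne'
  simp only [val, slp, orient]
  field_simp
  ring

theorem orient_zero_iff {e : Pt × Pt} (h : e.1.1 < e.2.1) (ζ : Pt) :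
    orient e.1 e.2 ζ = 0 ↔ ζ.2 = val e ζ.1 := by
  rw [orient_eq h, mul_eq_zero, or_iff_right (sub_pos.2 h).ne', sub_eq_zero]

theorem on_line {U : Finset Pt} (hU : GP U) {e : Pt × Pt} {w : Pt} (h₁ : e.1 ∈ U) (h₂ : e.2 ∈ U)
    (hw : w ∈ U) (h : e.1.1 < e.2.1) (hv : w.2 = val e w.1) : w = e.1 ∨ w = e.2 := by
  have hr := val_right h
  simp only [val] at hv hr
  rcases hU.three _ h₁ _ h₂ _ hw (slp e) (by simp only [ht]; linarith)
    (by simp only [ht]; linarith) with h' | h' | h'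
  · rw [h'] at h; exact absurd h (lt_irrefl _)
  · exact Or.inl h'.symm
  · exact Or.inr h'.symm

theorem affine_zero {α β x₁ x₂ : ℝ} (h : x₁ < x₂) (h₁ : 0 < α + β * x₁) (h₂ : α + β * x₂ < 0) :
    ∃ x, x₁ < x ∧ x < x₂ ∧ α + β * x = 0 := by
  have hβ : β < 0 := by nlinarith
  refine ⟨α / (-β), ?_, ?_, ?_⟩
  · rw [lt_div_iff₀ (neg_pos.2 hβ)]; linarith
  · rw [div_lt_iff₀ (neg_pos.2 hβ)]; linarith
  · have := hβ.ne
    field_simp
    ring

theorem cross_of_sign {e f : Pt × Pt} {σ x₁ x₂ : ℝ} (hσ : σ ≠ 0) (he : e.1.1 < e.2.1)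
    (hf : f.1.1 < f.2.1) (h : x₁ < x₂) (a₁ : e.1.1 ≤ x₁) (a₂ : f.1.1 ≤ x₁) (b₁ : x₂ ≤ e.2.1)
    (b₂ : x₂ ≤ f.2.1) (h₁ : σ * val f x₁ < σ * val e x₁) (h₂ : σ * val e x₂ < σ * val f x₂) :
    Cross e f := by
  refine ⟨fun hef => by rw [hef] at h₁; exact lt_irrefl _ h₁, ?_⟩
  obtain ⟨x, hx₁, hx₂, hx⟩ := affine_zero (α := σ * (val e 0 - val f 0))
    (β := σ * (slp e - slp f)) h (by simp only [val] at *; linarith)
    (by simp only [val] at *; linarith)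
  refine ⟨(x, val e x), a₁.trans_lt hx₁, hx₂.trans_le b₁, a₂.trans_lt hx₁, hx₂.trans_le b₂,
    (orient_zero_iff he _).2 rfl, (orient_zero_iff hf _).2 (mul_left_cancel₀ hσ ?_)⟩
  simp only [val] at *
  linarith

/-- `e` is the segment of `F` directly below (`σ = 1`) or above (`σ = -1`) the point `w` -/
def Wit (F : Finset (Pt × Pt)) (σ : ℝ) (e : Pt × Pt) (w : Pt) : Prop :=
  e.1.1 < w.1 ∧ w.1 < e.2.1 ∧ σ * val e w.1 < σ * w.2 ∧
    ∀ f ∈ F, f.1.1 < w.1 → w.1 < f.2.1 → σ * val f w.1 < σ * w.2 → σ * val f w.1 ≤ σ * val e w.1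

theorem card_wit {U : Finset Pt} {F : Finset (Pt × Pt)} (hF : SegsOn U F)
    (h : ∀ e ∈ F, ∀ f ∈ F, ¬ Cross e f) {σ : ℝ} (hσ : σ ≠ 0) :
    (F.filter fun e => ∃ w ∈ U, Wit F σ e w).card ≤ U.card := by
  refine card_le_card_of_forall_subsingleton (Wit F σ) (fun e he => (mem_filter.1 he).2) ?_
  rintro w - e ⟨he, a₁, a₂, a₃, a₄⟩ f ⟨hf, b₁, b₂, b₃, b₄⟩
  have he := (mem_filter.1 he).1
  have hf := (mem_filter.1 hf).1
  by_contra hne
  exact h e he f hf ⟨hne, (w.1, val e w.1), a₁, a₂, b₁, b₂, (orient_zero_iff (hF e he).2.2 _).2 rfl,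
    (orient_zero_iff (hF f hf).2.2 _).2
      (mul_left_cancel₀ hσ (le_antisymm (b₄ e he a₁ a₂ a₃) (a₄ f hf b₁ b₂ b₃)))⟩

theorem exists_wit {U : Finset Pt} {F : Finset (Pt × Pt)} (hU : GP U) (hF : SegsOn U F)
    (h : ∀ e ∈ F, ∀ f ∈ F, ¬ Cross e f) {σ : ℝ} (hσ : σ ≠ 0) {e g : Pt × Pt} (he : e ∈ F)
    (hg : g ∈ F) (h₁ : g.1 = e.1) (hx : g.2.1 < e.2.1) (hs : σ * slp e < σ * slp g)
    (hno : ∀ f ∈ F, f.1 = e.1 → σ * slp e < σ * slp f → σ * slp g ≤ σ * slp f) :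
    ∃ w ∈ U, Wit F σ e w := by
  obtain ⟨e₁, e₂, e₃⟩ := hF e he
  obtain ⟨g₁, g₂, g₃⟩ := hF g hg
  obtain ⟨w, hw, hmin⟩ := exists_min_image (U.filter fun w => e.1.1 < w.1 ∧ w.1 ≤ g.2.1 ∧
      σ * val e w.1 ≤ σ * w.2 ∧ σ * w.2 ≤ σ * val g w.1) Prod.fst ⟨g.2, mem_filter.2 ⟨g₂, by
    refine ⟨h₁ ▸ g₃, le_rfl, ?_, by rw [val_right g₃]⟩
    rw [← val_right g₃]
    simp only [val, h₁] at *
    nlinarith⟩⟩
  obtain ⟨w₀, w₁, w₂, w₃, w₄⟩ := mem_filter.1 hw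
  refine ⟨w, w₀, w₁, w₂.trans_lt hx, w₃.lt_of_ne fun hh => ?_, fun f hf f₁ f₂ f₃ => ?_⟩
  · rcases on_line hU e₁ e₂ w₀ e₃ (mul_left_cancel₀ hσ hh).symm with h' | h'
    · rw [h'] at w₁; exact lt_irrefl _ w₁
    · rw [h'] at w₂; exact absurd hx (not_lt.2 w₂)
  obtain ⟨p₁, p₂, p₃⟩ := hF f hf
  by_contra hlt
  rw [not_le] at hlt
  have c₁ : ∀ x, e.1.1 ≤ x → f.1.1 ≤ x → x < w.1 → σ * val e x ≤ σ * val f x := fun x a b c =>
    not_lt.1 fun d => h e he f hf (cross_of_sign hσ e₃ p₃ c a b (w₂.trans hx.le) f₂.le d hlt)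
  have c₂ : ∀ x, e.1.1 ≤ x → f.1.1 ≤ x → x < w.1 → σ * val f x ≤ σ * val g x := fun x a b c =>
    not_lt.1 fun d => h f hf g hg
      (cross_of_sign hσ p₃ g₃ c b (h₁ ▸ a) f₂.le w₂ d (f₃.trans_le w₄))
  rcases lt_trichotomy e.1.1 f.1.1 with hc | hc | hc
  · have a := c₁ _ hc.le le_rfl f₁
    have b := c₂ _ hc.le le_rfl f₁
    rw [val_left] at a b
    exact absurd (hmin f.1 (mem_filter.2 ⟨p₁, hc, f₁.le.trans w₂, a, b⟩)) (not_le.2 f₁)
  · have hfe : f.1 = e.1 := hU.xinj _ p₁ _ e₁ hc.symm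
    have f₄ := f₃.trans_le w₄
    have := hno f hf hfe (by simp only [val, hfe] at hlt; nlinarith)
    simp only [val, hfe, h₁] at f₄
    nlinarith
  · have a := c₁ _ le_rfl hc.le w₁
    have b := c₂ _ le_rfl hc.le w₁
    rw [val_left] at a
    rw [← h₁, val_left, h₁] at b
    rcases on_line hU p₁ p₂ e₁ p₃ (mul_left_cancel₀ hσ (le_antisymm a b)) with h' | h'
    · rw [h'] at hc; exact lt_irrefl _ hc
    · rw [h'] at w₁; exact absurd f₂ (not_lt.2 w₁.le)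

theorem eq_of_slp {U : Finset Pt} {F : Finset (Pt × Pt)} (hU : GP U) (hF : SegsOn U F)
    {e f : Pt × Pt} (he : e ∈ F) (hf : f ∈ F) (h₁ : f.1 = e.1) (hs : slp f = slp e) : f = e := by
  obtain ⟨e₁, e₂, e₃⟩ := hF e he
  obtain ⟨f₁, f₂, f₃⟩ := hF f hf
  rcases on_line hU e₁ e₂ f₂ e₃ (by rw [← val_right f₃]; simp only [val, h₁, hs]) with h' | h'
  · rw [h', h₁] at f₃; exact absurd f₃ (lt_irrefl _)
  · exact Prod.ext h₁ h'

theorem planar_bound {U : Finset Pt} {F : Finset (Pt × Pt)} (hU : GP U) (hF : SegsOn U F)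
    (h : ∀ e ∈ F, ∀ f ∈ F, ¬ Cross e f) : F.card ≤ 3 * U.card := by
  have hA := card_wit hF h one_ne_zero
  have hB := card_wit hF h (neg_ne_zero.2 one_ne_zero)
  let R : Pt × Pt → Pt × Pt → Prop := fun e g => g.1 = e.1 ∧ slp e < slp g ∧
    ∀ f ∈ F, f.1 = e.1 → slp e < slp f → slp g ≤ slp f
  have hT : (F.filter fun e => ∀ f ∈ F, f.1 = e.1 → slp f ≤ slp e).card ≤ U.card := by
    refine card_le_card_of_injOn Prod.fst (fun e he => (hF e (mem_filter.1 he).1).1) ?_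
    intro e he f hf hef
    obtain ⟨e₁, e₂⟩ := mem_filter.1 he
    obtain ⟨f₁, f₂⟩ := mem_filter.1 hf
    exact eq_of_slp hU hF f₁ e₁ hef (le_antisymm (f₂ e e₁ hef) (e₂ f f₁ hef.symm))
  have hC : (F.filter fun e => ∃ g ∈ F.filter (fun e => ∃ w ∈ U, Wit F (-1) e w), R e g).card ≤
      (F.filter fun e => ∃ w ∈ U, Wit F (-1) e w).card := by
    refine card_le_card_of_forall_subsingleton R (fun e he => ?_) ?_
    · simp only [mem_filter] at he ⊢
      exact he.2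
    rintro g - e ⟨he, a₁, a₂, a₃⟩ f ⟨hf, b₁, b₂, b₃⟩
    have he : e ∈ F := by simp only [mem_filter] at he; exact he.1
    have hf : f ∈ F := by simp only [mem_filter] at hf; exact hf.1
    refine eq_of_slp hU hF hf he (a₁.symm.trans b₁) (le_antisymm (not_lt.1 fun c => ?_)
      (not_lt.1 fun c => ?_))
    · exact absurd (b₃ e he (a₁.symm.trans b₁) c) (not_le.2 a₂)
    · exact absurd (a₃ f hf (b₁.symm.trans a₁) c) (not_le.2 b₂)
  have hsub : F ⊆ (F.filter fun e => ∀ f ∈ F, f.1 = e.1 → slp f ≤ slp e) ∪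
      (F.filter fun e => ∃ w ∈ U, Wit F 1 e w) ∪
      F.filter fun e => ∃ g ∈ F.filter (fun e => ∃ w ∈ U, Wit F (-1) e w), R e g := by
    intro e he
    simp only [mem_union, mem_filter, he, true_and]
    by_cases ht : ∀ f ∈ F, f.1 = e.1 → slp f ≤ slp e
    · exact Or.inl (Or.inl ht)
    obtain ⟨g, hg, hmin⟩ := exists_min_image (F.filter fun f => f.1 = e.1 ∧ slp e < slp f) slp (by
      simp only [not_forall, not_le] at ht
      obtain ⟨f, a, b, c⟩ := ht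
      exact ⟨f, mem_filter.2 ⟨a, b, c⟩⟩)
    obtain ⟨g₀, g₁, g₂⟩ := mem_filter.1 hg
    have hR : R e g := ⟨g₁, g₂, fun f a b c => hmin f (mem_filter.2 ⟨a, b, c⟩)⟩
    rcases lt_trichotomy g.2.1 e.2.1 with hc | hc | hc
    · exact Or.inl (Or.inr (exists_wit hU hF h one_ne_zero he g₀ g₁ hc (by simpa using g₂)
        (by simpa using hR.2.2)))
    · rw [Prod.ext g₁ (hU.xinj _ (hF g g₀).2.1 _ (hF e he).2.1 hc)] at g₂
      exact absurd g₂ (lt_irrefl _)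
    · refine Or.inr ⟨g, ⟨g₀, exists_wit hU hF h (neg_ne_zero.2 one_ne_zero) g₀ he g₁.symm hc
        (by linarith) fun f a b c => ?_⟩, hR⟩
      by_contra d
      have := hR.2.2 f a (b.trans g₁) (by linarith)
      linarith
  have h₁ := card_le_card hsub
  have h₂ := (card_union_le _ _).trans (Nat.add_le_add ((card_union_le _ _).trans
    (Nat.add_le_add hT hA)) (hC.trans hB))
  omega

theorem planar_cr {U : Finset Pt} {F : Finset (Pt × Pt)} (hU : GP U) (hF : SegsOn U F) :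
    F.card ≤ 3 * U.card + crNum F := by
  have h₁ := planar_bound (F := F \ ((F ×ˢ F).filter fun x => Cross x.1 x.2).image Prod.fst) hU
    (fun e he => hF e (mem_sdiff.1 he).1) fun e he f hf hc => (mem_sdiff.1 he).2
      (mem_image.2 ⟨(e, f), mem_filter.2 ⟨mem_product.2 ⟨(mem_sdiff.1 he).1,
        (mem_sdiff.1 hf).1⟩, hc⟩, rfl⟩)
  exact card_le_card_sdiff_add_card.trans (Nat.add_le_add h₁ card_image_le)

theorem sum_weight {U T : Finset Pt} (hT : T ⊆ U) (p : Pt → ℝ) :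
    ∑ S ∈ U.powerset, (if T ⊆ S then (∏ v ∈ S, p v) * ∏ v ∈ U \ S, (1 - p v) else 0) =
      ∏ v ∈ T, p v := by
  have h := prod_add p (fun v => if v ∈ T then 0 else 1 - p v) U
  have h₁ : ∏ v ∈ U, (p v + if v ∈ T then 0 else 1 - p v) = ∏ v ∈ T, p v := by
    rw [← prod_subset hT (fun v _ hv => by simp [hv])]
    exact prod_congr rfl fun v hv => by simp [hv]
  rw [← h₁, h]
  refine sum_congr rfl fun S _ => ?_
  split_ifs with hS
  · congr 1
    exact prod_congr rfl fun v hv => (if_neg fun h' => (mem_sdiff.1 hv).2 (hS h')).symm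
  · obtain ⟨v, a, b⟩ := not_subset.1 hS
    rw [prod_eq_zero (f := fun v => if v ∈ T then 0 else 1 - p v) (mem_sdiff.2 ⟨hT a, b⟩)
      (if_pos a), mul_zero]

theorem cross_ne {U : Finset Pt} {F : Finset (Pt × Pt)} (hU : GP U) (hF : SegsOn U F)
    {e f : Pt × Pt} (he : e ∈ F) (hf : f ∈ F) (h : Cross e f) :
    e.1 ≠ f.1 ∧ e.1 ≠ f.2 ∧ e.2 ≠ f.1 ∧ e.2 ≠ f.2 := by
  obtain ⟨hne, ζ, a₁, a₂, b₁, b₂, c₁, c₂⟩ := h
  obtain ⟨e₁, e₂, e₃⟩ := hF e he
  obtain ⟨f₁, f₂, f₃⟩ := hF f hf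
  rw [orient_zero_iff e₃] at c₁
  rw [orient_zero_iff f₃] at c₂
  have key : e.1 = f.1 → False := fun hh => by
    refine hne (eq_of_slp hU hF hf he hh (mul_right_cancel₀ (sub_pos.2 b₁).ne' ?_))
    simp only [val, hh] at c₁ c₂
    linarith
  refine ⟨key, fun hh => ?_, fun hh => ?_, fun hh => ?_⟩
  · rw [hh] at a₁; linarith
  · rw [hh] at a₂; linarith
  · have r₁ := val_right e₃
    have r₂ := val_right f₃
    have hs : slp e = slp f := by
      refine mul_right_cancel₀ (sub_pos.2 b₂).ne' ?_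
      simp only [val, hh] at c₁ c₂ r₁ r₂
      linarith
    rcases on_line hU e₁ e₂ f₁ e₃ (by simp only [val, hs] at c₁ c₂ ⊢; linarith) with h' | h'
    · exact key h'.symm
    · rw [h', hh] at f₃; exact lt_irrefl _ f₃

theorem crossing_weighted {U : Finset Pt} {F : Finset (Pt × Pt)} (hU : GP U) (hF : SegsOn U F)
    (p : Pt → ℝ) (hp₀ : ∀ v, 0 ≤ p v) (hp₁ : ∀ v, p v ≤ 1) :
    ∑ e ∈ F, p e.1 * p e.2 ≤ 3 * ∑ v ∈ U, p v +
      ∑ x ∈ (F ×ˢ F).filter (fun x => Cross x.1 x.2), p x.1.1 * p x.1.2 * (p x.2.1 * p x.2.2) := by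
  set w : Finset Pt → ℝ := fun S => (∏ v ∈ S, p v) * ∏ v ∈ U \ S, (1 - p v) with hw
  have hw₀ : ∀ S, 0 ≤ w S := fun S => mul_nonneg (prod_nonneg fun v _ => hp₀ v)
    (prod_nonneg fun v _ => sub_nonneg.2 (hp₁ v))
  have e₁ : ∑ e ∈ F, p e.1 * p e.2 =
      ∑ e ∈ F, ∑ S ∈ U.powerset, if {e.1, e.2} ⊆ S then w S else 0 := by
    refine sum_congr rfl fun e he => ?_
    obtain ⟨a, b, c⟩ := hF e he
    rw [sum_weight (by simp [insert_subset_iff, a, b]),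
      prod_pair fun hh => by rw [hh] at c; exact lt_irrefl _ c]
  have e₂ : ∑ v ∈ U, p v = ∑ v ∈ U, ∑ S ∈ U.powerset, if {v} ⊆ S then w S else 0 := by
    refine sum_congr rfl fun v hv => ?_
    rw [sum_weight (singleton_subset_iff.2 hv), prod_singleton]
  have e₃ : ∑ x ∈ (F ×ˢ F).filter (fun x => Cross x.1 x.2),
      p x.1.1 * p x.1.2 * (p x.2.1 * p x.2.2) = ∑ x ∈ (F ×ˢ F).filter (fun x => Cross x.1 x.2),
      ∑ S ∈ U.powerset, if {x.1.1, x.1.2, x.2.1, x.2.2} ⊆ S then w S else 0 := by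
    refine sum_congr rfl fun x hx => ?_
    obtain ⟨hx, hc⟩ := mem_filter.1 hx
    obtain ⟨hx₁, hx₂⟩ := mem_product.1 hx
    obtain ⟨a, b, c⟩ := hF _ hx₁
    obtain ⟨a', b', c'⟩ := hF _ hx₂
    obtain ⟨n₁, n₂, n₃, n₄⟩ := cross_ne hU hF hx₁ hx₂ hc
    have n₅ : x.1.1 ≠ x.1.2 := fun hh => by rw [hh] at c; exact lt_irrefl _ c
    have n₆ : x.2.1 ≠ x.2.2 := fun hh => by rw [hh] at c'; exact lt_irrefl _ c'
    rw [sum_weight (by simp [insert_subset_iff, a, b, a', b']),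
      prod_insert (by simp [n₁, n₂, n₅]), prod_insert (by simp [n₃, n₄]), prod_pair n₆, mul_assoc]
  rw [e₁, e₂, e₃, sum_comm, sum_comm (s := U), sum_comm (s := filter _ _), mul_sum,
    ← sum_add_distrib]
  refine sum_le_sum fun S hS => ?_
  have hS := mem_powerset.1 hS
  have h := planar_cr (F := F.filter fun e => {e.1, e.2} ⊆ S) (hU.mono hS) fun e he => by
    obtain ⟨a, b⟩ := mem_filter.1 he
    exact ⟨b (by simp), b (by simp), (hF e a).2.2⟩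
  have h₂ : crNum (F.filter fun e => {e.1, e.2} ⊆ S) ≤ (((F ×ˢ F).filter
      (fun x => Cross x.1 x.2)).filter fun x => {x.1.1, x.1.2, x.2.1, x.2.2} ⊆ S).card := by
    refine card_le_card fun x hx => ?_
    simp only [mem_filter, mem_product, insert_subset_iff, singleton_subset_iff] at hx ⊢
    tauto
  have h₃ : (U.filter fun v => {v} ⊆ S) = S := by
    ext v
    simp only [mem_filter, singleton_subset_iff]
    exact ⟨fun h => h.2, fun h => ⟨hS h, h⟩⟩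
  simp only [← sum_filter, sum_const, nsmul_eq_mul, h₃]
  rw [← mul_assoc 3, ← add_mul]
  exact mul_le_mul_of_nonneg_right (by exact_mod_cast h.trans (Nat.add_le_add_left h₂ _)) (hw₀ S)

theorem crossing_lin {U : Finset Pt} {F : Finset (Pt × Pt)} (hU : GP U) (hF : SegsOn U F)
    {D : ℝ} (hD : 1 ≤ D) : (F.card : ℝ) ≤ 3 * D * U.card + crNum F / D ^ 2 := by
  have hD₀ : 0 < D := one_pos.trans_le hD
  have h := crossing_weighted hU hF (fun _ => D⁻¹) (fun _ => by positivity)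
    fun _ => inv_le_one_of_one_le₀ hD
  simp only [sum_const, nsmul_eq_mul] at h
  have := mul_le_mul_of_nonneg_right h (sq_nonneg D)
  refine le_of_eq_of_le ?_ (this.trans_eq ?_)
  · field_simp
  · simp only [crNum]
    field_simp

theorem crossing_cube {U : Finset Pt} {F : Finset (Pt × Pt)} (hU : GP U) (hF : SegsOn U F) :
    (F.card : ℝ) ≤ 6 * U.card ∨ (F.card : ℝ) ^ 3 ≤ 72 * (U.card : ℝ) ^ 2 * crNum F := by
  refine (le_or_gt _ _).imp_right fun h => ?_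
  have hU₀ : (0 : ℝ) < U.card := by
    have : (0 : ℝ) < F.card := lt_of_le_of_lt (by positivity) h
    obtain ⟨e, he⟩ := card_pos.1 (Nat.cast_pos.1 this)
    exact Nat.cast_pos.2 (card_pos.2 ⟨_, (hF e he).1⟩)
  have hF₀ : (0 : ℝ) < F.card := lt_of_le_of_lt (by positivity) h
  have h₁ := crossing_lin hU hF (D := F.card / (6 * U.card))
    ((one_le_div (by positivity)).2 h.le)
  have e : 3 * (F.card / (6 * U.card) : ℝ) * U.card + crNum F / (F.card / (6 * U.card) : ℝ) ^ 2 =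
      F.card / 2 + 36 * (U.card : ℝ) ^ 2 * crNum F / (F.card : ℝ) ^ 2 := by
    field_simp
    ring
  rw [e, ← sub_le_iff_le_add', le_div_iff₀ (by positivity)] at h₁
  linarith

theorem crNum_mono {F G : Finset (Pt × Pt)} (h : F ⊆ G) : crNum F ≤ crNum G :=
  card_le_card (filter_subset_filter _ (product_subset_product h h))

theorem crossing_hd {U H : Finset Pt} {F : Finset (Pt × Pt)} (hU : GP U) (hF : SegsOn U F)
    (hH : H ⊆ U) (hFH : ∀ e ∈ F, e.1 ∈ H ∨ e.2 ∈ H) {D₁ D₂ : ℝ} (h₁ : 1 ≤ D₁) (h₂ : D₁ ≤ D₂) :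
    (F.card : ℝ) ≤ 6 * D₂ * H.card + 3 * D₁ * U.card + 2 * crNum F / (D₁ * D₂) := by
  have d₁ : 0 < D₁ := one_pos.trans_le h₁
  have d₂ : 0 < D₂ := d₁.trans_le h₂
  have a := crossing_lin (F := F.filter fun e => e.1 ∈ H ∧ e.2 ∈ H) (hU.mono hH) (fun e he => by
    obtain ⟨a, b⟩ := mem_filter.1 he
    exact ⟨b.1, b.2, (hF e a).2.2⟩) (h₁.trans h₂)
  have a' : (crNum (F.filter fun e => e.1 ∈ H ∧ e.2 ∈ H) : ℝ) / D₂ ^ 2 ≤ crNum F / (D₁ * D₂) :=
    div_le_div₀ (by positivity) (Nat.cast_le.2 (crNum_mono (filter_subset _ _))) (by positivity)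
      (by nlinarith)
  set G := F.filter fun e => ¬ (e.1 ∈ H ∧ e.2 ∈ H) with hG
  let p : Pt → ℝ := fun v => if v ∈ H then D₁⁻¹ else D₂⁻¹
  have hp : ∀ e ∈ G, p e.1 * p e.2 = (D₁ * D₂)⁻¹ := fun e he => by
    obtain ⟨b, c⟩ := mem_filter.1 he
    rcases hFH e b with d | d
    · simp only [p, if_pos d, if_neg fun h => c ⟨d, h⟩, mul_inv]
    · simp only [p, if_pos d, if_neg fun h => c ⟨h, d⟩, mul_inv, mul_comm]
  have b := crossing_weighted (F := G) hU (fun e he => hF e (mem_filter.1 he).1) p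
    (fun v => by simp only [p]; split_ifs <;> positivity) fun v => by
      simp only [p]
      split_ifs
      exacts [inv_le_one_of_one_le₀ h₁, inv_le_one_of_one_le₀ (h₁.trans h₂)]
  have b₁ : ∑ v ∈ U, p v ≤ H.card * D₁⁻¹ + U.card * D₂⁻¹ := by
    simp only [p, sum_ite, sum_const, nsmul_eq_mul]
    gcongr
    · exact fun v hv => (mem_filter.1 hv).2
    · exact filter_subset _ _
  rw [sum_congr rfl hp, sum_congr rfl fun x hx => congrArg₂ (· * ·)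
    (hp _ (mem_product.1 (mem_filter.1 hx).1).1) (hp _ (mem_product.1 (mem_filter.1 hx).1).2)] at b
  simp only [sum_const, nsmul_eq_mul] at b
  have b₂ : (crNum G : ℝ) ≤ crNum F := Nat.cast_le.2 (crNum_mono (filter_subset _ _))
  have b₃ : (G.card : ℝ) * (D₁ * D₂)⁻¹ ≤ 3 * (H.card * D₁⁻¹ + U.card * D₂⁻¹) +
      crNum F * ((D₁ * D₂)⁻¹ * (D₁ * D₂)⁻¹) :=
    b.trans (add_le_add (by linarith) (mul_le_mul_of_nonneg_right b₂ (by positivity)))
  have b₄ := mul_le_mul_of_nonneg_right b₃ (mul_pos d₁ d₂).le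
  have e₁ : (G.card : ℝ) * (D₁ * D₂)⁻¹ * (D₁ * D₂) = G.card := by field_simp
  have e₂ : (3 * (H.card * D₁⁻¹ + U.card * D₂⁻¹) + crNum F * ((D₁ * D₂)⁻¹ * (D₁ * D₂)⁻¹)) *
      (D₁ * D₂) = 3 * D₂ * H.card + 3 * D₁ * U.card + crNum F / (D₁ * D₂) := by
    field_simp
  have e₃ : ((F.filter fun e => e.1 ∈ H ∧ e.2 ∈ H).card : ℝ) + G.card = F.card := by
    exact_mod_cast card_filter_add_card_filter_not _
  rw [e₁, e₂] at b₄
  rw [mul_div_assoc]
  linarith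

end Vale.Agent.P065
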