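import Vale.Agent.P065.TokL
import Vale.Agent.P065.Cross

/-! Meetings of token chains and Dey-type bounds (task C). -/

namespace Vale.Agent.P065

open Classical Finset

namespace Tok

variable {P : Finset Pt}

/-- event `i` of `S` and the later event `j` of `S'` have a common point `ζ`, which is not the
right endpoint of the first and not the left endpoint of the second -/
def Meet (S S' : Tok P) (i j : ℕ) : Prop :=
  S.t i < S'.t j ∧ ∃ ζ : Pt, (S.a i).1 ≤ ζ.1 ∧ ζ.1 < (S.b i).1 ∧ (S'.a j).1 < ζ.1 ∧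
    ζ.1 ≤ (S'.b j).1 ∧ ht ζ (S.t i) = ht (S.a i) (S.t i) ∧ ht ζ (S'.t j) = ht (S'.a j) (S'.t j)

/-- the segment of event `i` -/
def seg (S : Tok P) (i : ℕ) : Pt × Pt := (S.a i, S.b i)

/-- number of ordered pairs of events in `F` whose segments cross -/
noncomputable def crn (S : Tok P) (F : Finset ℕ) : ℕ :=
  ((F ×ˢ F).filter fun x => Cross (S.seg x.1) (S.seg x.2)).card

/-- events of `F` with the same label belong to the same token, and all holders of this token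
from the first to the last of them lie in `B` -/
def Conn (S : Tok P) {Λ : Type} (F : Finset ℕ) (lab : ℕ → Λ) (B : Finset Pt) : Prop :=
  ∀ i ∈ F, ∀ j ∈ F, lab i = lab j →
    S.tok i = S.tok j ∧ ∀ r, i ≤ r → r ≤ j + 1 → S.hold r (S.tok i) ∈ B

theorem le_ht_seg {a b ζ : Pt} {t s c : ℝ} (h₁ : a.1 ≤ ζ.1) (h₂ : ζ.1 ≤ b.1)
    (hab : ht a t = ht b t) (hζ : ht ζ t = ht a t) (ha : c ≤ ht a s) (hb : c ≤ ht b s) :
    c ≤ ht ζ s := by
  simp only [ht] at *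
  rcases le_total s t with h | h <;> nlinarith

theorem le_seg (S : Tok P) {i k : ℕ} {ζ : Pt} (hi : i < S.m) (hk : k < S.m)
    (hik : S.tok i = S.tok k) (h₁ : (S.a k).1 ≤ ζ.1) (h₂ : ζ.1 ≤ (S.b k).1)
    (hζ : ht ζ (S.t k) = ht (S.a k) (S.t k)) : ht (S.a i) (S.t i) ≤ ht ζ (S.t i) := by
  have h : ∀ r, r ≤ S.m → ht (S.a i) (S.t i) ≤ ht (S.hold r (S.tok k)) (S.t i) := fun r hr => by
    rw [← S.hold_tok i hi, hik]
    exact S.hold_min (S.tok_mem k hk) hi.le hr (fun j hj => S.t_le hj.le hi)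
      fun j hj hm => S.t_le hj hm
  exact le_ht_seg h₁ h₂ (S.ab_ht k hk) hζ (S.hold_tok k hk ▸ h k hk.le)
    (S.hold_succ_tok k hk ▸ h (k + 1) hk)

theorem b_le_a (S : Tok P) {i k : ℕ} (hk : k < S.m) (hik : i < k) (h : S.tok i = S.tok k) :
    (S.b i).1 ≤ (S.a k).1 := by
  have := S.chain (S.tok_mem k hk) (Nat.succ_le_of_lt hik) hk.le
  rw [S.hold_tok k hk, ← h, S.hold_succ_tok i (hik.trans hk)] at this
  rcases this with h' | h'
  · rw [h']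
  · exact h'.2.1.le

theorem meet_unique (S S' : Tok P) {i j k l : ℕ} {s : ℝ} (hi : i < S.m) (hk : k < S.m)
    (hj : j < S'.m) (hl : l < S'.m) (h : Meet S S' i j) (h' : Meet S S' k l)
    (ht₁ : S.tok i = S.tok k) (ht₂ : S'.tok j = S'.tok l) (h₁ : S.t i < s) (h₂ : s < S'.t j)
    (h₃ : S.t k < s) (h₄ : s < S'.t l) : i = k ∧ j = l := by
  obtain ⟨-, ζ, a₁, a₂, a₃, a₄, a₅, a₆⟩ := h
  obtain ⟨-, ζ', b₁, b₂, b₃, b₄, b₅, b₆⟩ := h'
  have c₁ := S.le_seg hi hk ht₁ b₁ b₂.le b₅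
  have c₂ := S'.le_seg hj hl ht₂ b₃.le b₄ b₆
  have c₃ := S.le_seg hk hi ht₁.symm a₁ a₂.le a₅
  have c₄ := S'.le_seg hl hj ht₂.symm a₃.le a₄ a₆
  rw [← a₅] at c₁
  rw [← a₆] at c₂
  rw [← b₅] at c₃
  rw [← b₆] at c₄
  have hx : ζ.1 = ζ'.1 := by
    simp only [ht] at c₁ c₂ c₃ c₄
    rcases lt_trichotomy ζ.1 ζ'.1 with h | h | h
    · nlinarith
    · exact h
    · nlinarith
  constructor
  · rcases lt_trichotomy i k with h | h | h
    · linarith [S.b_le_a hk h ht₁]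
    · exact h
    · linarith [S.b_le_a hi h ht₁.symm]
  · rcases lt_trichotomy j l with h | h | h
    · linarith [S'.b_le_a hl h ht₂]
    · exact h
    · linarith [S'.b_le_a hj h ht₂.symm]

theorem meet_unique' (S S' : Tok P) {i j k l : ℕ} (hi : i < S.m) (hk : k < S.m)
    (hj : j < S'.m) (hl : l < S'.m) (h : Meet S S' i j) (h' : Meet S S' k l)
    (ht₁ : S.tok i = S.tok k) (ht₂ : S'.tok j = S'.tok l) (h₁ : S.t i < S'.t l)
    (h₂ : S.t k < S'.t j) : i = k ∧ j = l := by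
  obtain ⟨s, a, b⟩ := exists_between (max_lt (lt_min h.1 h₁) (lt_min h₂ h'.1))
  rw [max_lt_iff] at a
  rw [lt_min_iff] at b
  exact meet_unique S S' hi hk hj hl h h' ht₁ ht₂ a.1 b.1 a.2 b.2

theorem ht_of_orient (S : Tok P) {i : ℕ} (hi : i < S.m) {ζ : Pt}
    (h : orient (S.a i) (S.b i) ζ = 0) : ht ζ (S.t i) = ht (S.a i) (S.t i) := by
  have h₁ := S.ab_ht i hi
  refine mul_left_cancel₀ (sub_pos.2 (S.ab_lt i hi)).ne' ?_
  simp only [ht, orient] at *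
  linear_combination h - (ζ.1 - (S.a i).1) * h₁

theorem cross_meet (hP : GP P) (S S' : Tok P) {i j : ℕ} (hi : i < S.m) (hj : j < S'.m)
    (h : Cross (S.seg i) (S'.seg j)) : Meet S S' i j ∨ Meet S' S j i := by
  obtain ⟨hne, ζ, a₁, a₂, b₁, b₂, c₁, c₂⟩ := h
  have c₁ := S.ht_of_orient hi c₁
  have c₂ := S'.ht_of_orient hj c₂
  simp only [seg] at a₁ a₂ b₁ b₂
  rcases lt_trichotomy (S.t i) (S'.t j) with h | h | h
  · exact Or.inl ⟨h, ζ, a₁.le, a₂, b₁, b₂.le, c₁, c₂⟩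
  · exfalso
    have d₁ := S.ab_ht i hi
    have d₂ := S'.ab_ht j hj
    rw [← h] at c₂ d₂
    have e₁ := hP.three _ (S.a_mem hi) _ (S.b_mem hi) _ (S'.a_mem hj) _ d₁ (c₁.symm.trans c₂)
    have e₂ := hP.three _ (S.a_mem hi) _ (S.b_mem hi) _ (S'.b_mem hj) _ d₁
      (c₁.symm.trans (c₂.trans d₂))
    rcases e₁ with e₁ | e₁ | e₁
    · rw [e₁] at a₁; linarith
    · rcases e₂ with e₂ | e₂ | e₂
      · rw [e₂] at a₁; linarith
      · rw [e₂] at a₁; linarith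
      · exact hne (Prod.ext e₁ e₂)
    · rw [e₁] at a₂; linarith
  · exact Or.inr ⟨h, ζ, b₁.le, b₂, a₁, a₂.le, c₂, c₁⟩

theorem exists_idx (S : Tok P) (s : ℝ) :
    ∃ r, r ≤ S.m ∧ (∀ k, k < r → S.t k < s) ∧ ∀ k, r ≤ k → k < S.m → s ≤ S.t k := by
  have h : ∃ r, S.m ≤ r ∨ s ≤ S.t r := ⟨S.m, Or.inl le_rfl⟩
  refine ⟨Nat.find h, Nat.find_min' h (Or.inl le_rfl),
    fun k hk => not_le.1 fun h' => Nat.find_min h hk (Or.inr h'), fun k hk hm => ?_⟩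
  rcases Nat.find_spec h with h' | h'
  · omega
  · exact h'.trans (S.t_le hk hm)

/-- the number of events before time `s` -/
noncomputable def evIdx (S : Tok P) (s : ℝ) : ℕ := (S.exists_idx s).choose

theorem evIdx_le (S : Tok P) (s : ℝ) : S.evIdx s ≤ S.m := (S.exists_idx s).choose_spec.1

theorem lt_evIdx (S : Tok P) {s : ℝ} {k : ℕ} (hk : k < S.m) : k < S.evIdx s ↔ S.t k < s :=
  ⟨(S.exists_idx s).choose_spec.2.1 k, fun h => not_le.1 fun h' =>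
    absurd ((S.exists_idx s).choose_spec.2.2 k h' hk) (not_le.2 h)⟩

theorem exists_before (S : Tok P) {c s : ℝ} (h : c < s) :
    ∃ s₀, c ≤ s₀ ∧ s₀ < s ∧ ∀ k, k < S.evIdx s → S.t k ≤ s₀ := by
  rcases Nat.eq_zero_or_pos (S.evIdx s) with h₀ | h₀
  · exact ⟨c, le_rfl, h, fun k hk => by omega⟩
  · have := S.evIdx_le s
    exact ⟨max c (S.t (S.evIdx s - 1)), le_max_left _ _,
      max_lt h ((S.lt_evIdx (by omega)).1 (by omega)),
      fun k hk => (S.t_le (by omega) (by omega)).trans (le_max_right _ _)⟩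

theorem evIdx_min (S : Tok P) {s σ : ℝ} {τ : Pt} (hτ : τ ∈ S.T) {r : ℕ} (hr : r ≤ S.m)
    (h₀ : ∀ k, k < S.evIdx s → S.t k ≤ σ) (h₁ : σ ≤ s) :
    ht (S.hold (S.evIdx s) τ) σ ≤ ht (S.hold r τ) σ :=
  S.hold_min hτ (S.evIdx_le s) hr h₀ fun _ hk hm =>
    h₁.trans (not_lt.1 fun h => absurd ((S.lt_evIdx hm).2 h) (not_lt.2 hk))

theorem meet_data (S S' : Tok P) {i j : ℕ} (hi : i < S.m) (hj : j < S'.m) (h : Meet S S' i j) :
    ∃ s, S.t i < s ∧ s < S'.t j ∧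
      S.hold (S.evIdx s) (S.tok i) ≠ S'.hold (S'.evIdx s) (S'.tok j) ∧
      ht (S.hold (S.evIdx s) (S.tok i)) s = ht (S'.hold (S'.evIdx s) (S'.tok j)) s := by
  obtain ⟨hij, ζ, a₁, a₂, a₃, a₄, a₅, a₆⟩ := h
  have hτ := S.tok_mem i hi
  have hτ' := S'.tok_mem j hj
  have m₁ : ∀ r, r ≤ S.m → ht ζ (S.t i) ≤ ht (S.hold r (S.tok i)) (S.t i) := fun r hr => by
    rw [a₅, ← S.hold_tok i hi]
    exact S.hold_min hτ hi.le hr (fun k hk => S.t_le hk.le hi) fun k hk hm => S.t_le hk hm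
  have m₂ : ∀ r, r ≤ S'.m → ht ζ (S'.t j) ≤ ht (S'.hold r (S'.tok j)) (S'.t j) := fun r hr => by
    rw [a₆, ← S'.hold_tok j hj]
    exact S'.hold_min hτ' hj.le hr (fun k hk => S'.t_le hk.le hj) fun k hk hm => S'.t_le hk hm
  have n₁ : ht (S'.hold j (S'.tok j)) (S.t i) < ht ζ (S.t i) := by
    rw [S'.hold_tok j hj]
    simp only [ht] at a₆ ⊢
    nlinarith
  have n₂ : ht (S.hold (i + 1) (S.tok i)) (S'.t j) < ht ζ (S'.t j) := by
    rw [S.hold_succ_tok i hi]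
    rw [S.ab_ht i hi] at a₅
    simp only [ht] at a₅ ⊢
    nlinarith
  let Z : Set ℝ := ⋃ r ∈ Set.Iic S.m, ⋂ r' ∈ Set.Iic S'.m,
    {s | ht (S.hold r (S.tok i)) s ≤ ht (S'.hold r' (S'.tok j)) s}
  have hZ : IsClosed Z := (Set.finite_Iic _).isClosed_biUnion fun r _ => isClosed_biInter
    fun r' _ => isClosed_le (by unfold ht; fun_prop) (by unfold ht; fun_prop)
  have mZ : ∀ s, s ∈ Z ↔ ∃ r, r ≤ S.m ∧ ∀ r', r' ≤ S'.m →
      ht (S.hold r (S.tok i)) s ≤ ht (S'.hold r' (S'.tok j)) s := fun s => by simp [Z]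
  obtain ⟨s, ⟨⟨s₁, s₂⟩, s₃⟩, hmin⟩ := (isCompact_Icc.inter_right hZ).exists_isLeast
    ⟨S'.t j, ⟨hij.le, le_rfl⟩, (mZ _).2 ⟨i + 1, hi, fun r' hr' => n₂.le.trans (m₂ r' hr')⟩⟩
  obtain ⟨r, hr, s₃⟩ := (mZ _).1 s₃
  have s₁' : S.t i < s := s₁.lt_of_ne fun e => by
    have := s₃ j hj.le
    rw [← e] at this
    linarith [m₁ r hr]
  obtain ⟨σ₁, b₁, b₂, b₃⟩ := S.exists_before s₁'
  obtain ⟨σ, c₁, c₂, c₃⟩ := S'.exists_before b₂
  have key : ∀ u, σ ≤ u → u < s → ht (S'.hold (S'.evIdx s) (S'.tok j)) u <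
      ht (S.hold (S.evIdx s) (S.tok i)) u := fun u u₁ u₂ => not_le.1 fun hle =>
    absurd (hmin ⟨⟨b₁.trans (c₁.trans u₁), u₂.le.trans s₂⟩, (mZ _).2 ⟨_, S.evIdx_le s,
      fun r' hr' => hle.trans (S'.evIdx_min hτ' hr' (fun k hk => (c₃ k hk).trans u₁) u₂.le)⟩⟩)
      (not_le.2 u₂)
  have d₁ : ht (S.hold (S.evIdx s) (S.tok i)) s ≤ ht (S'.hold (S'.evIdx s) (S'.tok j)) s :=
    (S.evIdx_min hτ hr (fun k hk => (b₃ k hk).trans b₂.le) le_rfl).trans (s₃ _ (S'.evIdx_le s))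
  have d₂ : ht (S.hold (S.evIdx s) (S.tok i)) s = ht (S'.hold (S'.evIdx s) (S'.tok j)) s := by
    refine d₁.antisymm (not_lt.1 fun hlt => ?_)
    have k₀ := key σ le_rfl c₂
    generalize S.hold (S.evIdx s) (S.tok i) = p at *
    generalize S'.hold (S'.evIdx s) (S'.tok j) = q at *
    obtain ⟨u, u₁, u₂, u₃⟩ := affine_zero (α := p.2 - q.2) (β := q.1 - p.1) c₂
      (by simp only [ht] at k₀; linarith) (by simp only [ht] at hlt; linarith)
    have := key u u₁.le u₂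
    simp only [ht] at this
    linarith
  refine ⟨s, s₁', s₂.lt_of_ne fun e => ?_, fun e => ?_, d₂⟩
  · have e₁ := S.evIdx_min (s := s) hτ hi (fun k hk => (b₃ k hk).trans b₂.le) le_rfl
    have e₂ := m₂ _ (S'.evIdx_le s)
    rw [← e] at n₂ e₂
    linarith
  · have := key σ le_rfl c₂
    rw [e] at this
    exact lt_irrefl _ this

theorem meet_card (hP : GP P) (S S' : Tok P) {B : Finset Pt} {M : Finset (ℕ × ℕ)}
    (hM : ∀ x ∈ M, x.1 < S.m ∧ x.2 < S'.m ∧ Meet S S' x.1 x.2 ∧ ∃ s, S.t x.1 < s ∧ s < S'.t x.2 ∧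
      S.hold (S.evIdx s) (S.tok x.1) ≠ S'.hold (S'.evIdx s) (S'.tok x.2) ∧
      ht (S.hold (S.evIdx s) (S.tok x.1)) s = ht (S'.hold (S'.evIdx s) (S'.tok x.2)) s ∧
      S.hold (S.evIdx s) (S.tok x.1) ∈ B ∧ S'.hold (S'.evIdx s) (S'.tok x.2) ∈ B) :
    M.card ≤ B.card ^ 2 := by
  choose! h₁ h₂ h₃ s h₄ h₅ h₆ h₇ h₈ h₉ using hM
  rw [sq, ← card_product]
  refine card_le_card_of_injOn (fun x => (S.hold (S.evIdx (s x)) (S.tok x.1),
    S'.hold (S'.evIdx (s x)) (S'.tok x.2))) (fun x hx => mem_product.2 ⟨h₈ x hx, h₉ x hx⟩) ?_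
  intro x hx y hy hxy
  obtain ⟨e₁, e₂⟩ := Prod.ext_iff.1 hxy
  dsimp only at e₁ e₂
  have hs : s x = s y := by
    have a := h₇ x hx
    have b := h₇ y hy
    rw [← e₁, ← e₂] at b
    have c : _ ≠ _ := fun e => h₆ x hx (hP.xinj _
      (S.hold_mem _ (S.evIdx_le _) _ (S.tok_mem _ (h₁ x hx))) _
      (S'.hold_mem _ (S'.evIdx_le _) _ (S'.tok_mem _ (h₂ x hx))) e)
    refine mul_right_cancel₀ (sub_ne_zero.2 c) ?_
    simp only [ht] at a b
    linarith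
  rw [← hs] at e₁ e₂
  exact Prod.ext_iff.2 (meet_unique S S' (h₁ x hx) (h₁ y hy) (h₂ x hx) (h₂ y hy) (h₃ x hx)
    (h₃ y hy) (S.hold_inj _ (S.evIdx_le _) _ (S.tok_mem _ (h₁ x hx)) _ (S.tok_mem _ (h₁ y hy)) e₁)
    (S'.hold_inj _ (S'.evIdx_le _) _ (S'.tok_mem _ (h₂ x hx)) _ (S'.tok_mem _ (h₂ y hy)) e₂)
    (h₄ x hx) (h₅ x hx) (hs ▸ h₄ y hy) (hs ▸ h₅ y hy))

theorem meet_count_all (hP : GP P) (S S' : Tok P) :
    ((range S.m ×ˢ range S'.m).filter fun x => Meet S S' x.1 x.2).card ≤ P.card ^ 2 := by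
  refine meet_card hP S S' fun x hx => ?_
  simp only [mem_filter, mem_product, mem_range] at hx
  obtain ⟨⟨a, b⟩, c⟩ := hx
  obtain ⟨s, h₁, h₂, h₃, h₄⟩ := meet_data S S' a b c
  exact ⟨a, b, c, s, h₁, h₂, h₃, h₄, S.hold_mem _ (S.evIdx_le _) _ (S.tok_mem _ a),
    S'.hold_mem _ (S'.evIdx_le _) _ (S'.tok_mem _ b)⟩

theorem lab_card (S : Tok P) {Λ : Type} {F : Finset ℕ} {lab : ℕ → Λ} (hF : F ⊆ range S.m)
    (hc : ∀ i ∈ F, ∀ j ∈ F, lab i = lab j → S.tok i = S.tok j) {M : Finset (ℕ × ℕ)}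
    (hM : ∀ x ∈ M, x.1 ∈ F ∧ x.2 ∈ F ∧ Meet S S x.1 x.2)
    (hM' : ∀ x ∈ M, ∀ y ∈ M, lab x.1 = lab y.1 → lab x.2 = lab y.2 → S.t x.1 < S.t y.2) :
    M.card ≤ (F.image lab).card ^ 2 := by
  rw [sq, ← card_product]
  refine card_le_card_of_injOn (fun x => (lab x.1, lab x.2)) (fun x hx => mem_product.2
    ⟨mem_image_of_mem _ (hM x hx).1, mem_image_of_mem _ (hM x hx).2.1⟩) ?_
  intro x hx y hy hxy
  obtain ⟨e₁, e₂⟩ := Prod.ext_iff.1 hxy
  obtain ⟨a₁, a₂, a₃⟩ := hM x hx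
  obtain ⟨b₁, b₂, b₃⟩ := hM y hy
  exact Prod.ext_iff.2 (meet_unique' S S (mem_range.1 (hF a₁)) (mem_range.1 (hF b₁))
    (mem_range.1 (hF a₂)) (mem_range.1 (hF b₂)) a₃ b₃ (hc _ a₁ _ b₁ e₁) (hc _ a₂ _ b₂ e₂)
    (hM' x hx y hy e₁ e₂) (hM' y hy x hx e₁.symm e₂.symm))

theorem meet_count_seg (hP : GP P) (S : Tok P) {Λ : Type} {F : Finset ℕ} {lab : ℕ → Λ}
    {B : Finset Pt} (hF : F ⊆ range S.m) (hc : S.Conn F lab B) :
    ((F ×ˢ F).filter fun x => Meet S S x.1 x.2).card ≤ B.card ^ 2 + 2 * (F.image lab).card ^ 2 :=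
  by
  set M := (F ×ˢ F).filter fun x => Meet S S x.1 x.2
  have hM : ∀ x ∈ M, x.1 ∈ F ∧ x.2 ∈ F ∧ Meet S S x.1 x.2 := fun x hx => by
    simpa only [M, mem_filter, mem_product, and_assoc] using hx
  have hm : ∀ i ∈ F, i < S.m := fun i hi => mem_range.1 (hF hi)
  have hd := fun x hx => meet_data S S (hm _ (hM x hx).1) (hm _ (hM x hx).2.1) (hM x hx).2.2
  choose! s h₁ h₂ h₃ h₄ using hd
  have c₁ := meet_card hP S S (B := B) (M := M.filter fun x =>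
      S.hold (S.evIdx (s x)) (S.tok x.1) ∈ B ∧ S.hold (S.evIdx (s x)) (S.tok x.2) ∈ B)
    fun x hx => by
      obtain ⟨a, b⟩ := mem_filter.1 hx
      exact ⟨hm _ (hM x a).1, hm _ (hM x a).2.1, (hM x a).2.2, s x, h₁ x a, h₂ x a, h₃ x a,
        h₄ x a, b⟩
  have c₂ := S.lab_card hF (fun i hi j hj h => (hc i hi j hj h).1)
    (M := M.filter fun x => S.hold (S.evIdx (s x)) (S.tok x.1) ∉ B)
    (fun x hx => hM x (mem_filter.1 hx).1) fun x hx y hy e _ => by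
      obtain ⟨a, -⟩ := mem_filter.1 hx
      obtain ⟨b, c⟩ := mem_filter.1 hy
      refine lt_trans (not_le.1 fun h => c ?_) (h₂ y b)
      have := (S.lt_evIdx (s := s y) (hm _ (hM x a).1)).not.2 (not_lt.2 h)
      exact (hc _ (hM y b).1 _ (hM x a).1 e.symm).2 _
        ((S.lt_evIdx (hm _ (hM y b).1)).2 (h₁ y b)).le (by omega)
  have c₃ := S.lab_card hF (fun i hi j hj h => (hc i hi j hj h).1)
    (M := M.filter fun x => S.hold (S.evIdx (s x)) (S.tok x.2) ∉ B)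
    (fun x hx => hM x (mem_filter.1 hx).1) fun x hx y hy _ e => by
      obtain ⟨a, c⟩ := mem_filter.1 hx
      obtain ⟨b, -⟩ := mem_filter.1 hy
      refine lt_of_lt_of_le (h₁ x a) (not_lt.1 fun h => c ?_)
      have := (S.lt_evIdx (s := s x) (hm _ (hM x a).2.1)).not.2 (not_lt.2 (h₂ x a).le)
      obtain ⟨d₁, d₂⟩ := hc _ (hM y b).2.1 _ (hM x a).2.1 e.symm
      exact d₁ ▸ d₂ _ ((S.lt_evIdx (hm _ (hM y b).2.1)).2 h).le (by omega)
  have hsub : M ⊆ (M.filter fun x =>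
      S.hold (S.evIdx (s x)) (S.tok x.1) ∈ B ∧ S.hold (S.evIdx (s x)) (S.tok x.2) ∈ B) ∪
      ((M.filter fun x => S.hold (S.evIdx (s x)) (S.tok x.1) ∉ B) ∪
      M.filter fun x => S.hold (S.evIdx (s x)) (S.tok x.2) ∉ B) := fun x hx => by
    simp only [mem_union, mem_filter (s := M), hx, true_and]
    tauto
  have := (card_le_card hsub).trans ((card_union_le _ _).trans (Nat.add_le_add c₁
    ((card_union_le _ _).trans (Nat.add_le_add c₂ c₃))))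
  omega

theorem cross_card (hP : GP P) (S : Tok P) {F : Finset ℕ} (hF : F ⊆ range S.m)
    (Q : ℕ → ℕ → Prop) (hQ : ∀ i j, Q i j → Q j i) :
    ((F ×ˢ F).filter fun x => Cross (S.seg x.1) (S.seg x.2) ∧ Q x.1 x.2).card ≤
      2 * ((F ×ˢ F).filter fun x => Meet S S x.1 x.2 ∧ Q x.1 x.2).card := by
  set M := (F ×ˢ F).filter fun x => Meet S S x.1 x.2 ∧ Q x.1 x.2
  refine (card_le_card (t := M ∪ M.image Prod.swap) fun x hx => ?_).trans
    ((card_union_le _ _).trans ((Nat.add_le_add_left card_image_le _).trans_eq (two_mul _).symm))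
  obtain ⟨a, b, c⟩ := mem_filter.1 hx
  obtain ⟨a₁, a₂⟩ := mem_product.1 a
  rcases cross_meet hP S S (mem_range.1 (hF a₁)) (mem_range.1 (hF a₂)) b with d | d
  · exact mem_union_left _ (mem_filter.2 ⟨a, d, c⟩)
  · exact mem_union_right _ (mem_image.2
      ⟨x.swap, mem_filter.2 ⟨mem_product.2 ⟨a₂, a₁⟩, d, hQ _ _ c⟩, rfl⟩)

theorem crn_le (hP : GP P) (S : Tok P) {Λ : Type} {F : Finset ℕ} {lab : ℕ → Λ}
    {B : Finset Pt} (hF : F ⊆ range S.m) (hc : S.Conn F lab B) :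
    S.crn F ≤ 2 * B.card ^ 2 + 4 * (F.image lab).card ^ 2 := by
  have h₁ := cross_card hP S hF (fun _ _ => True) fun _ _ h => h
  have h₂ := meet_count_seg hP S hF hc
  simp only [and_true] at h₁
  unfold crn
  omega

theorem image_inst {α β : Type} [DecidableEq β] (f : α → β) (F : Finset α) :
    @image _ _ (fun a b => propDecidable (a = b)) f F = F.image f := by
  ext x
  simp only [mem_image]

theorem crn_win (hP : GP P) (S : Tok P) {i₀ i₁ : ℕ} (h : i₁ ≤ S.m) {F : Finset ℕ}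
    (hF : F ⊆ Ico i₀ i₁) : S.crn F ≤ 6 * (S.act i₀ i₁).card ^ 2 := by
  have h₁ := crn_le hP S (lab := S.tok) (B := S.act i₀ i₁)
    (fun i hi => mem_range.2 ((mem_Ico.1 (hF hi)).2.trans_le h)) fun i hi j hj e => by
      obtain ⟨a, b⟩ := mem_Ico.1 (hF hi)
      obtain ⟨-, c⟩ := mem_Ico.1 (hF hj)
      exact ⟨e, fun r h₁ h₂ => S.hold_mem_act h a b (a.trans h₁) (h₂.trans c)⟩
  have h₂ := Nat.pow_le_pow_left ((card_le_card (image_subset_image hF)).trans (S.card_tok_le h)) 2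
  rw [image_inst] at h₁
  omega

/-- crossings between different windows: at most one per ordered pair of (token, window) labels -/
theorem crn_split (hP : GP P) (S : Tok P) {F : Finset ℕ} (hF : F ⊆ range S.m) (W : ℕ) :
    S.crn F ≤ 2 * (F.image fun i => (S.tok i, i / W)).card ^ 2 +
      ((F ×ˢ F).filter fun x => Cross (S.seg x.1) (S.seg x.2) ∧ x.1 / W = x.2 / W).card := by
  have h₁ := cross_card hP S hF (fun i j => i / W ≠ j / W) fun _ _ h => h.symm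
  have h₂ := S.lab_card (lab := fun i => (S.tok i, i / W)) hF
    (fun i _ j _ h => (Prod.ext_iff.1 h).1)
    (M := (F ×ˢ F).filter fun x => Meet S S x.1 x.2 ∧ x.1 / W ≠ x.2 / W)
    (fun x hx => by
      simp only [mem_filter, mem_product] at hx
      exact ⟨hx.1.1, hx.1.2, hx.2.1⟩) fun x hx y hy _ e => by
      simp only [mem_filter, mem_product] at hx hy
      have a : x.1 ≤ x.2 := not_lt.1 fun h =>
        absurd (S.t_lt _ _ h (mem_range.1 (hF hx.1.1))) (not_lt.2 hx.2.1.1.le)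
      have b : x.2 / W = y.2 / W := (Prod.ext_iff.1 e).2
      exact S.t_lt _ _ (Nat.lt_of_div_lt_div
        (b ▸ (Nat.div_le_div_right a).lt_of_ne hx.2.2)) (mem_range.1 (hF hy.1.2))
  rw [image_inst] at h₂
  refine le_trans (card_le_card fun x hx => ?_) ((card_union_le _ _).trans (Nat.add_le_add_right
    (h₁.trans (Nat.mul_le_mul_left 2 (le_trans (card_le_card fun x hx => ?_) h₂))) _))
  · simp only [mem_union, mem_filter] at hx ⊢
    tauto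
  · simp only [mem_filter] at hx ⊢
    exact hx

theorem seg_image (S : Tok P) {F : Finset ℕ} {U : Finset Pt} (hF : F ⊆ range S.m)
    (hU : ∀ i ∈ F, S.a i ∈ U ∧ S.b i ∈ U) : SegsOn U (F.image S.seg) ∧
      (F.image S.seg).card = F.card ∧ (crNum (F.image S.seg) : ℝ) ≤ S.crn F := by
  refine ⟨fun e he => ?_, card_image_of_injOn fun i hi j hj h => ?_, Nat.cast_le.2 ?_⟩
  · obtain ⟨i, hi, rfl⟩ := mem_image.1 he
    exact ⟨(hU i hi).1, (hU i hi).2, S.ab_lt i (mem_range.1 (hF hi))⟩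
  · exact S.ab_inj (mem_range.1 (hF hi)) (mem_range.1 (hF hj)) (Prod.ext_iff.1 h).1
      (Prod.ext_iff.1 h).2
  · refine le_trans (card_le_card fun x hx => ?_) (card_image_le (f := Prod.map S.seg S.seg))
    obtain ⟨a, b⟩ := mem_filter.1 hx
    obtain ⟨i, hi, e₁⟩ := mem_image.1 (mem_product.1 a).1
    obtain ⟨j, hj, e₂⟩ := mem_image.1 (mem_product.1 a).2
    exact mem_image.2 ⟨(i, j), mem_filter.2 ⟨mem_product.2 ⟨hi, hj⟩, e₁ ▸ e₂ ▸ b⟩,
      Prod.ext e₁ e₂⟩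

theorem tok_lin (hP : GP P) (S : Tok P) {F : Finset ℕ} {U : Finset Pt} (hF : F ⊆ range S.m)
    (hUP : U ⊆ P) (hU : ∀ i ∈ F, S.a i ∈ U ∧ S.b i ∈ U) {D : ℝ} (hD : 1 ≤ D) :
    (F.card : ℝ) ≤ 3 * D * U.card + S.crn F / D ^ 2 := by
  obtain ⟨a, b, c⟩ := S.seg_image hF hU
  refine (b ▸ crossing_lin (hP.mono hUP) a hD).trans ?_
  gcongr

theorem tok_cube (hP : GP P) (S : Tok P) {F : Finset ℕ} {U : Finset Pt} (hF : F ⊆ range S.m)
    (hUP : U ⊆ P) (hU : ∀ i ∈ F, S.a i ∈ U ∧ S.b i ∈ U) :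
    (F.card : ℝ) ≤ 6 * U.card ∨ (F.card : ℝ) ^ 3 ≤ 72 * (U.card : ℝ) ^ 2 * S.crn F := by
  obtain ⟨a, b, c⟩ := S.seg_image hF hU
  refine (b ▸ crossing_cube (hP.mono hUP) a).imp_right fun h => le_trans h ?_
  gcongr

theorem tok_hd (hP : GP P) (S : Tok P) {F : Finset ℕ} {U H : Finset Pt} (hF : F ⊆ range S.m)
    (hUP : U ⊆ P) (hH : H ⊆ U) (hU : ∀ i ∈ F, S.a i ∈ U ∧ S.b i ∈ U)
    (hFH : ∀ i ∈ F, S.a i ∈ H ∨ S.b i ∈ H) {D₁ D₂ : ℝ} (h₁ : 1 ≤ D₁) (h₂ : D₁ ≤ D₂) :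
    (F.card : ℝ) ≤ 6 * D₂ * H.card + 3 * D₁ * U.card + 2 * S.crn F / (D₁ * D₂) := by
  obtain ⟨a, b, c⟩ := S.seg_image hF hU
  refine (b ▸ crossing_hd (hP.mono hUP) a hH (fun e he => ?_) h₁ h₂).trans ?_
  · obtain ⟨i, hi, rfl⟩ := mem_image.1 he
    exact hFH i hi
  · have : 0 < D₁ * D₂ := mul_pos (by linarith) (by linarith)
    gcongr

theorem conn_mem (S : Tok P) {Λ : Type} {F : Finset ℕ} {lab : ℕ → Λ} {B : Finset Pt}
    (hF : F ⊆ range S.m) (hc : S.Conn F lab B) :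
    ∀ i ∈ F, S.a i ∈ B ∩ P ∧ S.b i ∈ B ∩ P := fun i hi => by
  have hm := mem_range.1 (hF hi)
  have h := (hc i hi i hi rfl).2
  exact ⟨mem_inter.2 ⟨S.hold_tok i hm ▸ h i le_rfl i.le_succ, S.a_mem hm⟩,
    mem_inter.2 ⟨S.hold_succ_tok i hm ▸ h (i + 1) i.le_succ le_rfl, S.b_mem hm⟩⟩

theorem ds_lin (hP : GP P) (S : Tok P) {Λ : Type} {F : Finset ℕ} {lab : ℕ → Λ} {B : Finset Pt}
    (hF : F ⊆ range S.m) (hc : S.Conn F lab B) {D : ℝ} (hD : 1 ≤ D) :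
    (F.card : ℝ) ≤ 3 * D * B.card +
      (2 * (B.card : ℝ) ^ 2 + 4 * ((F.image lab).card : ℝ) ^ 2) / D ^ 2 := by
  have h₁ : (S.crn F : ℝ) ≤ 2 * (B.card : ℝ) ^ 2 + 4 * ((F.image lab).card : ℝ) ^ 2 := by
    exact_mod_cast crn_le hP S hF hc
  refine (tok_lin hP S hF inter_subset_right (S.conn_mem hF hc) hD).trans ?_
  gcongr
  exact inter_subset_left

theorem ds_mu (hP : GP P) (S : Tok P) {Λ : Type} {F : Finset ℕ} {lab : ℕ → Λ} {B : Finset Pt}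
    (hF : F ⊆ range S.m) (hc : S.Conn F lab B) {μ : ℝ} (hμ : 1 ≤ μ) (hB : (B.card : ℝ) ≤ μ ^ 3) :
    (F.card : ℝ) ≤ 7 * μ * (μ ^ 3 + (F.image lab).card) := by
  have h₁ : (S.crn F : ℝ) ≤ 2 * (B.card : ℝ) ^ 2 + 4 * ((F.image lab).card : ℝ) ^ 2 := by
    exact_mod_cast crn_le hP S hF hc
  have h₂ : ((B ∩ P).card : ℝ) ≤ μ ^ 3 :=
    le_trans (Nat.cast_le.2 (card_le_card inter_subset_left)) hB
  have hz : (0 : ℝ) ≤ (F.image lab).card := Nat.cast_nonneg _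
  have hμ₀ : 0 < μ := by linarith
  generalize ((F.image lab).card : ℝ) = z at *
  rcases tok_cube hP S hF inter_subset_right (S.conn_mem hF hc) with h | h
  · have : 0 < μ ^ 3 := by positivity
    nlinarith
  · refine le_of_pow_le_pow_left₀ three_ne_zero (by positivity) (h.trans ?_)
    calc _ ≤ 72 * (μ ^ 3) ^ 2 * (2 * (μ ^ 3) ^ 2 + 4 * z ^ 2) := by
          gcongr
          refine h₁.trans ?_
          gcongr
      _ ≤ _ := by
          have : 0 ≤ 199 * μ ^ 12 + 1029 * μ ^ 9 * z + 741 * μ ^ 6 * z ^ 2 + 343 * μ ^ 3 * z ^ 3 := by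
            positivity
          linarith

/-- Dey's bound -/
theorem dey (hP : GP P) (S : Tok P) {N : ℝ} (hN : 1 ≤ N) (hn : (P.card : ℝ) ≤ N ^ 3) :
    (S.m : ℝ) ≤ 14 * N ^ 4 := by
  have h₁ := ds_mu hP S (F := range S.m) (lab := S.tok) (B := P) subset_rfl (fun i hi j hj e =>
    ⟨e, fun r _ hr => S.hold_mem r (hr.trans (mem_range.1 hj)) _
      (S.tok_mem i (mem_range.1 hi))⟩) hN hn
  have h₂ : (((range S.m).image S.tok).card : ℝ) ≤ N ^ 3 := by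
    rw [range_eq_Ico]
    exact le_trans (Nat.cast_le.2 ((S.card_tok_le le_rfl).trans
      (card_le_card (S.act_subset le_rfl)))) hn
  rw [card_range, image_inst] at h₁
  nlinarith

end Tok

end Vale.Agent.P065
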