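import Vale.Agent.P065.LevDefs
import Vale.Agent.P065.Meet

/-! Most visits are central (task P). -/

namespace Vale.Agent.P065

open Classical Finset

theorem cent_rows (A : Finset Pt) (h : Pt → ℝ)
    (h3 : ∀ p ∈ A, ∀ q ∈ A, ∀ r ∈ A, h p = h q → h p = h r → p = q ∨ p = r ∨ q = r) {L : ℕ}
    (hL : 0 < L) : ∃ row : Pt → ℕ, (∀ p q, h p ≤ h q → row p ≤ row q) ∧
      (∀ r, (A.filter fun p => row p = r).card ≤ 2 * L) ∧ ∀ p, row p < A.card / L + 1 := by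
  let n : Pt → ℕ := fun p => (A.filter fun q => h q < h p).card
  have hn : ∀ p q, h p ≤ h q → n p ≤ n q := fun p q k =>
    card_le_card fun r hr => mem_filter.2 ⟨(mem_filter.1 hr).1, (mem_filter.1 hr).2.trans_le k⟩
  have hn' : ∀ p ∈ A, ∀ q, h p < h q → n p < n q := fun p hp q k =>
    card_lt_card ⟨fun r hr => mem_filter.2 ⟨(mem_filter.1 hr).1, (mem_filter.1 hr).2.trans k⟩,
      fun l => lt_irrefl _ (mem_filter.1 (l (mem_filter.2 ⟨hp, k⟩))).2⟩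
  refine ⟨fun p => n p / L, fun p q k => Nat.div_le_div_right (hn p q k), fun r => ?_,
    fun p => Nat.lt_succ_of_le (Nat.div_le_div_right (card_filter_le _ _))⟩
  refine (card_le_mul_card_image (f := n) _ 2 fun m _ => ?_).trans (Nat.mul_le_mul_left _
    ((card_le_card (t := Ico (r * L) (r * L + L)) fun m hm => ?_).trans (by simp)))
  · by_contra k
    obtain ⟨a, b, c, ha, hb, hc, h1, h2, h4⟩ := two_lt_card_iff.1 (not_le.1 k)
    simp only [mem_filter] at ha hb hc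
    have key : ∀ p ∈ A, ∀ q ∈ A, n p = m → n q = m → h p = h q :=
      fun p hp q hq k1 k2 => le_antisymm (not_lt.1 fun l => by have := hn' q hq p l; omega)
        (not_lt.1 fun l => by have := hn' p hp q l; omega)
    rcases h3 a ha.1.1 b hb.1.1 c hc.1.1 (key _ ha.1.1 _ hb.1.1 ha.2 hb.2)
      (key _ ha.1.1 _ hc.1.1 ha.2 hc.2) with l | l | l
    exacts [h1 l, h2 l, h4 l]
  · obtain ⟨p, hp, rfl⟩ := mem_image.1 hm
    have := (Nat.div_eq_iff hL).1 (mem_filter.1 hp).2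
    rw [mem_Ico]
    omega

theorem cent_piece {P : Finset Pt} (S : Tok P) {Λ γ : Type} [DecidableEq γ] {i₀ i₁ : ℕ}
    (h₁ : i₁ ≤ S.m)
    (c : Pt → γ) (hc : ∀ τ ∈ S.T, ∀ r r' r'', i₀ ≤ r → r ≤ r' → r' ≤ r'' → r'' ≤ i₁ →
      c (S.hold r τ) = c (S.hold r'' τ) → c (S.hold r' τ) = c (S.hold r τ))
    {F : Finset ℕ} {lab : ℕ → Λ} (hF : ∀ i ∈ F, i₀ ≤ i ∧ i < i₁)
    (hlab : ∀ i ∈ F, ∀ j ∈ F, lab i = lab j → S.tok i = S.tok j) {x : γ}
    (hx : ∀ i ∈ F, c (S.a i) = x) : ∃ F' ⊆ F, F.card ≤ F'.card + (F.image lab).card ∧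
      S.Conn F' lab ((S.act i₀ i₁).filter fun p => c p = x) := by
  refine ⟨F.filter fun i => c (S.b i) = x, filter_subset _ _, ?_, fun i hi j hj e => ?_⟩
  · rw [← card_filter_add_card_filter_not (s := F) fun i => c (S.b i) = x]
    refine Nat.add_le_add_left (card_le_card_of_injOn lab
      (fun i hi => mem_image_of_mem _ (mem_filter.1 hi).1) ?_) _
    have aux : ∀ i ∈ F, ∀ j ∈ F, lab i = lab j → i < j → c (S.b i) = x := fun i hi j hj e k => by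
      have k1 := hF i hi
      have k2 := hF j hj
      have := hc _ (S.tok_mem i (by omega)) i (i + 1) j k1.1 (by omega) k k2.2.le (by
        rw [S.hold_tok i (by omega), hlab i hi j hj e, S.hold_tok j (by omega), hx i hi, hx j hj])
      rwa [S.hold_tok i (by omega), S.hold_succ_tok i (by omega), hx i hi] at this
    intro i hi j hj e
    rw [mem_coe, mem_filter] at hi hj
    rcases lt_trichotomy i j with k | k | k
    · exact absurd (aux i hi.1 j hj.1 e k) hi.2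
    · exact k
    · exact absurd (aux j hj.1 i hi.1 e.symm k) hj.2
  · rw [mem_filter] at hi hj
    have k1 := hF i hi.1
    have k2 := hF j hj.1
    have k3 := hlab i hi.1 j hj.1 e
    refine ⟨k3, fun r l1 l2 => mem_filter.2
      ⟨S.hold_mem_act h₁ k1.1 k1.2 (by omega) (by omega), ?_⟩⟩
    have := hc _ (S.tok_mem i (by omega)) i r (j + 1) k1.1 l1 l2 k2.2 (by
      rw [S.hold_tok i (by omega), k3, S.hold_succ_tok j (by omega), hx i hi.1, hj.2])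
    rwa [S.hold_tok i (by omega), hx i hi.1] at this

theorem sum_fiber_le {α β : Type} [DecidableEq β] (s : Finset α) (t : Finset β) (g : α → β) :
    ∑ j ∈ t, (s.filter fun i => g i = j).card ≤ s.card :=
  (sum_card_fiberwise_eq_card_filter s t g).trans_le (card_filter_le _ _)

theorem cent_row_bound {P : Finset Pt} (hP : GP P) (S : Tok P) {Λ : Type} {i₀ i₁ : ℕ}
    (h₁ : i₁ ≤ S.m) (row : Pt → ℕ)
    (hc : ∀ τ ∈ S.T, ∀ r r', i₀ ≤ r → r ≤ r' → r' ≤ i₁ → row (S.hold r τ) ≤ row (S.hold r' τ))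
    {F : Finset ℕ} {lab : ℕ → Λ} (hF : ∀ i ∈ F, i₀ ≤ i ∧ i < i₁)
    (hlab : ∀ i ∈ F, ∀ j ∈ F, lab i = lab j → S.tok i = S.tok j) {Lb : Finset Λ}
    (hLb : ∀ i ∈ F, lab i ∈ Lb) (m₁ m₂ : Λ → Pt) {μ : ℝ} (hμ : 1 ≤ μ) {R : ℕ}
    (hR : ∀ p, row p < R) (hB : ∀ r, (((S.act i₀ i₁).filter fun p => row p = r).card : ℝ) ≤ μ ^ 3) :
    ((F.filter fun i => row (m₁ (lab i)) = row (S.a i) ∨ row (m₂ (lab i)) = row (S.a i)).card : ℝ) ≤
      8 * μ * (R * μ ^ 3 + 2 * Lb.card) := by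
  generalize hG : (F.filter fun i => row (m₁ (lab i)) = row (S.a i) ∨
    row (m₂ (lab i)) = row (S.a i)) = G
  have hGF : ∀ i ∈ G, i ∈ F ∧ (row (m₁ (lab i)) = row (S.a i) ∨ row (m₂ (lab i)) = row (S.a i)) :=
    fun i hi => mem_filter.1 (hG ▸ hi)
  have key : ∀ r, ((G.filter fun i => row (S.a i) = r).card : ℝ) ≤ 8 * μ * (μ ^ 3 +
      (((Lb.filter fun σ => row (m₁ σ) = r).card + (Lb.filter fun σ => row (m₂ σ) = r).card : ℕ))) := by
    intro r
    obtain ⟨F', k1, k2, k3⟩ := cent_piece S h₁ row (fun τ hτ r r' r'' a b c d e =>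
      le_antisymm (e ▸ hc τ hτ r' r'' (a.trans b) c d) (hc τ hτ r r' a b (c.trans d)))
      (F := G.filter fun i => row (S.a i) = r) (lab := lab)
      (fun i hi => hF i (hGF i (mem_filter.1 hi).1).1)
      (fun i hi j hj => hlab i (hGF i (mem_filter.1 hi).1).1 j (hGF j (mem_filter.1 hj).1).1)
      fun i hi => (mem_filter.1 hi).2
    have k4 := S.ds_mu hP (fun i hi => mem_range.2
      ((hF i (hGF i (mem_filter.1 (k1 hi)).1).1).2.trans_le h₁)) k3 hμ (hB r)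
    have k5 : ((G.filter fun i => row (S.a i) = r).image lab).card ≤
        (Lb.filter fun σ => row (m₁ σ) = r).card + (Lb.filter fun σ => row (m₂ σ) = r).card := by
      refine le_trans (card_le_card fun σ hσ => ?_) (card_union_le _ _)
      obtain ⟨i, hi, rfl⟩ := mem_image.1 hσ
      obtain ⟨l1, l2⟩ := mem_filter.1 hi
      obtain ⟨l3, l4⟩ := hGF i l1
      rw [mem_union, mem_filter, mem_filter, ← l2]
      exact l4.imp (fun l => ⟨hLb i l3, l⟩) fun l => ⟨hLb i l3, l⟩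
    have k6 := (card_le_card (image_subset_image (f := lab) k1)).trans k5
    generalize (Lb.filter fun σ => row (m₁ σ) = r).card +
      (Lb.filter fun σ => row (m₂ σ) = r).card = z at *
    have k7 : (((G.filter fun i => row (S.a i) = r).card : ℕ) : ℝ) ≤ F'.card + z := by
      exact_mod_cast k2.trans (Nat.add_le_add_left k5 _)
    have k8 : ((F'.image lab).card : ℝ) ≤ z := by exact_mod_cast k6
    have k9 : (0 : ℝ) ≤ z := Nat.cast_nonneg _
    have k10 : 0 ≤ μ * μ ^ 3 := by positivity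
    nlinarith
  rw [card_eq_sum_card_fiberwise (f := fun i => row (S.a i)) (t := range R)
    fun i _ => mem_coe.2 (mem_range.2 (hR _)), Nat.cast_sum]
  refine (sum_le_sum fun r _ => key r).trans ?_
  rw [← mul_sum, sum_add_distrib, sum_const, card_range, nsmul_eq_mul, ← Nat.cast_sum,
    sum_add_distrib]
  have k1 := sum_fiber_le Lb (range R) fun σ => row (m₁ σ)
  have k2 := sum_fiber_le Lb (range R) fun σ => row (m₂ σ)
  gcongr
  exact_mod_cast (Nat.add_le_add k1 k2).trans_eq (two_mul _).symm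

theorem cent : ∃ C₀ : ℝ, 1 ≤ C₀ ∧ ∀ (P : Finset Pt), GP P → ∀ (S : Tok P) (Λ : Type)
    (Lb : Finset Λ) (τ : Λ → Pt) (k₁ k₂ : Λ → ℕ) (F : Finset ℕ) (lab : ℕ → Λ) (i₀ i₁ : ℕ)
    (ν ϱ : ℝ), i₀ + 2 ≤ i₁ → i₁ ≤ S.m → 1 ≤ ϱ → ϱ ^ 2 ≤ ν →
    ((S.act i₀ i₁).card : ℝ) ≤ ν ^ 3 → (Lb.card : ℝ) ≤ ν ^ 3 →
    (∀ i ∈ F, lab i ∈ Lb ∧ S.tok i = τ (lab i) ∧ i₀ ≤ k₁ (lab i) ∧ k₁ (lab i) ≤ i ∧
      i < k₂ (lab i) ∧ k₂ (lab i) ≤ i₁) →
    ((F.filter fun i => ((Lb.filter fun σ => S.sw i₀ i₁ (S.hold (k₁ σ) (τ σ)) (S.a i) ∧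
      S.sw i₀ i₁ (S.a i) (S.hold (k₂ σ) (τ σ))).card : ℝ) < ν ^ 3 / ϱ ^ 5).card : ℝ) ≤
      C₀ * ν ^ 4 / ϱ := by
  refine ⟨1000, by norm_num, fun P hP S Λ Lb τ k₁ k₂ F lab i₀ i₁ ν ϱ h₀ h₁ hϱ hν hA hLb hF => ?_⟩
  obtain ⟨D, rfl⟩ : ∃ D, ν = D * ϱ := ⟨ν / ϱ, by field_simp⟩
  have hϱ0 : 0 < ϱ := by linarith
  have hD : ϱ ≤ D := by nlinarith
  have hD1 : 1 ≤ D := hϱ.trans hD
  have hD3 : 1 ≤ D ^ 3 := one_le_pow₀ hD1
  obtain ⟨L, hL1, hL2⟩ : ∃ L : ℕ, D ^ 3 ≤ L ∧ (L : ℝ) ≤ 2 * D ^ 3 :=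
    ⟨⌈D ^ 3⌉₊, Nat.le_ceil _, by linarith [Nat.ceil_lt_add_one (show 0 ≤ D ^ 3 by positivity)]⟩
  have hL : 0 < L := by exact_mod_cast (show (0 : ℝ) < L by linarith)
  have hAP := S.act_subset (i₀ := i₀) h₁
  obtain ⟨row, r1, r2, r3⟩ := cent_rows (S.act i₀ i₁) (fun p => ht p (S.t i₀))
    (fun p hp q hq r hr => hP.three p (hAP hp) q (hAP hq) r (hAP hr) _) hL
  obtain ⟨col, c1, c2, c3⟩ := cent_rows (S.act i₀ i₁) (fun p => -ht p (S.t (i₁ - 1)))
    (fun p hp q hq r hr a b => hP.three p (hAP hp) q (hAP hq) r (hAP hr) _ (neg_injective a)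
      (neg_injective b)) hL
  generalize hR : (S.act i₀ i₁).card / L + 1 = R at r3 c3
  have hR' : (R : ℝ) ≤ 2 * ϱ ^ 3 := by
    have k1 : (((S.act i₀ i₁).card / L : ℕ) : ℝ) ≤ ϱ ^ 3 := by
      refine Nat.cast_div_le.trans ((div_le_iff₀ (by positivity)).2 (hA.trans ?_))
      rw [mul_pow, mul_comm]
      gcongr
    have k2 : 1 ≤ ϱ ^ 3 := one_le_pow₀ hϱ
    rw [← hR]
    push_cast
    linarith
  have hmono : ∀ τ ∈ S.T, ∀ r r', i₀ ≤ r → r ≤ r' → r' ≤ i₁ →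
      row (S.hold r τ) ≤ row (S.hold r' τ) ∧ col (S.hold r τ) ≤ col (S.hold r' τ) := by
    intro τ hτ r r' a b c
    rcases S.chain hτ b (c.trans h₁) with e | ⟨e, k⟩
    · rw [e]; exact ⟨le_rfl, le_rfl⟩
    · have := S.sw_mono k a e c h₁
      exact ⟨r1 _ _ this.2.1, c1 _ _ (neg_le_neg this.2.2)⟩
  have hF1 : ∀ i ∈ F, i₀ ≤ i ∧ i < i₁ := fun i hi => by have := hF i hi; omega
  have hF2 : ∀ i ∈ F, ∀ j ∈ F, lab i = lab j → S.tok i = S.tok j := fun i hi j hj e => by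
    rw [(hF i hi).2.1, (hF j hj).2.1, e]
  have hB : ∀ n : ℕ, n ≤ 2 * L → (n : ℝ) ≤ (2 * D) ^ 3 := fun n hn => by
    have : (n : ℝ) ≤ 2 * L := by exact_mod_cast hn
    linarith [show (2 * D) ^ 3 = 8 * D ^ 3 by ring]
  have b1 := cent_row_bound hP S h₁ row (fun τ a r r' b c d => (hmono τ a r r' b c d).1) hF1 hF2
    (fun i hi => (hF i hi).1) (fun σ => S.hold (k₁ σ) (τ σ)) (fun σ => S.hold (k₂ σ) (τ σ))
    (μ := 2 * D) (by linarith) r3 fun r => hB _ (r2 r)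
  have b2 := cent_row_bound hP S h₁ col (fun τ a r r' b c d => (hmono τ a r r' b c d).2) hF1 hF2
    (fun i hi => (hF i hi).1) (fun σ => S.hold (k₁ σ) (τ σ)) (fun σ => S.hold (k₂ σ) (τ σ))
    (μ := 2 * D) (by linarith) c3 fun r => hB _ (c2 r)
  have b3 : 8 * (2 * D) * (R * (2 * D) ^ 3 + 2 * Lb.card) ≤ 288 * (D ^ 4 * ϱ ^ 3) := by
    calc _ ≤ 8 * (2 * D) * (2 * ϱ ^ 3 * (2 * D) ^ 3 + 2 * (D * ϱ) ^ 3) := by gcongr
      _ = _ := by ring
  obtain ⟨f, hf⟩ : ∃ f, f = (D * ϱ) ^ 3 / ϱ ^ 5 := ⟨_, rfl⟩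
  rw [← hf]
  have hf' : f * ϱ ^ 2 = D ^ 3 := by rw [hf]; field_simp
  have hf0 : 0 ≤ f := by rw [hf]; positivity
  generalize hG : (F.filter fun i => ((Lb.filter fun σ =>
    S.sw i₀ i₁ (S.hold (k₁ σ) (τ σ)) (S.a i) ∧
      S.sw i₀ i₁ (S.a i) (S.hold (k₂ σ) (τ σ))).card : ℝ) < f) = G
  generalize hG1 : (F.filter fun i => row (S.hold (k₁ (lab i)) (τ (lab i))) = row (S.a i) ∨
    row (S.hold (k₂ (lab i)) (τ (lab i))) = row (S.a i)) = G1 at b1
  generalize hG2 : (F.filter fun i => col (S.hold (k₁ (lab i)) (τ (lab i))) = col (S.a i) ∨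
    col (S.hold (k₂ (lab i)) (τ (lab i))) = col (S.a i)) = G2 at b2
  have hH : ∀ i ∈ G \ (G1 ∪ G2), i ∈ F ∧ ((Lb.filter fun σ =>
      S.sw i₀ i₁ (S.hold (k₁ σ) (τ σ)) (S.a i) ∧
      S.sw i₀ i₁ (S.a i) (S.hold (k₂ σ) (τ σ))).card : ℝ) < f ∧ ∀ p ∈ P,
      (row p, col p) = (row (S.a i), col (S.a i)) →
      S.sw i₀ i₁ (S.hold (k₁ (lab i)) (τ (lab i))) p ∧
        S.sw i₀ i₁ p (S.hold (k₂ (lab i)) (τ (lab i))) := by
    intro i hi
    rw [mem_sdiff, mem_union, ← hG, ← hG1, ← hG2, mem_filter, mem_filter, mem_filter] at hi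
    obtain ⟨⟨l1, l2⟩, l3⟩ := hi
    refine ⟨l1, l2, fun p hp e => ?_⟩
    obtain ⟨-, m2, m3, m4, m5, m6⟩ := hF i l1
    have hτ : τ (lab i) ∈ S.T := m2 ▸ S.tok_mem i (by omega)
    have n1 := hmono _ hτ _ i m3 m4 (by omega)
    have n2 := hmono _ hτ i _ (by omega) m5.le m6
    rw [show S.hold i (τ (lab i)) = S.a i from m2 ▸ S.hold_tok i (by omega)] at n1 n2
    simp only [l1, true_and, not_or] at l3
    rw [Prod.mk.injEq] at e
    have key : ∀ p ∈ P, ∀ q ∈ P, row p < row q → col p < col q → S.sw i₀ i₁ p q :=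
      fun p hp q hq a b => S.sw_of_le hP h₀ h₁ hp hq (fun e => by rw [e] at a; omega)
        (le_of_not_ge fun k => absurd (r1 _ _ k) (not_le.2 a))
        (le_of_not_ge fun k => absurd (c1 _ _ (neg_le_neg k)) (not_le.2 b))
    exact ⟨key _ (S.hold_mem _ (by omega) _ hτ) p hp (by omega) (by omega),
      key p hp _ (S.hold_mem _ (by omega) _ hτ) (by omega) (by omega)⟩
  generalize hH' : G \ (G1 ∪ G2) = H at hH
  have key : ∀ κ : ℕ × ℕ, ((H.filter fun i => (row (S.a i), col (S.a i)) = κ).card : ℝ) ≤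
      (f + 4 * f ^ 2 / D ^ 2) + (3 * D + 8 * D) *
        ((S.act i₀ i₁).filter fun p => (row p, col p) = κ).card := by
    intro κ
    generalize hK : (H.filter fun i => (row (S.a i), col (S.a i)) = κ) = K
    have hK' : ∀ i ∈ K, i ∈ H ∧ (row (S.a i), col (S.a i)) = κ := fun i hi => mem_filter.1 (hK ▸ hi)
    have k0 : ((K.image lab).card : ℝ) ≤ f := by
      rcases K.eq_empty_or_nonempty with e | ⟨i, hi⟩
      · simpa [e] using hf0
      obtain ⟨l1, l2, -⟩ := hH i (hK' i hi).1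
      refine le_trans (Nat.cast_le.2 (card_le_card fun σ hσ => ?_)) l2.le
      obtain ⟨j, hj, rfl⟩ := mem_image.1 hσ
      obtain ⟨m1, -, m2⟩ := hH j (hK' j hj).1
      exact mem_filter.2 ⟨(hF j m1).1, m2 _ (S.a_mem ((hF1 i l1).2.trans_le h₁))
        ((hK' i hi).2.trans (hK' j hj).2.symm)⟩
    obtain ⟨F', k1, k2, k3⟩ := cent_piece S h₁ (fun p => (row p, col p))
      (fun τ hτ r r' r'' a b c d e => by
        have l1 := hmono τ hτ r r' a b (c.trans d)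
        have l2 := hmono τ hτ r' r'' (a.trans b) c d
        rw [Prod.mk.injEq] at e ⊢
        omega) (F := K) (lab := lab) (fun i hi => hF1 i (hH i (hK' i hi).1).1)
      (fun i hi j hj => hF2 i (hH i (hK' i hi).1).1 j (hH j (hK' j hj).1).1)
      fun i hi => (hK' i hi).2
    have k4 := S.ds_lin hP (fun i hi => mem_range.2
      ((hF1 i (hH i (hK' i (k1 hi)).1).1).2.trans_le h₁)) k3 hD1
    have k5 : ((F'.image lab).card : ℝ) ≤ f :=
      (Nat.cast_le.2 (card_le_card (image_subset_image k1))).trans k0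
    have k6 : (((S.act i₀ i₁).filter fun p => (row p, col p) = κ).card : ℝ) ≤ 4 * D ^ 3 := by
      have := (card_le_card (s := (S.act i₀ i₁).filter fun p => (row p, col p) = κ) fun p hp =>
        mem_filter.2 ⟨(mem_filter.1 hp).1, congrArg Prod.fst (mem_filter.1 hp).2⟩).trans (r2 κ.1)
      have : (((S.act i₀ i₁).filter fun p => (row p, col p) = κ).card : ℝ) ≤ 2 * L := by
        exact_mod_cast this
      linarith
    have k7 : (K.card : ℝ) ≤ F'.card + (K.image lab).card := by exact_mod_cast k2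
    have k9 : (0 : ℝ) ≤ ((S.act i₀ i₁).filter fun p => (row p, col p) = κ).card := Nat.cast_nonneg _
    generalize (((S.act i₀ i₁).filter fun p => (row p, col p) = κ).card : ℝ) = b at *
    have k8 : (2 * b ^ 2 + 4 * ((F'.image lab).card : ℝ) ^ 2) / D ^ 2 ≤
        8 * D * b + 4 * f ^ 2 / D ^ 2 := by
      rw [add_div]
      refine add_le_add ((div_le_iff₀ (by positivity)).2 ?_) (by gcongr)
      linarith [mul_le_mul_of_nonneg_left k6 k9]
    linarith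
  have b4 : (H.card : ℝ) ≤ R * R * (f + 4 * f ^ 2 / D ^ 2) + 11 * D * (D * ϱ) ^ 3 := by
    rw [card_eq_sum_card_fiberwise (f := fun i => (row (S.a i), col (S.a i)))
      (t := range R ×ˢ range R) fun i _ => by simp [r3, c3], Nat.cast_sum]
    refine (sum_le_sum fun κ _ => key κ).trans ?_
    rw [sum_add_distrib, sum_const, card_product, card_range, nsmul_eq_mul, ← mul_sum,
      ← Nat.cast_sum, Nat.cast_mul, show 3 * D + 8 * D = 11 * D by ring]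
    gcongr
    exact (Nat.cast_le.2 (sum_fiber_le _ _ fun p => (row p, col p))).trans hA
  have b5 : (G.card : ℝ) ≤ H.card + (G1.card + G2.card) := by
    rw [← hH']
    exact_mod_cast card_le_card_sdiff_add_card.trans (Nat.add_le_add_left (card_union_le _ _) _)
  have b6 : (R : ℝ) * R * (f + 4 * f ^ 2 / D ^ 2) ≤ 20 * (D ^ 4 * ϱ ^ 3) := by
    have k1 : f ^ 2 / D ^ 2 * ϱ ^ 4 = D ^ 4 := by
      field_simp
      linear_combination (f * ϱ ^ 2 + D ^ 3) * hf'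
    calc _ ≤ 2 * ϱ ^ 3 * (2 * ϱ ^ 3) * (f + 4 * f ^ 2 / D ^ 2) := by gcongr
      _ = 4 * (f * ϱ ^ 2) * ϱ ^ 3 * ϱ + 16 * (f ^ 2 / D ^ 2 * ϱ ^ 4) * ϱ ^ 2 * 1 := by ring
      _ ≤ 4 * (f * ϱ ^ 2) * ϱ ^ 3 * D + 16 * (f ^ 2 / D ^ 2 * ϱ ^ 4) * ϱ ^ 2 * ϱ := by gcongr
      _ = _ := by rw [hf', k1]; ring
  rw [show 1000 * (D * ϱ) ^ 4 / ϱ = 1000 * (D ^ 4 * ϱ ^ 3) by field_simp]
  have b7 : 0 ≤ D ^ 4 * ϱ ^ 3 := by positivity
  linarith [show 11 * D * (D * ϱ) ^ 3 = 11 * (D ^ 4 * ϱ ^ 3) by ring]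

end Vale.Agent.P065
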