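import Vale.Agent.P065.SPDefs

/-! The chain of abstract configurations between the geometry and the discretized ring. -/

namespace Vale.Agent.P065

open Classical Finset Pointwise

variable {ι : Type}

/-- number of `q'` having the same label as `q` at both columns `p`, `p'` -/
noncomputable def codeg (Q : Finset ι) (Z : Finset (ι × ι)) (v : ι → ι → ℤ) (p p' q : ι) : ℕ :=
  (Q.filter fun q' => (p, q') ∈ Z ∧ (p', q') ∈ Z ∧ v p q' = v p q ∧ v p' q' = v p' q).card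

/-- number of triples `(p, p', q)` with codegree at least `y` -/
noncomputable def heavy (C Q : Finset ι) (Z : Finset (ι × ι)) (v : ι → ι → ℤ) (y : ℝ) : ℕ :=
  ((C ×ˢ C ×ˢ Q).filter fun x => (x.1, x.2.2) ∈ Z ∧ (x.2.1, x.2.2) ∈ Z ∧
    y ≤ codeg Q Z v x.1 x.2.1 x.2.2).card

/-- labels used at the column `p` -/
noncomputable def colSet (Z : Finset (ι × ι)) (v : ι → ι → ℤ) (p : ι) : Finset ℤ :=
  (Z.filter fun z => z.1 = p).image fun z => v p z.2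

/-- a set of integers has at most `K √R` points in every interval of length `R ≥ 1` -/
def Frost (A : Finset ℤ) (K : ℝ) : Prop :=
  ∀ x R : ℝ, 1 ≤ R → ((A.filter fun z : ℤ => x ≤ z ∧ (z : ℝ) ≤ x + R).card : ℝ) ^ 2 ≤ K ^ 2 * R

/-- common part: a dense set `Z` of incidences with integer labels `v`, few labels per column, and
tail bounds for the codegrees -/
structure LabCfg (C Q : Finset ι) (Z : Finset (ι × ι)) (v : ι → ι → ℤ) (a nC nQ K : ℝ) (E r : ℕ) :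
    Prop where
  K_ge : 2 ≤ K
  a_ge : 1 ≤ a
  nC_ge : a ≤ nC
  nQ_ge : a ^ 2 ≤ nQ
  sub : Z ⊆ C ×ˢ Q
  card_C : (C.card : ℝ) ≤ K * nC
  card_Q : (Q.card : ℝ) ≤ K * nQ
  card_Z : nC * nQ / K ≤ Z.card
  col : ∀ p ∈ C, ((colSet Z v p).card : ℝ) ≤ K * a
  tail : ∀ Y : ℝ, 1 ≤ Y →
    (heavy C Q Z v (Y * nQ / a ^ 2) : ℝ) ^ 10 * Y ≤ (K * nC ^ 2 * nQ) ^ 10
  top : ∀ L : ℝ, 1 ≤ L → L ^ r ≤ a →
    (heavy C Q Z v (nQ / (a * L)) : ℝ) * a ≤ (K * L) ^ E * nC ^ 2 * nQ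

/-- columns `s p`, lines `κ q * s + μ q`, labels = integer parts -/
structure LineCfg (C Q : Finset ι) (Z : Finset (ι × ι)) (s κ μ : ι → ℝ) (a nC nQ K : ℝ) (E : ℕ) :
    Prop where
  lab : LabCfg C Q Z (fun p q => ⌊κ q * s p + μ q⌋) a nC nQ K E 2
  s_inj : ∀ p ∈ C, ∀ p' ∈ C, s p = s p' → p = p'
  frost : ∀ p ∈ C, Frost (colSet Z (fun p q => ⌊κ q * s p + μ q⌋) p) K

/-- after the choice of reference columns: labels `α q + ⌊r p * β q⌋` -/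
structure RefCfg (C Q : Finset ι) (Z : Finset (ι × ι)) (α β : ι → ℤ) (r : ι → ℝ)
    (a nC nQ K : ℝ) (E : ℕ) : Prop where
  lab : LabCfg C Q Z (fun p q => α q + ⌊r p * β q⌋) a nC nQ K E 4
  r_mem : ∀ p ∈ C, 0 < r p ∧ r p ≤ 1
  card_α : ((Q.image α).card : ℝ) ≤ K * a
  card_β : ((Q.image β).card : ℝ) ≤ K * a
  card_sum : ((Q.image fun q => α q + β q).card : ℝ) ≤ K * a
  frost : Frost (Q.image α) K
  mult : ∀ x y : ℤ, ((Q.filter fun q => α q = x ∧ β q = y).card : ℝ) ≤ K * nQ / a ^ 2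
  mult' : ∀ p ∈ C, ∀ x y : ℤ,
    ((Q.filter fun q => (p, q) ∈ Z ∧ α q = x ∧ ⌊r p * β q⌋ = y).card : ℝ) ≤ K * nQ / a ^ 2

/-- number of pairs of columns whose ratios agree at scale `1 / ℓ` -/
noncomputable def colEn (S : Finset ι) (r : ι → ℝ) (ℓ : ℝ) : ℕ :=
  ((S ×ˢ S).filter fun x => ⌊ℓ * r x.1⌋ = ⌊ℓ * r x.2⌋).card

/-- the real set underlying a set of integers -/
noncomputable def toR (A : Finset ℤ) : Finset ℝ := A.image fun z : ℤ => (z : ℝ)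

/-- after Balog-Szemeredi-Gowers -/
structure SumCfg (A B : Finset ℤ) (S : Finset ι) (r : ι → ℝ) (G : ι → Finset (ℤ × ℤ))
    (a nC K : ℝ) (E : ℕ) : Prop where
  K_ge : 2 ≤ K
  a_ge : 1 ≤ a
  nC_pos : 0 < nC
  A_ge : a / K ≤ A.card
  B_ge : a / K ≤ B.card
  sum_le : ((A + B).card : ℝ) ≤ K * a
  frost : Frost A K
  S_ge : nC / K ≤ S.card
  S_le : (S.card : ℝ) ≤ K * nC
  r_mem : ∀ p ∈ S, 0 < r p ∧ r p ≤ 1
  G_sub : ∀ p ∈ S, G p ⊆ A ×ˢ B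
  G_ge : ∀ p ∈ S, a ^ 2 / K ≤ (G p).card
  G_val : ∀ p ∈ S, (((G p).image fun x => x.1 + ⌊r p * x.2⌋).card : ℝ) ≤ K * a
  cover : ∀ p ∈ S, ∃ X : Finset ℤ, (X.card : ℝ) ≤ K ∧ ∀ x ∈ A, ⌊r p * x⌋ ∈ X + (4 • A - 4 • A)
  en : ∀ ℓ : ℝ, 1 ≤ ℓ → (colEn S r ℓ : ℝ) ^ 10 * a ≤ (K * nC ^ 2) ^ 10 * pk (toR B) ℓ
  en_top : ∀ ℓ L : ℝ, 1 ≤ ℓ → 1 ≤ L → (pk (toR B) ℓ : ℝ) ≤ L → (K * L) ^ 4 ≤ a →
    (colEn S r ℓ : ℝ) * a ≤ (K * L) ^ E * nC ^ 2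

/-- number of `q ∈ Q` incident to both windows -/
noncomputable def wov (Q : Finset ι) (inc : ι → Finset ℕ) (k k' : ℕ) : ℕ :=
  (Q.filter fun q => k ∈ inc q ∧ k' ∈ inc q).card

/-- the clean configuration of columns, lines and windows (real intervals `[lo k, hi k]`);
`a = 4 ^ I` -/
structure WinCfg (C Q : Finset ι) (Z : Finset (ι × ι)) (s κ μ : ι → ℝ) (win : ι × ι → ℕ)
    (lo hi : ℕ → ℝ) (inc : ι → Finset ℕ) (I E : ℕ) (c K : ℝ) : Prop where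
  K_ge : 2 ≤ K
  I_le : ((2 * I + 1 : ℕ) : ℝ) ≤ K
  c_ge : 1 ≤ c
  sub : Z ⊆ C ×ˢ Q
  s_inj : ∀ p ∈ C, ∀ p' ∈ C, s p = s p' → p = p'
  card_C : (C.card : ℝ) ≤ K * (4 ^ I * c)
  card_Q : (Q.card : ℝ) ≤ K * ((4 ^ I) ^ 2 * c)
  card_Z : (4 ^ I * c) * ((4 ^ I) ^ 2 * c) / K ≤ Z.card
  mem : ∀ z ∈ Z, win z ∈ inc z.1 ∧ win z ∈ inc z.2 ∧ lo (win z) ≤ κ z.2 * s z.1 + μ z.2 ∧
    κ z.2 * s z.1 + μ z.2 ≤ hi (win z)
  lo_lt : ∀ z ∈ Z, lo (win z) < hi (win z)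
  order : ∀ z ∈ Z, ∀ z' ∈ Z, win z < win z' → hi (win z) < lo (win z')
  coarse : ∀ j ≤ 2 * I, ∀ v ∈ C ∪ Q,
    (((inc v).image fun k => k / 16 ^ j).card : ℝ) ≤ K * 4 ^ I / 2 ^ j
  fine : ∀ j ≤ 2 * I, ∀ v ∈ C ∪ Q, ∀ k' : ℕ,
    (((inc v).filter fun k => k / 16 ^ j = k').card : ℝ) ≤ K * 2 ^ j
  pop : ∀ k : ℕ, ((Q.filter fun q => k ∈ inc q).card : ℝ) ≤ K * (4 ^ I * c)
  mult : ∀ z ∈ Z, ((C.filter fun p => win z ∈ inc p).card : ℝ) ≤ K * c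
  tail : ∀ q ∈ Q, ∀ Y : ℝ, 1 ≤ Y →
    (((inc q ×ˢ inc q).filter fun x => Y * c ≤ wov Q inc x.1 x.2).card : ℝ) ^ 10 * Y ≤
      (K * (4 ^ I) ^ 2) ^ 10
  top : ∀ L : ℝ, 1 ≤ L → L ≤ 4 ^ I → ∀ k₀ : ℕ,
    (((Q.biUnion inc).filter fun k => 4 ^ I * c / L ≤ wov Q inc k k₀).card : ℝ) ≤ (K * L) ^ E

/-- a dense part `Z'` on which the windows are shorter than the affine scale `γ (s - s₁)` and
separated at this scale -/
structure Scaled (Z Z' : Finset (ι × ι)) (s : ι → ℝ) (win : ι × ι → ℕ) (lo hi : ℕ → ℝ)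
    (γ s₁ M K : ℝ) : Prop where
  sub : Z' ⊆ Z
  card : M / K ≤ Z'.card
  len : ∀ z ∈ Z', hi (win z) - lo (win z) ≤ γ * (s z.1 - s₁)
  sep : ∀ (p : ι) (x : ℝ), (((Z'.filter fun z => z.1 = p ∧ x ≤ hi (win z) ∧
    lo (win z) ≤ x + γ * (s p - s₁)).image win).card : ℝ) ≤ K

end Vale.Agent.P065
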