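import Vale.Agent.P065.Swap
import Vale.Agent.P065.CfgDefs

/-! Coordinates on a base line (task U). -/

namespace Vale.Agent.P065

open Classical Finset

theorem ch_card_le {α β : Type*} [DecidableEq β] {s : Finset α} {t : Finset β} (f : α → β)
    (hf : ∀ a ∈ s, f a ∈ t) {B : ℝ} (hB : ∀ b ∈ t, ((s.filter fun a => f a = b).card : ℝ) ≤ B) :
    (s.card : ℝ) ≤ t.card * B := by
  rw [card_eq_sum_card_fiberwise hf, Nat.cast_sum, ← nsmul_eq_mul]
  exact sum_le_card_nsmul _ _ _ hB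

theorem ch_sigma_le {α β : Type*} {s : Finset α} (t : α → Finset β) {B : ℝ}
    (hB : ∀ a ∈ s, ((t a).card : ℝ) ≤ B) :
    ((s.sigma t : Finset ((_ : α) × β)).card : ℝ) ≤ s.card * B := by
  rw [card_sigma, Nat.cast_sum, ← nsmul_eq_mul]
  exact sum_le_card_nsmul _ _ _ hB

theorem ch_inv_lt {x y : ℝ} (h : x < y) (hp : 0 < x * y) : -1 / x < -1 / y := by
  have hx : x ≠ 0 := left_ne_zero_of_mul hp.ne'
  have hy : y ≠ 0 := right_ne_zero_of_mul hp.ne'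
  have : -1 / y - -1 / x = (y - x) / (x * y) := by field_simp; ring
  have : 0 < (y - x) / (x * y) := div_pos (sub_pos.2 h) hp
  linarith

theorem ch_inv_le {x y : ℝ} (h : x ≤ y) (hp : 0 < x * y) : -1 / x ≤ -1 / y := by
  rcases h.lt_or_eq with h | rfl
  · exact (ch_inv_lt h hp).le
  · exact le_rfl

theorem ch_mem {A B D y : ℝ} (hD : 0 < D) (hs : 0 < A ∨ B < 0) (h1 : A * D ≤ y) (h2 : y ≤ B * D) :
    -1 / A ≤ -D / y ∧ -D / y ≤ -1 / B := by
  have e : -D / y = -1 / (y / D) := by field_simp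
  have k1 : A ≤ y / D := (le_div_iff₀ hD).2 h1
  have k2 : y / D ≤ B := (div_le_iff₀ hD).2 h2
  rw [e]
  rcases hs with h | h
  · exact ⟨ch_inv_le k1 (mul_pos h (by linarith)), ch_inv_le k2 (mul_pos (by linarith) (by linarith))⟩
  · exact ⟨ch_inv_le k1 (mul_pos_of_neg_of_neg (by linarith) (by linarith)),
      ch_inv_le k2 (mul_pos_of_neg_of_neg (by linarith) h)⟩

/-- ordered cherries -/
theorem ch_cherry {α : Type*} [DecidableEq α] {Q : Finset α} {T : Finset (α × α)} (hQ : ∀ x ∈ T, x.1 ∈ Q)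
    (ω : α × α → ℝ) : (T.card : ℝ) ^ 2 ≤ 2 * Q.card *
      ((T ×ˢ T).filter fun x => x.1.1 = x.2.1 ∧ ω x.1 ≤ ω x.2).card := by
  have h1 : (T.card : ℝ) = ∑ p ∈ Q, ((T.filter fun x => x.1 = p).card : ℝ) := by
    rw [card_eq_sum_card_fiberwise hQ, Nat.cast_sum]
  have h2 : (((T ×ˢ T).filter fun x => x.1.1 = x.2.1).card : ℝ) =
      ∑ p ∈ Q, ((T.filter fun x => x.1 = p).card : ℝ) ^ 2 := by
    rw [card_eq_sum_card_fiberwise (f := fun x => x.1.1) (t := Q) fun x hx =>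
      hQ _ (mem_product.1 (mem_filter.1 hx).1).1, Nat.cast_sum]
    refine sum_congr rfl fun p _ => ?_
    rw [sq, ← Nat.cast_mul, ← card_product]
    congr 2
    ext x
    simp only [mem_filter, mem_product]
    constructor
    · rintro ⟨⟨⟨a, b⟩, c⟩, d⟩
      exact ⟨⟨a, d⟩, b, c ▸ d⟩
    · rintro ⟨⟨a, b⟩, c, d⟩
      exact ⟨⟨⟨a, c⟩, b.trans d.symm⟩, b⟩
  have h3 : ((T ×ˢ T).filter fun x => x.1.1 = x.2.1).card ≤
      2 * ((T ×ˢ T).filter fun x => x.1.1 = x.2.1 ∧ ω x.1 ≤ ω x.2).card := by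
    rw [two_mul]
    refine le_trans (card_le_card (t := ((T ×ˢ T).filter fun x => x.1.1 = x.2.1 ∧ ω x.1 ≤ ω x.2) ∪
      ((T ×ˢ T).filter fun x => x.1.1 = x.2.1 ∧ ω x.1 ≤ ω x.2).image Prod.swap) fun x hx => ?_)
      ((card_union_le _ _).trans (Nat.add_le_add_left card_image_le _))
    rw [mem_filter, mem_product] at hx
    rcases le_total (ω x.1) (ω x.2) with h | h
    · exact mem_union_left _ (mem_filter.2 ⟨mem_product.2 hx.1, hx.2, h⟩)
    · exact mem_union_right _ (mem_image.2 ⟨x.swap,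
        mem_filter.2 ⟨mem_product.2 ⟨hx.1.2, hx.1.1⟩, hx.2.symm, h⟩, rfl⟩)
  calc (T.card : ℝ) ^ 2 ≤ Q.card * ∑ p ∈ Q, ((T.filter fun x => x.1 = p).card : ℝ) ^ 2 := by
        rw [h1]; exact sq_sum_le_card_mul_sum_sq
    _ ≤ Q.card * (2 * ((T ×ˢ T).filter fun x => x.1.1 = x.2.1 ∧ ω x.1 ≤ ω x.2).card) := by
        rw [← h2]
        exact mul_le_mul_of_nonneg_left (by exact_mod_cast h3) (Nat.cast_nonneg _)
    _ = _ := by ring

namespace Tok

variable {P : Finset Pt} {S : Tok P} {E : Finset ℕ} {G : Finset Pt} {a s : ℕ} {X Y : ℝ}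

theorem ch_inc (hs : 0 < s) (hY : 0 < Y) {v : Pt} {k : ℕ} (h : k ∈ S.inc E s Y v) :
    ∃ i ∈ E, i / s ^ 4 = k ∧ S.a i = v := by
  have h1 : (0 : ℝ) < S.ldeg E (s ^ 4) v k :=
    (div_pos (Nat.cast_pos.2 hs) hY).trans_le (mem_filter.1 h).2
  obtain ⟨i, hi⟩ := card_pos.1 (Nat.cast_pos.1 h1)
  exact ⟨i, (mem_filter.1 hi).1, (mem_filter.1 hi).2⟩

theorem ch_pop (h : S.Lev E G a s X) (hY : 0 < Y) {R : Finset Pt} {k : ℕ}
    (hR : ∀ v ∈ R, k ∈ S.inc E s Y v) : (R.card : ℝ) ≤ X * s ^ 3 := by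
  have hs : 0 < s := by have := h.s_ge; omega
  rcases R.eq_empty_or_nonempty with rfl | ⟨v, hv⟩
  · have := h.X_ge
    rw [card_empty, Nat.cast_zero]
    positivity
  · obtain ⟨i, hi, rfl, -⟩ := ch_inc hs hY (hR v hv)
    refine le_trans (Nat.cast_le.2 (card_le_card fun w hw => ?_)) (h.act_le i hi)
    obtain ⟨j, hj, e, rfl⟩ := ch_inc hs hY (hR w hw)
    rw [← e]
    exact S.a_mem_wact (by positivity) (mem_range.1 (h.E_sub hj))

theorem ch_div (i s j : ℕ) : i / s ^ 4 / 16 ^ j = i / (s * 2 ^ j) ^ 4 := by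
  rw [Nat.div_div_eq_div_mul, mul_pow, ← pow_mul, mul_comm j, pow_mul]
  rfl

theorem ch_coarse {j : ℕ} (h : S.Lev E G a (s * 2 ^ j) X) (hs : 0 < s) (hY : 0 < Y) (v : Pt) :
    (((S.inc E s Y v).image fun k => k / 16 ^ j).card : ℝ) ≤ X * a := by
  rcases (S.inc E s Y v).eq_empty_or_nonempty with e | ⟨k, hk⟩
  · have := h.X_ge
    rw [e, image_empty, card_empty, Nat.cast_zero]
    positivity
  · obtain ⟨i, hi, -, e⟩ := ch_inc hs hY hk
    refine le_trans (Nat.cast_le.2 (card_le_card fun k' hk' => ?_))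
      (h.nact_le v (e ▸ (h.mem_G i hi).1))
    obtain ⟨k, hk, rfl⟩ := mem_image.1 hk'
    obtain ⟨i, hi, rfl, rfl⟩ := ch_inc hs hY hk
    have := mem_range.1 (h.E_sub hi)
    rw [ch_div]
    exact mem_filter.2 ⟨mem_range.2 ((Nat.div_le_self _ _).trans_lt this),
      S.a_mem_wact (by positivity) this⟩

theorem ch_fine {j : ℕ} (h : S.Lev E G a (s * 2 ^ j) X) (hs : 0 < s) (hY : 0 < Y) (v : Pt)
    (k' : ℕ) : (((S.inc E s Y v).filter fun k => k / 16 ^ j = k').card : ℝ) ≤ X * Y * 2 ^ j := by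
  have hs' : (0 : ℝ) < s := Nat.cast_pos.2 hs
  have h1 := card_nsmul_le_sum ((S.inc E s Y v).filter fun k => k / 16 ^ j = k')
    (fun k => (S.ldeg E (s ^ 4) v k : ℝ)) (s / Y) fun k hk => (mem_filter.1 (mem_filter.1 hk).1).2
  have h2 : ∑ k ∈ (S.inc E s Y v).filter fun k => k / 16 ^ j = k', S.ldeg E (s ^ 4) v k ≤
      S.ldeg E ((s * 2 ^ j) ^ 4) v k' := by
    unfold ldeg
    rw [← card_biUnion]
    · refine card_le_card fun i hi => ?_
      obtain ⟨k, hk, hi⟩ := mem_biUnion.1 hi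
      rw [mem_filter] at hi hk ⊢
      exact ⟨hi.1, by rw [← ch_div, hi.2.1, hk.2], hi.2.2⟩
    · intro k _ l _ hkl
      exact disjoint_filter.2 fun i _ h1 h2 => hkl (h1.1.symm.trans h2.1)
  have h3 := h.deg_le v k'
  rw [nsmul_eq_mul, ← Nat.cast_sum] at h1
  have h4 := (h1.trans (Nat.cast_le.2 h2)).trans h3
  push_cast at h4
  rw [← mul_div_assoc, div_le_iff₀ hY] at h4
  exact le_of_mul_le_mul_right (h4.trans_eq (by ring)) hs'

/-- extraction of the base line -/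
theorem ch_extract {K : ℝ} {Q : Finset Pt} {T : Finset (Pt × Pt)} {wj : Pt × Pt → ℕ}
    (h : S.Lev E G a s X) (hXY : X ≤ Y) (hYK : Y ≤ K) (hT : S.SwapCfg E a s Y K Q T wj)
    (ha : K ^ 10 ≤ a) (ω : Pt × Pt → ℝ) (b : Pt × Pt → Prop) :
    ∃ (Z : Finset (Pt × Pt)) (a₀ : Pt) (I₀ : ℕ) (b₁ b₂ : Prop), Z ⊆ T ∧
      (a : ℝ) * s ^ 6 / K ^ 9 ≤ Z.card ∧ ∀ z ∈ Z, (z.1, a₀) ∈ T ∧ wj (z.1, a₀) = I₀ ∧
        (b (z.1, a₀) ↔ b₁) ∧ (I₀ < wj z ↔ b₂) ∧ ω (z.1, a₀) ≤ ω z ∧ I₀ ≠ wj z ∧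
        (S.ov E s Y I₀ (wj z) : ℝ) < K ^ 100 * s ^ 3 / a := by
  have hX := h.X_ge
  have hK : 2 ≤ K := by linarith
  have hY : 0 < Y := by linarith
  have hXK : X ≤ K := hXY.trans hYK
  have hs : 0 < s := by have := h.s_ge; omega
  have hs' : (0 : ℝ) < s := Nat.cast_pos.2 hs
  have ha' : (0 : ℝ) < a := Nat.cast_pos.2 h.a_ge
  have hinc : ∀ v, ((S.inc E s Y v).card : ℝ) ≤ K * a := fun v => by
    have := ch_coarse (j := 0) (by simpa using h) hs hY v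
    simp only [pow_zero, Nat.div_one, image_id'] at this
    exact this.trans (by gcongr)
  have c1 := ch_cherry (fun x hx => (hT.mem x hx).1) ω
  set Ch := (T ×ˢ T).filter fun x => x.1.1 = x.2.1 ∧ ω x.1 ≤ ω x.2 with hCh
  have mCh : ∀ x ∈ Ch, x.1 ∈ T ∧ x.2 ∈ T ∧ x.1.1 = x.2.1 ∧ ω x.1 ≤ ω x.2 := fun x hx =>
    ⟨(mem_product.1 (mem_filter.1 hx).1).1, (mem_product.1 (mem_filter.1 hx).1).2,
      (mem_filter.1 hx).2⟩
  let bad : ℕ × ℕ → Prop := fun y => y.1 = y.2 ∨ K ^ 100 * s ^ 3 / a ≤ S.ov E s Y y.1 y.2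
  have hQ := hT.card_Q
  have c2 : ((Ch.filter fun x => bad (wj x.1, wj x.2)).card : ℝ) ≤
      K * (a * s ^ 3) * (2 * a ^ 2 / K ^ 9) * (K * s ^ 3) ^ 2 := by
    refine (ch_card_le (t := (T.image Prod.fst).sigma fun p =>
      (S.inc E s Y p ×ˢ S.inc E s Y p).filter bad) (B := (K * s ^ 3) ^ 2)
      (fun x => (⟨x.1.1, wj x.1, wj x.2⟩ : (_ : Pt) × (ℕ × ℕ))) (fun x hx => ?_)
      fun y _ => ?_).trans (mul_le_mul_of_nonneg_right ((ch_sigma_le _ (B := 2 * a ^ 2 / K ^ 9)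
        fun p hp => ?_).trans ?_) (by positivity))
    · obtain ⟨h1, h2⟩ := mem_filter.1 hx
      obtain ⟨m1, m2, m3, -⟩ := mCh x h1
      exact mem_sigma.2 ⟨mem_image_of_mem _ m1, mem_filter.2 ⟨mem_product.2
        ⟨(hT.mem _ m1).2.2.1, m3 ▸ (hT.mem _ m2).2.2.1⟩, h2⟩⟩
    · have k : ∀ J, ((Q.filter fun v => J ∈ S.inc E s Y v).card : ℝ) ≤ K * s ^ 3 := fun J =>
        (ch_pop h hY fun v hv => (mem_filter.1 hv).2).trans (by gcongr)
      refine le_trans (Nat.cast_le.2 (card_le_card_of_injOn (t := (Q.filter fun v =>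
        y.2.1 ∈ S.inc E s Y v) ×ˢ Q.filter fun v => y.2.2 ∈ S.inc E s Y v)
        (fun x => (x.1.2, x.2.2)) (fun x hx => ?_) fun x hx x' hx' e => ?_)) ?_
      · obtain ⟨h1, rfl⟩ := mem_filter.1 (mem_coe.1 hx)
        obtain ⟨m1, m2, -⟩ := mCh x (mem_filter.1 h1).1
        exact mem_coe.2 (mem_product.2 ⟨mem_filter.2 ⟨(hT.mem _ m1).2.1, (hT.mem _ m1).2.2.2.1⟩,
          mem_filter.2 ⟨(hT.mem _ m2).2.1, (hT.mem _ m2).2.2.2.1⟩⟩)
      · obtain ⟨h1, h2⟩ := mem_filter.1 (mem_coe.1 hx)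
        obtain ⟨h3, h4⟩ := mem_filter.1 (mem_coe.1 hx')
        have e1 : x.1.1 = x'.1.1 := congrArg Sigma.fst (h2.trans h4.symm)
        have e2 := (mCh x (mem_filter.1 h1).1).2.2.1
        have e3 := (mCh x' (mem_filter.1 h3).1).2.2.1
        exact Prod.ext (Prod.ext e1 (congrArg Prod.fst e))
          (Prod.ext (e2.symm.trans (e1.trans e3)) (Prod.mk.inj e).2)
      · rw [card_product, Nat.cast_mul, sq]
        exact mul_le_mul (k _) (k _) (Nat.cast_nonneg _) (by positivity)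
    · obtain ⟨x, hx, rfl⟩ := mem_image.1 hp
      have t1 := (hT.tg x hx).1 (K ^ 100) (one_le_pow₀ (by linarith))
      have t2 : (S.hvy E s Y x.1 (K ^ 100 * s ^ 3 / a) : ℝ) * K ^ 10 ≤ K * a ^ 2 :=
        le_of_pow_le_pow_left₀ (n := 10) (by norm_num) (by positivity)
          (le_of_eq_of_le (by ring) t1)
      have t3 : (((S.inc E s Y x.1 ×ˢ S.inc E s Y x.1).filter bad).card : ℝ) ≤
          (S.inc E s Y x.1).card + S.hvy E s Y x.1 (K ^ 100 * s ^ 3 / a) := by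
        rw [← Nat.cast_add, Nat.cast_le, filter_or]
        refine (card_union_le _ _).trans (Nat.add_le_add ?_ le_rfl)
        refine card_le_card_of_injOn Prod.fst (fun y hy => ?_) fun y hy y' hy' e => ?_
        · exact (mem_product.1 (mem_filter.1 (mem_coe.1 hy)).1).1
        · exact Prod.ext e ((mem_filter.1 (mem_coe.1 hy)).2.symm.trans
            (e.trans (mem_filter.1 (mem_coe.1 hy')).2))
      rw [le_div_iff₀ (by positivity)]
      have t4 : (S.hvy E s Y x.1 (K ^ 100 * s ^ 3 / a) : ℝ) * K ^ 9 ≤ a ^ 2 :=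
        le_of_mul_le_mul_left (le_of_eq_of_le (by ring) t2) (show 0 < K by linarith)
      have t5 : ((S.inc E s Y x.1).card : ℝ) * K ^ 9 ≤ a ^ 2 :=
        calc _ ≤ K * a * K ^ 9 := by have := hinc x.1; gcongr
          _ = K ^ 10 * a := by ring
          _ ≤ a * a := by gcongr
          _ = _ := by ring
      nlinarith [mul_le_mul_of_nonneg_right t3 (show 0 ≤ K ^ 9 by positivity)]
    · refine mul_le_mul_of_nonneg_right (le_trans (Nat.cast_le.2 (card_le_card fun p hp => ?_)) hQ)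
        (by positivity)
      obtain ⟨x, hx, rfl⟩ := mem_image.1 hp
      exact (hT.mem x hx).1
  have c3 : (a * s ^ 3) ^ 3 / (2 * K ^ 3) ≤ (Ch.card : ℝ) := by
    have t := hT.card_T
    have t1 : (((a : ℝ) * s ^ 3) ^ 2 / K) ^ 2 ≤ 2 * (K * (a * s ^ 3)) * Ch.card :=
      (pow_le_pow_left₀ (by positivity) t 2).trans (c1.trans (by gcongr))
    rw [div_pow, div_le_iff₀ (by positivity)] at t1
    rw [div_le_iff₀ (by positivity)]
    exact le_of_mul_le_mul_left (le_of_eq_of_le (by ring) (t1.trans_eq (by ring)))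
      (show (0 : ℝ) < a * s ^ 3 by positivity)
  have c4 : (a * s ^ 3) ^ 3 / (4 * K ^ 3) ≤
      ((Ch.filter fun x => ¬ bad (wj x.1, wj x.2)).card : ℝ) := by
    have e := card_filter_add_card_filter_not (s := Ch) fun x => bad (wj x.1, wj x.2)
    have e' : ((Ch.filter fun x => bad (wj x.1, wj x.2)).card : ℝ) +
      (Ch.filter fun x => ¬ bad (wj x.1, wj x.2)).card = Ch.card := by exact_mod_cast e
    have k : K * (a * s ^ 3) * (2 * a ^ 2 / K ^ 9) * (K * s ^ 3) ^ 2 ≤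
        (a * s ^ 3) ^ 3 / (4 * K ^ 3) := by
      have : K * (a * s ^ 3) * (2 * a ^ 2 / K ^ 9) * (K * s ^ 3) ^ 2 =
          (a * s ^ 3) ^ 3 / (K ^ 3 / 2 * K ^ 3) := by field_simp
      rw [this]
      have : (2 : ℝ) ^ 3 ≤ K ^ 3 := by gcongr
      gcongr
      linarith
    have : ((a : ℝ) * s ^ 3) ^ 3 / (2 * K ^ 3) =
      (a * s ^ 3) ^ 3 / (4 * K ^ 3) + (a * s ^ 3) ^ 3 / (4 * K ^ 3) := by field_simp; norm_num
    linarith
  set Cg := Ch.filter fun x => ¬ bad (wj x.1, wj x.2) with hCg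
  have maps : ∀ x ∈ Cg, ((⟨x.1.2, wj x.1⟩ : (_ : Pt) × ℕ), b x.1, wj x.1 < wj x.2) ∈
      (Q.sigma fun v => S.inc E s Y v) ×ˢ (univ : Finset (Prop × Prop)) := fun x hx => by
    have m := hT.mem _ (mCh x (mem_filter.1 hx).1).1
    exact mem_product.2 ⟨mem_sigma.2 ⟨m.2.1, m.2.2.2.1⟩, mem_univ _⟩
  obtain ⟨x₀, hx₀⟩ := card_pos.1 (Nat.cast_pos.1 (lt_of_lt_of_le (by positivity) c4))
  obtain ⟨⟨⟨a₀, I₀⟩, b₁, b₂⟩, -, hy⟩ := exists_le_card_fiber_of_nsmul_le_card_of_maps_to maps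
    ⟨_, maps x₀ hx₀⟩ (b := (a : ℝ) * s ^ 6 / K ^ 9) (by
      refine le_trans ?_ c4
      have t := ch_sigma_le (s := Q) _ fun v _ => hinc v
      rw [card_product, nsmul_eq_mul, Nat.cast_mul]
      have e : ((univ : Finset (Prop × Prop)).card : ℝ) = 4 := by simp
      rw [e]
      have : (2 : ℝ) ^ 4 ≤ K ^ 4 := by gcongr
      calc _ ≤ K * (a * s ^ 3) * (K * a) * 4 * (a * s ^ 6 / K ^ 9) := by
            gcongr
            exact t.trans (by gcongr)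
        _ = (a * s ^ 3) ^ 3 / (K ^ 4 / 4 * K ^ 3) := by field_simp
        _ ≤ _ := by gcongr; linarith)
  have key : ∀ x ∈ Cg.filter fun x => ((⟨x.1.2, wj x.1⟩ : (_ : Pt) × ℕ), b x.1, wj x.1 < wj x.2) =
      (⟨a₀, I₀⟩, b₁, b₂), x.1 = (x.2.1, a₀) ∧ wj x.1 = I₀ ∧ (b x.1 ↔ b₁) ∧
        (wj x.1 < wj x.2 ↔ b₂) := fun x hx => by
    obtain ⟨h1, h2⟩ := mem_filter.1 hx
    simp only [Prod.mk.injEq, Sigma.mk.injEq, heq_eq_eq, eq_iff_iff] at h2
    exact ⟨Prod.ext (mCh x (mem_filter.1 h1).1).2.2.1 h2.1.1, h2.1.2, h2.2⟩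
  refine ⟨(Cg.filter fun x => ((⟨x.1.2, wj x.1⟩ : (_ : Pt) × ℕ), b x.1, wj x.1 < wj x.2) =
    (⟨a₀, I₀⟩, b₁, b₂)).image Prod.snd, a₀, I₀, b₁, b₂, fun z hz => ?_, ?_, fun z hz => ?_⟩
  · obtain ⟨x, hx, rfl⟩ := mem_image.1 hz
    exact (mCh x (mem_filter.1 (mem_filter.1 hx).1).1).2.1
  · rw [card_image_of_injOn fun x hx x' hx' e => Prod.ext (by
      rw [(key x hx).1, (key x' hx').1, e]) e]
    convert hy
  · obtain ⟨x, hx, rfl⟩ := mem_image.1 hz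
    obtain ⟨k1, k2, k3, k4⟩ := key x hx
    obtain ⟨h1, h2⟩ := mem_filter.1 (mem_filter.1 hx).1
    obtain ⟨m1, -, -, m4⟩ := mCh x h1
    rw [← k1, ← k2]
    exact ⟨m1, rfl, k3, k4, m4, fun e => h2 (.inl e), not_le.1 fun e => h2 (.inr e)⟩

end Tok

theorem win_of_swapCfg : ∃ C₀ E₀ : ℕ, ∀ (P : Finset Pt), GP P → ∀ (S : Tok P) (E : Finset ℕ)
    (G : Finset Pt) (I u : ℕ) (X Y K : ℝ) (Q : Finset Pt) (T : Finset (Pt × Pt))
    (wj : Pt × Pt → ℕ), S.Good E G I u X → X ≤ Y → Y ≤ K →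
    S.SwapCfg E (4 ^ I) (4 ^ I * u) Y K Q T wj → K ^ C₀ ≤ 4 ^ I → (4 ^ I) ^ C₀ ≤ u →
    ∃ (C' Q' : Finset Pt) (Z : Finset (Pt × Pt)) (s κ μ : Pt → ℝ) (win : Pt × Pt → ℕ)
      (lo hi : ℕ → ℝ) (inc : Pt → Finset ℕ),
      WinCfg C' Q' Z s κ μ win lo hi inc I E₀ ((4 ^ I) ^ 2 * (u : ℝ) ^ 3) (K ^ C₀) := by
  obtain ⟨C, hC⟩ := few_big_overlaps
  refine ⟨2 * C + 100, C, fun P hP S E G I u X Y K Q T wj hG hXY hYK hT hK hu => ?_⟩
  have h : S.Lev E G (4 ^ I) (4 ^ I * u) X := by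
    have := hG.lev 0 (by omega)
    rwa [Nat.sub_zero, pow_zero, mul_one, pow_mul] at this
  have hX := h.X_ge
  have K2 : 2 ≤ K := by linarith
  have K1 : 1 ≤ K := by linarith
  have hY : 0 < Y := by linarith
  have hKn : ∀ n ≤ 2 * C + 100, K ^ n ≤ K ^ (2 * C + 100) := fun n hn => pow_le_pow_right₀ K1 hn
  have hK1 : K ≤ K ^ (2 * C + 100) := by simpa using hKn 1 (by omega)
  have hXK : X ≤ K ^ (2 * C + 100) := by linarith
  have hs2 := h.s_ge
  have hu0 : 0 < u := Nat.pos_of_ne_zero fun e => by simp [e] at hs2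
  have hu1 : (1 : ℝ) ≤ u := by exact_mod_cast hu0
  have ha1 : (1 : ℝ) ≤ 4 ^ I := one_le_pow₀ (by norm_num)
  set s := 4 ^ I * u with hs
  have hs0 : 0 < s := by omega
  have es : (s : ℝ) = 4 ^ I * u := by rw [hs]; push_cast; rfl
  have hW : 2 ≤ s ^ 4 := hs2.trans (Nat.le_self_pow (by norm_num) s)
  let t0 : ℕ → ℝ := fun k => S.t (k * s ^ 4)
  let t1 : ℕ → ℝ := fun k => S.t (S.wend (s ^ 4) k - 1)
  obtain ⟨Z, a₀, I₀, b₁, b₂, hZ, cZ, pZ⟩ := Tok.ch_extract h hXY hYK hT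
    (by push_cast; exact (hKn 10 (by omega)).trans hK)
    (fun z => min (ht z.2 (t0 (wj z)) - ht z.1 (t0 (wj z))) (ht z.1 (t1 (wj z)) - ht z.2 (t1 (wj z))))
    fun z => ht z.2 (t0 (wj z)) - ht z.1 (t0 (wj z)) ≤ ht z.1 (t1 (wj z)) - ht z.2 (t1 (wj z))
  have full : ∀ v k, k ∈ S.inc E s Y v → (k + 1) * s ^ 4 ≤ S.m := fun v k hk => by
    obtain ⟨i, hi, rfl, -⟩ := Tok.ch_inc hs0 hY hk
    refine le_trans ?_ (hG.full i hi)
    rw [← hs, ← Tok.ch_div, mul_pow s, ← pow_mul 2, mul_comm I, pow_mul 2, mul_comm (s ^ 4),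
      ← mul_assoc, add_mul (_ / _ / _), one_mul]
    exact Nat.mul_le_mul_right _ (Nat.lt_div_mul_add (by positivity))
  have w1 : ∀ k, (k + 1) * s ^ 4 ≤ S.m → t0 k < t1 k := fun k hk => by
    refine S.t_lt _ _ ?_ ?_ <;> rw [Tok.wend, min_eq_left hk] <;> rw [add_mul] at * <;> omega
  have w2 : ∀ k k', k < k' → (k' + 1) * s ^ 4 ≤ S.m → t1 k < t0 k' := fun k k' hk hk' => by
    have : (k + 1) * s ^ 4 ≤ k' * s ^ 4 := Nat.mul_le_mul_right _ hk
    have := min_le_left ((k + 1) * s ^ 4) S.m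
    have : 0 < S.wend (s ^ 4) k := lt_min (by positivity) (lt_of_lt_of_le (by positivity) hk')
    refine S.t_lt _ _ ?_ ?_ <;> rw [Tok.wend, add_mul] at * <;> omega
  obtain ⟨σ₀, hσ⟩ : ∃ σ₀, σ₀ = if b₁ then t0 I₀ else t1 I₀ := ⟨_, rfl⟩
  have fz : ∀ z ∈ Z, (wj z + 1) * s ^ 4 ≤ S.m := fun z hz => full _ _ (hT.mem z (hZ hz)).2.2.1
  have mI : ∀ z ∈ Z, I₀ ∈ S.inc E s Y z.1 := fun z hz =>
    (pZ z hz).2.1 ▸ (hT.mem _ (pZ z hz).1).2.2.1
  have side : ∀ z ∈ Z, (b₂ ∧ 0 < t0 (wj z) - σ₀) ∨ (¬ b₂ ∧ t1 (wj z) - σ₀ < 0) := fun z hz => by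
    obtain ⟨-, -, -, k4, -, k6, -⟩ := pZ z hz
    have f0 := full _ _ (mI z hz)
    have := w1 _ f0
    rcases lt_or_gt_of_ne k6 with k | k
    · have := w2 _ _ k (fz z hz)
      refine .inl ⟨k4.1 k, ?_⟩
      rw [hσ]; split_ifs <;> linarith
    · have := w2 _ _ k f0
      refine .inr ⟨fun e => absurd (k4.2 e) (by omega), ?_⟩
      rw [hσ]; split_ifs <;> linarith
  have inP : ∀ v k, k ∈ S.inc E s Y v → v ∈ P := fun v k hk => by
    obtain ⟨i, hi, -, rfl⟩ := Tok.ch_inc hs0 hY hk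
    exact h.G_sub (h.mem_G i hi).1
  have e3 : (4 : ℝ) ^ I * ((4 ^ I) ^ 2 * (u : ℝ) ^ 3) = s ^ 3 := by rw [es]; ring
  have pop : ∀ (R : Finset Pt) (k : ℕ), (∀ v ∈ R, k ∈ S.inc E s Y v) →
      (R.card : ℝ) ≤ K ^ (2 * C + 100) * (4 ^ I * ((4 ^ I) ^ 2 * (u : ℝ) ^ 3)) := fun R k hR => by
    rw [e3]
    exact (Tok.ch_pop h hY hR).trans (by gcongr)
  have wle : ∀ k k', wov (Z.image Prod.snd) (S.inc E s Y) k k' ≤ S.ov E s Y k k' := fun k k' =>
    card_le_card fun v hv => mem_filter.2 ⟨inP v k (mem_filter.1 hv).2.1, (mem_filter.1 hv).2⟩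
  refine ⟨Z.image Prod.fst, Z.image Prod.snd, Z, Prod.fst, fun q => 1 / (ht q σ₀ - ht a₀ σ₀),
    fun q => -q.1 / (ht q σ₀ - ht a₀ σ₀), wj, fun k => -1 / (t0 k - σ₀), fun k => -1 / (t1 k - σ₀),
    S.inc E s Y, K2.trans hK1, hG.I_le.trans hXK, ?_, subset_product, ?_, ?_, ?_, ?_,
    fun z hz => ?_, fun z hz => ?_, fun z hz z' hz' hlt => ?_, fun j hj v _ => ?_,
    fun j hj v _ k' => ?_, fun k => pop _ k fun v hv => (mem_filter.1 hv).2, fun z hz => ?_,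
    fun q hq Y' hY' => ?_, fun L L1 L2 k₀ => ?_⟩
  · exact one_le_mul_of_one_le_of_one_le (one_le_pow₀ ha1) (one_le_pow₀ hu1)
  · intro p hp p' hp' e
    obtain ⟨z, hz, rfl⟩ := mem_image.1 hp
    obtain ⟨z', hz', rfl⟩ := mem_image.1 hp'
    exact hP.xinj _ (inP _ _ (mI z hz)) _ (inP _ _ (mI z' hz')) e
  · refine pop _ I₀ fun v hv => ?_
    obtain ⟨z, hz, rfl⟩ := mem_image.1 hv
    exact mI z hz
  · refine le_trans (Nat.cast_le.2 (card_le_card fun v hv => ?_)) (hT.card_Q.trans ?_)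
    · obtain ⟨z, hz, rfl⟩ := mem_image.1 hv
      exact (hT.mem z (hZ hz)).2.1
    · rw [← e3]
      push_cast
      exact mul_le_mul hK1 (le_of_eq (by ring)) (by positivity) (by positivity)
  · refine le_trans ?_ cZ
    have := hKn 9 (by omega)
    rw [es]
    push_cast
    exact div_le_div₀ (by positivity) (le_of_eq (by ring)) (by positivity) this
  · obtain ⟨-, -, m1, m2, m3, m4, m5⟩ := hT.mem z (hZ hz)
    obtain ⟨k1, k2, k3, -, k5, -⟩ := pZ z hz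
    obtain ⟨-, -, -, -, -, n4, n5⟩ := hT.mem _ k1
    refine ⟨m1, m2, ?_⟩
    have e : 1 / (ht z.2 σ₀ - ht a₀ σ₀) * z.1.1 + -z.2.1 / (ht z.2 σ₀ - ht a₀ σ₀) =
        -(z.2.1 - z.1.1) / (ht z.2 σ₀ - ht a₀ σ₀) := by ring
    simp only [k2] at k3 k5 n4 n5
    have d : |ht z.1 σ₀ - ht a₀ σ₀| ≤ min (ht z.2 (t0 (wj z)) - ht z.1 (t0 (wj z)))
        (ht z.1 (t1 (wj z)) - ht z.2 (t1 (wj z))) := by
      refine le_trans ?_ k5
      rw [hσ]
      split_ifs with hb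
      · rw [min_eq_left (k3.2 hb), abs_sub_comm]
        exact (abs_of_nonneg (sub_nonneg.2 n4)).le
      · rw [min_eq_right (not_le.1 fun e => hb (k3.1 e)).le]
        exact (abs_of_nonneg (sub_nonneg.2 n5)).le
    rw [le_min_iff, abs_le, abs_le] at d
    rw [e]
    refine ch_mem (sub_pos.2 m3) ((side z hz).imp And.right And.right) ?_ ?_
    · have := d.1.1
      unfold ht at this ⊢
      linarith
    · have := d.2.2
      unfold ht at this ⊢
      linarith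
  · have := w1 _ (fz z hz)
    refine ch_inv_lt (by linarith) ?_
    rcases side z hz with k | k
    · exact mul_pos k.2 (by linarith [k.2])
    · exact mul_pos_of_neg_of_neg (by linarith [k.2]) k.2
  · have := w1 _ (fz z hz)
    have := w1 _ (fz z' hz')
    have := w2 _ _ hlt (fz z' hz')
    refine ch_inv_lt (by linarith) ?_
    rcases side z hz with k | k <;> rcases side z' hz' with k' | k'
    · exact mul_pos (by linarith [k.2]) k'.2
    · exact absurd k.1 k'.1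
    · exact absurd k'.1 k.1
    · exact mul_pos_of_neg_of_neg k.2 (by linarith [k'.2])
  · refine (Tok.ch_coarse (hG.lev j hj) hs0 hY v).trans ?_
    rw [le_div_iff₀ (by positivity), mul_assoc]
    refine mul_le_mul hXK (le_of_eq ?_) (by positivity) (by positivity)
    push_cast
    rw [← pow_add, Nat.sub_add_cancel hj, pow_mul]
    norm_num
  · refine (Tok.ch_fine (hG.lev j hj) hs0 hY v k').trans
      (mul_le_mul_of_nonneg_right (le_trans ?_ (hKn 2 (by omega))) (by positivity))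
    rw [sq]
    exact mul_le_mul (hXY.trans hYK) hYK hY.le (by positivity)
  · refine le_trans (Nat.cast_le.2 (card_le_card fun v hv => ?_)) ((pZ z hz).2.2.2.2.2.2.le.trans ?_)
    · obtain ⟨h1, h2⟩ := mem_filter.1 hv
      obtain ⟨z', hz', rfl⟩ := mem_image.1 h1
      exact mem_filter.2 ⟨inP _ _ h2, mI z' hz', h2⟩
    · rw [← e3, mul_div_assoc]
      push_cast
      exact mul_le_mul (hKn 100 (by omega)) (le_of_eq (by field_simp)) (by positivity)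
        (by positivity)
  · obtain ⟨z, hz, rfl⟩ := mem_image.1 hq
    refine le_trans ?_ (((hT.tg z (hZ hz)).2 Y' hY').trans ?_)
    · gcongr
      refine card_le_card fun x hx => mem_filter.2 ⟨(mem_filter.1 hx).1, ?_⟩
      refine le_trans (le_of_eq ?_) ((mem_filter.1 hx).2.trans (Nat.cast_le.2 (wle _ _)))
      rw [← e3]
      push_cast
      field_simp
    · push_cast
      gcongr
  · have hY4 : Y ≤ 4 ^ I := hYK.trans (hK1.trans hK)
    refine le_trans (Nat.cast_le.2 (card_le_card fun k hk => ?_))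
      ((hC P hP S E G _ s X Y L h hXY L1 ?_ k₀).trans ?_)
    · obtain ⟨h1, h2⟩ := mem_filter.1 hk
      obtain ⟨q, -, h3⟩ := mem_biUnion.1 h1
      exact mem_filter.2 ⟨(mem_filter.1 h3).1, e3 ▸ h2.trans (Nat.cast_le.2 (wle _ _))⟩
    · have : (((4 ^ I) ^ (2 * C + 100) : ℕ) : ℝ) ≤ u := Nat.cast_le.2 hu
      push_cast at this
      calc (Y * L) ^ C ≤ (4 ^ I * 4 ^ I) ^ C := by gcongr
        _ = (4 ^ I) ^ (2 * C) := by rw [← sq, ← pow_mul]
        _ ≤ (4 ^ I) ^ (2 * C + 100) := pow_le_pow_right₀ ha1 (by omega)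
        _ ≤ u := this
        _ ≤ s := by rw [es]; exact le_mul_of_one_le_left (by positivity) ha1
    · have := hYK.trans hK1
      gcongr

end Vale.Agent.P065
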