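import Mathlib

namespace Vale.Agent.P065

open Classical

/-- No three distinct points of `P` are collinear. -/
def NoThreeCollinear (P : Finset (ℝ × ℝ)) : Prop :=
  ∀ p ∈ P, ∀ q ∈ P, ∀ r ∈ P, p ≠ q → p ≠ r → q ≠ r → ¬ Collinear ℝ ({p, q, r} : Set (ℝ × ℝ))

/-- `S` is a `k`-set of `P`: a `k`-element subset strictly separated from the rest by a line
`α x + β y = γ`. -/
def IsKSet (P : Finset (ℝ × ℝ)) (k : ℕ) (S : Finset (ℝ × ℝ)) : Prop :=
  S ⊆ P ∧ S.card = k ∧ ∃ α β γ : ℝ, (α ≠ 0 ∨ β ≠ 0) ∧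
    (∀ p ∈ S, α * p.1 + β * p.2 < γ) ∧ (∀ p ∈ P, p ∉ S → γ < α * p.1 + β * p.2)

/-- The number of `k`-sets of `P`. -/
noncomputable def kSetCount (P : Finset (ℝ × ℝ)) (k : ℕ) : ℕ :=
  (P.powerset.filter (IsKSet P k)).card

/-- The orientation determinant of `p, q, r`; its sign tells on which side of the line `pq`
the point `r` lies. -/
def orient (p q r : ℝ × ℝ) : ℝ :=
  (q.1 - p.1) * (r.2 - p.2) - (q.2 - p.2) * (r.1 - p.1)

/-- The two-element set `e = {p, q}` spans a halving line of `P`: each open halfplane of the line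
`pq` contains exactly `(n - 2) / 2` points of `P`. -/
def IsHalvingPair (P : Finset (ℝ × ℝ)) (e : Finset (ℝ × ℝ)) : Prop :=
  ∃ p ∈ P, ∃ q ∈ P, p ≠ q ∧ e = {p, q} ∧
    (P.filter fun r => 0 < orient p q r).card = (P.card - 2) / 2 ∧
    (P.filter fun r => orient p q r < 0).card = (P.card - 2) / 2

/-- The number of halving lines of `P` (unordered pairs of points spanning one). -/
noncomputable def halvingCount (P : Finset (ℝ × ℝ)) : ℕ :=
  (P.powerset.filter (IsHalvingPair P)).card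

end Vale.Agent.P065
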