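import Vale.Agent.P065.LevDefs
import Vale.Agent.P065.Meet

/-! Counting lemmas for windows. -/

namespace Vale.Agent.P065

open Classical Finset

theorem card_div_le (E : Finset ℕ) {W : ℕ} (hW : 0 < W) (k : ℕ) :
    (E.filter fun i => i / W = k).card ≤ W := by
  refine (card_le_card (t := Ico (k * W) (k * W + W)) fun i hi => ?_).trans (by simp)
  have := (Nat.div_eq_iff hW).1 (mem_filter.1 hi).2
  rw [mem_Ico]
  omega

theorem card_le_fiber {α β : Type} [DecidableEq β] (F : Finset α) (t : Finset β) (g : α → β)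
    (h : ∀ i ∈ F, g i ∈ t) {b : ℝ} (hb : ∀ k ∈ t, ((F.filter fun i => g i = k).card : ℝ) ≤ b) :
    (F.card : ℝ) ≤ t.card * b := by
  rw [card_eq_sum_card_fiberwise (f := g) (t := t) fun i hi => mem_coe.2 (h i hi), Nat.cast_sum,
    ← nsmul_eq_mul]
  exact sum_le_card_nsmul _ _ _ hb

theorem markov_card {α : Type} (F : Finset α) (f : α → ℝ) (hf : ∀ i ∈ F, 0 ≤ f i) (y : ℝ) :
    ((F.filter fun i => y ≤ f i).card : ℝ) * y ≤ ∑ i ∈ F, f i := by
  rw [← nsmul_eq_mul]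
  exact (card_nsmul_le_sum _ _ _ fun i hi => (mem_filter.1 hi).2).trans
    (sum_le_sum_of_subset_of_nonneg (filter_subset _ _) fun i hi _ => hf i hi)

namespace Tok

variable {P : Finset Pt} (S : Tok P)

theorem nwin (hP : GP P) {a s : ℕ} (ha : 1 ≤ a) (hs : 1 ≤ s) (hn : P.card ≤ (a * s) ^ 3) :
    (((range S.m).image fun i => i / s ^ 4).card : ℝ) ≤ 15 * (a : ℝ) ^ 4 := by
  have h1 := S.dey hP (N := (a * s : ℕ)) (by exact_mod_cast Nat.mul_pos ha hs)
    (by exact_mod_cast hn)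
  have h2 : S.m ≤ 14 * a ^ 4 * s ^ 4 := by
    rw [mul_assoc, ← mul_pow]; exact_mod_cast h1
  have h3 : S.m / s ^ 4 ≤ 14 * a ^ 4 := Nat.div_le_of_le_mul (by rwa [mul_comm])
  have h4 : 1 ≤ a ^ 4 := Nat.one_le_pow _ _ ha
  have h5 : ((range S.m).image fun i => i / s ^ 4).card ≤ 15 * a ^ 4 := by
    refine (card_le_card (t := range (15 * a ^ 4)) fun k hk => ?_).trans (card_range _).le
    obtain ⟨i, hi, rfl⟩ := mem_image.1 hk
    have := Nat.div_le_div_right (c := s ^ 4) (mem_range.1 hi).le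
    rw [mem_range]
    omega
  exact_mod_cast h5

theorem mem_wact {W k : ℕ} (hW : 0 < W) {v : Pt} :
    v ∈ S.wact W k ↔ ∃ i < S.m, i / W = k ∧ (S.a i = v ∨ S.b i = v) := by
  rw [wact, mem_act]
  constructor
  · rintro ⟨i, h1, h2, h3⟩
    have := h2.trans_le (S.wend_le W k)
    exact ⟨i, this, (S.mem_win_iff hW this).2 ⟨h1, h2⟩, h3⟩
  · rintro ⟨i, h1, h2, h3⟩
    exact ⟨i, ((S.mem_win_iff hW h1).1 h2).1, ((S.mem_win_iff hW h1).1 h2).2, h3⟩

theorem wact_subset (W k : ℕ) : S.wact W k ⊆ P := S.act_subset (S.wend_le W k)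

theorem crn_wact (hP : GP P) {W k : ℕ} (hW : 0 < W) {F : Finset ℕ}
    (hF : ∀ i ∈ F, i < S.m ∧ i / W = k) : S.crn F ≤ 6 * (S.wact W k).card ^ 2 :=
  S.crn_win hP (S.wend_le W k) fun i hi =>
    mem_Ico.2 ((S.mem_win_iff hW (hF i hi).1).1 (hF i hi).2)

theorem crn_all (hP : GP P) {F : Finset ℕ} (hF : F ⊆ range S.m) : S.crn F ≤ 6 * P.card ^ 2 :=
  (S.crn_win hP (i₀ := 0) le_rfl (by rwa [← range_eq_Ico])).trans
    (Nat.mul_le_mul_left _ (Nat.pow_le_pow_left (card_le_card (S.act_subset le_rfl)) _))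

end Tok

end Vale.Agent.P065
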