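import Vale.Agent.P065.LevDefs
import Vale.Agent.P065.Band
import Vale.Agent.P065.WinL

/-! Regularization at all scales (task O). -/

namespace Vale.Agent.P065

open Classical Finset

/-- the conclusion of `few_fat_windows` for one system -/
def FatBd {P : Finset Pt} (S : Tok P) (C N : ℝ) : Prop := ∀ (W : ℕ) (ω : ℝ), 0 < W → 1 ≤ ω →
  (((range S.m).filter fun k => 16 * ω ^ 3 ≤ ((S.wact W k).card : ℝ)).card : ℝ) ≤ C * N ^ 4 / ω ^ 4

variable {P : Finset Pt} {S : Tok P} {C M : ℝ} {a s : ℕ}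

theorem good_fat (h : FatBd S C (a * s : ℕ)) (hs : 1 ≤ s) (hM : 1 ≤ M) :
    (((range S.m).filter fun i =>
      16 * (M * s) ^ 3 ≤ ((S.wact (s ^ 4) (i / s ^ 4)).card : ℝ)).card : ℝ) ≤
      C * ((a * s : ℕ) : ℝ) ^ 4 / M ^ 4 := by
  have hs' : (1 : ℝ) ≤ s := by exact_mod_cast hs
  have hW : 0 < s ^ 4 := by positivity
  have h1 := h (s ^ 4) (M * s) hW (one_le_mul_of_one_le_of_one_le hM hs')
  refine (card_le_fiber _ ((range S.m).filter fun k => 16 * (M * s) ^ 3 ≤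
    ((S.wact (s ^ 4) k).card : ℝ)) (fun i => i / s ^ 4) (fun i hi => ?_) (b := (s : ℝ) ^ 4)
    fun k _ => by exact_mod_cast card_div_le _ hW k).trans ?_
  · rw [mem_filter, mem_range] at hi ⊢
    exact ⟨(Nat.div_le_self _ _).trans_lt hi.1, hi.2⟩
  · refine (mul_le_mul_of_nonneg_right h1 (by positivity)).trans_eq ?_
    field_simp

theorem good_deg (hP : GP P) (ha : 1 ≤ a) (hs : 1 ≤ s) (hn : P.card ≤ (a * s) ^ 3) (hM : 1 ≤ M)
    (hMs : M ^ 5 ≤ s) :
    (((range S.m).filter fun i => ((S.wact (s ^ 4) (i / s ^ 4)).card : ℝ) ≤ M ^ 4 * s ^ 3 ∧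
      M ^ 15 * s ≤ S.ldeg (range S.m) (s ^ 4) (S.a i) (i / s ^ 4)).card : ℝ) ≤
      315 * ((a * s : ℕ) : ℝ) ^ 4 / M := by
  have hs' : (1 : ℝ) ≤ s := by exact_mod_cast hs
  have hW : 0 < s ^ 4 := by positivity
  refine (card_le_fiber _ ((range S.m).image fun i => i / s ^ 4) (fun i => i / s ^ 4)
    (fun i hi => mem_image_of_mem _ (mem_filter.1 hi).1) (b := 21 * (s : ℝ) ^ 4 / M)
    fun k _ => ?_).trans ((mul_le_mul_of_nonneg_right (S.nwin hP ha hs hn)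
      (by positivity)).trans_eq (by push_cast; ring))
  generalize hF : (((range S.m).filter fun i =>
    ((S.wact (s ^ 4) (i / s ^ 4)).card : ℝ) ≤ M ^ 4 * s ^ 3 ∧
      M ^ 15 * s ≤ S.ldeg (range S.m) (s ^ 4) (S.a i) (i / s ^ 4)).filter
        fun i => i / s ^ 4 = k) = F
  have hF' : ∀ i ∈ F, (i < S.m ∧ i / s ^ 4 = k) ∧ ((S.wact (s ^ 4) k).card : ℝ) ≤ M ^ 4 * s ^ 3 ∧
      M ^ 15 * s ≤ S.ldeg (range S.m) (s ^ 4) (S.a i) k := fun i hi => by
    rw [← hF, mem_filter, mem_filter, mem_range] at hi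
    exact ⟨⟨hi.1.1, hi.2⟩, hi.2 ▸ hi.1.2⟩
  rcases F.eq_empty_or_nonempty with rfl | ⟨i, hi⟩
  · simp only [card_empty, Nat.cast_zero]; positivity
  have hU := (hF' i hi).2.1
  have h1 := markov_card (S.wact (s ^ 4) k) (fun v => (S.ldeg (range S.m) (s ^ 4) v k : ℝ))
    (fun _ _ => Nat.cast_nonneg _) (M ^ 15 * s)
  have h2 : ∑ v ∈ S.wact (s ^ 4) k, (S.ldeg (range S.m) (s ^ 4) v k : ℝ) ≤ (s : ℝ) ^ 4 := by
    have := (sum_card_fiberwise_eq_card_filter ((range S.m).filter fun i => i / s ^ 4 = k)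
      (S.wact (s ^ 4) k) S.a).trans_le ((card_filter_le _ _).trans (card_div_le _ hW k))
    simp only [filter_filter] at this
    exact_mod_cast this
  have h3 := S.tok_hd hP (F := F) (fun i hi => mem_range.2 (hF' i hi).1.1) (S.wact_subset _ k)
    (H := (S.wact (s ^ 4) k).filter fun v => M ^ 15 * s ≤ S.ldeg (range S.m) (s ^ 4) v k)
    (filter_subset _ _)
    (fun i hi => (hF' i hi).1.2 ▸ ⟨S.a_mem_wact hW (hF' i hi).1.1, S.b_mem_wact hW (hF' i hi).1.1⟩)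
    (fun i hi => Or.inl (mem_filter.2 ⟨(hF' i hi).1.2 ▸ S.a_mem_wact hW (hF' i hi).1.1,
      (hF' i hi).2.2⟩)) (D₁ := s / M ^ 5) (D₂ := s * M ^ 14)
    ((one_le_div₀ (by positivity)).2 hMs) ((div_le_self (by positivity) (one_le_pow₀ hM)).trans
      (le_mul_of_one_le_right (by positivity) (one_le_pow₀ hM)))
  have h4 : (S.crn F : ℝ) ≤ 6 * (M ^ 4 * s ^ 3) ^ 2 := by
    refine le_trans (by exact_mod_cast S.crn_wact hP hW fun i hi => (hF' i hi).1 :
      _ ≤ 6 * ((S.wact (s ^ 4) k).card : ℝ) ^ 2) ?_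
    gcongr
  have h5 := (le_div_iff₀ (by positivity)).2 (h1.trans h2)
  refine h3.trans ?_
  calc _ ≤ 6 * (s * M ^ 14) * ((s : ℝ) ^ 4 / (M ^ 15 * s)) + 3 * (s / M ^ 5) * (M ^ 4 * s ^ 3) +
        2 * (6 * (M ^ 4 * s ^ 3) ^ 2) / (s / M ^ 5 * (s * M ^ 14)) := by gcongr
    _ = _ := by field_simp; ring

theorem good_sum (hP : GP P) (h : FatBd S C (a * s : ℕ)) (hC : 0 ≤ C) (ha : 1 ≤ a) (hs : 1 ≤ s)
    (hn : P.card ≤ (a * s) ^ 3) {n : ℕ} (han : a ≤ 2 ^ n) :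
    ∑ k ∈ (range S.m).image (fun i => i / s ^ 4), ((S.wact (s ^ 4) k).card : ℝ) ≤
      (240 + 128 * C * n) * (a * ((a * s : ℕ) : ℝ) ^ 3) := by
  have hs' : (1 : ℝ) ≤ s := by exact_mod_cast hs
  have hW : 0 < s ^ 4 := by positivity
  have key : ∀ n : ℕ, ∑ k ∈ (range S.m).image (fun i => i / s ^ 4),
      min ((S.wact (s ^ 4) k).card : ℝ) (16 * (2 ^ n * s) ^ 3) ≤
      (240 + 128 * C * n) * (a * ((a * s : ℕ) : ℝ) ^ 3) := by
    intro n
    induction n with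
    | zero =>
      refine (sum_le_card_nsmul _ _ _ fun k _ => min_le_right _ _).trans ?_
      rw [nsmul_eq_mul]
      refine (mul_le_mul_of_nonneg_right (S.nwin hP ha hs hn) (by positivity)).trans_eq ?_
      push_cast; ring
    | succ n ih =>
      have h0 : (1 : ℝ) ≤ 2 ^ n := one_le_pow₀ (by norm_num)
      have h1 := h (s ^ 4) (2 ^ n * s) hW (one_le_mul_of_one_le_of_one_le h0 hs')
      have h2 : ∑ k ∈ (range S.m).image (fun i => i / s ^ 4),
          (if 16 * ((2 : ℝ) ^ n * s) ^ 3 ≤ ((S.wact (s ^ 4) k).card : ℝ) then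
            16 * ((2 : ℝ) ^ (n + 1) * s) ^ 3 else 0) ≤
          128 * C * (a * ((a * s : ℕ) : ℝ) ^ 3) := by
        rw [← sum_filter, sum_const, nsmul_eq_mul]
        refine (mul_le_mul_of_nonneg_right ((Nat.cast_le.2 (card_le_card
          (filter_subset_filter _ fun k hk => ?_))).trans h1) (by positivity)).trans ?_
        · obtain ⟨i, hi, rfl⟩ := mem_image.1 hk
          exact mem_range.2 ((Nat.div_le_self _ _).trans_lt (mem_range.1 hi))
        · refine le_trans (le_of_eq ?_) (div_le_self (b := 2 ^ n) (by positivity) h0)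
          push_cast; field_simp; ring
      refine le_trans (sum_le_sum fun k _ => ?_) (sum_add_distrib.trans_le
        ((add_le_add ih h2).trans_eq (by push_cast; ring)))
      split_ifs with k1
      · exact (min_le_right _ _).trans (le_add_of_nonneg_left (by positivity))
      · rw [add_zero, min_eq_left (not_le.1 k1).le]
        exact min_le_left _ _
  refine le_trans (sum_le_sum fun k _ => le_min le_rfl ?_) (key n)
  have h1 : ((S.wact (s ^ 4) k).card : ℝ) ≤ ((2 ^ n * s : ℕ) : ℝ) ^ 3 := by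
    exact_mod_cast ((card_le_card (S.wact_subset _ k)).trans hn).trans
      (Nat.pow_le_pow_left (Nat.mul_le_mul_right _ han) _)
  push_cast at h1
  exact h1.trans (le_mul_of_one_le_left (by positivity) (by norm_num))

theorem good_pts (hP : GP P) (h : FatBd S C (a * s : ℕ)) (hC : 0 ≤ C) (ha : 1 ≤ a) (hs : 1 ≤ s)
    (hn : P.card ≤ (a * s) ^ 3) {n : ℕ} (han : a ≤ 2 ^ n) (hM : 0 < M) :
    ((P.filter fun v => M * a ≤
      (((range S.m).filter fun k => v ∈ S.wact (s ^ 4) k).card : ℝ)).card : ℝ) ≤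
      (240 + 128 * C * n) * ((a * s : ℕ) : ℝ) ^ 3 / M := by
  have hW : 0 < s ^ 4 := by positivity
  have h1 := markov_card P (fun v => (((range S.m).filter fun k => v ∈ S.wact (s ^ 4) k).card : ℝ))
    (fun _ _ => Nat.cast_nonneg _) (M * a)
  have h2 : ∑ v ∈ P, (((range S.m).filter fun k => v ∈ S.wact (s ^ 4) k).card : ℝ) ≤
      ∑ k ∈ (range S.m).image (fun i => i / s ^ 4), ((S.wact (s ^ 4) k).card : ℝ) := by
    calc _ ≤ ∑ v ∈ P, ((((range S.m).image (fun i => i / s ^ 4)).filter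
          fun k => v ∈ S.wact (s ^ 4) k).card : ℝ) := sum_le_sum fun v _ =>
            Nat.cast_le.2 (card_le_card fun k hk => by
              obtain ⟨i, k1, k2, -⟩ := (S.mem_wact hW).1 (mem_filter.1 hk).2
              exact mem_filter.2 ⟨mem_image.2 ⟨i, mem_range.2 k1, k2⟩, (mem_filter.1 hk).2⟩)
      _ = ∑ k ∈ (range S.m).image (fun i => i / s ^ 4),
          ((P.filter fun v => v ∈ S.wact (s ^ 4) k).card : ℝ) := by
            simp only [card_filter, Nat.cast_sum]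
            exact sum_comm
      _ ≤ _ := sum_le_sum fun k _ => Nat.cast_le.2 (card_le_card fun v hv => (mem_filter.1 hv).2)
  have h3 := (h1.trans h2).trans (good_sum hP h hC ha hs hn han)
  have ha' : (0 : ℝ) < a := by exact_mod_cast ha
  rw [le_div_iff₀ hM]
  refine le_of_mul_le_mul_right (a := (a : ℝ)) ?_ ha'
  linarith

theorem good_ends (hP : GP P) {N : ℝ} (hM : 1 ≤ M) (hN : M ≤ N) (hn : (P.card : ℝ) ≤ N ^ 3)
    {H : Finset Pt} (hH : H ⊆ P) (hH' : (H.card : ℝ) ≤ N ^ 3 / M ^ 3) :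
    (((range S.m).filter fun i => S.a i ∈ H ∨ S.b i ∈ H).card : ℝ) ≤ 21 * N ^ 4 / M := by
  have hN0 : 0 < N := by linarith
  have h3 := S.tok_hd hP (F := (range S.m).filter fun i => S.a i ∈ H ∨ S.b i ∈ H)
    (filter_subset _ _) subset_rfl hH (fun i hi => ⟨S.a_mem (mem_range.1 (mem_filter.1 hi).1),
      S.b_mem (mem_range.1 (mem_filter.1 hi).1)⟩) (fun i hi => (mem_filter.1 hi).2)
    (D₁ := N / M) (D₂ := N * M ^ 2) ((one_le_div₀ (by positivity)).2 hN)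
    ((div_le_self hN0.le hM).trans (le_mul_of_one_le_right hN0.le (one_le_pow₀ hM)))
  have h4 : (S.crn ((range S.m).filter fun i => S.a i ∈ H ∨ S.b i ∈ H) : ℝ) ≤ 6 * (N ^ 3) ^ 2 := by
    refine le_trans (by exact_mod_cast S.crn_all hP (filter_subset _ _) :
      _ ≤ 6 * (P.card : ℝ) ^ 2) ?_
    gcongr
  refine h3.trans ?_
  calc _ ≤ 6 * (N * M ^ 2) * (N ^ 3 / M ^ 3) + 3 * (N / M) * N ^ 3 +
        2 * (6 * (N ^ 3) ^ 2) / (N / M * (N * M ^ 2)) := by gcongr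
    _ = _ := by field_simp; ring

theorem exists_good : ∃ C₀ : ℕ, 1 ≤ C₀ ∧ ∀ (P : Finset Pt), GP P → ∀ (S : Tok P) (I u : ℕ) (K : ℝ),
    2 ≤ K → ((2 * I + 1 : ℕ) : ℝ) ≤ K → K ^ C₀ ≤ 4 ^ I → 1 ≤ u →
    P.card ≤ (4 ^ I * 4 ^ I * u) ^ 3 → ((4 ^ I * 4 ^ I * u : ℕ) : ℝ) ^ 4 / K ≤ S.m →
    ∃ (E : Finset ℕ) (G : Finset Pt), S.Good E G I u (K ^ C₀) := by
  obtain ⟨C, hC, hfat⟩ := few_fat_windows
  obtain ⟨t, ht⟩ := pow_unbounded_of_one_lt (1600 + 512 * C) (show (1 : ℝ) < 2 by norm_num)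
  refine ⟨(t + 2) * 15, by omega, fun P hP S I u K hK hI ha hu hn hm => ?_⟩
  rw [pow_mul] at ha ⊢
  have hM : (1600 + 512 * C) * K ^ 2 ≤ K ^ (t + 2) := by
    rw [pow_add]
    gcongr
    exact ht.le.trans (pow_le_pow_left₀ (by norm_num) hK t)
  generalize K ^ (t + 2) = M at *
  have hK2 : 2 * K ≤ K ^ 2 := by nlinarith
  have hCK : 0 ≤ C * K ^ 2 := by positivity
  have hM16 : 16 ≤ M := by nlinarith
  have hM1 : 1 ≤ M := by linarith
  have hp : ∀ {i j : ℕ}, i ≤ j → M ^ i ≤ M ^ j := fun h => pow_le_pow_right₀ hM1 h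
  have hM15 : M ≤ M ^ 15 := by simpa using hp (show 1 ≤ 15 by norm_num)
  have ha2 : 2 ≤ 4 ^ I := by exact_mod_cast (show (2 : ℝ) ≤ 4 ^ I by linarith)
  have hs : ∀ j, 4 ^ I ≤ 4 ^ I * u * 2 ^ j := fun j =>
    (Nat.le_mul_of_pos_right _ hu).trans (Nat.le_mul_of_pos_right _ (by positivity))
  have hs' : ∀ j, M ^ 15 ≤ ((4 ^ I * u * 2 ^ j : ℕ) : ℝ) := fun j =>
    ha.trans (by exact_mod_cast hs j)
  have hN : ∀ j ≤ 2 * I, 2 ^ (2 * I - j) * (4 ^ I * u * 2 ^ j) = 4 ^ I * 4 ^ I * u := fun j hj => by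
    rw [show 2 ^ (2 * I - j) * (4 ^ I * u * 2 ^ j) = 2 ^ (2 * I - j + j) * 4 ^ I * u by ring,
      Nat.sub_add_cancel hj, pow_mul]
    norm_num
  have hN1 : M ^ 15 ≤ ((4 ^ I * 4 ^ I * u : ℕ) : ℝ) := by
    rw [← hN 0 (by omega)]
    exact (hs' 0).trans (Nat.cast_le.2 (Nat.le_mul_of_pos_left _ (by positivity)))
  have hW : (((4 ^ I * u * 2 ^ I) ^ 4 : ℕ) : ℝ) * M ≤ ((4 ^ I * 4 ^ I * u : ℕ) : ℝ) ^ 4 := by
    rw [← hN I (by omega), show 2 * I - I = I by omega, Nat.cast_mul (2 ^ I), mul_pow ((2 ^ I : ℕ) : ℝ),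
      mul_comm _ M, Nat.cast_pow]
    gcongr
    refine (hM15.trans ha).trans ?_
    rw [show (4 : ℝ) ^ I = (2 ^ I) ^ 2 by rw [← pow_mul, mul_comm, pow_mul]; norm_num]
    push_cast
    exact pow_le_pow_right₀ (one_le_pow₀ (by norm_num)) (by norm_num)
  have hsp : ∀ j, 1 ≤ 4 ^ I * u * 2 ^ j := fun j => le_trans (by omega) (hs j)
  obtain ⟨s, hsd'⟩ : ∃ s : ℕ → ℕ, ∀ j, 4 ^ I * u * 2 ^ j = s j := ⟨_, fun _ => rfl⟩
  simp only [hsd'] at hs hs' hN hW hsp
  generalize hNd : 4 ^ I * 4 ^ I * u = N at *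
  have hf : FatBd S C N := fun W ω h1 h2 => hfat P hP S W N ω h1 (by linarith) h2
    (by exact_mod_cast hn)
  have hN0 : (0 : ℝ) < N := by linarith
  have hI' : ((range (2 * I + 1)).card : ℝ) ≤ K := by rwa [card_range]
  let H : Finset Pt := (range (2 * I + 1)).biUnion fun j => P.filter fun v =>
    M ^ 4 * (2 ^ (2 * I - j) : ℕ) ≤ (((range S.m).filter fun k => v ∈ S.wact (s j ^ 4) k).card : ℝ)
  let B1 : Finset ℕ := (range (2 * I + 1)).biUnion fun j => (range S.m).filter fun i =>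
    16 * (M * s j) ^ 3 ≤ ((S.wact (s j ^ 4) (i / s j ^ 4)).card : ℝ)
  let B2 : Finset ℕ := (range (2 * I + 1)).biUnion fun j => (range S.m).filter fun i =>
    ((S.wact (s j ^ 4) (i / s j ^ 4)).card : ℝ) ≤ M ^ 4 * s j ^ 3 ∧
      M ^ 15 * s j ≤ S.ldeg (range S.m) (s j ^ 4) (S.a i) (i / s j ^ 4)
  let B3 : Finset ℕ := (range S.m).filter fun i => S.a i ∈ H ∨ S.b i ∈ H
  let B4 : Finset ℕ := (range S.m).filter fun i => i / s I ^ 4 = S.m / s I ^ 4
  have hU : ∀ {α : Type} [DecidableEq α] (f : ℕ → Finset α) (b : ℝ), 0 ≤ b →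
      (∀ j ≤ 2 * I, ((f j).card : ℝ) ≤ b) → (((range (2 * I + 1)).biUnion f).card : ℝ) ≤ K * b :=
    fun f b h0 h => by
      refine le_trans (Nat.cast_le.2 card_biUnion_le) ?_
      rw [Nat.cast_sum]
      refine (sum_le_card_nsmul _ _ b fun j hj => h j (by simpa [Nat.lt_succ_iff] using hj)).trans ?_
      rw [nsmul_eq_mul]
      gcongr
  have b0 : (H.card : ℝ) ≤ N ^ 3 / M ^ 3 := by
    refine (hU _ ((240 + 128 * C * K) * N ^ 3 / M ^ 4) (by positivity) fun j hj => ?_).trans ?_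
    · refine (good_pts hP (hN j hj ▸ hf) hC.le Nat.one_le_two_pow (hsp j) (hN j hj ▸ hn) le_rfl
        (by positivity)).trans ?_
      rw [hN j hj]
      gcongr
      exact le_trans (Nat.cast_le.2 (by omega)) hI
    · calc _ = K * (240 + 128 * C * K) * (N ^ 3 / M ^ 4) := by ring
        _ ≤ M * (N ^ 3 / M ^ 4) := by gcongr; nlinarith
        _ = _ := by field_simp
  have b1 : (B1.card : ℝ) ≤ K * (C * N ^ 4 / M) := hU _ _ (by positivity) fun j hj => by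
    refine (good_fat (hN j hj ▸ hf) (hsp j) hM1).trans ?_
    rw [hN j hj]
    gcongr
    simpa using hp (show 1 ≤ 4 by norm_num)
  have b2 : (B2.card : ℝ) ≤ K * (315 * N ^ 4 / M) := hU _ _ (by positivity) fun j hj => by
    have := good_deg (S := S) hP Nat.one_le_two_pow (hsp j) (hN j hj ▸ hn) hM1
      ((hp (by norm_num)).trans (hs' j))
    rwa [hN j hj] at this
  have b3 : (B3.card : ℝ) ≤ 21 * N ^ 4 / M := good_ends hP hM1 (hM15.trans hN1)
    (by exact_mod_cast hn) (biUnion_subset.2 fun j _ => filter_subset _ _) b0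
  have b4 : (B4.card : ℝ) ≤ N ^ 4 / M := by
    rw [le_div_iff₀ (by positivity)]
    refine le_trans ?_ hW
    gcongr
    exact card_div_le _ (by have := hsp I; positivity) _
  have hE : ∀ i ∈ range S.m \ (B1 ∪ B2 ∪ B3 ∪ B4), i ∈ range S.m ∧ i ∉ B1 ∧ i ∉ B2 ∧ i ∉ B3 ∧
      i ∉ B4 := fun i hi => by
    simpa only [mem_sdiff, mem_union, not_or, and_assoc] using hi
  have hact : ∀ j ≤ 2 * I, ∀ i ∈ range S.m \ (B1 ∪ B2 ∪ B3 ∪ B4),
      ((S.wact (s j ^ 4) (i / s j ^ 4)).card : ℝ) ≤ M ^ 4 * s j ^ 3 := fun j hj i hi => by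
    obtain ⟨k1, k2, -⟩ := hE i hi
    refine (not_le.1 fun k => k2 (mem_biUnion.2 ⟨j, mem_range.2 (by omega),
      mem_filter.2 ⟨k1, k⟩⟩)).le.trans ?_
    calc _ = 16 * (M ^ 3 * s j ^ 3) := by ring
      _ ≤ M * (M ^ 3 * s j ^ 3) := by gcongr
      _ = _ := by ring
  refine ⟨range S.m \ (B1 ∪ B2 ∪ B3 ∪ B4), P \ H, fun j hj => ?_, fun i hi => ?_, ?_,
    hI.trans (by nlinarith)⟩
  · rw [hsd']
    refine ⟨by linarith, Nat.one_le_two_pow, ha2.trans (hs j), hN j hj ▸ hn, sdiff_subset,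
      fun i hi => (hact j hj i hi).trans (by gcongr; norm_num), fun v k => ?_, fun i hi => ?_,
      sdiff_subset, fun v hv => ?_⟩
    · rcases Nat.eq_zero_or_pos (S.ldeg (range S.m \ (B1 ∪ B2 ∪ B3 ∪ B4)) (s j ^ 4) v k) with h | h
      · rw [h, Nat.cast_zero]; positivity
      obtain ⟨i, hi⟩ := card_pos.1 h
      obtain ⟨k1, rfl, rfl⟩ := mem_filter.1 hi
      obtain ⟨k2, -, k3, -⟩ := hE i k1
      refine le_trans (Nat.cast_le.2 (card_le_card (filter_subset_filter _ sdiff_subset)))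
        (not_le.1 fun k => k3 (mem_biUnion.2 ⟨j, mem_range.2 (by omega),
          mem_filter.2 ⟨k2, hact j hj i k1, k⟩⟩)).le
    · obtain ⟨k1, -, -, k2, -⟩ := hE i hi
      exact ⟨mem_sdiff.2 ⟨S.a_mem (mem_range.1 k1), fun k => k2 (mem_filter.2 ⟨k1, Or.inl k⟩)⟩,
        mem_sdiff.2 ⟨S.b_mem (mem_range.1 k1), fun k => k2 (mem_filter.2 ⟨k1, Or.inr k⟩)⟩⟩
    · rw [mem_sdiff] at hv
      refine (not_le.1 fun k => hv.2 (mem_biUnion.2 ⟨j, mem_range.2 (by omega),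
        mem_filter.2 ⟨hv.1, k⟩⟩)).le.trans ?_
      gcongr
      norm_num
  · rw [hsd']
    obtain ⟨k1, -, -, -, k2⟩ := hE i hi
    have k3 := Nat.div_le_div_right (c := s I ^ 4) (mem_range.1 k1).le
    have k4 : i / s I ^ 4 ≠ S.m / s I ^ 4 := fun k => k2 (mem_filter.2 ⟨k1, k⟩)
    exact (Nat.mul_le_mul_right _ (by omega)).trans (Nat.div_mul_le_self _ _)
  · rw [hNd]
    have k1 : (S.m : ℝ) ≤ (range S.m \ (B1 ∪ B2 ∪ B3 ∪ B4)).card +
        (B1.card + B2.card + B3.card + B4.card) := by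
      have := card_le_card_sdiff_add_card (s := range S.m) (t := B1 ∪ B2 ∪ B3 ∪ B4)
      have := card_union_le (B1 ∪ B2 ∪ B3) B4
      have := card_union_le (B1 ∪ B2) B3
      have := card_union_le B1 B2
      rw [card_range] at *
      exact_mod_cast (by omega)
    obtain ⟨y, hy⟩ : ∃ y, y = (N : ℝ) ^ 4 / M := ⟨_, rfl⟩
    have hy0 : 0 ≤ y := by rw [hy]; positivity
    rw [mul_div_assoc, ← hy] at b1 b2 b3
    rw [← hy] at b4
    have k2 : (N : ℝ) ^ 4 / M ^ 15 ≤ y := by rw [hy]; gcongr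
    have k3 : (1600 + 512 * C) * K * y ≤ (N : ℝ) ^ 4 / K := by
      rw [le_div_iff₀ (by positivity), show (N : ℝ) ^ 4 = M * y by rw [hy]; field_simp]
      nlinarith
    have k4 : 0 ≤ C * K * y := by positivity
    nlinarith

end Vale.Agent.P065
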