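import Vale.Agent.P065.Basic

/-! Good edges, heavy incidences and overlaps at one window scale. -/

namespace Vale.Agent.P065

open Classical Finset

namespace Tok

variable {P : Finset Pt} (S : Tok P)

/-- number of events of `E` in the `k`-th window of size `W` with left endpoint `v` -/
noncomputable def ldeg (E : Finset ℕ) (W : ℕ) (v : Pt) (k : ℕ) : ℕ :=
  (E.filter fun i => i / W = k ∧ S.a i = v).card

/-- windows of size `s ^ 4` in which `v` is heavy -/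
noncomputable def inc (E : Finset ℕ) (s : ℕ) (Y : ℝ) (v : Pt) : Finset ℕ :=
  (E.image fun i => i / s ^ 4).filter fun k => (s : ℝ) / Y ≤ S.ldeg E (s ^ 4) v k

/-- number of points heavy in both windows -/
noncomputable def ov (E : Finset ℕ) (s : ℕ) (Y : ℝ) (k k' : ℕ) : ℕ :=
  (P.filter fun v => k ∈ S.inc E s Y v ∧ k' ∈ S.inc E s Y v).card

/-- number of pairs of heavy windows at `v` with overlap at least `y` -/
noncomputable def hvy (E : Finset ℕ) (s : ℕ) (Y : ℝ) (v : Pt) (y : ℝ) : ℕ :=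
  ((S.inc E s Y v ×ˢ S.inc E s Y v).filter fun x => y ≤ S.ov E s Y x.1 x.2).card

/-- regularity of the good events `E` and good points `G` at the scale of windows of size `s ^ 4`
(`N = a s`) -/
structure Lev (E : Finset ℕ) (G : Finset Pt) (a s : ℕ) (X : ℝ) : Prop where
  X_ge : 2 ≤ X
  a_ge : 1 ≤ a
  s_ge : 2 ≤ s
  card_P : P.card ≤ (a * s) ^ 3
  E_sub : E ⊆ range S.m
  act_le : ∀ i ∈ E, ((S.wact (s ^ 4) (i / s ^ 4)).card : ℝ) ≤ X * s ^ 3
  deg_le : ∀ (v : Pt) (k : ℕ), (S.ldeg E (s ^ 4) v k : ℝ) ≤ X * s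
  mem_G : ∀ i ∈ E, S.a i ∈ G ∧ S.b i ∈ G
  G_sub : G ⊆ P
  nact_le : ∀ v ∈ G, (((range S.m).filter fun k => v ∈ S.wact (s ^ 4) k).card : ℝ) ≤ X * a

/-- the windows of size `W` containing good events are complete -/
def Fullw (E : Finset ℕ) (W : ℕ) : Prop := ∀ i ∈ E, (i / W + 1) * W ≤ S.m

/-- regularity at all scales; `a = 4 ^ I`, `s = a u`, `N = a s` -/
structure Good (E : Finset ℕ) (G : Finset Pt) (I u : ℕ) (X : ℝ) : Prop where
  lev : ∀ j ≤ 2 * I, S.Lev E G (2 ^ (2 * I - j)) (4 ^ I * u * 2 ^ j) X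
  full : S.Fullw E ((4 ^ I * u * 2 ^ I) ^ 4)
  card_E : ((4 ^ I * 4 ^ I * u : ℕ) : ℝ) ^ 4 / X ≤ E.card
  I_le : ((2 * I + 1 : ℕ) : ℝ) ≤ X

/-- number of tokens whose piece in the window `[i₀, i₁)` starts before and ends after `v` -/
noncomputable def chi (i₀ i₁ : ℕ) (v : Pt) : ℕ :=
  (S.T.filter fun τ => S.sw i₀ i₁ (S.hold i₀ τ) v ∧ S.sw i₀ i₁ v (S.hold i₁ τ)).card

/-- tail-good point -/
def TG (E : Finset ℕ) (a s : ℕ) (Y K : ℝ) (v : Pt) : Prop :=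
  ∀ Z : ℝ, 1 ≤ Z → (S.hvy E s Y v (Z * s ^ 3 / a) : ℝ) ^ 10 * Z ≤ (K * a ^ 2) ^ 10

/-- blocks: `[k₁ i, k₂ i)` is the index range of the block of the event `i ∈ E`; a block consists
of at most `ℓ` consecutive good events of one token in one window of size `W` -/
structure Blocks (E : Finset ℕ) (W ℓ : ℕ) (k₁ k₂ : ℕ → ℕ) : Prop where
  range : ∀ i ∈ E, i / W * W ≤ k₁ i ∧ k₁ i ≤ i ∧ i < k₂ i ∧ k₂ i ≤ S.wend W (i / W)
  order : ∀ i ∈ E, ∀ j ∈ E, S.tok i = S.tok j →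
    (k₁ i = k₁ j ∧ k₂ i = k₂ j) ∨ k₂ i ≤ k₁ j ∨ k₂ j ≤ k₁ i
  size : ∀ i ∈ E, (E.filter fun j => S.tok j = S.tok i ∧ k₁ j = k₁ i).card ≤ ℓ
  count : ∀ k : ℕ, (((E.filter fun i => i / W = k).image fun i => (S.tok i, k₁ i)).card : ℝ) ≤
    W / ℓ + (S.wact W k).card

/-- number of events of `E'` in the window of `i` whose left endpoint lies strictly between the
two ends of the block of `i` -/
noncomputable def fat (E' : Finset ℕ) (W : ℕ) (k₁ k₂ : ℕ → ℕ) (i : ℕ) : ℕ :=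
  (E'.filter fun j => j / W = i / W ∧ S.wsw W (i / W) (S.hold (k₁ i) (S.tok i)) (S.a j) ∧
    S.wsw W (i / W) (S.a j) (S.hold (k₂ i) (S.tok i))).card

/-- a small set `Q` with a dense graph `T` of pairs swapping in a window where both are heavy -/
structure SwapCfg (E : Finset ℕ) (a s : ℕ) (Y K : ℝ) (Q : Finset Pt) (T : Finset (Pt × Pt))
    (wj : Pt × Pt → ℕ) : Prop where
  card_Q : (Q.card : ℝ) ≤ K * (a * s ^ 3)
  card_T : ((a : ℝ) * s ^ 3) ^ 2 / K ≤ T.card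
  mem : ∀ x ∈ T, x.1 ∈ Q ∧ x.2 ∈ Q ∧ wj x ∈ S.inc E s Y x.1 ∧ wj x ∈ S.inc E s Y x.2 ∧
    S.wsw (s ^ 4) (wj x) x.1 x.2
  tg : ∀ x ∈ T, S.TG E a s Y K x.1 ∧ S.TG E a s Y K x.2

end Tok

end Vale.Agent.P065
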