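import Vale.Agent.P065.Unif1Tup

/-! Choice of the reference columns (task L). -/

namespace Vale.Agent.P065

open Classical Finset

theorem ref_cell {t u : ℝ} {v : ℤ} (ht1 : 1 ≤ t) (ht2 : t ≤ 2) (h1 : v ≤ t * u)
    (h2 : t * u < v + 3) : v ∈ Icc (⌊t * ⌊u⌋⌋ - 2) (⌊t * ⌊u⌋⌋ - 2 + (4 : ℕ)) ∧
      ⌊u⌋ ∈ Icc ⌊v / t⌋ (⌊v / t⌋ + 3) := by
  have h3 := Int.floor_le u
  have h4 := Int.lt_floor_add_one u
  have h5 := Int.floor_le (t * ⌊u⌋)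
  have h6 := Int.lt_floor_add_one (t * ⌊u⌋)
  have h7 : (⌊t * ⌊u⌋⌋ : ℝ) < v + 3 := by nlinarith
  have h8 : (v : ℝ) < ⌊t * ⌊u⌋⌋ + 3 := by nlinarith
  have h9 : ⌊t * ⌊u⌋⌋ < v + 3 := by exact_mod_cast h7
  have h10 : v < ⌊t * ⌊u⌋⌋ + 3 := by exact_mod_cast h8
  refine ⟨mem_Icc.mpr ⟨by omega, by omega⟩, mem_Icc.mpr ⟨Int.floor_le_floor ?_, ?_⟩⟩
  · rw [div_le_iff₀ (by linarith)]
    linarith
  · rw [← Int.floor_add_ofNat]
    refine Int.floor_le_floor ?_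
    rw [div_add' _ _ _ (by linarith), le_div_iff₀ (by linarith)]
    linarith

theorem ref_lab {r u₁ x : ℝ} (hr0 : 0 < r) (hr1 : r ≤ 1) :
    ((⌊u₁⌋ + ⌊r * ⌊x⌋⌋ : ℤ) : ℝ) ≤ u₁ + r * x ∧ u₁ + r * x < ((⌊u₁⌋ + ⌊r * ⌊x⌋⌋ : ℤ) : ℝ) + 3 := by
  have h1 := Int.floor_le u₁
  have h2 := Int.lt_floor_add_one u₁
  have h3 := Int.floor_le x
  have h4 := Int.lt_floor_add_one x
  have h5 := Int.floor_le (r * ⌊x⌋)
  have h6 := Int.lt_floor_add_one (r * ⌊x⌋)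
  push_cast
  constructor <;> nlinarith

theorem ref_aff {s₁ s₂ x κ μ : ℝ} (h : 0 < (x - s₁) / (s₂ - x)) :
    (1 + (x - s₁) / (s₂ - x)) * (κ * x + μ) = κ * s₁ + μ + (x - s₁) / (s₂ - x) * (κ * s₂ + μ) := by
  have h1 : s₂ - x ≠ 0 := fun h0 => by simp [h0] at h
  field_simp
  ring

theorem ref_five {a b c d : ℝ} (h1 : a < b) (h2 : b < c) (h : 2 * c ≤ a + d) :
    0 < (b - a) / (d - b) ∧ (b - a) / (d - b) ≤ (c - a) / (d - c) ∧ (c - a) / (d - c) ≤ 1 :=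
  ⟨div_pos (by linarith) (by linarith), div_le_div₀ (by linarith) (by linarith) (by linarith)
    (by linarith), (div_le_one (by linarith)).mpr (by linarith)⟩

theorem ref_frost {A A' : Finset ℤ} {K K' : ℝ} (h : Frost A K) (hA : A' ⊆ A) (h0 : 0 ≤ K)
    (hK : K ≤ K') : Frost A' K' := fun x R hR =>
  calc _ ≤ ((A.filter fun z : ℤ => x ≤ z ∧ (z : ℝ) ≤ x + R).card : ℝ) ^ 2 := by gcongr
    _ ≤ K ^ 2 * R := h x R hR
    _ ≤ _ := by gcongr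

theorem ref_lab_cfg {ι : Type} {C Q C' Q' : Finset ι} {Z Z' : Finset (ι × ι)} {v v' : ι → ι → ℤ}
    {a nC nQ K : ℝ} {E : ℕ} (h : LabCfg C Q Z v a nC nQ K E 2) (ha : K ^ 300 ≤ a) (hC : C' ⊆ C)
    (hQ : Q' ⊆ Q) (hZ : Z' ⊆ Z) (hs : Z' ⊆ C' ×ˢ Q') (hc : nC * nQ / K ^ 27 ≤ Z'.card)
    (f g : ι → ℤ → ℤ) (hf : ∀ p q, (p, q) ∈ Z' → v' p q ∈ Icc (f p (v p q)) (f p (v p q) + (4 : ℕ)))
    (hg : ∀ p q, (p, q) ∈ Z' → v p q ∈ Icc (g p (v' p q)) (g p (v' p q) + 3)) :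
    LabCfg C' Q' Z' v' a nC nQ (K ^ 300) (E + 1) 4 := by
  have hK := h.K_ge
  have ha1 := h.a_ge
  have hnC : 0 < nC := by linarith [h.nC_ge]
  have hnQ : 0 < nQ := lt_of_lt_of_le (by positivity) h.nQ_ge
  have hp : ∀ {c : ℝ} {i : ℕ}, i ≤ 280 → c ≤ 2 ^ 20 → c * K ^ i ≤ K ^ 300 := fun hi hc =>
    aux_pow hK 20 (by omega) hc
  have hK1 : K ≤ K ^ 300 := by simpa using hp (c := 1) (i := 1) (by norm_num) (by norm_num)
  have hC' : (C'.card : ℝ) ≤ K * nC := (Nat.cast_le.mpr (card_le_card hC)).trans h.card_C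
  have hQ' : (Q'.card : ℝ) ≤ K * nQ := (Nat.cast_le.mpr (card_le_card hQ)).trans h.card_Q
  have key : ∀ y, 0 ≤ y → (heavy C' Q' Z' v' y : ℝ) ≤ 2 * heavy C Q Z v (y / 32) := by
    intro y hy
    have h1 := aux_heavy C' Q' Z' v' v (fun p p' q => codeg Q Z v p p' q) (M := 4) hy (by norm_num)
      (fun z₀ _ => ⟨Icc (g z₀.1 (v' z₀.1 z₀.2)) (g z₀.1 (v' z₀.1 z₀.2) + 3), by
        rw [Int.card_Icc, show g z₀.1 (v' z₀.1 z₀.2) + 3 + 1 - g z₀.1 (v' z₀.1 z₀.2) = 4 by ring]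
        norm_num, fun q h1 h2 => h2 ▸ hg _ _ h1⟩)
      (fun p p' q _ _ T h1 h2 => Nat.cast_le.mpr (card_le_card fun q' hq' => mem_filter.mpr
        ⟨hQ (h1 hq'), hZ (h2 q' hq').1, hZ (h2 q' hq').2.1, (h2 q' hq').2.2⟩))
      ((C ×ˢ C ×ˢ Q).filter fun x => (x.1, x.2.2) ∈ Z ∧ (x.2.1, x.2.2) ∈ Z ∧
        y / 32 ≤ codeg Q Z v x.1 x.2.1 x.2.2) fun p k1 p' k2 q k3 k4 k5 k6 => by
        simp only [mem_filter, mem_product]
        exact ⟨⟨hC k1, hC k2, hQ k3⟩, hZ k4, hZ k5, by linarith⟩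
    exact_mod_cast h1
  refine ⟨hK.trans hK1, ha1, h.nC_ge, h.nQ_ge, hs, hC'.trans (by gcongr), hQ'.trans (by gcongr),
    le_trans ?_ hc, fun p hp' => ?_, fun Y hY => ?_, fun L hL hLa => ?_⟩
  · gcongr
    · linarith
    · norm_num
  · have h1 := aux_img (colSet Z v p) (colSet Z' v' p) (f p) 4 fun b hb => by
      obtain ⟨q, h2, rfl⟩ := aux_mem_colSet.mp hb
      exact ⟨_, aux_mem_colSet.mpr ⟨q, hZ h2, rfl⟩, hf p q h2⟩
    have h2 := h.col p (hC hp')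
    have h3 := hp (c := 5) (i := 1) (by norm_num) (by norm_num)
    push_cast at h1
    nlinarith
  · have h3 : 4 * K ^ 3 ≤ K ^ 300 := hp (by norm_num) (by norm_num)
    have h4 : K ≤ K ^ 3 := le_self_pow₀ (by linarith) (by norm_num)
    refine le_trans ?_ (show 4 ^ 10 * (K ^ 3 * nC ^ 2 * nQ) ^ 10 ≤ _ by
      rw [← mul_pow, ← mul_assoc, ← mul_assoc]
      gcongr)
    rcases le_total Y 32 with h1 | h1
    · calc _ ≤ (K ^ 3 * nC ^ 2 * nQ) ^ 10 * 4 ^ 10 := by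
            gcongr
            · exact aux_heavy_triv _ _ _ hC' hQ'
            · linarith
        _ = _ := mul_comm _ _
    · have h2 := h.tail (Y / 32) (by linarith)
      have h5 := key (Y * nQ / a ^ 2) (by positivity)
      rw [show Y * nQ / a ^ 2 / 32 = Y / 32 * nQ / a ^ 2 by ring] at h5
      calc _ ≤ (2 * heavy C Q Z v (Y / 32 * nQ / a ^ 2) : ℝ) ^ 10 * Y := by gcongr
        _ = 2 ^ 15 * ((heavy C Q Z v (Y / 32 * nQ / a ^ 2) : ℝ) ^ 10 * (Y / 32)) := by ring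
        _ ≤ 4 ^ 10 * (K * nC ^ 2 * nQ) ^ 10 := by gcongr; norm_num
        _ ≤ _ := by gcongr
  · have h1 : 2 ^ 20 ≤ a := by simpa using (hp (i := 0) (by norm_num) le_rfl).trans ha
    have h2 : (32 * L) ^ 2 ≤ a := by
      refine le_of_sq_le_sq ?_ (by linarith)
      calc ((32 * L) ^ 2) ^ 2 = 2 ^ 20 * L ^ 4 := by ring
        _ ≤ a * a := by gcongr
        _ = _ := by ring
    have h3 := h.top (32 * L) (by linarith) h2
    have h5 := key (nQ / (a * L)) (by positivity)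
    rw [show nQ / (a * L) / 32 = nQ / (a * (32 * L)) by field_simp] at h5
    have h6 : 32 * K ≤ K ^ 300 := by simpa using hp (c := 32) (i := 1) (by norm_num) (by norm_num)
    calc _ ≤ (2 * heavy C Q Z v (nQ / (a * (32 * L))) : ℝ) * a := by gcongr
      _ ≤ 2 * ((K * (32 * L)) ^ E * nC ^ 2 * nQ) := by linarith
      _ = (32 * K * L) ^ E * (2 * 1) * nC ^ 2 * nQ := by ring
      _ ≤ (K ^ 300 * L) ^ E * (K ^ 300 * L) * nC ^ 2 * nQ := by gcongr; linarith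
      _ = _ := by ring

theorem ref_of_line : ∃ C₀ : ℕ, ∀ (ι : Type) (C Q : Finset ι) (Z : Finset (ι × ι)) (s κ μ : ι → ℝ)
    (a nC nQ K : ℝ) (E : ℕ), LineCfg C Q Z s κ μ a nC nQ K E → K ^ C₀ ≤ a →
    ∃ (C' Q' : Finset ι) (Z' : Finset (ι × ι)) (α β : ι → ℤ) (r : ι → ℝ),
      RefCfg C' Q' Z' α β r a nC nQ (K ^ C₀) (E + 1) := by
  refine ⟨300, fun ι C Q Z s κ μ a nC nQ K E W ha => ?_⟩
  set v : ι → ι → ℤ := fun p q => ⌊κ q * s p + μ q⌋ with hv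
  have h := W.lab
  have hK := h.K_ge
  have ha1 := h.a_ge
  have hnC : 0 < nC := by linarith [h.nC_ge]
  have hnQ : 0 < nQ := lt_of_lt_of_le (by positivity) h.nQ_ge
  have hp : ∀ {c : ℝ} {i : ℕ}, i ≤ 290 → c ≤ 2 ^ 10 → c * K ^ i ≤ K ^ 300 := fun hi hc =>
    aux_pow hK 10 (by omega) hc
  have hK1 : 5 * K ≤ K ^ 300 := by simpa using hp (c := 5) (i := 1) (by norm_num) (by norm_num)
  set H := (C ×ˢ C ×ˢ Q).filter fun x => (x.1, x.2.2) ∈ Z ∧ (x.2.1, x.2.2) ∈ Z ∧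
    K ^ 290 * nQ / a ^ 2 ≤ codeg Q Z v x.1 x.2.1 x.2.2 with hH
  have hHc : (H.card : ℝ) ≤ nC ^ 2 * nQ / K ^ 28 := by
    have h1 := h.tail (K ^ 290) (one_le_pow₀ (by linarith))
    rw [show K ^ 290 = (K ^ 29) ^ 10 by ring, ← mul_pow] at h1
    have h2 : (H.card : ℝ) * K ^ 29 ≤ K * nC ^ 2 * nQ := by
      rw [hH, show K ^ 290 = (K ^ 29) ^ 10 by ring]
      exact le_of_pow_le_pow_left₀ (by norm_num) (by positivity) h1
    rw [le_div_iff₀ (by positivity)]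
    exact le_of_mul_le_mul_left (by linarith) (by linarith : 0 < K)
  obtain ⟨p₁, p₀, p₂, Z', hZ, hc, hz⟩ := aux_ref C Q Z s hK h.sub W.s_inj h.card_C h.card_Q h.card_Z
    (((hp (by norm_num) (by norm_num)).trans ha).trans h.nC_ge) hnQ
    (fun p₁ p₀ p₂ p _ => 0 < (s p - s p₁) / (s p₂ - s p) ∧
      (s p - s p₁) / (s p₂ - s p) ≤ (s p₀ - s p₁) / (s p₂ - s p₀) ∧
      (s p₀ - s p₁) / (s p₂ - s p₀) ≤ 1) (fun q y hy _ => by
      rcases le_total (2 * s (y 2)) (s (y 0) + s (y 4)) with h1 | h1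
      · exact ⟨0, 2, 4, 1, 3, by decide,
          ref_five (hy (by decide)) (hy (by decide)) h1⟩
      · have h2 := ref_five (a := -s (y 4)) (b := -s (y 3)) (c := -s (y 2)) (d := -s (y 0))
          (neg_lt_neg (hy (by decide))) (neg_lt_neg (hy (by decide))) (by linarith)
        simp only [← neg_sub', neg_div_neg_eq] at h2
        exact ⟨4, 2, 0, 3, 1, by decide, h2⟩) H hHc
  set ρ : ι → ℝ := fun p => (s p - s p₁) / (s p₂ - s p) with hρ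
  have hZC : ∀ p q, (p, q) ∈ Z → p ∈ C ∧ q ∈ Q := fun p q h1 => mem_product.mp (h.sub h1)
  have hQ' : ∀ q ∈ Z'.image Prod.snd, ∃ p, (p, q) ∈ Z' := fun q hq => by
    obtain ⟨z, h1, rfl⟩ := mem_image.mp hq
    exact ⟨z.1, h1⟩
  have hr : ∀ p q, (p, q) ∈ Z' → 0 < ρ p₀ ∧ ρ p₀ ≤ 1 ∧ 0 < ρ p / ρ p₀ ∧ ρ p / ρ p₀ ≤ 1 ∧
      0 < ρ p ∧ ρ p ≤ 1 := fun p q h1 => by
    obtain ⟨-, -, -, ⟨h2, h3, h4⟩, -⟩ := hz _ h1
    exact ⟨h2.trans_le h3, h4, div_pos h2 (h2.trans_le h3), (div_le_one (h2.trans_le h3)).mpr h3,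
      h2, h3.trans h4⟩
  set β : ι → ℤ := fun q => ⌊ρ p₀ * (κ q * s p₂ + μ q)⌋ with hβ
  have hcell : ∀ p q, 0 < ρ p₀ → 0 < ρ p / ρ p₀ → ρ p / ρ p₀ ≤ 1 → 0 < ρ p → ρ p ≤ 1 →
      v p₁ q + ⌊ρ p / ρ p₀ * β q⌋ ∈ Icc (⌊(1 + ρ p) * v p q⌋ - 2) (⌊(1 + ρ p) * v p q⌋ - 2 + (4 : ℕ))
      ∧ v p q ∈ Icc ⌊(v p₁ q + ⌊ρ p / ρ p₀ * β q⌋ : ℤ) / (1 + ρ p)⌋
        (⌊(v p₁ q + ⌊ρ p / ρ p₀ * β q⌋ : ℤ) / (1 + ρ p)⌋ + 3) := fun p q k1 k2 k3 k4 k5 => by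
    have k6 := ref_lab (u₁ := κ q * s p₁ + μ q) (x := ρ p₀ * (κ q * s p₂ + μ q)) k2 k3
    rw [← mul_assoc, div_mul_cancel₀ _ k1.ne', ← ref_aff k4] at k6
    exact ref_cell (by linarith) (by linarith) k6.1 k6.2
  have hcell0 : ∀ p q, (p, q) ∈ Z' →
      v p₁ q + β q ∈ Icc (⌊(1 + ρ p₀) * v p₀ q⌋ - 2) (⌊(1 + ρ p₀) * v p₀ q⌋ - 2 + (4 : ℕ))
      ∧ v p₀ q ∈ Icc ⌊(v p₁ q + β q : ℤ) / (1 + ρ p₀)⌋
        (⌊(v p₁ q + β q : ℤ) / (1 + ρ p₀)⌋ + 3) := fun p q k1 => by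
    obtain ⟨k2, k3, -⟩ := hr p q k1
    have k4 := hcell p₀ q k2 (div_pos k2 k2) (div_self k2.ne').le k2 k3
    rwa [div_self k2.ne', one_mul, Int.floor_intCast] at k4
  have hlight : ∀ (p : ι) (g : ℤ) (S : Finset ι), (∀ q ∈ S, (p₁, q) ∈ Z ∧ (p, q) ∈ Z ∧
      (p₁, p, q) ∉ H ∧ v p q ∈ Icc g (g + 3)) → (∀ q ∈ S, ∀ q' ∈ S, v p₁ q = v p₁ q') →
      (S.card : ℝ) ≤ K ^ 300 * nQ / a ^ 2 := fun p g S k1 k2 => by
    refine (aux_fib S (Icc g (g + 3)) (v p) (fun q hq => (k1 q hq).2.2.2) (α := 4)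
      (b := K ^ 290 * nQ / a ^ 2) (by
        rw [Int.card_Icc, show g + 3 + 1 - g = 4 by ring]
        norm_num) (by positivity) fun q hq T k3 k4 => ?_).trans ?_
    · obtain ⟨k5, k6, k7, -⟩ := k1 q hq
      refine le_trans ?_ (le_of_not_ge fun k8 => k7 (mem_filter.mpr ⟨mem_product.mpr
        ⟨(hZC _ _ k5).1, mem_product.mpr ⟨(hZC _ _ k6).1, (hZC _ _ k5).2⟩⟩, k5, k6, k8⟩))
      exact Nat.cast_le.mpr (card_le_card fun q' hq' => mem_filter.mpr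
        ⟨(hZC _ _ (k1 q' (k3 hq')).1).2, (k1 q' (k3 hq')).1, (k1 q' (k3 hq')).2.1,
          k2 _ (k3 hq') _ hq, k4 q' hq'⟩)
    · rw [← mul_div_assoc, ← mul_assoc]
      gcongr
      exact hp le_rfl (by norm_num)
  have hne : Z'.Nonempty := card_pos.mp (by
    exact_mod_cast (show (0 : ℝ) < nC * nQ / K ^ 27 by positivity).trans_le hc)
  obtain ⟨z₀, hz₀⟩ := hne
  obtain ⟨e₁, e₀, e₂, -⟩ := hz z₀ hz₀
  have hα : (Z'.image Prod.snd).image (v p₁) ⊆ colSet Z v p₁ := fun x hx => by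
    obtain ⟨q, k1, rfl⟩ := mem_image.mp hx
    obtain ⟨p, k2⟩ := hQ' q k1
    exact aux_mem_colSet.mpr ⟨q, (hz _ k2).1, rfl⟩
  refine ⟨Z'.image Prod.fst, Z'.image Prod.snd, Z', v p₁, β, fun p => ρ p / ρ p₀,
    ref_lab_cfg h ha (fun p hp => ?_) (fun q hq => ?_) hZ subset_product hc
      (fun p x => ⌊(1 + ρ p) * x⌋ - 2) (fun p x => ⌊x / (1 + ρ p)⌋) (fun p q k1 => ?_)
      (fun p q k1 => ?_), fun p hp => ?_, ?_, ?_, ?_,
    ref_frost (W.frost p₁ (hZC _ _ e₁).1) hα (by linarith) (by linarith), fun x y => ?_,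
    fun p _ x y => ?_⟩
  · obtain ⟨z, k1, rfl⟩ := mem_image.mp hp
    exact (hZC _ _ (hZ k1)).1
  · obtain ⟨z, k1, rfl⟩ := mem_image.mp hq
    exact (hZC _ _ (hZ k1)).2
  · obtain ⟨k2, -, k3, k4, k5, k6⟩ := hr p q k1
    exact (hcell p q k2 k3 k4 k5 k6).1
  · obtain ⟨k2, -, k3, k4, k5, k6⟩ := hr p q k1
    exact (hcell p q k2 k3 k4 k5 k6).2
  · obtain ⟨z, k1, rfl⟩ := mem_image.mp hp
    exact ⟨(hr _ _ k1).2.2.1, (hr _ _ k1).2.2.2.1⟩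
  · exact ((Nat.cast_le.mpr (card_le_card hα)).trans (h.col p₁ (hZC _ _ e₁).1)).trans
      (mul_le_mul_of_nonneg_right (by linarith) (by linarith))
  · have k1 := aux_img (colSet Z v p₂) ((Z'.image Prod.snd).image β) (fun x => ⌊ρ p₀ * x⌋) 1
      fun b hb => by
        obtain ⟨q, k1, rfl⟩ := mem_image.mp hb
        obtain ⟨p, k2⟩ := hQ' q k1
        obtain ⟨k3, k4, -⟩ := hr p q k2
        refine ⟨_, aux_mem_colSet.mpr ⟨q, (hz _ k2).2.2.1, rfl⟩, mem_Icc.mpr ⟨Int.floor_le_floor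
          (mul_le_mul_of_nonneg_left (Int.floor_le _) k3.le), ?_⟩⟩
        rw [← Int.floor_add_natCast]
        refine Int.floor_le_floor ?_
        have k5 := Int.lt_floor_add_one (κ q * s p₂ + μ q)
        simp only [hv, Nat.cast_one]
        nlinarith
    have k2 := h.col p₂ (hZC _ _ e₂).1
    push_cast at k1
    nlinarith
  · have k1 := aux_img (colSet Z v p₀) ((Z'.image Prod.snd).image fun q => v p₁ q + β q)
      (fun x => ⌊(1 + ρ p₀) * x⌋ - 2) 4 fun b hb => by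
        obtain ⟨q, k1, rfl⟩ := mem_image.mp hb
        obtain ⟨p, k2⟩ := hQ' q k1
        exact ⟨_, aux_mem_colSet.mpr ⟨q, (hz _ k2).2.1, rfl⟩, (hcell0 p q k2).1⟩
    have k2 := h.col p₀ (hZC _ _ e₀).1
    push_cast at k1
    nlinarith
  · refine hlight p₀ ⌊(x + y : ℤ) / (1 + ρ p₀)⌋ _ (fun q hq => ?_) fun q hq q' hq' =>
      (mem_filter.mp hq).2.1.trans (mem_filter.mp hq').2.1.symm
    obtain ⟨k1, rfl, rfl⟩ := mem_filter.mp hq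
    obtain ⟨p, k2⟩ := hQ' q k1
    exact ⟨(hz _ k2).1, (hz _ k2).2.1, (hz _ k2).2.2.2.2.1, (hcell0 p q k2).2⟩
  · refine hlight p ⌊(x + y : ℤ) / (1 + ρ p)⌋ _ (fun q hq => ?_) fun q hq q' hq' =>
      (mem_filter.mp hq).2.2.1.trans (mem_filter.mp hq').2.2.1.symm
    obtain ⟨-, k1, rfl, rfl⟩ := mem_filter.mp hq
    obtain ⟨k2, -, k3, k4, k5, k6⟩ := hr p q k1
    exact ⟨(hz _ k1).1, hZ k1, (hz _ k1).2.2.2.2.2.2.2, (hcell p q k2 k3 k4 k5 k6).2⟩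

end Vale.Agent.P065
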