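import Vale.Agent.P065.RingD

/-! The discretized ring (task N). -/

namespace Vale.Agent.P065

open Classical Finset Pointwise

theorem ring_frost {A D : Finset ℤ} {α : ℤ} {K Λ : ℝ} (hA : Frost A K) (hΛ : 0 < Λ)
    (hD : ∀ d ∈ D, α + d ∈ A) (x R : ℝ) (hR : 1 ≤ R) :
    (((dil Λ⁻¹ (toR D)).filter fun y => x ≤ y ∧ y ≤ x + R * Λ⁻¹).card : ℝ) ^ 2 ≤ K ^ 2 * R := by
  refine le_trans ?_ (hA (Λ * x + α) R hR)
  have : ((dil Λ⁻¹ (toR D)).filter fun y => x ≤ y ∧ y ≤ x + R * Λ⁻¹) ⊆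
      (A.filter fun z : ℤ => Λ * x + α ≤ z ∧ (z : ℝ) ≤ Λ * x + α + R).image
        fun z : ℤ => Λ⁻¹ * ((z : ℝ) - α) := by
    intro y hy
    obtain ⟨h1, h2, h3⟩ := mem_filter.1 hy
    obtain ⟨u, hu, e⟩ := ring_mem_dil.1 h1
    obtain ⟨d, hd, e'⟩ := ring_mem_toR.1 hu
    have e2 : (d : ℝ) = Λ * y := by rw [← e, ← e']; field_simp
    have e3 : Λ * (x + R * Λ⁻¹) = Λ * x + R := by field_simp
    have h4 := mul_le_mul_of_nonneg_left h2 hΛ.le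
    have h5 := mul_le_mul_of_nonneg_left h3 hΛ.le
    refine mem_image.2 ⟨α + d, mem_filter.2 ⟨hD d hd, ?_, ?_⟩, ?_⟩
    · push_cast; linarith
    · push_cast; linarith
    · rw [← e, ← e']; push_cast; ring
  have h6 := (card_le_card this).trans card_image_le
  gcongr

theorem ring_of_sum (E : ℕ) : ∃ C₀ : ℕ, ∀ (ι : Type) (A B : Finset ℤ) (S : Finset ι) (r : ι → ℝ)
    (G : ι → Finset (ℤ × ℤ)) (a nC K : ℝ), SumCfg A B S r G a nC K E → K ^ C₀ ≤ a →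
    ∃ (D : Finset ℝ) (δ : ℝ), RingCfg D δ a (K ^ C₀) := by
  refine ⟨16 * E + 265, fun ι A B S r G a nC K h hC => ?_⟩
  have hK2 := h.K_ge
  have hK1 : 1 ≤ K := by linarith
  have hK : 0 < K := by linarith
  have ha : 0 < a := by linarith [h.a_ge]
  have hn := h.nC_pos
  have hpow : ∀ m : ℕ, m ≤ 16 * E + 265 → K ^ m ≤ K ^ (16 * E + 265) := fun m hm =>
    pow_le_pow_right₀ hK1 hm
  have hK4 : 16 ≤ K ^ 4 := by
    calc (16 : ℝ) = 2 ^ 4 := by norm_num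
      _ ≤ _ := by gcongr
  have hK5 : 32 ≤ K ^ 5 := by
    calc (32 : ℝ) = 2 ^ 5 := by norm_num
      _ ≤ _ := by gcongr
  have h4a : 4 * K ^ 5 ≤ a := by
    refine le_trans ?_ ((hpow 9 (by omega)).trans hC)
    calc 4 * K ^ 5 ≤ K ^ 4 * K ^ 5 := by gcongr; linarith
      _ = _ := by ring
  obtain ⟨α, hα, β, hβ, β', hβ', hlt, hlong, hT⟩ := h.ring_select h4a
  obtain ⟨T, hTe⟩ : ∃ T, T = S.filter fun p => α + ⌊r p * β⌋ - ⌊r p * β'⌋ ∈ A := ⟨_, rfl⟩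
  rw [← hTe] at hT
  have hTS : T ⊆ S := hTe ▸ filter_subset _ _
  obtain ⟨Λ, hΛe⟩ : ∃ Λ : ℝ, Λ = (β : ℝ) - β' := ⟨_, rfl⟩
  rw [← hΛe] at hlong
  have hΛ1 : 1 ≤ Λ := by
    have : β' + 1 ≤ β := hlt
    have : (β' : ℝ) + 1 ≤ β := by exact_mod_cast this
    linarith
  have hΛ : 0 < Λ := by linarith
  obtain ⟨D, hDe⟩ : ∃ D, D = T.image fun p => ⌊r p * β⌋ - ⌊r p * β'⌋ := ⟨_, rfl⟩
  have hD : ∀ d ∈ D, α + d ∈ A := by
    intro d hd
    rw [hDe] at hd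
    obtain ⟨p, hp, rfl⟩ := mem_image.1 hd
    rw [hTe] at hp
    rw [← add_sub_assoc]
    exact (mem_filter.1 hp).2
  have hD0 : ∀ d ∈ D, (0 : ℝ) ≤ d ∧ (d : ℝ) ≤ Λ := by
    intro d hd
    rw [hDe] at hd
    obtain ⟨p, hp, rfl⟩ := mem_image.1 hd
    obtain ⟨h1, h2, -⟩ := ring_d (h.r_mem p (hTS hp)).1 (h.r_mem p (hTS hp)).2 hlt
    exact ⟨h1, hΛe ▸ h2⟩
  have hDr : ∀ d ∈ D, ∃ p ∈ S, |r p * Λ - d| ≤ 1 := by
    intro d hd
    rw [hDe] at hd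
    obtain ⟨p, hp, rfl⟩ := mem_image.1 hd
    obtain ⟨-, -, h3⟩ := ring_d (h.r_mem p (hTS hp)).1 (h.r_mem p (hTS hp)).2 hlt
    exact ⟨p, hTS hp, hΛe ▸ h3⟩
  obtain ⟨D', hD'⟩ : ∃ D', D' = dil Λ⁻¹ (toR D) := ⟨_, rfl⟩
  have hnear : ∀ x, Λ⁻¹ ≤ x → ∀ p ∈ T, ∃ y ∈ D', |r p - y| ≤ x := by
    intro x hx p hp
    obtain ⟨-, -, h3⟩ := ring_d (h.r_mem p (hTS hp)).1 (h.r_mem p (hTS hp)).2 hlt
    rw [← hΛe] at h3
    generalize hd : ⌊r p * β⌋ - ⌊r p * β'⌋ = d at h3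
    refine ⟨Λ⁻¹ * d, hD' ▸ ring_mem_dil.2 ⟨_, ring_mem_toR.2
      ⟨d, hDe ▸ mem_image.2 ⟨p, hp, hd⟩, rfl⟩, rfl⟩, le_trans ?_ hx⟩
    have : r p - Λ⁻¹ * d = Λ⁻¹ * (r p * Λ - d) := by field_simp
    rw [this, abs_mul, abs_of_pos (inv_pos.2 hΛ)]
    exact mul_le_of_le_one_right (by positivity) h3
  have hcard : D'.card = D.card := by
    rw [hD', dil, card_image_of_injective _ (mul_right_injective₀ (inv_pos.2 hΛ).ne'),
      ring_card_toR]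
  have hT2 : (nC / K ^ 9) ^ 2 ≤ (T.card : ℝ) ^ 2 := by gcongr
  have hDge : a / K ^ (16 * E + 22) ≤ D.card := by
    have h1 := ring_classes hTS r (inv_pos.2 hΛ) (hnear _ le_rfl)
    rw [inv_inv] at h1
    have h2 := h.en_top Λ (K ^ 15) hΛ1 (one_le_pow₀ hK1) hlong (by
      refine le_trans (le_of_eq (by ring)) ((hpow 64 (by omega)).trans hC))
    have h3 : (pk D' Λ⁻¹ : ℝ) ≤ D.card := by rw [← hcard]; exact_mod_cast pk_le_card _ _
    have h4 : (nC / K ^ 9) ^ 2 * a ≤ K ^ 4 * D.card * ((K * K ^ 15) ^ E * nC ^ 2) := by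
      calc (nC / K ^ 9) ^ 2 * a ≤ 10 * pk D' Λ⁻¹ * colEn S r Λ * a := by gcongr; exact hT2.trans h1
        _ = 10 * pk D' Λ⁻¹ * (colEn S r Λ * a) := by ring
        _ ≤ _ := by gcongr; linarith
    have e1 : (K * K ^ 15) ^ E = K ^ (16 * E) := by rw [pow_mul]; congr 1; ring
    rw [e1, div_pow, div_mul_eq_mul_div, div_le_iff₀ (by positivity)] at h4
    rw [div_le_iff₀ (by positivity)]
    have : nC ^ 2 * a ≤ nC ^ 2 * (D.card * K ^ (16 * E + 22)) := by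
      refine h4.trans (le_of_eq ?_)
      ring
    exact le_of_mul_le_mul_left this (by positivity)
  refine ⟨D', Λ⁻¹, inv_pos.2 hΛ, inv_le_one_of_one_le₀ hΛ1, ?_, ha, ?_, ?_, ?_, ?_, ?_, ?_, ?_⟩
  · simpa using hK2.trans (le_trans (le_of_eq (pow_one K).symm) (hpow 1 (by omega)))
  · intro x hx
    rw [hD'] at hx
    obtain ⟨y, hy, rfl⟩ := ring_mem_dil.1 hx
    obtain ⟨d, hd, rfl⟩ := ring_mem_toR.1 hy
    obtain ⟨h1, h2⟩ := hD0 d hd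
    exact ⟨by positivity, by rw [inv_mul_le_iff₀ hΛ]; linarith⟩
  · intro x hx y hy hne
    rw [hD'] at hx hy
    obtain ⟨u, hu, rfl⟩ := ring_mem_dil.1 hx
    obtain ⟨v, hv, rfl⟩ := ring_mem_dil.1 hy
    have := ring_sep_toR D u hu v hv fun e => hne (by rw [e])
    rw [← mul_sub, abs_mul, abs_of_pos (inv_pos.2 hΛ)]
    exact le_mul_of_one_le_right (by positivity) this
  · rw [hcard]
    exact le_trans (div_le_div_of_nonneg_left ha.le (by positivity) (hpow _ (by omega))) hDge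
  · rw [hcard]
    have h1 : D.card ≤ A.card :=
      card_le_card_of_injOn (fun z => α + z) hD fun x _ y _ e => by simpa using e
    calc (D.card : ℝ) ≤ A.card := by exact_mod_cast h1
      _ ≤ K * a := h.ring_A_le
      _ ≤ _ := by gcongr; exact le_trans (le_of_eq (pow_one K).symm) (hpow 1 (by omega))
  · intro z₁ h₁ z₂ h₂ z₃ h₃ z₄ h₄ η hη
    refine (h.ring_closure hD' hΛ hD hD0 hDr (by positivity) hDge h₁ h₂ h₃ h₄ hη).trans ?_
    calc 27 * (K ^ 8 * (10 * K ^ 135 * K ^ (16 * E + 22) * (pk D' η : ℝ)))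
        ≤ K ^ 5 * (K ^ 8 * (K ^ 4 * K ^ 135 * K ^ (16 * E + 22) * (pk D' η : ℝ))) := by
          gcongr <;> linarith
      _ = K ^ (16 * E + 174) * pk D' η := by ring
      _ ≤ _ := mul_le_mul_of_nonneg_right (hpow _ (by omega)) (Nat.cast_nonneg _)
  · intro x hx hx1
    have hx0 : 0 < x := lt_of_lt_of_le (inv_pos.2 hΛ) hx
    have hℓ : 1 ≤ x⁻¹ := one_le_inv₀ hx0 |>.2 hx1
    have h1 := ring_classes hTS r hx0 (hnear x hx)
    have h2 := h.en x⁻¹ hℓ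
    have h3 := h.ring_pkB hD (by positivity) hDge hℓ
    have e1 : pk D' (Λ⁻¹ / x) = pk (toR D) x⁻¹ := by
      rw [hD', div_eq_mul_inv, ring_pk_dil _ (inv_pos.2 hΛ)]
    rw [e1]
    have hu : (0 : ℝ) ≤ pk (toR D) x⁻¹ := Nat.cast_nonneg _
    generalize (pk (toR D) x⁻¹ : ℝ) = u at h3 hu ⊢
    have hb : (0 : ℝ) ≤ pk (toR B) x⁻¹ := Nat.cast_nonneg _
    generalize (pk (toR B) x⁻¹ : ℝ) = b at h2 h3 hb
    have hc : (0 : ℝ) ≤ colEn S r x⁻¹ := Nat.cast_nonneg _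
    generalize (colEn S r x⁻¹ : ℝ) = c at h1 h2 hc
    have hv : (0 : ℝ) ≤ pk D' x := Nat.cast_nonneg _
    generalize (pk D' x : ℝ) = v at h1 hv ⊢
    have h4 : nC ^ 2 ≤ K ^ 22 * v * c := by
      have h5 := hT2.trans h1
      rw [div_pow, div_le_iff₀ (by positivity)] at h5
      calc nC ^ 2 ≤ 10 * v * c * (K ^ 9) ^ 2 := h5
        _ ≤ K ^ 4 * v * c * (K ^ 9) ^ 2 := by gcongr; linarith
        _ = _ := by ring
    have h5 : (nC ^ 2) ^ 10 * a ≤ (nC ^ 2) ^ 10 * (K ^ 230 * v ^ 10 * b) := by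
      calc (nC ^ 2) ^ 10 * a ≤ (K ^ 22 * v * c) ^ 10 * a := by gcongr
        _ = (K ^ 22 * v) ^ 10 * (c ^ 10 * a) := by ring
        _ ≤ (K ^ 22 * v) ^ 10 * ((K * nC ^ 2) ^ 10 * b) := by gcongr
        _ = _ := by ring
    have h6 := le_of_mul_le_mul_left h5 (by positivity)
    calc a ≤ K ^ 230 * v ^ 10 * b := h6
      _ ≤ K ^ 230 * v ^ 10 * (K ^ 2 * (K ^ 4 * K ^ 7 * K ^ (16 * E + 22) * u)) := by
          refine mul_le_mul_of_nonneg_left (h3.trans ?_)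
            (mul_nonneg (pow_nonneg hK.le _) (pow_nonneg hv _))
          have : (10 : ℝ) ≤ K ^ 4 := by linarith
          gcongr
      _ = _ := by ring
  · intro x R hR
    rw [hD']
    refine (ring_frost h.frost hΛ hD x R hR).trans ?_
    gcongr
    exact le_trans (le_of_eq (pow_one K).symm) (hpow 1 (by omega))

end Vale.Agent.P065
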