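import Vale.Agent.P065.SP1Aux

/-! Finding a regular range of scales (task H). -/

namespace Vale.Agent.P065

open Classical Finset Pointwise

namespace RingCfg

variable {D : Finset ℝ} {δ g K : ℝ}

theorem le_exp (hD : RingCfg D δ g K) {t : ℝ} (ht : t ≤ -Real.log δ) : δ ≤ Real.exp (-t) := by
  rw [← Real.exp_log hD.δ_pos]
  exact Real.exp_le_exp.2 (by linarith)

theorem log_mul_le (hD : RingCfg D δ g K) {c : ℝ} (hc0 : 0 < c) (hc : c ≤ 2 ^ 16) :
    Real.log (c * K) ≤ 20 * Real.log K :=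
  (Real.log_le_log (mul_pos hc0 hD.K_pos)
    (mul_le_mul_of_nonneg_left hD.le_pow_four.1 hc0.le)).trans (hD.log_le hc0 hc)

theorem lsa (hD : RingCfg D δ g K) {s t : ℝ} (hs : 0 ≤ s) (ht : 0 ≤ t)
    (h : δ ≤ Real.exp (-(s + t))) : lpk D s + lpk D t ≤ lpk D (s + t) + 20 * Real.log K := by
  have e : Real.exp (-s) * Real.exp (-t) = Real.exp (-(s + t)) := by
    rw [← Real.exp_add]; ring_nf
  have h1 := hD.sa (Real.exp_pos (-s)) (Real.exp_le_one_iff.2 (by linarith)) (Real.exp_pos (-t))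
    (Real.exp_le_one_iff.2 (by linarith)) (e ▸ h)
  rw [e] at h1
  have h2 := Real.log_le_log (mul_pos (hD.pk_pos _) (hD.pk_pos _)) h1
  rw [Real.log_mul (hD.pk_pos _).ne' (hD.pk_pos _).ne',
    Real.log_mul (mul_pos (by norm_num) hD.K_pos).ne' (hD.pk_pos _).ne'] at h2
  have h3 := hD.log_mul_le (c := 20) (by norm_num) (by norm_num)
  unfold lpk
  linarith

theorem lsm (hD : RingCfg D δ g K) {y s t : ℝ} (hy : y ∈ D - D) (hy0 : 0 < y)
    (ht : δ ≤ Real.exp (-t)) (h : -Real.log y + s ≤ t) :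
    lpk D (-Real.log y + s) + lpk D (t - -Real.log y) ≤ 20 * Real.log K + lpk D s + lpk D t := by
  have e1 : Real.exp (-(-Real.log y + s)) = y * Real.exp (-s) := by
    rw [neg_add, neg_neg, Real.exp_add, Real.exp_log hy0]
  have e2 : Real.exp (-(t - -Real.log y)) = Real.exp (-t) / y := by
    rw [sub_neg_eq_add, neg_add, ← sub_eq_add_neg, Real.exp_sub, Real.exp_log hy0]
  have h1 := hD.sm hy hy0 (Real.exp_pos (-s)) ht (by
    rw [← e1]; exact Real.exp_le_exp.2 (by linarith))
  have h2 := Real.log_le_log (mul_pos (hD.pk_pos _) (hD.pk_pos _)) h1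
  have hK : (0 : ℝ) < 10 * K := mul_pos (by norm_num) hD.K_pos
  rw [Real.log_mul (hD.pk_pos _).ne' (hD.pk_pos _).ne',
    Real.log_mul (mul_pos hK (hD.pk_pos _)).ne' (hD.pk_pos _).ne',
    Real.log_mul hK.ne' (hD.pk_pos _).ne'] at h2
  have h3 := hD.log_mul_le (c := 10) (by norm_num) (by norm_num)
  unfold lpk
  rw [e1, e2]
  linarith

theorem ldim (hD : RingCfg D δ g K) {t : ℝ} (ht0 : 0 ≤ t) (ht : δ ≤ Real.exp (-t)) :
    lpk D t ≤ t / 2 + 20 * Real.log K := by
  have hK := hD.K_pos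
  have hδ := hD.δ_pos
  set x := Real.exp (-t) with hx
  have hx0 : 0 < x := Real.exp_pos _
  have hx1 : x ≤ 1 := Real.exp_le_one_iff.2 (by linarith)
  have e : x * (δ / x) = δ := by field_simp
  have h1 := hD.sa hx0 hx1 (div_pos hδ hx0) ((div_le_one hx0).2 ht) e.ge
  rw [e] at h1
  obtain ⟨z, hz⟩ := exists_local D (η := δ) (div_pos hδ hx0)
  have h2 := hD.frost z (1 / x) (by rw [le_div_iff₀ hx0]; linarith)
  rw [show 1 / x * δ = δ / x by ring] at h2
  have h3 : K ^ 2 * (1 / x) = (K * Real.exp (t / 2)) ^ 2 := by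
    rw [mul_pow, ← Real.exp_nat_mul, hx, Real.exp_neg, one_div, inv_inv]
    congr 2
    push_cast
    ring
  rw [h3] at h2
  have h4 := (pow_le_pow_iff_left₀ (Nat.cast_nonneg _) (by positivity) two_ne_zero).1 h2
  have h5 : (pk D δ : ℝ) ≤ 2 * pk D (δ / x) * (K * Real.exp (t / 2)) := by
    refine le_trans ?_ (mul_le_mul_of_nonneg_left h4 (by positivity))
    exact_mod_cast hz.trans (Nat.mul_le_mul_left _ (pk_le_card _ _))
  have h6 := hD.pk_pos (δ / x)
  have h7 : (pk D x : ℝ) ≤ 40 * K ^ 4 * Real.exp (t / 2) := by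
    have h8 : (pk D x : ℝ) * pk D (δ / x) ≤ (40 * K ^ 2 * Real.exp (t / 2)) * pk D (δ / x) := by
      calc _ ≤ _ := h1
        _ ≤ 20 * K * (2 * pk D (δ / x) * (K * Real.exp (t / 2))) := by gcongr
        _ = _ := by ring
    refine (le_of_mul_le_mul_right h8 h6).trans ?_
    exact mul_le_mul_of_nonneg_right
      (mul_le_mul_of_nonneg_left hD.le_pow_four.2 (by norm_num)) (Real.exp_pos _).le
  have h8 := Real.log_le_log (hD.pk_pos _) h7
  rw [Real.log_mul (by positivity) (Real.exp_pos _).ne', Real.log_exp] at h8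
  have h9 := hD.log_le (c := 40) (by norm_num) (by norm_num)
  unfold lpk
  linarith

end RingCfg

theorem exists_regular : ∃ C : ℕ, ∀ (D : Finset ℝ) (δ g K : ℝ), RingCfg D δ g K → K ^ C ≤ g →
    ∃ h d : ℝ, Regular D δ h d (20 * Real.log K) := by
  obtain ⟨n, hn⟩ := pow_unbounded_of_one_lt (121 : ℝ) (by norm_num : (1 : ℝ) < 1 + 1 / 88)
  refine ⟨2 * 10 ^ 6 * (11 ^ n) ^ 2, fun D δ g K hD hg => ?_⟩
  have hk := hD.k_ge
  have hK := hD.K_pos
  have hlK : 0 ≤ Real.log K := by linarith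
  have hT : 0 ≤ -Real.log δ := neg_nonneg.2 (Real.log_nonpos hD.δ_pos.le hD.δ_le)
  have htop : lpk D (-Real.log δ) = Real.log D.card := by
    unfold lpk
    rw [neg_neg, Real.exp_log hD.δ_pos, pk_of_sep hD.sep]
  have hzero : lpk D 0 ≤ 1 := by
    unfold lpk
    rw [neg_zero, Real.exp_zero]
    have := Real.log_le_log (hD.pk_pos _) hD.pk_one
    linarith [Real.log_two_lt_d9]
  suffices H : ∃ h, 0 < h ∧ 11 * h ≤ -Real.log δ ∧ 1000 * (20 * Real.log K) ≤ lpk D h ∧
      lpk D (11 * h) ≤ 11 * lpk D h + lpk D h / 8 by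
    obtain ⟨h, h0, h1, h2, h3⟩ := H
    have hr : ∀ j : ℕ, j ≤ 11 → δ ≤ Real.exp (-(j * h)) := fun j hj =>
      hD.le_exp (le_trans (mul_le_mul_of_nonneg_right (by exact_mod_cast hj) h0.le) h1)
    have lo : ∀ j : ℕ, j ≤ 11 → j * lpk D h - j * (20 * Real.log K) ≤ lpk D (j * h) := by
      intro j
      induction j with
      | zero => intro _; simpa using hD.lpk_nonneg 0
      | succ j ih =>
        intro hj
        have h4 := ih (by omega)
        have h5 := hr (j + 1) hj
        push_cast at h5 ⊢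
        rw [add_mul _ _ h, one_mul] at h5 ⊢
        have h6 := hD.lsa (by positivity) h0.le h5
        linarith
    refine ⟨h, lpk D h, h0, hD.le_exp h1, h2, ?_, lo, fun j hj => ?_⟩
    · exact hD.ldim h0.le (by simpa using hr 1 (by norm_num))
    · rcases Nat.eq_zero_or_pos j with rfl | hj0
      · have := hD.lpk_nonneg h
        simp only [Nat.cast_zero, zero_mul]
        linarith
      · obtain ⟨i, hi⟩ : ∃ i, i + j = 11 := ⟨11 - j, by omega⟩
        have hi' : (i : ℝ) + j = 11 := by exact_mod_cast hi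
        have e : i * h + j * h = 11 * h := by rw [← hi']; ring
        have h4 := hD.lsa (s := i * h) (t := j * h) (by positivity) (by positivity)
          (by rw [e]; exact hD.le_exp h1)
        have h5 := lo i (by omega)
        have h6 : (1 : ℝ) ≤ j := by exact_mod_cast hj0
        rw [e] at h4
        rw [show (i : ℝ) = 11 - j by linarith] at h4 h5
        nlinarith
  refine regular_core (μ := lpk D)
    (Val := ((D - D).filter fun y => 0 < y).image fun y => -Real.log y) (T := -Real.log δ)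
    (G := Real.log g) (k := 20 * Real.log K) hn.le (by linarith) hT hD.lpk_mono hD.lpk_nonneg
    hzero (fun t => ?_) ?_ ?_ (fun a ha s t ht hs => ?_)
    (fun s t hs ht hst => hD.lsa hs ht (hD.le_exp hst)) (fun s t hst => ?_) (fun t ht0 ht => ?_) ?_
  · have h1 := pk_le_near (S := D) (T := D) (η := Real.exp (-(t + 1))) (η' := Real.exp (-t))
      (ε := 0) (Real.exp_pos _) (Real.exp_pos _) le_rfl fun z hz => ⟨z, hz, by simp⟩
    have e : 2 * (Real.exp (-t) + 0) / Real.exp (-(t + 1)) + 1 = 2 * Real.exp 1 + 1 := by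
      rw [add_zero, mul_div_assoc, ← Real.exp_sub]
      congr 3
      ring
    have h2 : 2 * Real.exp 1 + 1 ≤ Real.exp 3 := by
      have h3 : Real.exp 3 = Real.exp 1 * Real.exp 1 * Real.exp 1 := by
        rw [← Real.exp_add, ← Real.exp_add]; norm_num
      have h4 := Real.exp_one_gt_d9
      rw [h3]
      nlinarith
    rw [e] at h1
    have h3 := Real.log_le_log (hD.pk_pos _)
      (h1.trans (mul_le_mul_of_nonneg_right h2 (Nat.cast_nonneg _)))
    rw [Real.log_mul (Real.exp_pos _).ne' (hD.pk_pos _).ne', Real.log_exp] at h3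
    unfold lpk
    linarith
  · have h1 := Real.log_le_log (div_pos hD.g_pos hK) hD.card_ge
    rw [Real.log_div hD.g_pos.ne' hK.ne'] at h1
    linarith
  · have h1 := Real.log_le_log (by exact_mod_cast hD.nonempty.card_pos) hD.card_le
    rw [Real.log_mul hK.ne' hD.g_pos.ne'] at h1
    linarith
  · obtain ⟨y, hy, rfl⟩ := mem_image.1 ha
    exact hD.lsm (mem_filter.1 hy).1 (mem_filter.1 hy).2 (hD.le_exp ht) hs
  · have h1 : pk D (Real.exp (-s)) < pk D (Real.exp (-t)) := by
      have := (Real.log_lt_log_iff (hD.pk_pos _) (hD.pk_pos _)).1 hst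
      exact_mod_cast this
    obtain ⟨x, hx, y, hy, h2, h3⟩ := exists_diff h1
    have h4 : 0 < x - y := (Real.exp_pos _).trans_le h2
    refine ⟨_, mem_image_of_mem _ (mem_filter.2 ⟨sub_mem_sub hx hy, h4⟩), ?_, ?_⟩
    · have := (Real.log_lt_iff_lt_exp h4).2 h3
      linarith
    · have := (Real.le_log_iff_exp_le h4).2 h2
      linarith
  · have h1 := hD.lower (Real.exp (-t)) (hD.le_exp ht) (Real.exp_le_one_iff.2 (by linarith))
    have h2 := Real.log_le_log hD.g_pos h1
    have e : δ / Real.exp (-t) = Real.exp (-(-Real.log δ - t)) := by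
      rw [neg_sub, sub_neg_eq_add, add_comm, Real.exp_add, Real.exp_log hD.δ_pos, Real.exp_neg,
        div_inv_eq_mul]
    rw [Real.log_mul (mul_pos hK (pow_pos (hD.pk_pos _) _)).ne' (hD.pk_pos _).ne',
      Real.log_mul hK.ne' (pow_pos (hD.pk_pos _) _).ne', Real.log_pow, e] at h2
    unfold lpk
    push_cast at h2
    linarith
  · have h1 := Real.log_le_log (pow_pos hK _) hg
    rw [Real.log_pow] at h1
    push_cast at h1
    linarith

end Vale.Agent.P065
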