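import Vale.Agent.P065.SP2Aux

/-! The gap / dense dichotomy of Guth-Katz-Zahl in a regular range (task I). -/

namespace Vale.Agent.P065

open Classical Finset Pointwise

theorem sp2_case_dense {D : Finset ℝ} {δ g K h d k w : ℝ} (hD : RingCfg D δ g K) (hk : 13 ≤ k)
    (hbig : 1000 * k ≤ d) (hw0 : 0 < w) (hw1 : w ≤ 1)
    (lo : ∀ j : ℕ, j ≤ 11 → j * d - j * k ≤ Real.log (pk D (w ^ j)))
    (hi : ∀ j : ℕ, j ≤ 11 → Real.log (pk D (w ^ j)) ≤ j * d + d / 8 + 11 * k)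
    (hδ : ∀ j : ℕ, j ≤ 11 → δ ≤ w ^ j)
    (hlog : ∀ c : ℝ, 0 < c → c ≤ 2 ^ 16 → Real.log (c * K ^ 4) ≤ k)
    {B : ℝ → Prop} (hB : ∀ b, B b ↔ ∃ x ∈ D - D, ∃ y ∈ D - D, w ^ 2 ≤ y ∧ b = x / y)
    (hdim : d ≤ h / 2 + k) (hwj : ∀ j : ℕ, Real.exp (-(j * h)) = w ^ j) (hB0 : B 0) (hB1 : B 1)
    (H : ∀ b, B b → 0 ≤ b → b ≤ 1 → ∀ ε : ℝ, ε = 0 ∨ ε = 1 →
      ∃ b', B b' ∧ |(b + ε) / 2 - b'| < w ^ 6) : False := by
  have hK := hD.K_pos
  have hp := hD.pk_pos
  have hK4 := hD.le_pow_four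
  have hρ : 0 < w ^ 6 := by positivity
  obtain ⟨L, hL⟩ : ∃ L, L = ⌊1 / (8 * w ^ 6)⌋₊ + 1 := ⟨_, rfl⟩
  have hL1 : 1 / (8 * w ^ 6) ≤ L := by
    rw [hL]; push_cast; exact (Nat.lt_floor_add_one _).le
  have hex : ∀ j : ℕ, ∃ b, j < L → B b ∧ |8 * w ^ 6 * j - b| ≤ 3 * w ^ 6 := by
    intro j
    by_cases hj : j < L
    · obtain ⟨b, hb⟩ := sp2_dense hρ hB0 hB1 H (8 * w ^ 6 * j) (by positivity) (by
        have h1 : j ≤ ⌊1 / (8 * w ^ 6)⌋₊ := by omega
        have h2 := (Nat.le_floor_iff (by positivity)).1 h1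
        rwa [le_div_iff₀' (by positivity)] at h2)
      exact ⟨b, fun _ => hb⟩
    · exact ⟨0, fun h => absurd h hj⟩
  choose e he using hex
  obtain ⟨D', hD', hsep, hcard⟩ := exists_pk D (w ^ 9)
  have h3 : w ^ 9 / w ^ 6 = w ^ 3 := by field_simp
  have h93 : w ^ 9 ≤ w ^ 3 := pow_le_pow_of_le_one hw0.le hw1 (by norm_num)
  have hE := sp2_energy (D := D') (η := w ^ 9) (ρ := w ^ 6)
    (n := 7 * K * pk D (w ^ 9) / pk D (w ^ 3)) (P := 2 * (K * pk D (w ^ 11))) (by positivity) hρ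
    hsep L e (fun i hi j hj hij => ?_) (fun x => ?_) (by positivity) fun j hj => ?_
  · rw [hcard] at hE
    have a3 := hp (w ^ 3)
    have a9 := hp (w ^ 9)
    have a11 := hp (w ^ 11)
    have l3 := lo 3 (by norm_num)
    have l9 := lo 9 (by norm_num)
    have l11 := hi 11 le_rfl
    push_cast at l3 l9 l11
    have hL0 : (0 : ℝ) < L := lt_of_lt_of_le (by positivity) hL1
    generalize (pk D (w ^ 3) : ℝ) = M3 at *
    generalize (pk D (w ^ 9) : ℝ) = M9 at *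
    generalize (pk D (w ^ 11) : ℝ) = M11 at *
    rcases le_or_gt (L : ℝ) (4 * (K * M11)) with hc | hc
    · have h1 : Real.exp (6 * h) ≤ 32 * K ^ 4 * M11 := by
        have h2 : Real.exp (6 * h) = 1 / w ^ 6 := by
          rw [← hwj 6, Real.exp_neg, one_div, inv_inv]; norm_num
        have h4 : 1 / w ^ 6 = 8 * (1 / (8 * w ^ 6)) := by field_simp
        rw [h2, h4]
        nlinarith [mul_le_mul_of_nonneg_right hK4.1 a11.le]
      have h2 := Real.log_le_log (Real.exp_pos _) h1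
      rw [Real.log_exp, Real.log_mul (by positivity) a11.ne'] at h2
      have := hlog 32 (by norm_num) (by norm_num)
      linarith
    · have h1 : M9 * M3 ≤ 84 * K ^ 4 * M11 := by
        have h2 : L * M9 ^ 4 ≤ 2 * (2 * (K * M11) * (L * (M9 ^ 2 * (7 * K * M9 / M3 * 3)))) := by
          have : 0 ≤ (L - 4 * (K * M11)) * M9 ^ 4 := mul_nonneg (by linarith) (by positivity)
          nlinarith
        have h4 : 2 * (2 * (K * M11) * (L * (M9 ^ 2 * (7 * K * M9 / M3 * 3)))) =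
            (L * M9 ^ 3) * (84 * K ^ 2 * M11 / M3) := by ring
        rw [h4, show L * M9 ^ 4 = (L * M9 ^ 3) * M9 by ring] at h2
        have h5 := le_of_mul_le_mul_left h2 (by positivity)
        rw [le_div_iff₀ a3] at h5
        nlinarith [mul_le_mul_of_nonneg_right hK4.2 a11.le]
      have h2 := Real.log_le_log (by positivity) h1
      rw [Real.log_mul a9.ne' a3.ne', Real.log_mul (by positivity) a11.ne'] at h2
      have := hlog 84 (by norm_num) (by norm_num)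
      linarith
  · have a1 := abs_le.1 (he i hi).2
    have a2 := abs_le.1 (he j hj).2
    rcases lt_or_gt_of_ne hij with c | c
    · have c' : (i : ℝ) + 1 ≤ j := by exact_mod_cast c
      exact le_abs.2 (Or.inr (by nlinarith))
    · have c' : (j : ℝ) + 1 ≤ i := by exact_mod_cast c
      exact le_abs.2 (Or.inl (by nlinarith))
  · rw [h3]
    set T := D'.filter fun y => x - w ^ 3 ≤ y ∧ y ≤ x - w ^ 3 + 2 * w ^ 3 with hT
    have h1 := pk_mul_le (S := D) (T := T) (η := w ^ 9) (d := 2 * w ^ 3) (x := x - w ^ 3)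
      (by positivity) (by positivity) fun y hy => (mem_filter.1 hy).2
    rw [pk_of_sep (hsep.subset (filter_subset _ _))] at h1
    have h2 := h1.trans ((pk_mono (add_subset_add_left ((filter_subset _ _).trans hD')) _).trans
      ((pk_le_add _ (dil_nonempty 0 hD.nonempty) _).trans
        (pk_le_add _ (dil_nonempty 0 hD.nonempty) _)))
    have h4 : (pk D (2 * w ^ 3 + w ^ 9) : ℝ) * T.card ≤ K * pk D (w ^ 9) :=
      le_trans (by exact_mod_cast h2) (hD.closure2 hD.zero_mem hD.zero_mem (hδ 9 (by norm_num)))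
    have h5 := pk_le_near (S := D) (T := D) (η := w ^ 3) (η' := 2 * w ^ 3 + w ^ 9) (ε := 0)
      (by positivity) (by positivity) le_rfl fun z hz => ⟨z, hz, by simp⟩
    have h6 : 2 * (2 * w ^ 3 + w ^ 9 + 0) / w ^ 3 + 1 ≤ 7 := by
      have : 2 * (2 * w ^ 3 + w ^ 9 + 0) / w ^ 3 ≤ 6 := by
        rw [div_le_iff₀ (by positivity)]; linarith
      linarith
    have h7 := h5.trans (mul_le_mul_of_nonneg_right h6 (Nat.cast_nonneg _))
    rw [le_div_iff₀ (hp _)]
    have h8 := mul_le_mul_of_nonneg_left h7 (Nat.cast_nonneg (α := ℝ) T.card)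
    linarith
  · obtain ⟨x, hx, y, hy, hy', hb⟩ := (hB _).1 (he j hj).1
    have hy0 : 0 < y := lt_of_lt_of_le (by positivity) hy'
    have h1 : ((D' ×ˢ D').image fun p => ⌊(p.1 + e j * p.2) / w ^ 9⌋) ⊆
        (dil y D + dil x D).image fun z => ⌊z / (y * w ^ 9)⌋ := by
      intro c hc
      obtain ⟨p, hp, rfl⟩ := mem_image.1 hc
      refine mem_image.2 ⟨_, add_mem_add (mem_dil (hD' (mem_product.1 hp).1))
        (mem_dil (hD' (mem_product.1 hp).2)), congrArg _ ?_⟩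
      rw [hb]
      field_simp
    have h2 := (card_le_card h1).trans (card_floor_le _ (by positivity))
    have h4 : pk (dil y D + dil x D) (y * w ^ 9) ≤ pk (D + D + dil y D + dil x D) (w ^ 11) := by
      refine (pk_anti _ (η := w ^ 11) ?_).trans ?_
      · calc w ^ 11 = w ^ 2 * w ^ 9 := by ring
          _ ≤ _ := mul_le_mul_of_nonneg_right hy' (by positivity)
      · rw [add_assoc (D + D), add_comm (D + D)]
        exact pk_le_add _ (hD.nonempty.add hD.nonempty) _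
    have h5 := hD.closure2 hy hx (hδ 11 le_rfl)
    have h6 : (((D' ×ˢ D').image fun p => ⌊(p.1 + e j * p.2) / w ^ 9⌋).card : ℝ) ≤
        2 * pk (D + D + dil y D + dil x D) (w ^ 11) := by
      exact_mod_cast h2.trans (Nat.mul_le_mul_left 2 h4)
    linarith

theorem sp2_case_gap {D : Finset ℝ} {δ g K d k w : ℝ} (hD : RingCfg D δ g K) (hk : 13 ≤ k)
    (hbig : 1000 * k ≤ d) (hw0 : 0 < w) (hw1 : w ≤ 1)
    (lo : ∀ j : ℕ, j ≤ 11 → j * d - j * k ≤ Real.log (pk D (w ^ j)))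
    (hi : ∀ j : ℕ, j ≤ 11 → Real.log (pk D (w ^ j)) ≤ j * d + d / 8 + 11 * k)
    (hδ : ∀ j : ℕ, j ≤ 11 → δ ≤ w ^ j)
    (hlog : ∀ c : ℝ, 0 < c → c ≤ 2 ^ 16 → Real.log (c * K ^ 4) ≤ k)
    {B : ℝ → Prop} (hB : ∀ b, B b ↔ ∃ x ∈ D - D, ∃ y ∈ D - D, w ^ 2 ≤ y ∧ b = x / y)
    (H : ¬ ∀ b, B b → 0 ≤ b → b ≤ 1 → ∀ ε : ℝ, ε = 0 ∨ ε = 1 →
      ∃ b', B b' ∧ |(b + ε) / 2 - b'| < w ^ 6) : False := by
  have hK := hD.K_pos
  have hp := hD.pk_pos
  have hK4 := hD.le_pow_four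
  push Not at H
  obtain ⟨b, hb, b0, b1, ε, hε, H⟩ := H
  obtain ⟨x, hx, y, hy, hy', rfl⟩ := (hB _).1 hb
  have hy0 : 0 < y := lt_of_lt_of_le (by positivity) hy'
  have hx0 : 0 ≤ x := by
    by_contra hc
    exact absurd b0 (not_le.2 (div_neg_of_neg_of_pos (not_le.1 hc) hy0))
  have hxy : x ≤ y := (div_le_one hy0).1 b1
  have hεy : ε * y ∈ D - D := by
    rcases hε with rfl | rfl
    · rw [zero_mul]; exact hD.zero_mem
    · rwa [one_mul]
  have e0 : 0 ≤ ε * y := by rcases hε with rfl | rfl <;> linarith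
  have e1 : ε * y ≤ y := by rcases hε with rfl | rfl <;> linarith
  have h1 := sp2_gap (D := D) (κ := w ^ 2) (ρ := w ^ 6) (y := y) (e := (x / y + ε) / 2)
    (η := w ^ 10) (by positivity) (by positivity) hy' (by ring)
    (fun u hu v hv huv => H _ ((hB _).2 ⟨u, hu, v, hv, huv, rfl⟩))
    (dil y D + dil y D + dil x D + dil (ε * y) D) fun a ha b hb => by
      have e : 2 * y * (a + (x / y + ε) / 2 * b) = y * a + y * a + x * b + ε * y * b := by
        field_simp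
        ring
      rw [e]
      exact add_mem_add (add_mem_add (add_mem_add (mem_dil ha) (mem_dil ha)) (mem_dil hb))
        (mem_dil hb)
  have h2 := pk_mul_le (S := D) (T := dil y D + dil y D + dil x D + dil (ε * y) D)
    (η := w ^ 10) (d := 4 * y) (x := 0) (by positivity) (by positivity) fun z hz => by
      obtain ⟨z1, hz1, z4, h4, rfl⟩ := mem_add.1 hz
      obtain ⟨z2, hz2, z3, h3, rfl⟩ := mem_add.1 hz1
      obtain ⟨z5, h1, z6, h2, rfl⟩ := mem_add.1 hz2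
      obtain ⟨a1, c1, rfl⟩ := mem_image.1 h1
      obtain ⟨a2, c2, rfl⟩ := mem_image.1 h2
      obtain ⟨a3, c3, rfl⟩ := mem_image.1 h3
      obtain ⟨a4, c4, rfl⟩ := mem_image.1 h4
      have f : ∀ u a : ℝ, 0 ≤ u → u ≤ y → a ∈ D → 0 ≤ u * a ∧ u * a ≤ y := fun u a u0 u1 ha =>
        ⟨mul_nonneg u0 (hD.sub a ha).1, by nlinarith [hD.sub a ha]⟩
      have f1 := f y a1 hy0.le le_rfl c1
      have f2 := f y a2 hy0.le le_rfl c2
      have f3 := f x a3 hx0 hxy c3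
      have f4 := f _ a4 e0 e1 c4
      constructor <;> linarith [f1.1, f1.2, f2.1, f2.2, f3.1, f3.2, f4.1, f4.2]
  have h3 := h2.trans (pk_le_add _ hD.nonempty _)
  have h4 := hD.closure y hy y hy x hx _ hεy _ (hδ 10 (by norm_num))
  rw [show D + (dil y D + dil y D + dil x D + dil (ε * y) D) + D =
    D + D + dil y D + dil y D + dil x D + dil (ε * y) D by abel] at h3
  have h102 : w ^ 10 ≤ w ^ 2 := pow_le_pow_of_le_one hw0.le hw1 (by norm_num)
  have h5 := pk_le_near (S := D) (T := D) (η := y) (η' := 4 * y + w ^ 10) (ε := 0)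
    hy0 (by positivity) le_rfl fun z hz => ⟨z, hz, by simp⟩
  have h6 : 2 * (4 * y + w ^ 10 + 0) / y + 1 ≤ 11 := by
    have : 2 * (4 * y + w ^ 10 + 0) / y ≤ 10 := by
      rw [div_le_iff₀ hy0]; linarith
    linarith
  have h7 := h5.trans (mul_le_mul_of_nonneg_right h6 (Nat.cast_nonneg _))
  have h8 : (pk D (4 * y + w ^ 10) : ℝ) * (pk D (w ^ 10 / y) * pk D (w ^ 2)) ≤
      K * pk D (w ^ 10) :=
    le_trans (by exact_mod_cast (Nat.mul_le_mul_left _ h1).trans h3) h4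
  have h9 : (pk D y : ℝ) * (pk D (w ^ 10 / y) * pk D (w ^ 2)) ≤ 11 * K ^ 4 * pk D (w ^ 10) := by
    have := mul_le_mul_of_nonneg_right h7
      (mul_pos (hp (w ^ 10 / y)) (hp (w ^ 2))).le
    nlinarith [mul_le_mul_of_nonneg_right hK4.1 (hp (w ^ 10)).le]
  have h10 := Real.log_le_log (mul_pos (hp _) (mul_pos (hp _) (hp _))) h9
  rw [Real.log_mul (hp _).ne' (mul_pos (hp _) (hp _)).ne', Real.log_mul (hp _).ne' (hp _).ne',
    Real.log_mul (by positivity) (hp _).ne'] at h10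
  have h11 := hlog 11 (by norm_num) (by norm_num)
  have anti : ∀ {a b : ℝ}, a ≤ b → Real.log (pk D b) ≤ Real.log (pk D a) := fun hab =>
    Real.log_le_log (hp _) (by exact_mod_cast pk_anti D hab)
  have l1 := lo 1 (by norm_num)
  have l2 := lo 2 (by norm_num)
  have l8 := lo 8 (by norm_num)
  have l9 := lo 9 (by norm_num)
  have l10 := hi 10 (by norm_num)
  push_cast at l1 l2 l8 l9 l10
  rcases le_total w y with hc | hc
  · have a1 : 0 ≤ Real.log (pk D y) := Real.log_nonneg (hD.one_le _)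
    have a2 := anti (a := w ^ 10 / y) (b := w ^ 9) (by
      rw [div_le_iff₀ hy0, pow_succ]
      exact mul_le_mul_of_nonneg_left hc (by positivity))
    linarith
  · have a1 := anti (a := y) (b := w ^ 1) (by rwa [pow_one])
    have a2 := anti (a := w ^ 10 / y) (b := w ^ 8) (by
      rw [div_le_iff₀ hy0, show w ^ 10 = w ^ 8 * w ^ 2 by ring]
      exact mul_le_mul_of_nonneg_left hy' (by positivity))
    linarith

theorem not_regular (D : Finset ℝ) (δ g K h d : ℝ) (hD : RingCfg D δ g K)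
    (hR : Regular D δ h d (20 * Real.log K)) : False := by
  have hk := hD.k_ge
  have hK := hD.K_pos
  have hh := hR.h_pos
  have hbig := hR.big
  have hdim := hR.dim
  obtain ⟨k, hkd⟩ : ∃ k, k = 20 * Real.log K := ⟨_, rfl⟩
  -- the scales
  obtain ⟨w, hw⟩ : ∃ w, w = Real.exp (-h) := ⟨_, rfl⟩
  have hw0 : 0 < w := hw ▸ Real.exp_pos _
  have hw1 : w ≤ 1 := hw ▸ Real.exp_le_one_iff.2 (by linarith)
  have hwj : ∀ j : ℕ, Real.exp (-(j * h)) = w ^ j := fun j => by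
    rw [hw, ← Real.exp_nat_mul, mul_neg]
  have lo : ∀ j : ℕ, j ≤ 11 → j * d - j * k ≤ Real.log (pk D (w ^ j)) := fun j hj => by
    have := hR.lo j hj
    rwa [lpk, hwj, ← hkd] at this
  have hi : ∀ j : ℕ, j ≤ 11 → Real.log (pk D (w ^ j)) ≤ j * d + d / 8 + 11 * k := fun j hj => by
    have := hR.hi j hj
    rwa [lpk, hwj, ← hkd] at this
  have hδ : ∀ j : ℕ, j ≤ 11 → δ ≤ w ^ j := fun j hj => by
    have h1 := hR.range
    have h2 := hwj 11
    push_cast at h2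
    rw [h2] at h1
    exact h1.trans (pow_le_pow_of_le_one hw0.le hw1 hj)
  have hlog : ∀ c : ℝ, 0 < c → c ≤ 2 ^ 16 → Real.log (c * K ^ 4) ≤ k := fun c h1 h2 =>
    hkd ▸ hD.log_le h1 h2
  rw [← hkd] at hk hbig hdim
  let B : ℝ → Prop := fun b => ∃ x ∈ D - D, ∃ y ∈ D - D, w ^ 2 ≤ y ∧ b = x / y
  obtain ⟨y₁, hy₁, hy₁'⟩ : ∃ y ∈ D - D, w ^ 2 ≤ y := by
    have h1 := lo 2 (by norm_num)
    have h2 : 2 ≤ pk D (w ^ 2) := by
      by_contra h2
      have h3 : (pk D (w ^ 2) : ℝ) ≤ 1 := by exact_mod_cast (by omega : pk D (w ^ 2) ≤ 1)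
      have := Real.log_nonpos (Nat.cast_nonneg _) h3
      push_cast at h1
      linarith
    obtain ⟨a, ha, b, hb, h3, -⟩ := exists_gap (by positivity) h2
    exact ⟨_, sub_mem_sub ha hb, h3⟩
  have hB0 : B 0 := ⟨0, hD.zero_mem, y₁, hy₁, hy₁', (zero_div _).symm⟩
  have hB1 : B 1 := ⟨y₁, hy₁, y₁, hy₁, hy₁',
    (div_self (lt_of_lt_of_le (by positivity) hy₁').ne').symm⟩
  by_cases H : ∀ b, B b → 0 ≤ b → b ≤ 1 → ∀ ε : ℝ, ε = 0 ∨ ε = 1 →
      ∃ b', B b' ∧ |(b + ε) / 2 - b'| < w ^ 6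
  · exact sp2_case_dense hD hk hbig hw0 hw1 lo hi hδ hlog (fun _ => Iff.rfl) hdim hwj hB0 hB1 H
  · exact sp2_case_gap hD hk hbig hw0 hw1 lo hi hδ hlog (fun _ => Iff.rfl) H

end Vale.Agent.P065
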