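import Vale.Agent.P065.SumA

/-! Additive structure, part two: the tile argument. -/

namespace Vale.Agent.P065

open Classical Finset Pointwise

theorem sum_five {ρ ρ' ℓ : ℝ} (hℓ : 1 ≤ ℓ) (h : ⌊ℓ * ρ⌋ = ⌊ℓ * ρ'⌋) (b : ℤ) :
    ⌊ρ' * b⌋ - ⌊ρ * b⌋ - ⌊(ℓ * ρ' - ℓ * ρ) * ⌊(b : ℝ) / ℓ⌋⌋ ∈ Icc (-1 : ℤ) 2 := by
  have l0 : 0 < ℓ := by linarith
  have h1 := abs_lt.mp (Int.abs_sub_lt_one_of_floor_eq_floor h.symm)
  obtain ⟨d, hd⟩ : ∃ d, d = ℓ * ρ' - ℓ * ρ := ⟨_, rfl⟩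
  rw [← hd] at h1 ⊢
  have e : ρ' * b - ρ * b = d * ⌊(b : ℝ) / ℓ⌋ + d * Int.fract ((b : ℝ) / ℓ) := by
    rw [← mul_add, Int.floor_add_fract, hd]; field_simp
  have f0 := Int.fract_nonneg ((b : ℝ) / ℓ)
  have f1 := Int.fract_lt_one ((b : ℝ) / ℓ)
  have g1 : d * Int.fract ((b : ℝ) / ℓ) < 1 := by nlinarith [h1.1, h1.2]
  have g2 : -1 < d * Int.fract ((b : ℝ) / ℓ) := by nlinarith [h1.1, h1.2]
  have a1 := Int.floor_le (ρ' * b)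
  have a2 := Int.lt_floor_add_one (ρ' * b)
  have a3 := Int.floor_le (ρ * b)
  have a4 := Int.lt_floor_add_one (ρ * b)
  have a5 := Int.floor_le (d * ⌊(b : ℝ) / ℓ⌋)
  have a6 := Int.lt_floor_add_one (d * ⌊(b : ℝ) / ℓ⌋)
  have b1 : ((-2 : ℤ) : ℝ) < ((⌊ρ' * b⌋ - ⌊ρ * b⌋ - ⌊d * ⌊(b : ℝ) / ℓ⌋⌋ : ℤ) : ℝ) := by
    push_cast; linarith
  have b2 : ((⌊ρ' * b⌋ - ⌊ρ * b⌋ - ⌊d * ⌊(b : ℝ) / ℓ⌋⌋ : ℤ) : ℝ) < ((3 : ℤ) : ℝ) := by
    push_cast; linarith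
  have b3 := Int.cast_lt.mp b1
  have b4 := Int.cast_lt.mp b2
  rw [mem_Icc]
  omega

variable {ι : Type}

theorem sum_pair {κ : Type} [DecidableEq κ] (Q W : Finset ι) (Z : Finset (ι × ι)) (v : ι → ι → ℤ)
    (p p' : ι) (hW : ∀ q ∈ W, q ∈ Q ∧ (p, q) ∈ Z ∧ (p', q) ∈ Z) (cl : ι → κ) (T : Finset κ)
    (hT : ∀ q ∈ W, cl q ∈ T) (hcl : ∀ q q', cl q' = cl q → v p q' = v p q ∧ v p' q' = v p' q)
    {y : ℝ} (hy : 0 ≤ y) : (W.card : ℝ) - T.card * y ≤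
      ((Q.filter fun q => (p, q) ∈ Z ∧ (p', q) ∈ Z ∧ y ≤ codeg Q Z v p p' q).card : ℝ) := by
  have h1 := card_filter_add_card_filter_not (s := W) fun q => y ≤ (codeg Q Z v p p' q : ℝ)
  have h2 := sum_card_le (W.filter fun q => ¬y ≤ (codeg Q Z v p p' q : ℝ)) cl T
    (fun q hq => hT q (mem_filter.mp hq).1) y fun t _ => by
      rcases ((W.filter fun q => ¬y ≤ (codeg Q Z v p p' q : ℝ)).filter
        fun q => cl q = t).eq_empty_or_nonempty with h | ⟨q, hq⟩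
      · rw [h]; simpa using hy
      · obtain ⟨h3, rfl⟩ := mem_filter.mp hq
        refine le_trans (sum_le_cast (card_le_card fun q' hq' => ?_))
          (not_le.mp (mem_filter.mp h3).2).le
        obtain ⟨h4, h5⟩ := mem_filter.mp hq'
        obtain ⟨h6, h7, h8⟩ := hW q' (mem_filter.mp h4).1
        exact mem_filter.mpr ⟨h6, h7, h8, hcl q q' h5⟩
  have h3 : ((W.filter fun q => y ≤ (codeg Q Z v p p' q : ℝ)).card : ℝ) ≤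
      ((Q.filter fun q => (p, q) ∈ Z ∧ (p', q) ∈ Z ∧ y ≤ codeg Q Z v p p' q).card : ℝ) :=
    sum_le_cast (card_le_card fun q hq => by
      obtain ⟨h4, h5⟩ := mem_filter.mp hq
      obtain ⟨h6, h7, h8⟩ := hW q h4
      exact mem_filter.mpr ⟨h6, h7, h8, h5⟩)
  have h4 : (W.card : ℝ) = ((W.filter fun q => y ≤ (codeg Q Z v p p' q : ℝ)).card : ℝ) +
      ((W.filter fun q => ¬y ≤ (codeg Q Z v p p' q : ℝ)).card : ℝ) := by exact_mod_cast h1.symm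
  linarith

theorem sum_cs (σ Q : Finset ι) (Z : Finset (ι × ι)) {m N : ℝ} (hm : 0 ≤ m) (hN : 0 < N)
    (hQ : (Q.card : ℝ) ≤ N) (h : ∀ p ∈ σ, m ≤ ((Q.filter fun q => (p, q) ∈ Z).card : ℝ)) :
    ∑ _x ∈ σ ×ˢ σ, m ^ 2 / N
      ≤ ∑ x ∈ σ ×ˢ σ, ((Q.filter fun q => (x.1, q) ∈ Z ∧ (x.2, q) ∈ Z).card : ℝ) := by
  have h1 := card_nsmul_le_sum σ _ m h
  rw [nsmul_eq_mul, ← sum_deg] at h1
  have h2 := sq_sum_le_card_mul_sum_sq (s := Q)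
    (f := fun q => ((σ.filter fun p => (p, q) ∈ Z).card : ℝ))
  have h3 : ∑ x ∈ σ ×ˢ σ, ((Q.filter fun q => (x.1, q) ∈ Z ∧ (x.2, q) ∈ Z).card : ℝ)
      = ∑ q ∈ Q, ((σ.filter fun p => (p, q) ∈ Z).card : ℝ) ^ 2 := by
    simp only [natCast_card_filter]
    rw [sum_comm]
    refine sum_congr rfl fun q _ => ?_
    rw [sq, sum_mul_sum, sum_product]
    simp only [ite_zero_mul_ite_zero, mul_one]
  rw [h3, sum_const, card_product, nsmul_eq_mul, ← mul_div_assoc, div_le_iff₀ hN]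
  have h4 := pow_le_pow_left₀ (by positivity) h1 2
  have h5 := mul_le_mul_of_nonneg_right hQ (sum_nonneg (s := Q)
    (f := fun q => ((σ.filter fun p => (p, q) ∈ Z).card : ℝ) ^ 2) fun _ _ => sq_nonneg _)
  push_cast
  nlinarith

theorem sum_classes (S : Finset ι) (f : ι → ℤ) (g g' : ι × ι → ℝ)
    (h : ∀ σ ⊆ S, ∑ x ∈ σ ×ˢ σ, g x ≤ ∑ x ∈ σ ×ˢ σ, g' x) :
    ∑ x ∈ (S ×ˢ S).filter (fun x => f x.1 = f x.2), g x
      ≤ ∑ x ∈ (S ×ˢ S).filter (fun x => f x.1 = f x.2), g' x := by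
  have hm : ∀ x ∈ (S ×ˢ S).filter (fun x => f x.1 = f x.2), f x.1 ∈ S.image f := fun x hx =>
    mem_image_of_mem f (mem_product.mp (mem_filter.mp hx).1).1
  rw [← sum_fiberwise_of_maps_to hm, ← sum_fiberwise_of_maps_to hm]
  refine sum_le_sum fun k _ => ?_
  have e : ((S ×ˢ S).filter (fun x => f x.1 = f x.2)).filter (fun x => f x.1 = k)
      = (S.filter fun p => f p = k) ×ˢ (S.filter fun p => f p = k) := by
    ext x
    simp only [mem_filter, mem_product]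
    constructor
    · rintro ⟨⟨⟨h1, h2⟩, h3⟩, h4⟩
      exact ⟨⟨h1, h4⟩, h2, h3 ▸ h4⟩
    · rintro ⟨⟨h1, h2⟩, h3, h4⟩
      exact ⟨⟨⟨h1, h3⟩, h2.trans h4.symm⟩, h2⟩
  rw [e]
  exact h _ (filter_subset _ _)

theorem sum_tile {C Q : Finset ι} {Z : Finset (ι × ι)} {α β : ι → ℤ} {r : ι → ℝ}
    {a nC nQ K : ℝ} {E : ℕ} (h : RefCfg C Q Z α β r a nC nQ K E) (B : Finset ℤ) (S Q' : Finset ι)
    (sS : S ⊆ C) (sQ : Q' ⊆ Q) (hB : ∀ q ∈ Q', β q ∈ B) {K₁ : ℝ} (hK₁ : 0 < K₁)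
    (hS : ∀ p ∈ S, nQ / K₁ ≤ ((Q'.filter fun q => (p, q) ∈ Z).card : ℝ)) {ℓ : ℝ} (hℓ : 1 ≤ ℓ)
    {y : ℝ} (hy0 : 0 ≤ y) (hy : y * (16 * K ^ 2 * K₁ ^ 2 * a * pk (toR B) ℓ) ≤ nQ) :
    (colEn S r ℓ : ℝ) * (nQ / (2 * K * K₁ ^ 2))
      ≤ heavy C Q Z (fun p q => α q + ⌊r p * β q⌋) y := by
  have hK := h.lab.K_ge
  have K0 : 0 < K := by linarith
  have a0 : 0 < a := by linarith [h.lab.a_ge]
  have q0 : 0 < nQ := lt_of_lt_of_le (by positivity) h.lab.nQ_ge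
  obtain ⟨v, hv⟩ : ∃ v : ι → ι → ℤ, v = fun p q => α q + ⌊r p * β q⌋ := ⟨_, rfl⟩
  have hcol := h.lab.col
  rw [← hv] at hcol ⊢
  have h1 := sum_classes S (fun p => ⌊ℓ * r p⌋) _ _ fun σ hσ =>
    sum_cs σ Q' Z (m := nQ / K₁) (N := K * nQ) (by positivity) (by positivity)
      ((sum_le_cast (card_le_card sQ)).trans h.lab.card_Q) fun p hp => hS p (hσ hp)
  have h2 : ∀ x ∈ (S ×ˢ S).filter (fun x => ⌊ℓ * r x.1⌋ = ⌊ℓ * r x.2⌋),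
      ((Q'.filter fun q => (x.1, q) ∈ Z ∧ (x.2, q) ∈ Z).card : ℝ) - nQ / (2 * K * K₁ ^ 2) ≤
      ((Q.filter fun q => (x.1, q) ∈ Z ∧ (x.2, q) ∈ Z ∧ y ≤ codeg Q Z v x.1 x.2 q).card : ℝ) := by
    intro x hx
    obtain ⟨h3, h4⟩ := mem_filter.mp hx
    refine le_trans (sub_le_sub_left ?_ _) (sum_pair Q _ Z v x.1 x.2
      (fun q hq => ⟨sQ (mem_filter.mp hq).1, (mem_filter.mp hq).2⟩)
      (fun q => (v x.1 q, ⌊(β q : ℝ) / ℓ⌋,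
        v x.2 q - v x.1 q - ⌊(ℓ * r x.2 - ℓ * r x.1) * ⌊(β q : ℝ) / ℓ⌋⌋))
      (colSet Z v x.1 ×ˢ ((toR B).image fun z => ⌊z / ℓ⌋) ×ˢ Icc (-1 : ℤ) 2)
      (fun q hq => ?_) (fun q q' hq => ?_) hy0)
    · rw [card_product, card_product, Int.card_Icc]
      have h5 := hcol x.1 (sS (mem_product.mp h3).1)
      have h6 : (((toR B).image fun z => ⌊z / ℓ⌋).card : ℝ) ≤ 2 * pk (toR B) ℓ := by
        exact_mod_cast card_floor_le (toR B) (show 0 < ℓ by linarith)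
      have h7 := mul_le_mul_of_nonneg_right
        (mul_le_mul h5 h6 (Nat.cast_nonneg _) (by positivity)) hy0
      have h8 := mul_le_mul_of_nonneg_left h7 (show 0 ≤ 8 * K * K₁ ^ 2 by positivity)
      rw [le_div_iff₀ (by positivity), show (2 + 1 - -1 : ℤ).toNat = 4 from rfl]
      push_cast
      nlinarith
    · obtain ⟨h5, h6, -⟩ := mem_filter.mp hq
      refine mem_product.mpr ⟨mem_image.mpr ⟨(x.1, q), mem_filter.mpr ⟨h6, rfl⟩, rfl⟩,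
        mem_product.mpr ⟨mem_image.mpr ⟨_, mem_image_of_mem _ (hB q h5), rfl⟩, ?_⟩⟩
      have h7 := sum_five hℓ h4 (β q)
      simp only [hv, add_sub_add_left_eq_sub]
      exact h7
    · simp only [Prod.mk.injEq] at hq
      obtain ⟨h5, h6, h7⟩ := hq
      rw [h5, h6] at h7
      exact ⟨h5, by omega⟩
  have h3 := sum_le_sum h2
  have h4 : ∑ x ∈ (S ×ˢ S).filter (fun x => ⌊ℓ * r x.1⌋ = ⌊ℓ * r x.2⌋),
      ((Q.filter fun q => (x.1, q) ∈ Z ∧ (x.2, q) ∈ Z ∧ y ≤ codeg Q Z v x.1 x.2 q).card : ℝ)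
      ≤ heavy C Q Z v y := by
    refine (sum_le_sum_of_subset_of_nonneg (t := C ×ˢ C)
      ((filter_subset _ _).trans (product_subset_product sS sS))
      fun _ _ _ => Nat.cast_nonneg _).trans (le_of_eq ?_)
    unfold heavy
    simp only [natCast_card_filter, sum_product]
  rw [sum_sub_distrib, sum_const, nsmul_eq_mul] at h3
  rw [sum_const, nsmul_eq_mul] at h1
  have e : (nQ / K₁) ^ 2 / (K * nQ) = 2 * (nQ / (2 * K * K₁ ^ 2)) := by field_simp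
  rw [e] at h1
  unfold colEn
  linarith

end Vale.Agent.P065
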