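import Vale.Agent.P065.CfgDefs
import Vale.Agent.P065.BSG
import Vale.Agent.P065.SumB

/-! Additive structure (task M). -/

namespace Vale.Agent.P065

open Classical Finset

section

open Pointwise

theorem sum_floor_add (ρ : ℝ) (B : Finset ℤ) :
    ((B.image fun y : ℤ => ⌊ρ * y⌋) + (B.image fun y : ℤ => ⌊ρ * y⌋)).card ≤ 2 * (B + B).card := by
  have h : (B.image fun y : ℤ => ⌊ρ * y⌋) + (B.image fun y : ℤ => ⌊ρ * y⌋)
      ⊆ Icc (-1 : ℤ) 0 + (B + B).image fun y : ℤ => ⌊ρ * y⌋ := by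
    intro z hz
    obtain ⟨_, h1, _, h2, rfl⟩ := mem_add.mp hz
    obtain ⟨x, hx, rfl⟩ := mem_image.mp h1
    obtain ⟨y, hy, rfl⟩ := mem_image.mp h2
    refine mem_add.mpr ⟨⌊ρ * x⌋ + ⌊ρ * y⌋ - ⌊ρ * ((x + y : ℤ) : ℝ)⌋, ?_, _,
      mem_image_of_mem _ (add_mem_add hx hy), by ring⟩
    have h3 := Int.le_floor_add (ρ * x) (ρ * y)
    have h4 := Int.le_floor_add_floor (ρ * x) (ρ * y)
    rw [mem_Icc, Int.cast_add, mul_add]
    omega
  exact (card_le_card h).trans (card_add_le.trans (Nat.mul_le_mul (by simp) card_image_le))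

theorem sum_floor_three (ρ : ℝ) (x y z : ℤ) :
    ⌊ρ * ((x + (y - z) : ℤ) : ℝ)⌋ - ⌊ρ * x⌋ - (⌊ρ * y⌋ - ⌊ρ * z⌋) ∈ Icc (-1 : ℤ) 1 := by
  have h1 := Int.le_floor_add (ρ * x) (ρ * y)
  have h2 := Int.le_floor_add_floor (ρ * x) (ρ * y)
  have h3 := Int.le_floor_add (ρ * ((x + (y - z) : ℤ) : ℝ)) (ρ * z)
  have h4 := Int.le_floor_add_floor (ρ * ((x + (y - z) : ℤ) : ℝ)) (ρ * z)
  rw [show ρ * ((x + (y - z) : ℤ) : ℝ) + ρ * z = ρ * x + ρ * y by push_cast; ring] at h3 h4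
  rw [mem_Icc]
  omega

theorem sum_cover : ∃ c : ℕ, ∀ (A B : Finset ℤ) (H : Finset (ℤ × ℤ)) (ρ a K : ℝ), 0 < a → 2 ≤ K →
    (A.card : ℝ) ≤ K * a → (B.card : ℝ) ≤ K * a → a / K ≤ A.card → a / K ≤ B.card →
    ((A + B).card : ℝ) ≤ K * a → H ⊆ A ×ˢ (B.image fun y : ℤ => ⌊ρ * y⌋) → a ^ 2 / K ≤ H.card →
    ((H.image fun x => x.1 + x.2).card : ℝ) ≤ K * a →
    ∃ X : Finset ℤ, (X.card : ℝ) ≤ K ^ c ∧ ∀ x ∈ A, ⌊ρ * x⌋ ∈ X + (4 • A - 4 • A) := by
  obtain ⟨c, hc⟩ := bsg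
  refine ⟨10 * c + 22, fun A B H ρ a K a0 hK hA hB hA' hB' hAB hH hH' hS => ?_⟩
  have K0 : 0 < K := by linarith
  obtain ⟨F, hF⟩ : ∃ F, F = B.image fun y : ℤ => ⌊ρ * y⌋ := ⟨_, rfl⟩
  rw [← hF] at hH
  have hFc : (F.card : ℝ) ≤ K * a := (sum_le_cast (hF ▸ card_image_le)).trans hB
  obtain ⟨A₁, sA, B₁, sB, h1, h2⟩ := hc A F H a K a0 hK hH hA hFc hH' hS
  obtain ⟨h3, h4⟩ := sum_side a0 K0 (by positivity) ((sum_le_cast (card_le_card sA)).trans hA)
    ((sum_le_cast (card_le_card sB)).trans hFc) h2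
  have ne : ∀ {T : Finset ℤ} {L : ℝ}, 0 < L → a / L ≤ T.card → T.Nonempty := fun hL h =>
    card_pos.mp (Nat.cast_pos.mp (lt_of_lt_of_le (div_pos a0 hL) h))
  rw [div_le_iff₀ (by positivity)] at h3 h4
  obtain ⟨X₃, -, k1, k2⟩ := ruzsa_covering_add (A := B₁) (B := A₁) (K := K ^ (2 * c + 1))
    (ne (L := K * K ^ c) (by positivity) ((div_le_iff₀ (by positivity)).mpr h3)) (by
      rw [add_comm]
      refine h1.trans ((mul_le_mul_of_nonneg_left h3 (by positivity)).trans_eq (by ring)))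
  have hBB : ((B + B).card : ℝ) ≤ K ^ 5 * a := by
    have h5 := pluennecke_ruzsa_inequality_nsmul_add (ne K0 hA') B 2
    have h6 : ((2 • B).card : ℝ) ≤ (((A + B).card : ℝ) / A.card) ^ 2 * A.card := by
      simpa using (NNRat.cast_le (K := ℝ)).mpr h5
    have h7 : (0 : ℝ) < A.card := lt_of_lt_of_le (by positivity) hA'
    have h8 : ((A + B).card : ℝ) / A.card ≤ K ^ 2 := by
      rw [div_le_iff₀ h7]
      rw [div_le_iff₀ K0] at hA'
      exact hAB.trans ((mul_le_mul_of_nonneg_left hA' K0.le).trans_eq (by ring))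
    rw [two_nsmul] at h6
    exact h6.trans ((mul_le_mul (pow_le_pow_left₀ (by positivity) h8 2) hA h7.le
      (by positivity)).trans_eq (by ring))
  obtain ⟨X, -, k3, k4⟩ := ruzsa_covering_add (A := F) (B := B₁) (K := K ^ (c + 7))
    (ne (L := K * K ^ c) (by positivity) ((div_le_iff₀ (by positivity)).mpr h4)) (by
      have h5 : ((F + B₁).card : ℝ) ≤ 2 * (B + B).card := by
        rw [hF] at sB ⊢
        exact_mod_cast (card_le_card (add_subset_add_left sB)).trans (sum_floor_add ρ B)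
      have h6 := mul_le_mul_of_nonneg_left h4 (show 0 ≤ K ^ 5 by positivity)
      have h7 := mul_le_mul_of_nonneg_right
        (sum_cpow (c := 2) (j := 1) (m := c + 6) (n := c + 7) hK (by norm_num) (by omega))
        (Nat.cast_nonneg (α := ℝ) B₁.card)
      have h8 : K ^ 5 * (B₁.card * (K * K ^ c)) = K ^ (c + 6) * B₁.card := by ring
      linarith)
  obtain ⟨X₄, -, k5, k6⟩ := ruzsa_covering_add (A := A) (B := B) (K := K ^ 2) (ne K0 hB') (by
    rw [div_le_iff₀ K0] at hB'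
    exact hAB.trans ((mul_le_mul_of_nonneg_left hB' K0.le).trans_eq (by ring)))
  have hφ : ∀ b ∈ B, ∃ u ∈ X + (X₃ - X₃), ∃ a₁ ∈ A, ∃ a₂ ∈ A, ∃ a₃ ∈ A, ∃ a₄ ∈ A,
      ⌊ρ * b⌋ = u + (a₁ + a₂) - (a₃ + a₄) := by
    intro b hb
    obtain ⟨x, hx, _, h5, e⟩ := mem_add.mp (k4 (hF ▸ mem_image_of_mem (fun y : ℤ => ⌊ρ * y⌋) hb))
    obtain ⟨y, hy, y', hy', rfl⟩ := mem_sub.mp h5
    obtain ⟨s, hs, _, h6, rfl⟩ := mem_add.mp (k2 hy)
    obtain ⟨s', hs', _, h7, rfl⟩ := mem_add.mp (k2 hy')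
    obtain ⟨a₁, m1, a₂, m2, rfl⟩ := mem_sub.mp h6
    obtain ⟨a₃, m3, a₄, m4, rfl⟩ := mem_sub.mp h7
    exact ⟨_, add_mem_add hx (sub_mem_sub hs hs'), a₁, sA m1, a₄, sA m4, a₂, sA m2, a₃, sA m3,
      by rw [← e]; ring⟩
  refine ⟨(X₄.image fun y : ℤ => ⌊ρ * y⌋) + Icc (-1 : ℤ) 1 + ((X + (X₃ - X₃)) - (X + (X₃ - X₃))),
    ?_, fun x hx => ?_⟩
  · have h5 : ((X + (X₃ - X₃)).card : ℝ) ≤ K ^ (5 * c + 9) := by
      have h6 : ((X + (X₃ - X₃)).card : ℝ) ≤ X.card * (X₃.card * X₃.card) := by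
        exact_mod_cast card_add_le.trans (Nat.mul_le_mul_left _ card_sub_le)
      exact h6.trans ((mul_le_mul k3 (mul_le_mul k1 k1 (Nat.cast_nonneg _) (by positivity))
        (by positivity) (by positivity)).trans_eq (by ring))
    have h6 : (((X₄.image fun y : ℤ => ⌊ρ * y⌋) + Icc (-1 : ℤ) 1 +
        ((X + (X₃ - X₃)) - (X + (X₃ - X₃)))).card : ℝ)
        ≤ X₄.card * 3 * ((X + (X₃ - X₃)).card * (X + (X₃ - X₃)).card) := by
      exact_mod_cast card_add_le.trans (Nat.mul_le_mul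
        (card_add_le.trans (Nat.mul_le_mul card_image_le (by simp))) card_sub_le)
    refine h6.trans ((mul_le_mul (mul_le_mul_of_nonneg_right k5 (by norm_num))
      (mul_le_mul h5 h5 (Nat.cast_nonneg _) (by positivity)) (by positivity)
      (by positivity)).trans (le_of_eq_of_le (by ring)
        (sum_cpow (c := 3) (j := 2) (m := 10 * c + 20) hK (by norm_num) (by omega))))
  · obtain ⟨x₄, m4, _, h5, rfl⟩ := mem_add.mp (k6 hx)
    obtain ⟨b, hb, b', hb', rfl⟩ := mem_sub.mp h5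
    obtain ⟨u, hu, a₁, m1, a₂, m2, a₃, m3, a₄, m5, e⟩ := hφ b hb
    obtain ⟨u', hu', a₅, n1, a₆, n2, a₇, n3, a₈, n4, e'⟩ := hφ b' hb'
    have e4 : 4 • A = A + A + A + A := by
      rw [show (4 : ℕ) = 1 + 1 + 1 + 1 from rfl, add_nsmul, add_nsmul, add_nsmul, one_nsmul]
    rw [e4]
    refine mem_add.mpr ⟨_, add_mem_add (add_mem_add (mem_image_of_mem _ m4)
      (sum_floor_three ρ x₄ b b')) (sub_mem_sub hu hu'), _, sub_mem_sub
      (add_mem_add (add_mem_add (add_mem_add m1 m2) n3) n4)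
      (add_mem_add (add_mem_add (add_mem_add m3 m5) n1) n2), ?_⟩
    rw [e, e']
    ring

end

theorem sum_of_ref : ∃ C₀ : ℕ, ∀ (ι : Type) (C Q : Finset ι) (Z : Finset (ι × ι)) (α β : ι → ℤ)
    (r : ι → ℝ) (a nC nQ K : ℝ) (E : ℕ), RefCfg C Q Z α β r a nC nQ K E →
    ∃ (A B : Finset ℤ) (S : Finset ι) (G : ι → Finset (ℤ × ℤ)),
      SumCfg A B S r G a nC (K ^ C₀) (E + 1) := by
  obtain ⟨c, hc⟩ := sum_mid
  obtain ⟨d, hd⟩ := sum_cover
  refine ⟨(c + 1) * d + 4 * c + 13, fun ι C Q Z α β r a nC nQ K E h => ?_⟩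
  obtain ⟨A, B, S, Q', sA, sB, sS, sQ, hm, h1, h2, h3, h4, h5⟩ := hc ι C Q Z α β r a nC nQ K E h
  have hK := h.lab.K_ge
  have K0 : 0 < K := by linarith
  have K1 : 1 ≤ K := by linarith
  have a0 : 0 < a := by linarith [h.lab.a_ge]
  have c0 : 0 < nC := by linarith [h.lab.nC_ge]
  have q0 : 0 < nQ := lt_of_lt_of_le (by positivity) h.lab.nQ_ge
  obtain ⟨n, hn⟩ : ∃ n, n = (c + 1) * d + 4 * c + 13 := ⟨_, rfl⟩
  rw [← hn]
  have pw : ∀ {m k : ℕ}, m ≤ k → K ^ m ≤ K ^ k := fun hm => pow_le_pow_right₀ K1 hm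
  have p1 : ∀ {k : ℕ}, 1 ≤ k → K ≤ K ^ k := fun hk => by simpa using pw hk
  have dv : ∀ {x : ℝ} {m k : ℕ}, 0 ≤ x → m ≤ k → x / K ^ k ≤ x / K ^ m := fun hx hm =>
    div_le_div_of_nonneg_left hx (by positivity) (pw hm)
  have hAc := (sum_le_cast (card_le_card sA)).trans h.card_α
  have hBc := (sum_le_cast (card_le_card sB)).trans h.card_β
  have dense : ∀ p ∈ S, ∀ f : ι → ℤ × ℤ, (∀ t, (((Q'.filter fun q => (p, q) ∈ Z).filter
      fun q => f q = t).card : ℝ) ≤ K * nQ / a ^ 2) →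
      a ^ 2 / K ^ (c + 1) ≤ ((Q'.filter fun q => (p, q) ∈ Z).image f).card := by
    intro p hp f hf
    have h6 := sum_card_le _ f _ (fun q hq => mem_image_of_mem f hq) _ fun t _ => hf t
    refine le_of_mul_le_mul_right (le_trans (le_of_eq ?_) ((h5 p hp).trans h6))
      (show 0 < K * nQ / a ^ 2 by positivity)
    field_simp
    ring
  have hpk : ∀ ℓ, (1 : ℝ) ≤ pk (toR B) ℓ := fun ℓ => by
    have : B.Nonempty := card_pos.mp (Nat.cast_pos.mp (lt_of_lt_of_le (by positivity) h3))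
    exact_mod_cast one_le_pk (this.image _) ℓ
  have tile : ∀ ℓ L : ℝ, 1 ≤ ℓ → (pk (toR B) ℓ : ℝ) ≤ L → (colEn S r ℓ : ℝ) * nQ ≤
      K ^ (2 * c + 6) * heavy C Q Z (fun p q => α q + ⌊r p * β q⌋)
        (nQ / (a * (K ^ (2 * c + 6) * L))) := by
    intro ℓ L hℓ hL
    have L0 : 0 < L := by linarith [hpk ℓ]
    have h6 := sum_tile h B S Q' sS sQ (fun q hq => (hm q hq).2) (K₁ := K ^ c) (by positivity) h5 hℓ
      (y := nQ / (a * (K ^ (2 * c + 6) * L))) (by positivity) (by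
        rw [div_mul_eq_mul_div, div_le_iff₀ (by positivity)]
        refine mul_le_mul_of_nonneg_left ?_ q0.le
        have h7 := mul_le_mul (sum_cpow (c := 16) (j := 4) (m := 2 * c + 2) (n := 2 * c + 6) hK
          (by norm_num) (by omega)) hL (Nat.cast_nonneg _) (by positivity)
        exact le_of_eq_of_le (by ring) (mul_le_mul_of_nonneg_left h7 a0.le))
    rw [← mul_div_assoc, div_le_iff₀ (by positivity), mul_comm (_ : ℝ) (2 * K * (K ^ c) ^ 2)] at h6
    refine h6.trans (mul_le_mul_of_nonneg_right (le_of_eq_of_le (by ring)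
      (sum_cpow (c := 2) (j := 1) (m := 2 * c + 1) hK (by norm_num) (by omega)))
      (Nat.cast_nonneg _))
  have hSc := (sum_le_cast (card_le_card sS)).trans h.lab.card_C
  refine ⟨A, B, S, fun p => (Q'.filter fun q => (p, q) ∈ Z).image fun q => (α q, β q),
    hK.trans (p1 (by omega)), h.lab.a_ge, c0, (dv a0.le (by omega)).trans h2,
    (dv a0.le (by omega)).trans h3,
    h1.trans (mul_le_mul_of_nonneg_right (pw (by omega)) a0.le), fun x R hR => ?_,
    (dv c0.le (by omega)).trans h4,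
    hSc.trans (mul_le_mul_of_nonneg_right (p1 (by omega)) c0.le),
    fun p hp => h.r_mem p (sS hp), fun p _ t ht => ?_, fun p hp => ?_, fun p hp => ?_,
    fun p hp => ?_, fun ℓ hℓ => ?_, fun ℓ L hℓ hL hpL hKL => ?_⟩
  · refine le_trans (pow_le_pow_left₀ (Nat.cast_nonneg _)
      (sum_le_cast (card_le_card (filter_subset_filter _ sA))) 2) ((h.frost x R hR).trans ?_)
    exact mul_le_mul_of_nonneg_right (pow_le_pow_left₀ K0.le (p1 (by omega)) 2) (by linarith)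
  · obtain ⟨q, hq, rfl⟩ := mem_image.mp ht
    exact mem_product.mpr (hm q (mem_filter.mp hq).1)
  · refine (dv (by positivity) (by omega)).trans (dense p hp _ fun t => le_trans
      (sum_le_cast (card_le_card fun q hq => ?_)) (h.mult t.1 t.2))
    obtain ⟨h6, rfl⟩ := mem_filter.mp hq
    exact mem_filter.mpr ⟨sQ (mem_filter.mp h6).1, rfl, rfl⟩
  · refine le_trans (sum_le_cast (card_le_card fun s hs => ?_)) ((h.lab.col p (sS hp)).trans
      (mul_le_mul_of_nonneg_right (p1 (by omega)) a0.le))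
    obtain ⟨t, ht, rfl⟩ := mem_image.mp hs
    obtain ⟨q, hq, rfl⟩ := mem_image.mp ht
    exact mem_image.mpr ⟨(p, q), mem_filter.mpr ⟨(mem_filter.mp hq).2, rfl⟩, rfl⟩
  · have up : K * a ≤ K ^ (c + 1) * a := mul_le_mul_of_nonneg_right (p1 (by omega)) a0.le
    obtain ⟨X, h6, h7⟩ := hd A B
      ((Q'.filter fun q => (p, q) ∈ Z).image fun q => (α q, ⌊r p * β q⌋)) (r p) a (K ^ (c + 1)) a0
      (hK.trans (p1 (by omega))) (hAc.trans up) (hBc.trans up) ((dv a0.le (by omega)).trans h2)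
      ((dv a0.le (by omega)).trans h3)
      (h1.trans (mul_le_mul_of_nonneg_right (pw (by omega)) a0.le))
      (fun t ht => by
        obtain ⟨q, hq, rfl⟩ := mem_image.mp ht
        have h8 := hm q (mem_filter.mp hq).1
        exact mem_product.mpr ⟨h8.1, mem_image_of_mem (fun y : ℤ => ⌊r p * y⌋) h8.2⟩)
      (dense p hp _ fun t => le_trans (sum_le_cast (card_le_card fun q hq => by
        obtain ⟨h6, rfl⟩ := mem_filter.mp hq
        exact mem_filter.mpr ⟨sQ (mem_filter.mp h6).1, (mem_filter.mp h6).2, rfl, rfl⟩))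
        (h.mult' p (sS hp) t.1 t.2))
      (le_trans (sum_le_cast (card_le_card fun s hs => by
        obtain ⟨t, ht, rfl⟩ := mem_image.mp hs
        obtain ⟨q, hq, rfl⟩ := mem_image.mp ht
        exact mem_image.mpr ⟨(p, q), mem_filter.mpr ⟨(mem_filter.mp hq).2, rfl⟩, rfl⟩))
        ((h.lab.col p (sS hp)).trans up))
    exact ⟨X, h6.trans (by rw [← pow_mul]; exact pw (by omega)), h7⟩
  · have k1 := hpk ℓ
    obtain ⟨P, hP⟩ : ∃ P : ℝ, P = pk (toR B) ℓ := ⟨_, rfl⟩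
    have k2 := tile ℓ P hℓ hP.ge
    rw [← hP] at k1 ⊢
    have e0 : (0 : ℝ) ≤ colEn S r ℓ := Nat.cast_nonneg _
    have fin : ∀ m : ℕ, m ≤ 2 * c + 7 → (K ^ m * nC ^ 2) ^ 10 * (K ^ (2 * c + 6) * P)
        ≤ (K ^ n * nC ^ 2) ^ 10 * P := fun m hm' => by
      have := mul_le_mul_of_nonneg_right (pw (show m * 10 + (2 * c + 6) ≤ n * 10 by omega))
        (show 0 ≤ (nC ^ 2) ^ 10 * P by positivity)
      exact le_of_eq_of_le (by ring) (this.trans_eq (by ring))
    rcases le_total (K ^ (2 * c + 6) * P) a with k3 | k3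
    · have k4 := h.lab.tail (a / (K ^ (2 * c + 6) * P)) ((one_le_div (by positivity)).mpr k3)
      rw [show a / (K ^ (2 * c + 6) * P) * nQ / a ^ 2 = nQ / (a * (K ^ (2 * c + 6) * P)) by
        field_simp, ← mul_div_assoc, div_le_iff₀ (by positivity)] at k4
      have k5 := mul_le_mul_of_nonneg_right (pow_le_pow_left₀ (by positivity) k2 10) a0.le
      have k6 := mul_le_mul_of_nonneg_left k4 (show 0 ≤ (K ^ (2 * c + 6)) ^ 10 by positivity)
      refine le_trans (le_of_mul_le_mul_right ?_ (show 0 < nQ ^ 10 by positivity))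
        (fin (2 * c + 7) le_rfl)
      exact le_of_eq_of_le (by ring) (k5.trans (le_of_eq_of_le (by ring)
        (k6.trans_eq (by ring))))
    · have k4 : (colEn S r ℓ : ℝ) ≤ K ^ 2 * nC ^ 2 := by
        have k5 : (colEn S r ℓ : ℝ) ≤ S.card * S.card := by
          rw [← Nat.cast_mul, ← card_product]
          exact sum_le_cast (card_filter_le _ _)
        exact k5.trans ((mul_le_mul hSc hSc (Nat.cast_nonneg _) (by positivity)).trans_eq (by ring))
      exact (mul_le_mul (pow_le_pow_left₀ e0 k4 10) k3 a0.le (by positivity)).trans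
        (fin 2 (by omega))
  · have k1 := tile ℓ L hℓ hpL
    have k0 : 1 ≤ K ^ (2 * c + 6) := one_le_pow₀ K1
    have k2 := h.lab.top (K ^ (2 * c + 6) * L) (one_le_mul_of_one_le_of_one_le k0 hL)
      (le_trans (pow_le_pow_left₀ (by positivity)
        (mul_le_mul_of_nonneg_right (pw (by omega)) (by linarith)) 4) hKL)
    have k3 : K * (K ^ (2 * c + 6) * L) ≤ K ^ n * L := by
      rw [← mul_assoc, ← pow_succ']
      exact mul_le_mul_of_nonneg_right (pw (by omega)) (by linarith)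
    have k4 : K ^ (2 * c + 6) ≤ K ^ n * L :=
      (pw (by omega)).trans (le_mul_of_one_le_right (by positivity) hL)
    have k5 := mul_le_mul_of_nonneg_right (mul_le_mul (pow_le_pow_left₀ (by positivity) k3 E) k4
      (by positivity) (by positivity)) (show 0 ≤ nC ^ 2 * nQ by positivity)
    have k6 := mul_le_mul_of_nonneg_left k2 (show 0 ≤ K ^ (2 * c + 6) by positivity)
    have k7 := mul_le_mul_of_nonneg_right k1 a0.le
    refine le_of_mul_le_mul_right ?_ q0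
    rw [pow_succ]
    linarith

end Vale.Agent.P065
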