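import Vale.Agent.P065.Cent

/-! Consequences of centrality (task Q). -/

namespace Vale.Agent.P065

open Classical Finset

theorem exists_cut (A : Finset ℕ) : ∀ h ≤ A.card, ∃ κ, (A.filter (· < κ)).card = h := by
  induction A using Finset.induction_on_max with
  | empty => exact fun h hh => ⟨0, by simpa using (Nat.le_zero.1 hh).symm⟩
  | insert a A ha ih =>
    intro h hh
    rw [card_insert_of_notMem fun h => lt_irrefl _ (ha a h)] at hh
    rcases hh.eq_or_lt with e | e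
    · refine ⟨a + 1, ?_⟩
      rw [filter_true_of_mem, card_insert_of_notMem fun h => lt_irrefl _ (ha a h), e]
      intro x hx
      rcases mem_insert.1 hx with rfl | hx
      exacts [x.lt_succ_self, (ha x hx).trans a.lt_succ_self]
    · obtain ⟨κ, hκ⟩ := ih h (Nat.lt_succ_iff.1 e)
      refine ⟨min κ a, hκ ▸ congrArg card ?_⟩
      ext x
      simp only [mem_filter, mem_insert, lt_min_iff]
      exact ⟨fun ⟨b, c, d⟩ => ⟨b.resolve_left d.ne, c⟩, fun ⟨b, c⟩ => ⟨Or.inr b, c, ha x b⟩⟩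

theorem card_le_deg {α β : Type} [DecidableEq β] {F : Finset α} (g : α → β) {d : ℝ}
    (h : ∀ v ∈ F.image g, ((F.filter fun i => g i = v).card : ℝ) ≤ d) :
    (F.card : ℝ) ≤ (F.image g).card * d := by
  rw [card_eq_sum_card_image g F, Nat.cast_sum, ← nsmul_eq_mul]
  exact sum_le_card_nsmul _ _ _ h

theorem deg_le_card {α β : Type} [DecidableEq β] {F : Finset α} {V : Finset β} (g : α → β) {d : ℝ}
    (h : ∀ v ∈ V, d ≤ ((F.filter fun i => g i = v).card : ℝ)) : V.card * d ≤ (F.card : ℝ) := by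
  rw [← nsmul_eq_mul]
  refine (card_nsmul_le_sum _ _ _ h).trans ?_
  rw [← Nat.cast_sum, sum_card_fiberwise_eq_card_filter]
  exact Nat.cast_le.2 (card_filter_le _ _)

theorem cent_pow : ∃ c : ℕ, ∀ (P : Finset Pt), GP P → ∀ (S : Tok P) (Λ : Type)
    (Lb : Finset Λ) (τ : Λ → Pt) (k₁ k₂ : Λ → ℕ) (F : Finset ℕ) (lab : ℕ → Λ) (i₀ i₁ : ℕ)
    (s L : ℝ), i₀ + 2 ≤ i₁ → i₁ ≤ S.m → 2 ≤ L → L ^ (5 * c) ≤ s →
    ((S.act i₀ i₁).card : ℝ) ≤ 2 * L * s ^ 3 → (Lb.card : ℝ) ≤ 2 * L * s ^ 3 →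
    (∀ i ∈ F, lab i ∈ Lb ∧ S.tok i = τ (lab i) ∧ i₀ ≤ k₁ (lab i) ∧ k₁ (lab i) ≤ i ∧
      i < k₂ (lab i) ∧ k₂ (lab i) ≤ i₁) →
    ((F.filter fun i => ((Lb.filter fun σ => S.sw i₀ i₁ (S.hold (k₁ σ) (τ σ)) (S.a i) ∧
      S.sw i₀ i₁ (S.a i) (S.hold (k₂ σ) (τ σ))).card : ℝ) < s ^ 3 / L ^ (5 * c)).card : ℝ) ≤
      s ^ 4 / L ^ 6 := by
  obtain ⟨C, -, h⟩ := cent
  obtain ⟨c, hc⟩ := pow_unbounded_of_one_lt C (one_lt_two (α := ℝ))
  refine ⟨c + 10, fun P hP S Λ Lb τ k₁ k₂ F lab i₀ i₁ s L h₀ h₁ hL hs hA hLb hF => ?_⟩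
  have L₁ : 1 ≤ L := by linarith
  have s₁ : 1 ≤ s := (one_le_pow₀ L₁).trans hs
  have hν : 2 * L * s ^ 3 ≤ (L * s) ^ 3 := by
    rw [mul_pow]
    gcongr
    nlinarith [mul_le_mul_of_nonneg_left (show 2 ≤ L ^ 2 by nlinarith) (zero_le_one.trans L₁)]
  have := h P hP S Λ Lb τ k₁ k₂ F lab i₀ i₁ (L * s) (L ^ (c + 10)) h₀ h₁ (one_le_pow₀ L₁)
    (by
      rw [← pow_mul]
      exact ((pow_le_pow_right₀ L₁ (by omega)).trans hs).trans (by nlinarith))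
    (hA.trans hν) (hLb.trans hν) hF
  refine le_trans (Nat.cast_le.2 (card_le_card fun i hi => ?_)) (this.trans ?_)
  · obtain ⟨a, b⟩ := mem_filter.1 hi
    refine mem_filter.2 ⟨a, b.trans_le ?_⟩
    rw [← pow_mul, mul_comm (c + 10)]
    gcongr
    nlinarith
  · calc _ ≤ L ^ c * (L * s) ^ 4 / L ^ (c + 10) := by
          gcongr
          exact hc.le.trans (by gcongr)
      _ = _ := by field_simp; ring

theorem sum_windows {P : Finset Pt} (hP : GP P) {S : Tok P} {E B : Finset ℕ} {G : Finset Pt}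
    {a s : ℕ} {X L : ℝ} (h : S.Lev E G a s X) (hf : S.Fullw E (s ^ 4)) (hB : B ⊆ E) (hL : 2 ≤ L)
    (hk : ∀ i ∈ B, ((B.filter fun j => j / s ^ 4 = i / s ^ 4).card : ℝ) ≤ s ^ 4 / L ^ 5) :
    (B.card : ℝ) ≤ ((a * s : ℕ) : ℝ) ^ 4 / L := by
  have s₀ : 0 < s := by linarith [h.s_ge]
  have h₁ := Tok.dey hP S (N := ((a * s : ℕ) : ℝ)) (Nat.one_le_cast.2 (Nat.mul_pos h.a_ge s₀))
    (by exact_mod_cast h.card_P)
  have h₂ : S.m ≤ 14 * a ^ 4 * s ^ 4 := by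
    rw [mul_assoc, ← mul_pow]
    exact_mod_cast h₁
  have h₃ : (B.image (· / s ^ 4)).card ≤ 14 * a ^ 4 := by
    refine (card_le_card fun k hk => ?_).trans_eq (card_range _)
    obtain ⟨i, hi, rfl⟩ := mem_image.1 hk
    exact mem_range.2 (Nat.le_of_mul_le_mul_right ((hf i (hB hi)).trans h₂) (by positivity))
  have h₄ := card_le_deg (F := B) (· / s ^ 4) (d := s ^ 4 / L ^ 5) fun k hk' => by
    obtain ⟨i, hi, rfl⟩ := mem_image.1 hk'
    exact hk i hi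
  have h₅ : (14 : ℝ) ≤ L ^ 4 := le_trans (by norm_num) (pow_le_pow_left₀ two_pos.le hL 4)
  calc _ ≤ _ := h₄
    _ ≤ (L ^ 4 * a ^ 4) * (s ^ 4 / L ^ 5 : ℝ) := by
        gcongr
        exact le_trans (by exact_mod_cast h₃ : _ ≤ (14 * a ^ 4 : ℝ)) (by gcongr)
    _ = _ := by push_cast; field_simp

theorem full_win {P : Finset Pt} {S : Tok P} {E : Finset ℕ} {s i : ℕ} (hs : 2 ≤ s)
    (hf : S.Fullw E (s ^ 4)) (hi : i ∈ E) :
    i / s ^ 4 * s ^ 4 + 2 ≤ S.wend (s ^ 4) (i / s ^ 4) := by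
  have := Nat.pow_le_pow_left hs 4
  rw [Tok.wend, min_eq_left (hf i hi), add_mul]
  omega

/-- a dense set of events of a window has many swapping pairs of left endpoints -/
theorem many_swaps : ∃ C₀ : ℕ, ∀ (P : Finset Pt), GP P → ∀ (S : Tok P) (F : Finset ℕ)
    (i₀ i₁ : ℕ) (s X : ℝ), 2 ≤ X → X ^ C₀ ≤ s → i₁ ≤ S.m → F ⊆ Ico i₀ i₁ →
    ((S.act i₀ i₁).card : ℝ) ≤ X * s ^ 3 →
    (∀ v : Pt, ((F.filter fun i => S.a i = v).card : ℝ) ≤ X * s) → s ^ 4 / X ≤ F.card →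
    s ^ 6 / X ^ C₀ ≤
      (((F.image S.a ×ˢ F.image S.a).filter fun x => S.sw i₀ i₁ x.1 x.2).card : ℝ) := by
  obtain ⟨c, hc⟩ := cent_pow
  refine ⟨5 * c + 11, fun P hP S F i₀ i₁ s X hX hs h₁ hF hA hd hFc => ?_⟩
  have X₁ : 1 ≤ X := by linarith
  have X₀ : 0 < X := by linarith
  have s₄ : X ^ 4 ≤ s := (pow_le_pow_right₀ X₁ (by omega)).trans hs
  have s₅ : 4 * X ^ 2 ≤ s := by
    nlinarith [mul_le_mul_of_nonneg_left (show 4 ≤ X ^ 2 by nlinarith) (sq_nonneg X)]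
  have s₁ : 1 ≤ s := by nlinarith
  have s₀ : 0 < s := by linarith
  have hI : ∀ i ∈ F, i₀ ≤ i ∧ i < i₁ := fun i hi => mem_Ico.1 (hF hi)
  have hT : ((F.image S.tok).card : ℝ) ≤ X * s ^ 3 := le_trans (Nat.cast_le.2
    ((card_le_card (image_subset_image hF)).trans (S.card_tok_le h₁))) hA
  let n : Pt → ℕ := fun τ => (F.filter fun i => S.tok i = τ).card
  choose κ hκ using fun τ => exists_cut (F.filter fun i => S.tok i = τ) (n τ / 2)
    (Nat.div_le_self _ _)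
  set Lb := (F.image S.tok).filter fun τ => s / (2 * X ^ 2) ≤ n τ
  have n₂ : ∀ τ ∈ Lb, 2 ≤ n τ := fun τ hτ => by
    have := (mem_filter.1 hτ).2
    rw [div_le_iff₀ (by positivity)] at this
    exact_mod_cast (show (2 : ℝ) ≤ n τ by nlinarith [sq_pos_of_pos X₀])
  set F₂ := F.filter fun i => S.tok i ∈ Lb ∧ κ (S.tok i) ≤ i
  have hκ' : ∀ τ ∈ Lb, (F₂.filter fun i => S.tok i = τ).card + n τ / 2 = n τ := fun τ hτ => by
    rw [← hκ τ, add_comm]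
    refine Eq.trans ?_ (card_filter_add_card_filter_not (· < κ τ))
    congr 2
    ext i
    simp only [F₂, mem_filter (s := F), mem_filter (s := F.filter _), not_lt]
    constructor
    · rintro ⟨⟨a, -, b⟩, rfl⟩
      exact ⟨⟨a, rfl⟩, b⟩
    · rintro ⟨⟨a, rfl⟩, b⟩
      exact ⟨⟨a, hτ, b⟩, rfl⟩
  have κ₀ : ∀ τ ∈ Lb, i₀ ≤ κ τ ∧ κ τ ≤ i₁ := fun τ hτ => by
    have := n₂ τ hτ
    have := hκ' τ hτ
    obtain ⟨i, hi⟩ := card_pos.1 ((show 0 < n τ / 2 by omega).trans_eq (hκ τ).symm)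
    obtain ⟨j, hj⟩ := card_pos.1 (show 0 < (F₂.filter fun i => S.tok i = τ).card by omega)
    obtain ⟨j₁, rfl⟩ := mem_filter.1 hj
    obtain ⟨j₂, -, j₃⟩ := mem_filter.1 j₁
    exact ⟨(hI i (mem_filter.1 (mem_filter.1 hi).1).1).1.trans (mem_filter.1 hi).2.le,
      j₃.trans (hI j j₂).2.le⟩
  have c₂ : s ^ 4 / (4 * X) ≤ F₂.card := by
    have e₁ : (F.card : ℝ) = ∑ τ ∈ Lb, (n τ : ℝ) +
        ∑ τ ∈ (F.image S.tok).filter fun τ => ¬ s / (2 * X ^ 2) ≤ n τ, (n τ : ℝ) := by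
      rw [sum_filter_add_sum_filter_not, card_eq_sum_card_image S.tok F, Nat.cast_sum]
    have e₂ := sum_le_card_nsmul ((F.image S.tok).filter fun τ => ¬ s / (2 * X ^ 2) ≤ n τ)
      (fun τ => (n τ : ℝ)) (s / (2 * X ^ 2)) fun τ hτ => (not_le.1 (mem_filter.1 hτ).2).le
    have e₃ : ∑ τ ∈ Lb, n τ ≤ 2 * F₂.card := by
      rw [card_eq_sum_card_fiberwise (f := S.tok) (s := F₂) (t := Lb)
        fun i hi => (mem_filter.1 hi).2.1, mul_sum]
      exact sum_le_sum fun τ hτ => by have := hκ' τ hτ; omega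
    have e₄ : ∑ τ ∈ Lb, (n τ : ℝ) ≤ 2 * F₂.card := by exact_mod_cast e₃
    have e₅ := mul_le_mul_of_nonneg_right ((Nat.cast_le.2 (card_filter_le (F.image S.tok)
      fun τ => ¬ s / (2 * X ^ 2) ≤ n τ)).trans hT) (show 0 ≤ s / (2 * X ^ 2) by positivity)
    have e₆ : X * s ^ 3 * (s / (2 * X ^ 2)) = 2 * (s ^ 4 / (4 * X)) := by field_simp; ring
    have e₇ : s ^ 4 / X = 4 * (s ^ 4 / (4 * X)) := by field_simp
    rw [nsmul_eq_mul] at e₂
    linarith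
  have i₂ : i₀ + 2 ≤ i₁ := by
    have a := card_le_card hF
    have b : (2 : ℝ) ≤ F.card := by
      refine le_trans ?_ hFc
      rw [le_div_iff₀ X₀]
      nlinarith [pow_le_pow_right₀ s₁ (show 1 ≤ 4 by norm_num)]
    have : 2 ≤ F.card := by exact_mod_cast b
    rw [Nat.card_Ico] at a
    omega
  have p₀ : X * s ^ 3 ≤ 2 * X * s ^ 3 := by nlinarith [pow_pos s₀ 3]
  have c₃ := hc P hP S Pt Lb id κ (fun _ => i₁) F₂ S.tok i₀ i₁ s X i₂ h₁ hX
    ((pow_le_pow_right₀ X₁ (by omega)).trans hs) (hA.trans p₀)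
    ((Nat.cast_le.2 (card_filter_le _ _)).trans (hT.trans p₀)) fun i hi => by
      obtain ⟨a, b, d⟩ := mem_filter.1 hi
      exact ⟨b, rfl, (κ₀ _ b).1, d, (hI i a).2, le_rfl⟩
  set F₃ := F₂.filter fun i => ¬ ((Lb.filter fun σ => S.sw i₀ i₁ (S.hold (κ σ) (id σ)) (S.a i) ∧
      S.sw i₀ i₁ (S.a i) (S.hold i₁ (id σ))).card : ℝ) < s ^ 3 / X ^ (5 * c)
  have hF₃ : F₃ ⊆ F := (filter_subset _ _).trans (filter_subset _ _)
  have c₄ : s ^ 4 / (8 * X) ≤ F₃.card := by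
    have e₁ := congrArg (Nat.cast : ℕ → ℝ) (card_filter_add_card_filter_not (s := F₂)
      fun i => ((Lb.filter fun σ => S.sw i₀ i₁ (S.hold (κ σ) (id σ)) (S.a i) ∧
        S.sw i₀ i₁ (S.a i) (S.hold i₁ (id σ))).card : ℝ) < s ^ 3 / X ^ (5 * c))
    have e₂ : s ^ 4 / X ^ 6 ≤ s ^ 4 / (8 * X) := by
      gcongr
      nlinarith [pow_le_pow_left₀ two_pos.le hX 5]
    have e₃ : s ^ 4 / (4 * X) = 2 * (s ^ 4 / (8 * X)) := by field_simp; ring
    push_cast at e₁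
    linarith
  have deg : ∀ F' ⊆ F, (F'.card : ℝ) ≤ (F'.image S.a).card * (X * s) := fun F' h =>
    card_le_deg S.a fun v _ => le_trans (Nat.cast_le.2 (card_le_card (filter_subset_filter _ h)))
      (hd v)
  have c₅ : s ^ 3 / (8 * X ^ 2) ≤ (F₃.image S.a).card := by
    refine le_of_mul_le_mul_right (le_of_eq_of_le ?_ (c₄.trans (deg _ hF₃))) (mul_pos X₀ s₀)
    field_simp
  have c₆ := deg_le_card (F := (F.image S.a ×ˢ F.image S.a).filter fun x => S.sw i₀ i₁ x.1 x.2)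
    (V := F₃.image S.a) Prod.snd (d := s ^ 3 / X ^ (5 * c) / (6 * X ^ 3)) fun v hv => by
    obtain ⟨i, hi, rfl⟩ := mem_image.1 hv
    have e₁ := not_lt.1 (mem_filter.1 hi).2
    have e₂ := deg_le_card (F := F.filter fun j => S.sw i₀ i₁ (S.a j) (S.a i))
      (V := Lb.filter fun σ => S.sw i₀ i₁ (S.hold (κ σ) (id σ)) (S.a i) ∧
        S.sw i₀ i₁ (S.a i) (S.hold i₁ (id σ))) S.tok (d := s / (6 * X ^ 2)) fun σ hσ => by
      obtain ⟨σ₁, σ₂, -⟩ := mem_filter.1 hσ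
      have a := n₂ σ σ₁
      have b : (n σ : ℝ) ≤ 3 * (n σ / 2 : ℕ) := by exact_mod_cast (by omega : n σ ≤ 3 * (n σ / 2))
      have d : s / (2 * X ^ 2) = 3 * (s / (6 * X ^ 2)) := by field_simp; ring
      refine le_trans (by linarith [(mem_filter.1 σ₁).2]) (Nat.cast_le.2
        ((hκ σ).symm.le.trans (card_le_card fun j hj => ?_)))
      obtain ⟨j₁, j₂⟩ := mem_filter.1 hj
      obtain ⟨j₃, rfl⟩ := mem_filter.1 j₁
      have := S.chain_lt le_rfl j₂ ((κ₀ _ σ₁).2.trans h₁)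
      rw [S.hold_tok j ((hI j j₃).2.trans_le h₁)] at this
      exact mem_filter.2 ⟨mem_filter.2 ⟨j₃, S.sw_trans
        (S.sw_mono this (hI j j₃).1 j₂ (κ₀ _ σ₁).2 h₁) σ₂⟩, rfl⟩
    have e₃ := (mul_le_mul_of_nonneg_right e₁ (by positivity)).trans
      (e₂.trans (deg _ (filter_subset _ _)))
    refine le_trans (le_of_mul_le_mul_right (le_of_eq_of_le ?_ e₃) (mul_pos X₀ s₀))
      (Nat.cast_le.2 (card_le_card_of_injOn (·, S.a i) (fun p hp => ?_)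
        fun p _ q _ e => (Prod.ext_iff.1 e).1))
    · field_simp
    · obtain ⟨j, hj, rfl⟩ := mem_image.1 hp
      exact mem_filter.2 ⟨mem_filter.2 ⟨mem_product.2 ⟨mem_image_of_mem _ (mem_filter.1 hj).1,
        mem_image_of_mem _ (hF₃ hi)⟩, (mem_filter.1 hj).2⟩, rfl⟩
  refine le_trans ?_ ((mul_le_mul_of_nonneg_right c₅ (by positivity)).trans c₆)
  calc _ ≤ s ^ 6 / (48 * X ^ (5 * c + 5)) := by
        gcongr
        rw [show 5 * c + 11 = 6 + (5 * c + 5) by ring, pow_add X 6]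
        gcongr
        exact le_trans (by norm_num) (pow_le_pow_left₀ two_pos.le hX 6)
    _ = _ := by field_simp; ring

/-- only few windows overlap a given window in a positive proportion -/
theorem few_big_overlaps : ∃ C₀ : ℕ, ∀ (P : Finset Pt), GP P → ∀ (S : Tok P) (E : Finset ℕ)
    (G : Finset Pt) (a s : ℕ) (X Y L : ℝ), S.Lev E G a s X → X ≤ Y → 1 ≤ L → (Y * L) ^ C₀ ≤ s →
    ∀ k₀ : ℕ, (((E.image fun i => i / s ^ 4).filter fun k =>
      (s : ℝ) ^ 3 / L ≤ S.ov E s Y k k₀).card : ℝ) ≤ (Y * L) ^ C₀ := by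
  obtain ⟨c, hc⟩ := many_swaps
  refine ⟨c + 2, fun P hP S E G a s X Y L h hY hL hs k₀ => ?_⟩
  have hX := h.X_ge
  have XZ : X ≤ Y * L := by nlinarith
  have s₀ : (0 : ℝ) < s := Nat.cast_pos.2 (by linarith [h.s_ge])
  have W₀ : 0 < s ^ 4 := by have := h.s_ge; positivity
  have Y₀ : 0 < Y := by linarith
  have hm : ∀ i ∈ E, i < S.m := fun i hi => mem_range.1 (h.E_sub hi)
  set K := (E.image fun i => i / s ^ 4).filter fun k => (s : ℝ) ^ 3 / L ≤ S.ov E s Y k k₀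
  rcases K.eq_empty_or_nonempty with e | ⟨k', hk'⟩
  · rw [e, card_empty, Nat.cast_zero]
    positivity
  have A₀ : ((S.wact (s ^ 4) k₀).card : ℝ) ≤ Y * L * s ^ 3 := by
    have : (0 : ℝ) < S.ov E s Y k' k₀ := lt_of_lt_of_le (by positivity) (mem_filter.1 hk').2
    obtain ⟨v, hv⟩ := card_pos.1 (Nat.cast_pos.1 this)
    obtain ⟨i, hi, rfl⟩ := mem_image.1 (mem_filter.1 (mem_filter.1 hv).2.2).1
    exact (h.act_le i hi).trans (by gcongr)
  let T : ℕ → Finset (Pt × Pt) := fun k =>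
    (S.wact (s ^ 4) k₀ ×ˢ S.wact (s ^ 4) k₀).filter fun x => S.wsw (s ^ 4) k x.1 x.2
  have hT : ∀ k ∈ K, (s : ℝ) ^ 6 / (Y * L) ^ c ≤ (T k).card := fun k hk => by
    obtain ⟨k₁, k₂⟩ := mem_filter.1 hk
    obtain ⟨i, hi, rfl⟩ := mem_image.1 k₁
    set F := E.filter fun j => j / s ^ 4 = i / s ^ 4 ∧ k₀ ∈ S.inc E s Y (S.a j)
    have hF : F.image S.a ⊆ S.wact (s ^ 4) k₀ := fun v hv => by
      obtain ⟨j, hj, rfl⟩ := mem_image.1 hv
      have : (0 : ℝ) < S.ldeg E (s ^ 4) (S.a j) k₀ :=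
        lt_of_lt_of_le (by positivity) (mem_filter.1 (mem_filter.1 hj).2.2).2
      obtain ⟨l, hl⟩ := card_pos.1 (Nat.cast_pos.1 this)
      obtain ⟨l₁, rfl, l₂⟩ := mem_filter.1 hl
      exact l₂ ▸ S.a_mem_wact W₀ (hm l l₁)
    refine (hc P hP S F (i / s ^ 4 * s ^ 4) (S.wend (s ^ 4) (i / s ^ 4)) s (Y * L) (hX.trans XZ)
      ((pow_le_pow_right₀ (by linarith) (by omega)).trans hs) (S.wend_le _ _) (fun j hj => ?_)
      ((h.act_le i hi).trans (by gcongr)) (fun v => ?_) ?_).trans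
      (Nat.cast_le.2 (card_le_card (filter_subset_filter _ (product_subset_product hF hF))))
    · obtain ⟨j₁, j₂, -⟩ := mem_filter.1 hj
      exact mem_Ico.2 ((S.mem_win_iff W₀ (hm j j₁)).1 j₂)
    · refine le_trans (Nat.cast_le.2 (card_le_card fun j hj => ?_))
        ((h.deg_le v (i / s ^ 4)).trans (by gcongr))
      obtain ⟨j₁, j₂⟩ := mem_filter.1 hj
      exact mem_filter.2 ⟨(mem_filter.1 j₁).1, (mem_filter.1 j₁).2.1, j₂⟩
    · refine le_trans (le_of_eq_of_le ?_ (mul_le_mul_of_nonneg_right k₂ (by positivity)))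
        (deg_le_card S.a (d := s / Y) fun v hv => ?_)
      · field_simp
      · obtain ⟨-, v₁, v₂⟩ := mem_filter.1 hv
        refine (mem_filter.1 v₁).2.trans (Nat.cast_le.2 (card_le_card fun j hj => ?_))
        obtain ⟨j₁, j₂, rfl⟩ := mem_filter.1 hj
        exact mem_filter.2 ⟨mem_filter.2 ⟨j₁, j₂, v₂⟩, rfl⟩
  have key : ∀ k ∈ K, ∀ l ∈ K, k < l → Disjoint (T k) (T l) := fun k hk l hl hkl => by
    obtain ⟨i, hi, rfl⟩ := mem_image.1 (mem_filter.1 hk).1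
    obtain ⟨j, hj, rfl⟩ := mem_image.1 (mem_filter.1 hl).1
    obtain ⟨a₁, a₂⟩ := (S.mem_win_iff W₀ (hm i hi)).1 rfl
    exact disjoint_left.2 fun x hx hx' => S.sw_disjoint (a₁.trans_lt a₂)
      ((min_le_left _ _).trans (Nat.mul_le_mul_right _ hkl))
      ((Nat.div_mul_le_self _ _).trans_lt (hm j hj)) (mem_filter.1 hx).2 (mem_filter.1 hx').2
  have h₁ : ∑ k ∈ K, (T k).card ≤ (S.wact (s ^ 4) k₀).card * (S.wact (s ^ 4) k₀).card := by
    rw [← card_biUnion fun k hk l hl hkl => (lt_or_gt_of_ne hkl).elim (key k hk l hl)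
      fun h' => (key l hl k hk h').symm, ← card_product]
    exact card_le_card (biUnion_subset.2 fun k _ => filter_subset _ _)
  have h₂ := (card_nsmul_le_sum _ _ _ hT).trans (show _ ≤ (Y * L * s ^ 3) * (Y * L * s ^ 3) from
    le_trans (by exact_mod_cast h₁) (mul_self_le_mul_self (Nat.cast_nonneg _) A₀))
  rw [nsmul_eq_mul, ← mul_div_assoc, div_le_iff₀ (by positivity)] at h₂
  refine le_of_mul_le_mul_right (h₂.trans_eq ?_) (by positivity)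
  ring

theorem exists_blocks {P : Finset Pt} (S : Tok P) {E : Finset ℕ} (hE : E ⊆ range S.m) {W ℓ : ℕ}
    (hW : 0 < W) (hℓ : 0 < ℓ) : ∃ k₁ k₂ : ℕ → ℕ, S.Blocks E W ℓ k₁ k₂ := by
  let rk : ℕ → ℕ := fun i => (E.filter fun j => S.tok j = S.tok i ∧ j / W = i / W ∧ j < i).card
  let C : ℕ → Finset ℕ := fun i =>
    E.filter fun j => S.tok j = S.tok i ∧ j / W = i / W ∧ rk j / ℓ = rk i / ℓ
  have mC : ∀ i j, j ∈ C i ↔ j ∈ E ∧ S.tok j = S.tok i ∧ j / W = i / W ∧ rk j / ℓ = rk i / ℓ :=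
    fun i j => mem_filter
  have hm : ∀ i ∈ E, i < S.m := fun i hi => mem_range.1 (hE hi)
  have self : ∀ i ∈ E, i ∈ C i := fun i hi => (mC i i).2 ⟨hi, rfl, rfl, rfl⟩
  have rlt : ∀ x ∈ E, ∀ y, S.tok x = S.tok y → x / W = y / W → x < y → rk x < rk y := by
    intro x hx y a b c
    refine card_lt_card ⟨fun j hj => ?_, fun h => ?_⟩
    · obtain ⟨j₁, j₂, j₃, j₄⟩ := mem_filter.1 hj
      exact mem_filter.2 ⟨j₁, j₂.trans a, j₃.trans b, j₄.trans c⟩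
    · exact lt_irrefl _ (mem_filter.1 (h (mem_filter.2 ⟨hx, a, b, c⟩))).2.2.2
  have ceq : ∀ i j, S.tok i = S.tok j → i / W = j / W → rk i / ℓ = rk j / ℓ → C i = C j :=
    fun i j a b c => by simp only [C, a, b, c]
  have m₁ : ∀ i ∈ E, sInf (C i : Set ℕ) ∈ C i := fun i hi => Nat.sInf_mem (s := C i) ⟨i, self i hi⟩
  have m₂ : ∀ i ∈ E, (C i).sup id ∈ C i := fun i hi => by
    obtain ⟨j, a, b⟩ := exists_mem_eq_sup (C i) ⟨i, self i hi⟩ id
    exact b ▸ a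
  have sep : ∀ i j, S.tok i = S.tok j → i / W < j / W ∨ i / W = j / W ∧ rk i / ℓ < rk j / ℓ →
      ∀ x ∈ C i, ∀ y ∈ C j, x < y := by
    intro i j e h x hx y hy
    obtain ⟨-, x₁, x₂, x₃⟩ := (mC _ _).1 hx
    obtain ⟨y₀, y₁, y₂, y₃⟩ := (mC _ _).1 hy
    rw [← x₂, ← y₂, ← x₃, ← y₃] at h
    rcases h with h | ⟨h, h'⟩
    · exact Nat.lt_of_div_lt_div h
    · rcases lt_trichotomy x y with c | rfl | c
      · exact c
      · exact absurd h' (lt_irrefl _)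
      · exact absurd (Nat.lt_of_div_lt_div h')
          (rlt y y₀ x (y₁.trans (e.symm.trans x₁.symm)) h.symm c).not_gt
  refine ⟨fun i => sInf (C i : Set ℕ), fun i => (C i).sup id + 1, fun i hi => ?_,
    fun i hi j hj e => ?_, fun i hi => ?_, fun k => ?_⟩
  · obtain ⟨-, -, a, -⟩ := (mC _ _).1 (m₁ i hi)
    obtain ⟨b, -, c, -⟩ := (mC _ _).1 (m₂ i hi)
    exact ⟨a ▸ Nat.div_mul_le_self _ _, Nat.sInf_le (self i hi),
      Nat.lt_succ_of_le (le_sup (f := id) (self i hi)), ((S.mem_win_iff hW (hm _ b)).1 c).2⟩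
  · by_cases h₁ : i / W < j / W ∨ i / W = j / W ∧ rk i / ℓ < rk j / ℓ
    · exact Or.inr (Or.inl (sep i j e h₁ _ (m₂ i hi) _ (m₁ j hj)))
    by_cases h₂ : j / W < i / W ∨ j / W = i / W ∧ rk j / ℓ < rk i / ℓ
    · exact Or.inr (Or.inr (sep j i e.symm h₂ _ (m₂ j hj) _ (m₁ i hi)))
    rw [ceq i j e (by omega) (by omega)]
    exact Or.inl ⟨rfl, rfl⟩
  · refine (card_le_card (t := C i) fun j hj => ?_).trans
      ((card_le_card_of_injOn (fun j => rk j % ℓ) (fun j _ => mem_range.2 (Nat.mod_lt _ hℓ))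
        fun x hx y hy e => ?_).trans_eq (card_range ℓ))
    · obtain ⟨j₁, j₂, j₃⟩ := mem_filter.1 hj
      obtain ⟨-, -, a, b⟩ := (mC _ _).1 (m₁ i hi)
      obtain ⟨-, -, c, d⟩ := (mC _ _).1 (m₁ j j₁)
      rw [j₃] at c d
      exact (mC _ _).2 ⟨j₁, j₂, c.symm.trans a, d.symm.trans b⟩
    · obtain ⟨x₀, x₁, x₂, x₃⟩ := (mC _ _).1 hx
      obtain ⟨y₀, y₁, y₂, y₃⟩ := (mC _ _).1 hy
      have : rk x = rk y := by
        rw [← Nat.div_add_mod (rk x) ℓ, ← Nat.div_add_mod (rk y) ℓ, x₃, y₃]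
        exact congrArg _ e
      rcases lt_trichotomy x y with c | c | c
      · exact absurd this (rlt x x₀ y (x₁.trans y₁.symm) (x₂.trans y₂.symm) c).ne
      · exact c
      · exact absurd this (rlt y y₀ x (y₁.trans x₁.symm) (y₂.trans x₂.symm) c).ne'
  · set F := E.filter fun i => i / W = k
    have hF : F ⊆ Ico (k * W) (S.wend W k) := fun i hi =>
      mem_Ico.2 ((S.mem_win_iff hW (hm i (mem_filter.1 hi).1)).1 (mem_filter.1 hi).2)
    let n : Pt → ℕ := fun τ => (F.filter fun i => S.tok i = τ).card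
    have h₁ : (F.image fun i => (S.tok i, sInf (C i : Set ℕ))).card ≤
        ∑ τ ∈ F.image S.tok, (n τ / ℓ + 1) := by
      refine (card_le_card_of_injOn (t := (F.image S.tok).sigma fun τ => range (n τ / ℓ + 1))
        (fun x => ⟨x.1, rk x.2 / ℓ⟩) (fun x hx => ?_) fun x hx y hy e => ?_).trans_eq (by simp)
      · obtain ⟨i, hi, rfl⟩ := mem_image.1 hx
        obtain ⟨i₁, i₂⟩ := mem_filter.1 hi
        refine mem_sigma.2 ⟨mem_image_of_mem _ hi, mem_range.2 (Nat.lt_succ_of_le ?_)⟩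
        refine ((mC _ _).1 (m₁ i i₁)).2.2.2.trans_le
          (Nat.div_le_div_right (card_le_card fun j hj => ?_))
        obtain ⟨j₁, j₂, j₃, -⟩ := mem_filter.1 hj
        exact mem_filter.2 ⟨mem_filter.2 ⟨j₁, j₃.trans i₂⟩, j₂⟩
      · obtain ⟨i, hi, rfl⟩ := mem_image.1 hx
        obtain ⟨j, hj, rfl⟩ := mem_image.1 hy
        obtain ⟨i₁, i₂⟩ := mem_filter.1 hi
        obtain ⟨j₁, j₂⟩ := mem_filter.1 hj
        obtain ⟨e₁, e₂⟩ := Sigma.mk.inj e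
        dsimp only at e₁
        rw [ceq i j e₁ (i₂.trans j₂.symm) (((mC _ _).1 (m₁ i i₁)).2.2.2.symm.trans
          ((eq_of_heq e₂).trans ((mC _ _).1 (m₁ j j₁)).2.2.2)), e₁]
    have h₂ : ∑ τ ∈ F.image S.tok, n τ ≤ W := by
      rw [← card_eq_sum_card_image]
      refine (card_le_card hF).trans ?_
      have : S.wend W k ≤ (k + 1) * W := min_le_left _ _
      rw [Nat.card_Ico, add_mul] at *
      omega
    have h₃ := (card_le_card (image_subset_image hF)).trans (S.card_tok_le (S.wend_le W k))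
    refine (Nat.cast_le.2 h₁).trans ?_
    rw [sum_add_distrib, Nat.cast_add, Nat.cast_sum, ← card_eq_sum_ones]
    refine add_le_add ((sum_le_sum fun τ _ => Nat.cast_div_le).trans ?_) (Nat.cast_le.2 h₃)
    rw [← sum_div]
    gcongr
    exact_mod_cast h₂

/-- most blocks have a fat interval -/
theorem few_thin_blocks : ∃ C₀ : ℕ, ∀ (P : Finset Pt), GP P → ∀ (S : Tok P) (E E' : Finset ℕ)
    (G : Finset Pt) (a s ℓ : ℕ) (X L : ℝ) (k₁ k₂ : ℕ → ℕ), S.Lev E G a s X →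
    S.Fullw E (s ^ 4) → S.Blocks E (s ^ 4) ℓ k₁ k₂ → E' ⊆ E → X ≤ L → (s : ℝ) ≤ L * ℓ →
    L ^ C₀ ≤ s →
    ((E'.filter fun i => (S.fat E' (s ^ 4) k₁ k₂ i : ℝ) < s ^ 4 / L ^ C₀).card : ℝ) ≤
      ((a * s : ℕ) : ℝ) ^ 4 / L := by
  obtain ⟨c, hc⟩ := cent_pow
  refine ⟨5 * c + 9, fun P hP S E E' G a s ℓ X L k₁ k₂ h hf hB hE hXL hℓ hs => ?_⟩
  have hL := h.X_ge.trans hXL
  have L₁ : 1 ≤ L := by linarith
  have s₀ : (0 : ℝ) < s := Nat.cast_pos.2 (by linarith [h.s_ge])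
  refine sum_windows hP h hf ((filter_subset _ _).trans hE) hL fun i hi => not_lt.1 fun hlt => ?_
  have hi := hE (mem_filter.1 hi).1
  set F := (E'.filter fun i => (S.fat E' (s ^ 4) k₁ k₂ i : ℝ) < s ^ 4 / L ^ (5 * c + 9)).filter
    fun j => j / s ^ 4 = i / s ^ 4
  have mF : ∀ j ∈ F, j ∈ E' ∧ (S.fat E' (s ^ 4) k₁ k₂ j : ℝ) < s ^ 4 / L ^ (5 * c + 9) ∧
      j / s ^ 4 = i / s ^ 4 := fun j hj => by simpa only [F, mem_filter, and_assoc] using hj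
  set Lb := F.image fun j => (S.tok j, k₁ j, k₂ j)
  have hA := h.act_le i hi
  have hA' : X * (s : ℝ) ^ 3 ≤ L * s ^ 3 := by gcongr
  have hLb : (Lb.card : ℝ) ≤ 2 * L * s ^ 3 := by
    have ℓ₀ : (0 : ℝ) < ℓ := pos_of_mul_pos_right (s₀.trans_le hℓ) (by linarith)
    have e₁ : ((s ^ 4 : ℕ) : ℝ) / ℓ ≤ L * s ^ 3 := by
      rw [div_le_iff₀ ℓ₀]
      push_cast
      nlinarith [pow_pos s₀ 3]
    refine le_trans (Nat.cast_le.2 (card_le_card_of_injOn (fun σ => (σ.1, σ.2.1))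
      (fun σ hσ => ?_) fun σ hσ σ' hσ' e => ?_)) ((hB.count (i / s ^ 4)).trans (by linarith))
    · obtain ⟨j, hj, rfl⟩ := mem_image.1 hσ
      exact mem_image_of_mem _ (mem_filter.2 ⟨hE (mF j hj).1, (mF j hj).2.2⟩)
    · obtain ⟨j, hj, rfl⟩ := mem_image.1 hσ
      obtain ⟨l, hl, rfl⟩ := mem_image.1 hσ'
      obtain ⟨e₁, e₂⟩ := Prod.ext_iff.1 e
      have a := hB.range j (hE (mF j hj).1)
      have b := hB.range l (hE (mF l hl).1)
      have d := hB.order j (hE (mF j hj).1) l (hE (mF l hl).1) e₁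
      exact Prod.ext e₁ (Prod.ext e₂ (by dsimp only at e₂ ⊢; omega))
  have c₁ := hc P hP S _ Lb (·.1) (·.2.1) (·.2.2) F (fun j => (S.tok j, k₁ j, k₂ j)) _ _ s L
    (full_win h.s_ge hf hi) (S.wend_le _ _) hL ((pow_le_pow_right₀ L₁ (by omega)).trans hs)
    (hA.trans (hA'.trans (by nlinarith [pow_pos s₀ 3]))) hLb fun j hj =>
      ⟨mem_image_of_mem _ hj, rfl, (mF j hj).2.2 ▸ hB.range j (hE (mF j hj).1)⟩
  let R : Pt × ℕ × ℕ → ℕ → Prop := fun σ j =>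
    S.wsw (s ^ 4) (i / s ^ 4) (S.hold σ.2.1 σ.1) (S.a j) ∧
      S.wsw (s ^ 4) (i / s ^ 4) (S.a j) (S.hold σ.2.2 σ.1)
  change ((F.filter fun j => ((Lb.filter fun σ => R σ j).card : ℝ) < _).card : ℝ) ≤ _ at c₁
  have c₂ := congrArg (Nat.cast : ℕ → ℝ) (card_filter_add_card_filter_not (s := F)
    fun j => ((Lb.filter fun σ => R σ j).card : ℝ) < s ^ 3 / L ^ (5 * c))
  have c₃ := (card_nsmul_le_sum (F.filter fun j =>
      ¬ ((Lb.filter fun σ => R σ j).card : ℝ) < s ^ 3 / L ^ (5 * c))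
    (fun j => ((Lb.filter fun σ => R σ j).card : ℝ)) _
    fun j hj => not_lt.1 (mem_filter.1 hj).2).trans
    (sum_le_sum_of_subset_of_nonneg (filter_subset _ _) fun _ _ _ => Nat.cast_nonneg _)
  have c₄ : ∑ j ∈ F, ((Lb.filter fun σ => R σ j).card : ℝ) =
      ∑ σ ∈ Lb, ((F.filter fun j => R σ j).card : ℝ) := by
    simp only [card_filter, Nat.cast_sum]
    exact sum_comm
  have c₅ := sum_le_card_nsmul Lb (fun σ => ((F.filter fun j => R σ j).card : ℝ)) _ fun σ hσ => by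
    obtain ⟨l, hl, rfl⟩ := mem_image.1 hσ
    refine le_trans (Nat.cast_le.2 (card_le_card fun j hj => ?_)) (mF l hl).2.1.le
    obtain ⟨j₁, j₂⟩ := mem_filter.1 hj
    exact mem_filter.2 ⟨(mF j j₁).1, (mF j j₁).2.2.trans (mF l hl).2.2.symm,
      (mF l hl).2.2.symm ▸ j₂⟩
  have c₆ : (s : ℝ) ^ 4 / L ^ 6 ≤ (F.filter fun j =>
      ¬ ((Lb.filter fun σ => R σ j).card : ℝ) < s ^ 3 / L ^ (5 * c)).card := by
    have : (s : ℝ) ^ 4 / L ^ 5 = L * (s ^ 4 / L ^ 6) := by field_simp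
    have : (0 : ℝ) < s ^ 4 / L ^ 6 := by positivity
    push_cast at c₂
    nlinarith
  rw [nsmul_eq_mul] at c₃ c₅
  have c₇ := (mul_le_mul_of_nonneg_right c₆ (by positivity)).trans ((c₃.trans_eq c₄).trans
    (c₅.trans (mul_le_mul_of_nonneg_right hLb (by positivity))))
  have e₁ : (s : ℝ) ^ 4 / L ^ 6 * (s ^ 3 / L ^ (5 * c)) = L ^ 2 * (s ^ 7 / L ^ (5 * c + 8)) := by
    field_simp; ring
  have e₂ : 2 * L * (s : ℝ) ^ 3 * (s ^ 4 / L ^ (5 * c + 9)) = 2 * (s ^ 7 / L ^ (5 * c + 8)) := by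
    field_simp; ring
  rw [e₁, e₂] at c₇
  nlinarith [le_of_mul_le_mul_right c₇ (by positivity)]

/-- most events have a central left endpoint -/
theorem few_noncentral : ∃ C₀ : ℕ, ∀ (P : Finset Pt), GP P → ∀ (S : Tok P) (E : Finset ℕ)
    (G : Finset Pt) (a s : ℕ) (X L : ℝ), S.Lev E G a s X → S.Fullw E (s ^ 4) → X ≤ L →
    L ^ C₀ ≤ s →
    ((E.filter fun i => (S.chi (i / s ^ 4 * s ^ 4) (S.wend (s ^ 4) (i / s ^ 4)) (S.a i) : ℝ) <
      s ^ 3 / L ^ C₀).card : ℝ) ≤ ((a * s : ℕ) : ℝ) ^ 4 / L := by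
  obtain ⟨c, hc⟩ := cent_pow
  refine ⟨5 * c, fun P hP S E G a s X L h hf hXL hs => ?_⟩
  have hL := h.X_ge.trans hXL
  have s₀ : (0 : ℝ) < s := Nat.cast_pos.2 (by linarith [h.s_ge])
  have W₀ : 0 < s ^ 4 := by have := h.s_ge; positivity
  refine sum_windows hP h hf (filter_subset _ _) hL fun i hi => ?_
  have hi := (mem_filter.1 hi).1
  have hA : ((S.wact (s ^ 4) (i / s ^ 4)).card : ℝ) ≤ 2 * L * s ^ 3 :=
    (h.act_le i hi).trans (by gcongr; linarith)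
  refine le_trans (Nat.cast_le.2 (card_le_card fun j hj => ?_)) ((hc P hP S _
    ((Ico (i / s ^ 4 * s ^ 4) (S.wend (s ^ 4) (i / s ^ 4))).image S.tok) id
    (fun _ => i / s ^ 4 * s ^ 4) (fun _ => S.wend (s ^ 4) (i / s ^ 4)) (E.filter fun j => j / s ^ 4 = i / s ^ 4)
    S.tok _ _ s L (full_win h.s_ge hf hi)
    (S.wend_le _ _) hL hs hA ((Nat.cast_le.2 (S.card_tok_le (S.wend_le _ _))).trans hA)
    fun j hj => ?_).trans ?_)
  · obtain ⟨j₁, j₂⟩ := mem_filter.1 hj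
    obtain ⟨j₃, j₄⟩ := mem_filter.1 j₁
    rw [j₂] at j₄
    refine mem_filter.2 ⟨mem_filter.2 ⟨j₃, j₂⟩,
      lt_of_le_of_lt (Nat.cast_le.2 (card_le_card fun σ hσ => ?_)) j₄⟩
    obtain ⟨σ₁, σ₂⟩ := mem_filter.1 hσ
    obtain ⟨l, hl, rfl⟩ := mem_image.1 σ₁
    exact mem_filter.2 ⟨S.tok_mem l ((mem_Ico.1 hl).2.trans_le (S.wend_le _ _)), σ₂⟩
  · obtain ⟨j₁, j₂⟩ := mem_filter.1 hj
    obtain ⟨a, b⟩ := (S.mem_win_iff W₀ (mem_range.1 (h.E_sub j₁))).1 j₂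
    exact ⟨mem_image_of_mem _ (mem_Ico.2 ⟨a, b⟩), rfl, le_rfl, a, b, le_rfl⟩
  · gcongr
    · linarith
    · norm_num

end Vale.Agent.P065
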