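import Vale.Agent.P065.SuperC
import Vale.Agent.P065.Swap

/-! The dense graph of swapping pairs inside the intersection of two coarse windows. -/

namespace Vale.Agent.P065

open Classical Finset

namespace Tok

variable {P : Finset Pt} {S : Tok P} {E : Finset ℕ} {G : Finset Pt} {a s : ℕ} {X : ℝ}

theorem Lev.sup_graph (h : S.Lev E G a s X) {E₂ Sel : Finset ℕ} (hE₂ : E₂ ⊆ E) (hSel : Sel ⊆ E)
    {k₁ k₂ : ℕ → ℕ} {Q : Finset Pt} {g : ℝ} (hg : 0 < g)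
    (hQ : ∀ i ∈ Sel, ∀ j ∈ E₂, S.wsw (s ^ 4) (i / s ^ 4) (S.hold (k₁ i) (S.tok i)) (S.a j) →
      S.wsw (s ^ 4) (i / s ^ 4) (S.a j) (S.hold (k₂ i) (S.tok i)) → S.a j ∈ Q)
    (hsw : ∀ i ∈ Sel, ∀ F : Finset ℕ, F = (E₂.filter fun j => j / s ^ 4 = i / s ^ 4 ∧
      S.wsw (s ^ 4) (i / s ^ 4) (S.hold (k₁ i) (S.tok i)) (S.a j) ∧
      S.wsw (s ^ 4) (i / s ^ 4) (S.a j) (S.hold (k₂ i) (S.tok i))) →
      g ≤ (((F.image S.a ×ˢ F.image S.a).filter fun x =>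
        S.wsw (s ^ 4) (i / s ^ 4) x.1 x.2).card : ℝ)) :
    ∃ (T : Finset (Pt × Pt)) (wj : Pt × Pt → ℕ), (Sel.card : ℝ) * g ≤ s ^ 4 * T.card ∧
      ∀ x ∈ T, x.1 ∈ Q ∧ x.2 ∈ Q ∧ S.wsw (s ^ 4) (wj x) x.1 x.2 ∧
        (∃ j ∈ E₂, j / s ^ 4 = wj x ∧ S.a j = x.1) ∧ (∃ j ∈ E₂, j / s ^ 4 = wj x ∧ S.a j = x.2) := by
  have hW := h.sup_W_pos
  set 𝒥 := Sel.image fun i => i / s ^ 4 with h𝒥
  have hch : ∀ J ∈ 𝒥, ∃ i ∈ Sel, i / s ^ 4 = J := fun J hJ => mem_image.1 hJ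
  choose! rep hrep hrepJ using hch
  set FF : ℕ → Finset ℕ := fun J => E₂.filter fun j => j / s ^ 4 = J ∧
      S.wsw (s ^ 4) J (S.hold (k₁ (rep J)) (S.tok (rep J))) (S.a j) ∧
      S.wsw (s ^ 4) J (S.a j) (S.hold (k₂ (rep J)) (S.tok (rep J))) with hFF
  set TT : ℕ → Finset (Pt × Pt) := fun J => ((FF J).image S.a ×ˢ (FF J).image S.a).filter fun x =>
      S.wsw (s ^ 4) J x.1 x.2 with hTT
  have hTg : ∀ J ∈ 𝒥, g ≤ ((TT J).card : ℝ) := by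
    intro J hJ
    have := hsw (rep J) (hrep J hJ) (FF J) (by rw [hrepJ J hJ])
    rwa [hrepJ J hJ] at this
  have hlt : ∀ J ∈ 𝒥, J * s ^ 4 < S.wend (s ^ 4) J ∧ J * s ^ 4 < S.m := by
    intro J hJ
    have hm := h.sup_lt (hSel (hrep J hJ))
    have := (S.mem_win_iff hW hm).1 (hrepJ J hJ)
    omega
  have hdis : ∀ J ∈ 𝒥, ∀ J' ∈ 𝒥, J < J' → ∀ x, x ∈ TT J → x ∈ TT J' → False := by
    intro J hJ J' hJ' hlt' x hx hx'
    refine S.sw_disjoint (hlt J hJ).1 ?_ (hlt J' hJ').2 (mem_filter.1 hx).2 (mem_filter.1 hx').2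
    exact (min_le_left _ _).trans (Nat.mul_le_mul_right _ hlt')
  have hpd : (𝒥 : Set ℕ).PairwiseDisjoint TT := by
    intro J hJ J' hJ' hne
    refine disjoint_left.2 fun x hx hx' => ?_
    rcases lt_or_gt_of_ne hne with h' | h'
    · exact hdis J hJ J' hJ' h' x hx hx'
    · exact hdis J' hJ' J hJ h' x hx' hx
  have hch2 : ∀ x ∈ 𝒥.biUnion TT, ∃ J ∈ 𝒥, x ∈ TT J := fun x hx => mem_biUnion.1 hx
  choose! wj hwj hwjT using hch2
  refine ⟨𝒥.biUnion TT, wj, ?_, ?_⟩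
  · have h1 : (Sel.card : ℝ) ≤ s ^ 4 * 𝒥.card := by
      have : Sel.card ≤ s ^ 4 * 𝒥.card := by
        refine card_le_mul_card_image _ _ fun J _ => ?_
        have hsub : (Sel.filter fun i => i / s ^ 4 = J) ⊆ Ico (J * s ^ 4) ((J + 1) * s ^ 4) := by
          intro i hi
          obtain ⟨hiS, hiJ⟩ := mem_filter.1 hi
          have := (S.mem_win_iff hW (h.sup_lt (hSel hiS))).1 hiJ
          exact mem_Ico.2 ⟨this.1, this.2.trans_le (min_le_left _ _)⟩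
        refine (card_le_card hsub).trans (le_of_eq ?_)
        rw [Nat.card_Ico, add_mul]; omega
      exact_mod_cast this
    have h2 : (𝒥.card : ℝ) * g ≤ (𝒥.biUnion TT).card := by
      rw [card_biUnion hpd]
      push_cast
      calc (𝒥.card : ℝ) * g = ∑ _J ∈ 𝒥, g := by rw [sum_const, nsmul_eq_mul]
        _ ≤ _ := sum_le_sum hTg
    calc (Sel.card : ℝ) * g ≤ s ^ 4 * 𝒥.card * g := by gcongr
      _ = s ^ 4 * (𝒥.card * g) := by ring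
      _ ≤ _ := by gcongr
  · intro x hx
    have hJ := hwj x hx
    obtain ⟨h1, h2⟩ := mem_filter.1 (hwjT x hx)
    obtain ⟨h3, h4⟩ := mem_product.1 h1
    obtain ⟨j, hj, hja⟩ := mem_image.1 h3
    obtain ⟨j', hj', hja'⟩ := mem_image.1 h4
    obtain ⟨hjE, hjJ, hj1, hj2⟩ := mem_filter.1 hj
    obtain ⟨hjE', hjJ', hj1', hj2'⟩ := mem_filter.1 hj'
    refine ⟨?_, ?_, h2, ⟨j, hjE, hjJ, hja⟩, ⟨j', hjE', hjJ', hja'⟩⟩
    · rw [← hja]
      exact hQ _ (hrep _ hJ) j hjE (by rwa [hrepJ _ hJ]) (by rwa [hrepJ _ hJ])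
    · rw [← hja']
      exact hQ _ (hrep _ hJ) j' hjE' (by rwa [hrepJ _ hJ]) (by rwa [hrepJ _ hJ])

theorem TG.sup_mono {Y K K' : ℝ} {v : Pt} (h : S.TG E a s Y K v) (hK0 : 0 ≤ K) (hK : K ≤ K') :
    S.TG E a s Y K' v := fun Z hZ => (h Z hZ).trans (by gcongr)

theorem Fullw.sup_fine {W M : ℕ} (h : S.Fullw E (W * M)) (hM : 0 < M) : S.Fullw E W := by
  intro i hi
  refine le_trans ?_ (h i hi)
  have h1 : i / W + 1 ≤ (i / (W * M) + 1) * M := by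
    rw [← Nat.div_div_eq_div_mul]
    have := Nat.lt_div_mul_add (a := i / W) hM
    rw [add_mul]; omega
  calc (i / W + 1) * W ≤ (i / (W * M) + 1) * M * W := Nat.mul_le_mul_right _ h1
    _ = _ := by ring

end Tok

end Vale.Agent.P065
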