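import Vale.Agent.P065.Basic

/-! Counting and arithmetic lemmas for the overlap tail bound. -/

namespace Vale.Agent.P065

open Classical Finset

theorem tl_card_prod {α β : Type} (A : Finset α) (B : Finset β) (r : α × β → Prop)
    {d : DecidablePred r} : ((A ×ˢ B).filter r).card =
      ∑ x ∈ A, (@filter _ (fun y => r (x, y)) (fun y => d (x, y)) B).card := by
  simp only [card_filter, sum_product]

theorem tl_swap {α β : Type} (A : Finset α) (B : Finset β) (r : α → β → Prop)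
    {d : ∀ x, DecidablePred (r x)} : ∑ x ∈ A, ((B.filter (r x)).card : ℝ) =
      ∑ y ∈ B, ((@filter _ (fun x => r x y) (fun x => d x y) A).card : ℝ) := by
  simp only [card_filter, Nat.cast_sum]
  rw [sum_comm]

/-- a set is bounded through the fibres of a map -/
theorem tl_fiber {α β : Type} [DecidableEq β] (A : Finset α) (B : Finset β) (f : α → β)
    (g : β → ℝ) (hf : ∀ x ∈ A, f x ∈ B) (h : ∀ y ∈ B, ((A.filter fun x => f x = y).card : ℝ) ≤ g y) :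
    (A.card : ℝ) ≤ ∑ y ∈ B, g y := by
  rw [card_eq_sum_card_fiberwise (f := f) (t := B) fun x hx => hf x hx, Nat.cast_sum]
  exact sum_le_sum h

theorem tl_fiber_le {α β : Type} [DecidableEq β] (A : Finset α) (B : Finset β) (f : α → β)
    (g : α → ℝ) (hg : ∀ x, 0 ≤ g x) :
    ∑ y ∈ B, ∑ x ∈ A.filter (fun x => f x = y), g x ≤ ∑ x ∈ A, g x :=
  sum_fiberwise_le_sum_of_sum_fiber_nonneg fun _ _ => sum_nonneg fun x _ => hg x

/-- bases of nice triples with apex `I` -/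
noncomputable def tlNice (K : Finset ℕ) (o : ℕ → ℕ → ℕ) (y : ℝ) (I : ℕ) : Finset (ℕ × ℕ) :=
  (K ×ˢ K).filter fun x => x.1 ≠ I ∧ x.2 ≠ I ∧ y ≤ o I x.1 ∧ y ≤ o I x.2 ∧
    o x.1 x.2 ≤ o I x.1 ∧ o x.1 x.2 ≤ o I x.2

theorem tl_cherry (K : Finset ℕ) (o : ℕ → ℕ → ℕ) (ho : ∀ p q, o p q = o q p) (y : ℝ) :
    (((K ×ˢ K).filter fun x => y ≤ o x.1 x.2).card : ℝ) ^ 2 ≤ K.card *
      (3 * ∑ I ∈ K, ((tlNice K o y I).card : ℝ) +
        3 * ((K ×ˢ K).filter fun x => y ≤ o x.1 x.2).card) := by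
  set H := (K ×ˢ K).filter fun x => y ≤ o x.1 x.2 with hH
  set C := (K ×ˢ (K ×ˢ K)).filter fun x => y ≤ o x.1 x.2.1 ∧ y ≤ o x.1 x.2.2 with hC
  set M := (K ×ˢ (K ×ˢ K)).filter fun x => x.2 ∈ tlNice K o y x.1 with hM
  have h1 : H.card = ∑ k ∈ K, (K.filter fun q => y ≤ o k q).card := by rw [hH, tl_card_prod]
  have h2 : C.card = ∑ k ∈ K, (K.filter fun q => y ≤ o k q).card ^ 2 := by
    rw [hC, tl_card_prod]
    refine sum_congr rfl fun k _ => ?_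
    rw [sq, ← card_product, ← filter_product]
  have h3 : M.card = ∑ I ∈ K, (tlNice K o y I).card := by
    rw [hM, tl_card_prod]
    refine sum_congr rfl fun k _ => ?_
    refine congrArg card (Subset.antisymm (fun x hx => (mem_filter.1 hx).2) fun x hx => ?_)
    exact mem_filter.2 ⟨filter_subset _ _ hx, hx⟩
  have h4 : C ⊆ M ∪ M.image (fun x => (x.2.1, x.1, x.2.2)) ∪ M.image (fun x => (x.2.1, x.2.2, x.1)) ∪
      H.image (fun x => (x.1, x.1, x.2)) ∪ H.image (fun x => (x.1, x.2, x.1)) ∪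
      H.image (fun x => (x.1, x.2, x.2)) := by
    rintro ⟨k, p, q⟩ hx
    simp only [hC, mem_filter, mem_product] at hx
    obtain ⟨⟨hk, hp, hq⟩, h5, h6⟩ := hx
    simp only [mem_union, mem_image, hM, hH, tlNice, mem_filter, mem_product, Prod.exists,
      Prod.mk.injEq]
    by_cases e1 : p = k
    · exact Or.inl (Or.inl (Or.inr ⟨k, q, ⟨⟨hk, hq⟩, h6⟩, rfl, e1.symm, rfl⟩))
    by_cases e2 : q = k
    · exact Or.inl (Or.inr ⟨k, p, ⟨⟨hk, hp⟩, h5⟩, rfl, rfl, e2.symm⟩)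
    by_cases e3 : p = q
    · exact Or.inr ⟨k, p, ⟨⟨hk, hp⟩, h5⟩, rfl, rfl, e3⟩
    refine Or.inl (Or.inl (Or.inl ?_))
    have s1 := ho p k
    have s2 := ho q k
    have s3 := ho q p
    by_cases c1 : o p q ≤ o k p ∧ o p q ≤ o k q
    · exact Or.inl (Or.inl ⟨⟨hk, hp, hq⟩, ⟨hp, hq⟩, e1, e2, h5, h6, c1⟩)
    by_cases c2 : o k q ≤ o k p
    · have c3 : o k q ≤ o p q := by omega
      exact Or.inl (Or.inr ⟨p, k, q, ⟨⟨hp, hk, hq⟩, ⟨hk, hq⟩, Ne.symm e1, Ne.symm e3, s1 ▸ h5,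
        h6.trans (Nat.cast_le.2 c3), s1 ▸ c2, c3⟩, rfl, rfl, rfl⟩)
    · have c3 : o k p ≤ o q p := by omega
      exact Or.inr ⟨q, k, p, ⟨⟨hq, hk, hp⟩, ⟨hk, hp⟩, Ne.symm e2, e3, s2 ▸ h6,
        h5.trans (Nat.cast_le.2 c3), by omega, c3⟩, rfl, rfl, rfl⟩
  have h5 : C.card ≤ 3 * M.card + 3 * H.card := by
    refine (card_le_card h4).trans ?_
    have a1 := card_image_le (s := M) (f := fun x => (x.2.1, x.1, x.2.2))
    have a2 := card_image_le (s := M) (f := fun x => (x.2.1, x.2.2, x.1))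
    have a3 := card_image_le (s := H) (f := fun x => (x.1, x.1, x.2))
    have a4 := card_image_le (s := H) (f := fun x => (x.1, x.2, x.1))
    have a5 := card_image_le (s := H) (f := fun x => (x.1, x.2, x.2))
    refine (card_union_le _ _).trans ((Nat.add_le_add_right ((card_union_le _ _).trans
      (Nat.add_le_add_right ((card_union_le _ _).trans (Nat.add_le_add_right
        ((card_union_le _ _).trans (Nat.add_le_add_right (card_union_le _ _) _)) _)) _)) _).trans ?_)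
    omega
  have h6 : H.card ^ 2 ≤ K.card * C.card := by
    rw [h1, h2]
    exact sq_sum_le_card_mul_sum_sq
  have h7 := h6.trans (Nat.mul_le_mul_left _ h5)
  rw [h3] at h7
  exact_mod_cast h7

/-- solving the cubic inequality of the crossing lemma -/
theorem tl_cube {F y z b c D : ℝ} (hy : 0 ≤ y) (hz : 0 ≤ z) (hb : 0 < b) (hc : 0 ≤ c)
    (hD : 0 < D) (hzb : z * b ≤ F) (h : F ≤ 6 * y ∨ F ^ 3 ≤ 72 * y ^ 2 * (2 * z ^ 2 + c)) :
    F ≤ 6 * y + 288 * (y / b) ^ 2 + D * y + 144 * c / D ^ 2 := by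
  have p1 : 0 ≤ 288 * (y / b) ^ 2 := by positivity
  have p2 : 0 ≤ D * y := by positivity
  have p3 : 0 ≤ 144 * c / D ^ 2 := by positivity
  rcases h with h | h
  · linarith
  by_contra hn
  rw [not_le] at hn
  have hF0 : 0 < F := by linarith
  have h1 : z ≤ F / b := (le_div_iff₀ hb).2 hzb
  have h2 : 288 * y ^ 2 * z ^ 2 ≤ 288 * (y / b) ^ 2 * F ^ 2 := by
    calc 288 * y ^ 2 * z ^ 2 ≤ 288 * y ^ 2 * (F / b) ^ 2 := by gcongr
      _ = _ := by ring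
  have h3 : 288 * (y / b) ^ 2 * F ^ 2 < F * F ^ 2 := by
    gcongr
    linarith
  have h4 : 144 * c < F * D ^ 2 := (div_lt_iff₀ (by positivity)).1 (by linarith)
  have h5 : y ^ 2 * (144 * c) ≤ y ^ 2 * (F * D ^ 2) := by gcongr
  have h6 : (D * y) ^ 2 * F ≤ F ^ 2 * F := by
    gcongr
    linarith
  nlinarith

theorem tl_arith {X Y a s η Z θ Q M : ℝ} (hX : 2 ≤ X) (hXY : X ≤ Y) (ha : 1 ≤ a) (hs : a ^ 4 ≤ s)
    (hZ : 1 ≤ Z) (hZa : Z ≤ X * a) (hη : 0 < η) (hη' : η ≤ X ^ 2) (hc : Y ^ 70 < η ^ 10 * Z)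
    (hθ : θ = η ^ 2 / Y ^ 14)
    (h1 : (η * a ^ 2 * (a * s) ^ 3) ^ 2 ≤
      (a * s) ^ 3 * (X * a) * (3 * M + 3 * (η * a ^ 2 * (a * s) ^ 3)))
    (h2 : s / Y * M ≤ Q)
    (h3 : Q ≤ 2 * (X * a) * (X * s ^ 3 * (θ / s ^ 2 * ((a * s) ^ 3 * (X * a) ^ 2) + (15 * a ^ 4) ^ 2))
      + θ * (X * a * (X * s)) * ((a * s) ^ 3 * (X * a) ^ 2)
      + (6 + 288 * (a * s / (θ ^ 3 * Z)) + θ * (a * s)) * ((a * s) ^ 3 * (X * a) ^ 2)
      + 144 * ((X * a) ^ 2 * (15 * a ^ 4 * (6 * (X * s ^ 3) ^ 2))) / (θ * (a * s)) ^ 2) :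
    False := by
  have hY : 2 ≤ Y := hX.trans hXY
  have hY0 : 0 < Y := by linarith
  have hX0 : 0 < X := by linarith
  have ha0 : 0 < a := by linarith
  have hs1 : 1 ≤ s := (one_le_pow₀ ha).trans hs
  have hs0 : 0 < s := by linarith
  have hZ0 : 0 < Z := by linarith
  have hηY : η ≤ Y ^ 2 := hη'.trans (by gcongr)
  have hp : ∀ k : ℕ, (2 : ℝ) ^ k ≤ Y ^ k := fun k => by gcongr
  have hm : ∀ j k : ℕ, j ≤ k → Y ^ j ≤ Y ^ k := fun j k h => pow_le_pow_right₀ (by linarith) h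
  have key : ∀ j k : ℕ, j + k = 10 → Y ^ 69 ≤ η ^ j * a * Y ^ (2 * k) := by
    intro j k hjk
    have e1 : η ^ 10 * Z ≤ η ^ j * (Y ^ 2) ^ k * (Y * a) := by
      rw [← hjk, pow_add]
      gcongr
      exact hZa.trans (by gcongr)
    have e2 : Y ^ 69 * Y ≤ η ^ j * a * Y ^ (2 * k) * Y := by
      calc Y ^ 69 * Y = Y ^ 70 := by ring
        _ ≤ η ^ j * (Y ^ 2) ^ k * (Y * a) := hc.le.trans e1
        _ = _ := by rw [← pow_mul]; ring
    exact le_of_mul_le_mul_right e2 hY0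
  have k1 : Y ^ 4 ≤ η * a := by
    have := key 1 9 rfl
    refine le_of_mul_le_mul_right ?_ (pow_pos hY0 18)
    calc Y ^ 4 * Y ^ 18 = Y ^ 22 := by ring
      _ ≤ Y ^ 69 := hm _ _ (by norm_num)
      _ ≤ _ := by simpa using this
  have k2 : Y ^ 19 ≤ η ^ 2 * a := by
    have := key 2 8 rfl
    refine le_of_mul_le_mul_right ?_ (pow_pos hY0 16)
    calc Y ^ 19 * Y ^ 16 = Y ^ 35 := by ring
      _ ≤ Y ^ 69 := hm _ _ (by norm_num)
      _ ≤ _ := by simpa using this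
  have k6 : Y ^ 54 ≤ η ^ 6 * a ^ 2 := by
    have := key 6 4 rfl
    refine le_trans (le_of_mul_le_mul_right ?_ (pow_pos hY0 8)) (show η ^ 6 * a ≤ η ^ 6 * a ^ 2 by
      gcongr; nlinarith)
    calc Y ^ 54 * Y ^ 8 = Y ^ 62 := by ring
      _ ≤ Y ^ 69 := hm _ _ (by norm_num)
      _ ≤ _ := by simpa using this
  have k8 : Y ^ 61 ≤ η ^ 8 * Z := by
    refine le_of_mul_le_mul_right ?_ (pow_pos hY0 4)
    calc Y ^ 61 * Y ^ 4 = Y ^ 65 := by ring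
      _ ≤ Y ^ 70 := hm _ _ (by norm_num)
      _ ≤ η ^ 8 * η ^ 2 * Z := by rw [← pow_add]; exact hc.le
      _ ≤ η ^ 8 * (Y ^ 2) ^ 2 * Z := by gcongr
      _ = _ := by ring
  set u := η ^ 2 * a ^ 6 * s ^ 4 / Y ^ 8 with hu
  have hu0 : 0 < u := by positivity
  have l1 : η ^ 2 * a ^ 3 * (a * s) ^ 3 ≤ 6 * X * M := by
    have e1 : 6 * X ≤ η * a := by
      refine le_trans ?_ k1
      have := hp 3
      calc 6 * X ≤ Y ^ 3 * Y := by gcongr; linarith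
        _ = _ := by ring
    have e2 : (a * s) ^ 3 * a * (η ^ 2 * a ^ 3 * (a * s) ^ 3) ≤
        (a * s) ^ 3 * a * (3 * X * M + 3 * X * (η * a ^ 2 * (a * s) ^ 3)) := by
      calc _ = (η * a ^ 2 * (a * s) ^ 3) ^ 2 := by ring
        _ ≤ _ := h1
        _ = _ := by ring
    have e3 := le_of_mul_le_mul_left e2 (by positivity)
    have e4 : 6 * X * (η * a ^ 2 * (a * s) ^ 3) ≤ η * a * (η * a ^ 2 * (a * s) ^ 3) := by gcongr
    nlinarith
  have l2 : 8 * u ≤ Q := by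
    refine le_trans ?_ h2
    have e1 : η ^ 2 * a ^ 3 * (a * s) ^ 3 / (6 * X) ≤ M := by
      rw [div_le_iff₀ (by positivity)]; linarith
    refine le_trans ?_ (mul_le_mul_of_nonneg_left e1 (by positivity))
    have e2 : 8 * (Y * (6 * X)) ≤ Y ^ 8 := by
      have := hp 6
      calc 8 * (Y * (6 * X)) = 48 * (Y * X) := by ring
        _ ≤ Y ^ 6 * (Y * Y) := by gcongr; linarith
        _ = _ := by ring
    calc 8 * u = η ^ 2 * a ^ 6 * s ^ 4 * (8 / Y ^ 8) := by rw [hu]; ring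
      _ ≤ η ^ 2 * a ^ 6 * s ^ 4 * (1 / (Y * (6 * X))) := by
        gcongr ?_ * ?_
        rw [div_le_div_iff₀ (by positivity) (by positivity)]
        linarith
      _ = _ := by field_simp
  have hθ0 : 0 < θ := by rw [hθ]; positivity
  have t0 : ∀ c : ℝ, c ≤ Y ^ 6 → c * θ * (a ^ 6 * s ^ 4) ≤ u := fun c h => by
    calc c * θ * (a ^ 6 * s ^ 4) ≤ Y ^ 6 * θ * (a ^ 6 * s ^ 4) := by gcongr
      _ = u := by rw [hu, hθ]; field_simp
  have x4 : X ^ 4 ≤ Y ^ 4 := by gcongr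
  have x2 : X ^ 2 ≤ Y ^ 2 := by gcongr
  have t1 := t0 (2 * X ^ 4) (by
    calc 2 * X ^ 4 ≤ Y ^ 2 * Y ^ 4 := by gcongr; linarith [hp 2]
      _ = _ := by ring)
  have t3 := t0 (X ^ 4) (x4.trans (hm _ _ (by norm_num)))
  have t6 := t0 (X ^ 2) (x2.trans (hm _ _ (by norm_num)))
  have t2 : 450 * X ^ 2 * a ^ 9 * s ^ 3 ≤ u := by
    rw [hu, le_div_iff₀ (by positivity)]
    calc 450 * X ^ 2 * a ^ 9 * s ^ 3 * Y ^ 8 ≤ Y ^ 9 * Y ^ 2 * a ^ 9 * s ^ 3 * Y ^ 8 := by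
          gcongr; linarith [hp 9]
      _ = Y ^ 19 * a ^ 4 * (a ^ 5 * s ^ 3) := by ring
      _ ≤ η ^ 2 * a * s * (a ^ 5 * s ^ 3) := by gcongr
      _ = _ := by ring
  have t4 : 6 * X ^ 2 * a ^ 5 * s ^ 3 ≤ u := by
    refine le_trans ?_ t2
    gcongr
    · norm_num
    · norm_num
  have t5 : 288 * X ^ 2 * (a ^ 6 * s ^ 4) / (θ ^ 3 * Z) ≤ u := by
    rw [hu, div_le_div_iff₀ (by positivity) (by positivity), hθ]
    calc 288 * X ^ 2 * (a ^ 6 * s ^ 4) * Y ^ 8 ≤ Y ^ 9 * Y ^ 2 * (a ^ 6 * s ^ 4) * Y ^ 8 := by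
          gcongr; linarith [hp 9]
      _ = Y ^ 61 * (a ^ 6 * s ^ 4 / Y ^ 42) := by field_simp
      _ ≤ η ^ 8 * Z * (a ^ 6 * s ^ 4 / Y ^ 42) := by gcongr
      _ = _ := by field_simp
  have t7 : 12960 * X ^ 4 * (a ^ 4 * s ^ 4) / θ ^ 2 ≤ u := by
    rw [hu, div_le_div_iff₀ (by positivity) (by positivity), hθ]
    calc 12960 * X ^ 4 * (a ^ 4 * s ^ 4) * Y ^ 8 ≤ Y ^ 14 * Y ^ 4 * (a ^ 4 * s ^ 4) * Y ^ 8 := by
          gcongr; linarith [hp 14]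
      _ = Y ^ 54 * (a ^ 4 * s ^ 4 / Y ^ 28) := by field_simp
      _ ≤ η ^ 6 * a ^ 2 * (a ^ 4 * s ^ 4 / Y ^ 28) := by gcongr
      _ = _ := by field_simp
  have h4 : Q ≤ 2 * X ^ 4 * θ * (a ^ 6 * s ^ 4) + 450 * X ^ 2 * a ^ 9 * s ^ 3 +
      X ^ 4 * θ * (a ^ 6 * s ^ 4) + 6 * X ^ 2 * a ^ 5 * s ^ 3 +
      288 * X ^ 2 * (a ^ 6 * s ^ 4) / (θ ^ 3 * Z) + X ^ 2 * θ * (a ^ 6 * s ^ 4) +
      12960 * X ^ 4 * (a ^ 4 * s ^ 4) / θ ^ 2 := by
    refine h3.trans (le_of_eq ?_)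
    field_simp
    ring
  linarith

end Vale.Agent.P065
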