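import Vale.Agent.P065.LevDefs
import Vale.Agent.P065.Meet
import Vale.Agent.P065.TailAux

/-! The tail bound for overlaps of windows (task S). -/

namespace Vale.Agent.P065

open Classical Finset

namespace Tok

variable {P : Finset Pt} (S : Tok P)

/-- later events of `E` of the same token in the same window with both ends in `A` -/
noncomputable def tlR (E : Finset ℕ) (W i : ℕ) (A : Finset Pt) : Finset ℕ :=
  E.filter fun j => i ≤ j ∧ j / W = i / W ∧ S.tok j = S.tok i ∧ S.a j ∈ A ∧ S.b j ∈ A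

/-- good points active in both windows -/
noncomputable def tlU (G : Finset Pt) (W : ℕ) (x : ℕ × ℕ) : Finset Pt :=
  G.filter fun v => v ∈ S.wact W x.1 ∧ v ∈ S.wact W x.2

/-- events with both ends in `U` -/
noncomputable def tlE (E : Finset ℕ) (U : Finset Pt) : Finset ℕ :=
  E.filter fun i => S.a i ∈ U ∧ S.b i ∈ U

/-- events with both ends in `U` whose label carries at least `b` such events -/
noncomputable def tlF (E : Finset ℕ) (W : ℕ) (U : Finset Pt) (b : ℝ) : Finset ℕ :=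
  (S.tlE E U).filter fun i =>
    b ≤ ((S.tlE E U).filter fun j => (S.tok j, j / W) = (S.tok i, i / W)).card

/-- pairs of crossing events of `F` in one window -/
noncomputable def tlC (F : Finset ℕ) (W : ℕ) : Finset (ℕ × ℕ) :=
  (F ×ˢ F).filter fun x => Cross (S.seg x.1) (S.seg x.2) ∧ x.1 / W = x.2 / W

variable {S} {E : Finset ℕ} {W : ℕ}

theorem tl_between (hW : 0 < W) {i j r J : ℕ} (hi : i < S.m) (hj : j < S.m) (hJ : J ≠ i / W)
    (hw : j / W = i / W) (h₁ : i ≤ r) (h₂ : r ≤ j + 1) (ha : S.a i ∈ S.wact W J)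
    (hb : S.hold (j + 1) (S.tok i) ∈ S.wact W J) : S.hold r (S.tok i) ∈ S.wact W J := by
  refine S.contig_hold (S.tok_mem i hi) (S.wend_le W J) h₁ h₂ hj ?_ (by rwa [S.hold_tok i hi]) hb
  rcases lt_or_gt_of_ne hJ with h | h
  · exact Or.inl ((min_le_left _ _).trans ((Nat.mul_le_mul_right W h).trans (Nat.div_mul_le_self i W)))
  · refine Or.inr (le_trans ?_ (Nat.mul_le_mul_right W h))
    rw [← hw]
    exact (Nat.div_lt_iff_lt_mul hW).1 (Nat.lt_succ_self _)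

theorem tl_initial (hW : 0 < W) (hE : E ⊆ range S.m) {i j k J : ℕ} (hi : i < S.m) (hJ : J ≠ i / W)
    (ha : S.a i ∈ S.wact W J) (hk : k ∈ S.tlR E W i (S.wact W J)) (hj : j ∈ E) (hij : i ≤ j)
    (hjk : j ≤ k) (hw : j / W = i / W) (ht : S.tok j = S.tok i) : j ∈ S.tlR E W i (S.wact W J) := by
  obtain ⟨k1, -, k3, k4, -, k6⟩ := mem_filter.1 hk
  have hkm := mem_range.1 (hE k1)
  have hjm := mem_range.1 (hE hj)
  have hb : S.hold (k + 1) (S.tok i) ∈ S.wact W J := by rwa [← k4, S.hold_succ_tok k hkm]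
  refine mem_filter.2 ⟨hj, hij, hw, ht, ?_, ?_⟩
  · rw [← S.hold_tok j hjm, ht]
    exact tl_between hW hi hkm hJ k3 hij (by omega) ha hb
  · rw [← S.hold_succ_tok j hjm, ht]
    exact tl_between hW hi hkm hJ k3 (by omega) (by omega) ha hb

theorem tl_shallow (hW : 0 < W) (hE : E ⊆ range S.m) {I J : ℕ} (hJ : J ≠ I) {ρ : ℝ} (hρ : 0 ≤ ρ) :
    ((E.filter fun i => i / W = I ∧ S.a i ∈ S.wact W J ∧
      ((S.tlR E W i (S.wact W J)).card : ℝ) < ρ).card : ℝ) ≤ (S.wact W I).card * (ρ + 1) := by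
  refine (tl_fiber _ ((Ico (I * W) (S.wend W I)).image S.tok) S.tok (fun _ => ρ + 1)
    (fun i hi => ?_) fun τ _ => ?_).trans ?_
  · obtain ⟨h1, h2, -⟩ := mem_filter.1 hi
    exact mem_image_of_mem _ (mem_Ico.2 ((S.mem_win_iff hW (mem_range.1 (hE h1))).1 h2))
  · set A := (E.filter fun i => i / W = I ∧ S.a i ∈ S.wact W J ∧
      ((S.tlR E W i (S.wact W J)).card : ℝ) < ρ).filter fun i => S.tok i = τ with hA
    have hm : ∀ i ∈ A, i ∈ E ∧ i / W = I ∧ S.a i ∈ S.wact W J ∧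
        ((S.tlR E W i (S.wact W J)).card : ℝ) < ρ ∧ S.tok i = τ := fun i hi => by
      simp only [hA, mem_filter] at hi
      tauto
    have h1 : ((A.filter fun i => S.b i ∈ S.wact W J).card : ℝ) ≤ ρ := by
      rcases (A.filter fun i => S.b i ∈ S.wact W J).eq_empty_or_nonempty with h | h
      · simpa [h] using hρ
      obtain ⟨i, hi, hmin⟩ := exists_min_image _ id h
      obtain ⟨-, i2, -, i4, i5⟩ := hm i (mem_filter.1 hi).1
      refine le_trans (Nat.cast_le.2 (card_le_card fun j hj => ?_)) i4.le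
      obtain ⟨j1, j2, j3, -, j5⟩ := hm j (mem_filter.1 hj).1
      exact mem_filter.2 ⟨j1, hmin j hj, j2.trans i2.symm, j5.trans i5.symm, j3, (mem_filter.1 hj).2⟩
    have h2 : (A.filter fun i => ¬ S.b i ∈ S.wact W J).card ≤ 1 := by
      have key : ∀ i ∈ A.filter fun i => ¬ S.b i ∈ S.wact W J, ∀ j ∈ A, ¬ i < j := by
        intro i hi j hj hij
        obtain ⟨i1, i2, i3, -, i5⟩ := hm i (mem_filter.1 hi).1
        obtain ⟨j1, j2, j3, -, j5⟩ := hm j hj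
        have him := mem_range.1 (hE i1)
        have hjm := mem_range.1 (hE j1)
        obtain ⟨k, rfl⟩ : ∃ k, j = k + 1 := ⟨j - 1, by omega⟩
        have hk : k / W = i / W := le_antisymm
          ((Nat.div_le_div_right (Nat.le_succ k)).trans (j2.trans i2.symm).le)
          (Nat.div_le_div_right (by omega))
        refine (mem_filter.1 hi).2 ?_
        rw [← S.hold_succ_tok i him]
        refine tl_between hW him (by omega) (i2 ▸ hJ) hk (Nat.le_succ i) (by omega) i3 ?_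
        rwa [i5, ← j5, S.hold_tok _ hjm]
      exact card_le_one.2 fun i hi j hj => le_antisymm
        (not_lt.1 (key j hj i (mem_filter.1 hi).1)) (not_lt.1 (key i hi j (mem_filter.1 hj).1))
    have h3 := card_filter_add_card_filter_not (s := A) fun i => S.b i ∈ S.wact W J
    have h4 := congrArg (Nat.cast (R := ℝ)) h3
    rw [Nat.cast_add] at h4
    have h5 : ((A.filter fun i => ¬ S.b i ∈ S.wact W J).card : ℝ) ≤ 1 := by exact_mod_cast h2
    linarith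
  · rw [sum_const, nsmul_eq_mul]
    exact mul_le_mul_of_nonneg_right (Nat.cast_le.2 (S.card_tok_le (S.wend_le W I))) (by positivity)

theorem tl_mem_F (hW : 0 < W) (hE : E ⊆ range S.m) {G : Finset Pt}
    (hG : ∀ i ∈ E, S.a i ∈ G ∧ S.b i ∈ G) {i : ℕ} (hi : i ∈ E) {x : ℕ × ℕ} (h₁ : x.1 ≠ i / W)
    (h₂ : x.2 ≠ i / W) (a₁ : S.a i ∈ S.wact W x.1) (a₂ : S.a i ∈ S.wact W x.2) {b : ℝ} (hb : 0 < b)
    (r₁ : b ≤ (S.tlR E W i (S.wact W x.1)).card) (r₂ : b ≤ (S.tlR E W i (S.wact W x.2)).card) :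
    i ∈ S.tlF E W (S.tlU G W x) b := by
  have him := mem_range.1 (hE hi)
  have self : ∀ J, J ≠ i / W → S.a i ∈ S.wact W J → b ≤ (S.tlR E W i (S.wact W J)).card →
      S.b i ∈ S.wact W J := fun J hJ ha hr => by
    obtain ⟨k, hk⟩ : (S.tlR E W i (S.wact W J)).Nonempty :=
      card_pos.1 (Nat.cast_pos.1 (hb.trans_le hr))
    exact (mem_filter.1 (tl_initial hW hE him hJ ha hk hi le_rfl (mem_filter.1 hk).2.1 rfl rfl)).2.2.2.2.2
  have both : ∀ j, j ∈ S.tlR E W i (S.wact W x.1) → j ∈ S.tlR E W i (S.wact W x.2) →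
      j ∈ (S.tlE E (S.tlU G W x)).filter fun j => (S.tok j, j / W) = (S.tok i, i / W) := by
    intro j j1 j2
    obtain ⟨p1, -, p3, p4, p5, p6⟩ := mem_filter.1 j1
    obtain ⟨-, -, -, -, q5, q6⟩ := mem_filter.1 j2
    exact mem_filter.2 ⟨mem_filter.2 ⟨p1, mem_filter.2 ⟨(hG j p1).1, p5, q5⟩,
      mem_filter.2 ⟨(hG j p1).2, p6, q6⟩⟩, Prod.ext p4 p3⟩
  refine mem_filter.2 ⟨mem_filter.2 ⟨hi, mem_filter.2 ⟨(hG i hi).1, a₁, a₂⟩,
    mem_filter.2 ⟨(hG i hi).2, self _ h₁ a₁ r₁, self _ h₂ a₂ r₂⟩⟩, ?_⟩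
  by_cases h : S.tlR E W i (S.wact W x.1) ⊆ S.tlR E W i (S.wact W x.2)
  · exact r₁.trans (Nat.cast_le.2 (card_le_card fun j hj => both j hj (h hj)))
  · obtain ⟨k, k1, k2⟩ := not_subset.1 h
    refine r₂.trans (Nat.cast_le.2 (card_le_card fun j hj => both j ?_ hj))
    obtain ⟨p1, p2, p3, p4, -⟩ := mem_filter.1 k1
    obtain ⟨q1, q2, q3, q4, -⟩ := mem_filter.1 hj
    refine tl_initial hW hE him h₁ a₁ k1 q1 q2 (not_lt.1 fun hkj => k2 ?_) q3 q4
    exact tl_initial hW hE him h₂ a₂ hj p1 p2 hkj.le p3 p4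

theorem tl_F_le (hP : GP P) (hE : E ⊆ range S.m) {U : Finset Pt} (hU : U ⊆ P) {b D : ℝ}
    (hb : 0 < b) (hD : 0 < D) :
    ((S.tlF E W U b).card : ℝ) ≤ 6 * U.card + 288 * (U.card / b) ^ 2 + D * U.card +
      144 * (S.tlC (S.tlE E U) W).card / D ^ 2 := by
  have hF : S.tlF E W U b ⊆ range S.m :=
    (filter_subset _ _).trans ((filter_subset _ _).trans hE)
  refine tl_cube (z := ((S.tlF E W U b).image fun i => (S.tok i, i / W)).card) (Nat.cast_nonneg _)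
    (Nat.cast_nonneg _) hb (Nat.cast_nonneg _) hD ?_ ?_
  · rw [card_eq_sum_card_image (fun i => (S.tok i, i / W)) (S.tlF E W U b), Nat.cast_sum,
      ← nsmul_eq_mul, ← sum_const]
    refine sum_le_sum fun l hl => ?_
    obtain ⟨i, hi, rfl⟩ := mem_image.1 hl
    refine (mem_filter.1 hi).2.trans (Nat.cast_le.2 (card_le_card fun j hj => ?_))
    refine mem_filter.2 ⟨mem_filter.2 ⟨(mem_filter.1 hj).1, ?_⟩, (mem_filter.1 hj).2⟩
    rw [(mem_filter.1 hj).2]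
    exact (mem_filter.1 hi).2
  · refine (tok_cube hP S hF hU fun i hi => (mem_filter.1 (mem_filter.1 hi).1).2).imp id fun h =>
      h.trans ?_
    gcongr
    have h1 := (crn_split hP S hF W).trans (Nat.add_le_add_left (card_le_card
      (t := S.tlC (S.tlE E U) W) (filter_subset_filter _
        (product_subset_product (filter_subset _ _) (filter_subset _ _)))) _)
    exact_mod_cast h1

variable {G : Finset Pt} {a s : ℕ} {X Y : ℝ}

namespace Lev

theorem tl_W (h : S.Lev E G a s X) : 0 < s ^ 4 := pow_pos (by linarith [h.s_ge]) 4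

theorem tl_X (h : S.Lev E G a s X) : 0 ≤ X := by linarith [h.X_ge]

theorem tl_win (h : S.Lev E G a s X) {k : ℕ} (hk : k ∈ E.image fun i => i / s ^ 4) :
    k < S.m ∧ ((S.wact (s ^ 4) k).card : ℝ) ≤ X * s ^ 3 := by
  obtain ⟨i, hi, rfl⟩ := mem_image.1 hk
  exact ⟨(Nat.div_le_self _ _).trans_lt (mem_range.1 (h.E_sub hi)), h.act_le i hi⟩

theorem tl_nact (h : S.Lev E G a s X) {v : Pt} (hv : v ∈ G) :
    (((E.image fun i => i / s ^ 4).filter fun k => v ∈ S.wact (s ^ 4) k).card : ℝ) ≤ X * a :=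
  le_trans (Nat.cast_le.2 (card_le_card
    (filter_subset_filter _ fun _ hk => mem_range.2 (h.tl_win hk).1))) (h.nact_le v hv)

theorem tl_inc (h : S.Lev E G a s X) (hY : 0 < Y) {v : Pt} {k : ℕ} (hk : k ∈ S.inc E s Y v) :
    v ∈ G ∧ v ∈ S.wact (s ^ 4) k := by
  have h1 : (0 : ℝ) < s / Y := div_pos (Nat.cast_pos.2 (by linarith [h.s_ge])) hY
  obtain ⟨i, hi⟩ := card_pos.1 (Nat.cast_pos.1 (h1.trans_le (mem_filter.1 hk).2))
  obtain ⟨i1, rfl, rfl⟩ := mem_filter.1 hi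
  exact ⟨(h.mem_G i i1).1, S.a_mem_wact h.tl_W (mem_range.1 (h.E_sub i1))⟩

theorem tl_card_inc (h : S.Lev E G a s X) (hY : 0 < Y) (v : Pt) :
    ((S.inc E s Y v).card : ℝ) ≤ X * a := by
  rcases (S.inc E s Y v).eq_empty_or_nonempty with h0 | ⟨k, hk⟩
  · rw [h0, card_empty, Nat.cast_zero]
    exact mul_nonneg h.tl_X (Nat.cast_nonneg _)
  · exact le_trans (Nat.cast_le.2 (card_le_card fun j hj =>
      mem_filter.2 ⟨(mem_filter.1 hj).1, (h.tl_inc hY hj).2⟩)) (h.tl_nact (h.tl_inc hY hk).1)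

theorem tl_ov_le (h : S.Lev E G a s X) (hY : 0 < Y) (x : ℕ × ℕ) :
    S.ov E s Y x.1 x.2 ≤ (S.tlU G (s ^ 4) x).card :=
  card_le_card fun _ hv => mem_filter.2 ⟨(h.tl_inc hY (mem_filter.1 hv).2.1).1,
    (h.tl_inc hY (mem_filter.1 hv).2.1).2, (h.tl_inc hY (mem_filter.1 hv).2.2).2⟩

theorem tl_card_P (h : S.Lev E G a s X) : (P.card : ℝ) ≤ ((a : ℝ) * s) ^ 3 := by
  exact_mod_cast h.card_P

theorem tl_pairs (h : S.Lev E G a s X) {v : Pt} (hv : v ∈ G) {A : Finset (ℕ × ℕ)}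
    (hA : ∀ x ∈ A, x ∈ (E.image fun i => i / s ^ 4) ×ˢ (E.image fun i => i / s ^ 4) ∧
      v ∈ S.wact (s ^ 4) x.1 ∧ v ∈ S.wact (s ^ 4) x.2) : (A.card : ℝ) ≤ (X * a) ^ 2 := by
  have h1 := pow_le_pow_left₀ (Nat.cast_nonneg _) (h.tl_nact hv) 2
  rw [sq, ← Nat.cast_mul, ← card_product] at h1
  exact le_trans (Nat.cast_le.2 (card_le_card fun x hx => mem_product.2
    ⟨mem_filter.2 ⟨(mem_product.1 (hA x hx).1).1, (hA x hx).2.1⟩,
      mem_filter.2 ⟨(mem_product.1 (hA x hx).1).2, (hA x hx).2.2⟩⟩)) h1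

theorem tl_sum_U (h : S.Lev E G a s X) :
    ∑ x ∈ (E.image fun i => i / s ^ 4) ×ˢ (E.image fun i => i / s ^ 4),
      ((S.tlU G (s ^ 4) x).card : ℝ) ≤ ((a : ℝ) * s) ^ 3 * (X * a) ^ 2 := by
  unfold tlU
  refine (tl_swap _ G fun (x : ℕ × ℕ) v => v ∈ S.wact (s ^ 4) x.1 ∧ v ∈ S.wact (s ^ 4) x.2).trans_le
    ((sum_le_sum fun v hv => h.tl_pairs hv fun _ hx => mem_filter.1 hx).trans ?_)
  rw [sum_const, nsmul_eq_mul]
  gcongr
  exact (Nat.cast_le.2 (card_le_card h.G_sub)).trans h.tl_card_P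

theorem tl_card_W (h : S.Lev E G a s X) (hP : GP P) :
    ((E.image fun i => i / s ^ 4).card : ℝ) ≤ 15 * (a : ℝ) ^ 4 := by
  have ha := h.a_ge
  have hs := h.s_ge
  have h1 : (S.m : ℝ) ≤ 14 * ((a : ℝ) * s) ^ 4 :=
    dey hP S (by exact_mod_cast (by nlinarith : 1 ≤ a * s)) h.tl_card_P
  have h2 : S.m ≤ 14 * a ^ 4 * s ^ 4 := by
    rw [mul_assoc, ← mul_pow]
    exact_mod_cast h1
  have h3 : (E.image fun i => i / s ^ 4) ⊆ range (14 * a ^ 4) := fun k hk => by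
    obtain ⟨i, hi, rfl⟩ := mem_image.1 hk
    exact mem_range.2 ((Nat.div_lt_iff_lt_mul h.tl_W).2 ((mem_range.1 (h.E_sub hi)).trans_le h2))
  have h4 : ((E.image fun i => i / s ^ 4).card : ℝ) ≤ 14 * (a : ℝ) ^ 4 := by
    exact_mod_cast (card_le_card h3).trans (card_range _).le
  linarith [pow_nonneg (Nat.cast_nonneg (α := ℝ) a) 4]

theorem tl_deg (h : S.Lev E G a s X) (v : Pt) :
    ((E.filter fun i => S.a i = v).card : ℝ) ≤ X * a * (X * s) := by
  have hX := h.tl_X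
  by_cases hv : v ∈ G
  · refine (tl_fiber _ ((E.image fun i => i / s ^ 4).filter fun k => v ∈ S.wact (s ^ 4) k)
      (fun i => i / s ^ 4) (fun _ => X * s) (fun i hi => ?_) fun k _ => ?_).trans ?_
    · obtain ⟨i1, rfl⟩ := mem_filter.1 hi
      exact mem_filter.2 ⟨mem_image_of_mem _ i1, S.a_mem_wact h.tl_W (mem_range.1 (h.E_sub i1))⟩
    · refine le_trans (Nat.cast_le.2 (card_le_card fun i hi => ?_)) (h.deg_le v k)
      simp only [mem_filter] at hi ⊢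
      exact ⟨hi.1.1, hi.2, hi.1.2⟩
    · rw [sum_const, nsmul_eq_mul]
      gcongr
      exact h.tl_nact hv
  · rw [filter_false_of_mem fun i hi (e : S.a i = v) => hv (e ▸ (h.mem_G i hi).1), card_empty,
      Nat.cast_zero]
    positivity

theorem tl_sum_C (h : S.Lev E G a s X) (hP : GP P) :
    ∑ x ∈ (E.image fun i => i / s ^ 4) ×ˢ (E.image fun i => i / s ^ 4),
      ((S.tlC (S.tlE E (S.tlU G (s ^ 4) x)) (s ^ 4)).card : ℝ) ≤
      (X * a) ^ 2 * (15 * (a : ℝ) ^ 4 * (6 * (X * s ^ 3) ^ 2)) := by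
  have h1 : ((S.tlC E (s ^ 4)).card : ℝ) ≤ 15 * (a : ℝ) ^ 4 * (6 * (X * s ^ 3) ^ 2) := by
    refine (tl_fiber _ (E.image fun i => i / s ^ 4) (fun x => x.1 / s ^ 4)
      (fun _ => 6 * (X * s ^ 3) ^ 2) (fun x hx => ?_) fun k hk => ?_).trans ?_
    · exact mem_image_of_mem _ (mem_product.1 (mem_filter.1 hx).1).1
    · have h2 := crn_win hP S (S.wend_le (s ^ 4) k) (F := E.filter fun i => i / s ^ 4 = k)
        (i₀ := k * s ^ 4) fun i hi => mem_Ico.2
          ((S.mem_win_iff h.tl_W (mem_range.1 (h.E_sub (mem_filter.1 hi).1))).1 (mem_filter.1 hi).2)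
      have h3 : (S.crn (E.filter fun i => i / s ^ 4 = k) : ℝ) ≤
          6 * ((S.wact (s ^ 4) k).card : ℝ) ^ 2 := by exact_mod_cast h2
      refine le_trans (Nat.cast_le.2 (card_le_card fun x hx => ?_)) (h3.trans ?_)
      · simp only [tlC, mem_filter, mem_product] at hx ⊢
        exact ⟨⟨⟨hx.1.1.1, hx.2⟩, hx.1.1.2, hx.1.2.2 ▸ hx.2⟩, hx.1.2.1⟩
      · gcongr
        exact (h.tl_win hk).2
    · rw [sum_const, nsmul_eq_mul]
      gcongr
      exact h.tl_card_W hP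
  refine (sum_le_sum fun x _ => Nat.cast_le.2 (card_le_card (t := (S.tlC E (s ^ 4)).filter fun y =>
    S.a y.1 ∈ S.wact (s ^ 4) x.1 ∧ S.a y.1 ∈ S.wact (s ^ 4) x.2) fun y hy => ?_)).trans ?_
  · simp only [tlC, tlE, tlU, mem_filter, mem_product] at hy ⊢
    tauto
  refine (tl_swap _ (S.tlC E (s ^ 4)) fun (x : ℕ × ℕ) y =>
    S.a y.1 ∈ S.wact (s ^ 4) x.1 ∧ S.a y.1 ∈ S.wact (s ^ 4) x.2).trans_le
    ((sum_le_sum fun y hy => h.tl_pairs (h.mem_G _ (mem_product.1 (mem_filter.1 hy).1).1).1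
      fun _ hx => mem_filter.1 hx).trans ?_)
  rw [sum_const, nsmul_eq_mul, mul_comm]
  exact mul_le_mul_of_nonneg_left h1 (sq_nonneg _)

theorem tl_lower (h : S.Lev E G a s X) (hY : 0 < Y) (y : ℝ) :
    (∑ v ∈ P, (S.hvy E s Y v y : ℝ)) ^ 2 ≤ ((a : ℝ) * s) ^ 3 * (X * a) *
      (3 * ∑ v ∈ P, ∑ I ∈ S.inc E s Y v, ((tlNice (S.inc E s Y v) (S.ov E s Y) y I).card : ℝ) +
        3 * ∑ v ∈ P, (S.hvy E s Y v y : ℝ)) := by
  have ho : ∀ p q, S.ov E s Y p q = S.ov E s Y q p := fun p q => by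
    simp only [ov, and_comm]
  have hX := h.tl_X
  refine sq_sum_le_card_mul_sum_sq.trans ?_
  rw [mul_assoc, ← mul_add, ← sum_add_distrib, ← mul_assoc (X * a), mul_sum P _ (X * a * 3)]
  refine mul_le_mul h.tl_card_P (sum_le_sum fun v _ => (tl_cherry _ _ ho y).trans ?_)
    (sum_nonneg fun _ _ => sq_nonneg _) (by positivity)
  rw [← mul_add, mul_assoc]
  exact mul_le_mul_of_nonneg_right (h.tl_card_inc hY v) (by positivity)

theorem tl_lower' (y : ℝ) :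
    s / Y * ∑ v ∈ P, ∑ I ∈ S.inc E s Y v, ((tlNice (S.inc E s Y v) (S.ov E s Y) y I).card : ℝ) ≤
      ∑ i ∈ E, ((tlNice (S.inc E s Y (S.a i)) (S.ov E s Y) y (i / s ^ 4)).card : ℝ) := by
  refine le_trans ?_ (tl_fiber_le E P S.a _ fun _ => Nat.cast_nonneg _)
  rw [mul_sum]
  refine sum_le_sum fun v _ => le_trans ?_
    (tl_fiber_le _ (S.inc E s Y v) (fun i => i / s ^ 4) _ fun _ => Nat.cast_nonneg _)
  rw [mul_sum]
  refine sum_le_sum fun I hI => ?_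
  rw [sum_congr rfl (g := fun _ => ((tlNice (S.inc E s Y v) (S.ov E s Y) y I).card : ℝ))
    fun i hi => by rw [(mem_filter.1 hi).2, (mem_filter.1 (mem_filter.1 hi).1).2],
    sum_const, nsmul_eq_mul]
  gcongr
  refine (mem_filter.1 hI).2.trans (Nat.cast_le.2 (card_le_card fun i hi => ?_))
  simp only [mem_filter] at hi ⊢
  exact ⟨⟨hi.1, hi.2.2⟩, hi.2.1⟩

theorem tl_sum_sh (h : S.Lev E G a s X) (hP : GP P) (hY : 0 < Y) {θ : ℝ} (hθ : 0 ≤ θ) :
    ∑ i ∈ E, (((E.image fun i => i / s ^ 4).filter fun J => J ≠ i / s ^ 4 ∧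
      S.a i ∈ S.wact (s ^ 4) J ∧ ((S.tlR E (s ^ 4) i (S.wact (s ^ 4) J)).card : ℝ) <
        θ * S.ov E s Y (i / s ^ 4) J).card : ℝ) ≤
      X * s ^ 3 * (θ * (((a : ℝ) * s) ^ 3 * (X * a) ^ 2) + (15 * (a : ℝ) ^ 4) ^ 2) := by
  have hX := h.tl_X
  refine (tl_swap E _ fun i J => J ≠ i / s ^ 4 ∧ S.a i ∈ S.wact (s ^ 4) J ∧
    ((S.tlR E (s ^ 4) i (S.wact (s ^ 4) J)).card : ℝ) < θ * S.ov E s Y (i / s ^ 4) J).trans_le ?_
  refine (sum_le_sum fun J _ => tl_fiber _ (E.image fun i => i / s ^ 4) (fun i => i / s ^ 4)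
    (fun I => X * s ^ 3 * (θ * (S.tlU G (s ^ 4) (I, J)).card + 1))
    (fun i hi => mem_image_of_mem _ (mem_filter.1 hi).1) fun I hI => ?_).trans ?_
  · by_cases hJ : J = I
    · rw [filter_false_of_mem fun i hi e => (mem_filter.1 hi).2.1 (hJ.trans e.symm), card_empty,
        Nat.cast_zero]
      positivity
    refine le_trans (Nat.cast_le.2 (card_le_card fun i hi => ?_))
      ((tl_shallow h.tl_W h.E_sub hJ (ρ := θ * S.ov E s Y I J) (by positivity)).trans ?_)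
    · obtain ⟨i1, rfl⟩ := mem_filter.1 hi
      exact mem_filter.2 ⟨(mem_filter.1 i1).1, rfl, (mem_filter.1 i1).2.2⟩
    · gcongr
      · exact (h.tl_win hI).2
      · exact h.tl_ov_le hY (I, J)
  rw [sum_comm, ← sum_product' (f := fun I J =>
    X * s ^ 3 * (θ * ((S.tlU G (s ^ 4) (I, J)).card : ℝ) + 1)), ← mul_sum, sum_add_distrib,
    ← mul_sum, sum_const, nsmul_eq_mul, mul_one, card_product, Nat.cast_mul, ← sq]
  gcongr
  · exact h.tl_sum_U
  · exact h.tl_card_W hP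

theorem tl_upper (h : S.Lev E G a s X) (hP : GP P) (hY : 0 < Y) {θ Z : ℝ} (hθ : 0 < θ)
    (hZ : 0 < Z) :
    ∑ i ∈ E, ((tlNice (S.inc E s Y (S.a i)) (S.ov E s Y) (Z * s ^ 3 / a) (i / s ^ 4)).card : ℝ) ≤
      2 * (X * a) * (X * s ^ 3 * (θ / s ^ 2 * (((a : ℝ) * s) ^ 3 * (X * a) ^ 2) +
        (15 * (a : ℝ) ^ 4) ^ 2))
      + θ * (X * a * (X * s)) * (((a : ℝ) * s) ^ 3 * (X * a) ^ 2)
      + (6 + 288 * (a * s / (θ ^ 3 * Z)) + θ * (a * s)) * (((a : ℝ) * s) ^ 3 * (X * a) ^ 2)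
      + 144 * ((X * a) ^ 2 * (15 * (a : ℝ) ^ 4 * (6 * (X * s ^ 3) ^ 2))) / (θ * (a * s)) ^ 2 := by
  have hX := h.tl_X
  have ha : (0 : ℝ) < a := Nat.cast_pos.2 h.a_ge
  have hs : (0 : ℝ) < s := Nat.cast_pos.2 (by linarith [h.s_ge])
  set Wn := E.image fun i => i / s ^ 4 with hWn
  set y : ℝ := Z * s ^ 3 / a with hy
  have hy0 : 0 < y := by positivity
  let b : ℕ × ℕ → ℝ := fun x => θ / s ^ 2 * max y (S.ov E s Y x.1 x.2)
  have hb : ∀ x, 0 < b x := fun x => mul_pos (by positivity) (lt_max_of_lt_left hy0)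
  let Sh : ℕ → Finset ℕ := fun i => Wn.filter fun J => J ≠ i / s ^ 4 ∧
    S.a i ∈ S.wact (s ^ 4) J ∧ ((S.tlR E (s ^ 4) i (S.wact (s ^ 4) J)).card : ℝ) <
      θ / s ^ 2 * S.ov E s Y (i / s ^ 4) J
  let B : ℕ → ℕ × ℕ → Prop := fun i x => (S.ov E s Y x.1 x.2 : ℝ) < θ * (S.tlU G (s ^ 4) x).card ∧
    x.1 ∈ S.inc E s Y (S.a i) ∧ x.2 ∈ S.inc E s Y (S.a i)
  let F : ℕ → ℕ × ℕ → Prop := fun i x => θ * (S.tlU G (s ^ 4) x).card ≤ (S.ov E s Y x.1 x.2 : ℝ) ∧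
    i ∈ S.tlF E (s ^ 4) (S.tlU G (s ^ 4) x) (b x)
  have h1 : ∀ i ∈ E, ((tlNice (S.inc E s Y (S.a i)) (S.ov E s Y) y (i / s ^ 4)).card : ℝ) ≤
      2 * (X * a) * (Sh i).card + ((Wn ×ˢ Wn).filter (B i)).card +
        ((Wn ×ˢ Wn).filter (F i)).card := by
    intro i hi
    have e1 : tlNice (S.inc E s Y (S.a i)) (S.ov E s Y) y (i / s ^ 4) ⊆
        Sh i ×ˢ S.inc E s Y (S.a i) ∪ S.inc E s Y (S.a i) ×ˢ Sh i ∪ (Wn ×ˢ Wn).filter (B i) ∪
          (Wn ×ˢ Wn).filter (F i) := by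
      intro x hx
      obtain ⟨x0, n1, n2, y1, y2, o1, o2⟩ := mem_filter.1 hx
      obtain ⟨m1, m2⟩ := mem_product.1 x0
      have w1 : x.1 ∈ Wn := (mem_filter.1 m1).1
      have w2 : x.2 ∈ Wn := (mem_filter.1 m2).1
      have a1 := (h.tl_inc hY m1).2
      have a2 := (h.tl_inc hY m2).2
      simp only [mem_union]
      by_cases c1 : x.1 ∈ Sh i
      · exact Or.inl (Or.inl (Or.inl (mem_product.2 ⟨c1, m2⟩)))
      by_cases c2 : x.2 ∈ Sh i
      · exact Or.inl (Or.inl (Or.inr (mem_product.2 ⟨m1, c2⟩)))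
      by_cases c3 : (S.ov E s Y x.1 x.2 : ℝ) < θ * (S.tlU G (s ^ 4) x).card
      · exact Or.inl (Or.inr (mem_filter.2 ⟨mem_product.2 ⟨w1, w2⟩, c3, m1, m2⟩))
      refine Or.inr (mem_filter.2 ⟨mem_product.2 ⟨w1, w2⟩, not_lt.1 c3,
        tl_mem_F h.tl_W h.E_sub h.mem_G hi n1 n2 a1 a2 (hb x) ?_ ?_⟩)
      · exact le_trans (mul_le_mul_of_nonneg_left (max_le y1 (Nat.cast_le.2 o1)) (by positivity))
          (not_lt.1 fun e => c1 (mem_filter.2 ⟨w1, n1, a1, e⟩))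
      · exact le_trans (mul_le_mul_of_nonneg_left (max_le y2 (Nat.cast_le.2 o2)) (by positivity))
          (not_lt.1 fun e => c2 (mem_filter.2 ⟨w2, n2, a2, e⟩))
    have e2 := (card_le_card e1).trans ((card_union_le _ _).trans (Nat.add_le_add_right
      ((card_union_le _ _).trans (Nat.add_le_add_right (card_union_le _ _) _)) _))
    rw [card_product, card_product] at e2
    have e3 := mul_le_mul_of_nonneg_left (h.tl_card_inc hY (S.a i)) (Nat.cast_nonneg (Sh i).card)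
    have e4 := (Nat.cast_le (α := ℝ)).2 e2
    push_cast at e4
    linarith
  have h2 : ∑ i ∈ E, (((Wn ×ˢ Wn).filter (B i)).card : ℝ) ≤
      θ * (X * a * (X * s)) * (((a : ℝ) * s) ^ 3 * (X * a) ^ 2) := by
    refine (tl_swap E _ B).trans_le ?_
    refine (sum_le_sum fun x _ => ?_).trans (le_trans (mul_sum _ _ _).ge
      (mul_le_mul_of_nonneg_left h.tl_sum_U (by positivity)))
    by_cases c : (S.ov E s Y x.1 x.2 : ℝ) < θ * (S.tlU G (s ^ 4) x).card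
    · refine (tl_fiber _ (P.filter fun v => x.1 ∈ S.inc E s Y v ∧ x.2 ∈ S.inc E s Y v) S.a
        (fun _ => X * a * (X * s)) (fun i hi => ?_) fun v _ => ?_).trans ?_
      · exact mem_filter.2 ⟨S.a_mem (mem_range.1 (h.E_sub (mem_filter.1 hi).1)),
          (mem_filter.1 hi).2.2⟩
      · exact le_trans (Nat.cast_le.2 (card_le_card (filter_subset_filter _ (filter_subset _ _))))
          (h.tl_deg v)
      · rw [sum_const, nsmul_eq_mul, mul_right_comm θ]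
        exact mul_le_mul_of_nonneg_right c.le (by positivity)
    · rw [filter_false_of_mem fun i _ e => c e.1, card_empty, Nat.cast_zero]
      positivity
  have h3 : ∑ i ∈ E, (((Wn ×ˢ Wn).filter (F i)).card : ℝ) ≤
      (6 + 288 * (a * s / (θ ^ 3 * Z)) + θ * (a * s)) * (((a : ℝ) * s) ^ 3 * (X * a) ^ 2)
      + 144 * ((X * a) ^ 2 * (15 * (a : ℝ) ^ 4 * (6 * (X * s ^ 3) ^ 2))) / (θ * (a * s)) ^ 2 := by
    refine (tl_swap E _ F).trans_le ?_
    refine (sum_le_sum (g := fun x => (6 + 288 * (a * s / (θ ^ 3 * Z)) + θ * (a * s)) *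
      ((S.tlU G (s ^ 4) x).card : ℝ) + 144 * ((S.tlC (S.tlE E (S.tlU G (s ^ 4) x)) (s ^ 4)).card : ℝ)
        / (θ * (a * s)) ^ 2) fun x _ => ?_).trans ?_
    · by_cases c : θ * (S.tlU G (s ^ 4) x).card ≤ (S.ov E s Y x.1 x.2 : ℝ)
      · refine le_trans (Nat.cast_le.2 (card_le_card fun i hi => (mem_filter.1 hi).2.2))
          ((tl_F_le hP h.E_sub (U := S.tlU G (s ^ 4) x) ((filter_subset _ _).trans h.G_sub) (hb x)
            (D := θ * (a * s)) (by positivity)).trans ?_)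
        set u : ℝ := ((S.tlU G (s ^ 4) x).card : ℝ) with hu
        have hu0 : 0 ≤ u := Nat.cast_nonneg _
        have e1 : u / b x ≤ s ^ 2 / θ ^ 2 := by
          rw [div_le_iff₀ (hb x)]
          calc u = s ^ 2 / θ ^ 2 * (θ / s ^ 2 * (θ * u)) := by field_simp
            _ ≤ _ := mul_le_mul_of_nonneg_left (mul_le_mul_of_nonneg_left
              (c.trans (le_max_right _ _)) (by positivity)) (by positivity)
        have e2 : u / b x ≤ u / (θ / s ^ 2 * y) := div_le_div_of_nonneg_left hu0 (by positivity)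
          (mul_le_mul_of_nonneg_left (le_max_left _ _) (by positivity))
        have e3 : (u / b x) ^ 2 ≤ a * s / (θ ^ 3 * Z) * u := by
          calc (u / b x) ^ 2 = u / b x * (u / b x) := sq _
            _ ≤ s ^ 2 / θ ^ 2 * (u / (θ / s ^ 2 * y)) :=
              mul_le_mul e1 e2 (div_nonneg hu0 (hb x).le) (by positivity)
            _ = _ := by rw [hy]; field_simp
        linarith
      · rw [filter_false_of_mem fun i _ e => c e.1, card_empty, Nat.cast_zero]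
        positivity
    · rw [sum_add_distrib, ← mul_sum, ← sum_div, ← mul_sum]
      gcongr
      · exact h.tl_sum_U
      · exact h.tl_sum_C hP
  have h4 := mul_le_mul_of_nonneg_left (h.tl_sum_sh hP hY (θ := θ / s ^ 2) (by positivity))
    (show 0 ≤ 2 * (X * a) by positivity)
  refine (sum_le_sum h1).trans ?_
  rw [sum_add_distrib, sum_add_distrib, ← mul_sum]
  linarith

theorem tl_Z (h : S.Lev E G a s X) (hY : 0 < Y) {v : Pt} {Z : ℝ}
    (hv : S.hvy E s Y v (Z * s ^ 3 / a) ≠ 0) : Z ≤ X * a := by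
  obtain ⟨x, hx⟩ := card_ne_zero.1 hv
  obtain ⟨x1, x2⟩ := mem_filter.1 hx
  have ha : (0 : ℝ) < a := Nat.cast_pos.2 h.a_ge
  have hs : (0 : ℝ) < s := Nat.cast_pos.2 (by linarith [h.s_ge])
  have h1 : (S.ov E s Y x.1 x.2 : ℝ) ≤ X * s ^ 3 :=
    le_trans (Nat.cast_le.2 ((h.tl_ov_le hY x).trans (card_le_card fun _ hu =>
      (mem_filter.1 hu).2.1))) (h.tl_win (mem_filter.1 (mem_product.1 x1).1).1).2
  have h2 := (div_le_iff₀ ha).1 (x2.trans h1)
  exact le_of_mul_le_mul_right (h2.trans (le_of_eq (by ring))) (pow_pos hs 3)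

end Lev

end Tok

theorem overlap_tail : ∃ C₀ : ℕ, ∀ (P : Finset Pt), GP P → ∀ (S : Tok P) (E : Finset ℕ)
    (G : Finset Pt) (a s : ℕ) (X Y : ℝ), S.Lev E G a s X → X ≤ Y → Y ^ C₀ ≤ a → a ^ C₀ ≤ s →
    ∀ Z : ℝ, 1 ≤ Z → ((∑ v ∈ P, S.hvy E s Y v (Z * s ^ 3 / a) : ℕ) : ℝ) ^ 10 * Z ≤
      (Y ^ C₀ * a ^ 2 * ((a * s : ℕ) : ℝ) ^ 3) ^ 10 := by
  refine ⟨7, fun P hP S E G a s X Y h hXY _ has Z hZ => ?_⟩
  have hX := h.X_ge
  have hY : 0 < Y := by linarith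
  have ha : (1 : ℝ) ≤ a := by exact_mod_cast h.a_ge
  have hs : (0 : ℝ) < s := Nat.cast_pos.2 (by linarith [h.s_ge])
  by_contra hn
  rw [not_le] at hn
  push_cast at hn
  obtain ⟨v, -, hv⟩ : ∃ v ∈ P, S.hvy E s Y v (Z * s ^ 3 / a) ≠ 0 := by
    by_contra h0
    push Not at h0
    rw [sum_eq_zero fun v hv => by rw [h0 v hv, Nat.cast_zero]] at hn
    exact absurd hn (not_lt.2 (by simp; positivity))
  have h1 := h.tl_lower hY (Z * s ^ 3 / a)
  set T := ∑ v ∈ P, (S.hvy E s Y v (Z * s ^ 3 / a) : ℝ) with hT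
  have hT1 : T ≤ ((a : ℝ) * s) ^ 3 * (X * a) ^ 2 := by
    refine (sum_le_sum (g := fun _ => (X * a) ^ 2) fun v _ => ?_).trans ?_
    · refine le_trans (Nat.cast_le.2 (card_filter_le _ _)) ?_
      rw [card_product, Nat.cast_mul, ← sq]
      exact pow_le_pow_left₀ (Nat.cast_nonneg _) (h.tl_card_inc hY v) 2
    · rw [sum_const, nsmul_eq_mul]
      gcongr
      exact h.tl_card_P
  obtain ⟨η, hη⟩ : ∃ η : ℝ, T = η * a ^ 2 * (a * s) ^ 3 :=
    ⟨T / (a ^ 2 * (a * s) ^ 3), by field_simp⟩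
  have hc : Y ^ 70 < η ^ 10 * Z := by
    rw [hη] at hn
    refine lt_of_mul_lt_mul_right (a := (a ^ 2 * ((a : ℝ) * s) ^ 3) ^ 10) ?_ (by positivity)
    calc _ = (Y ^ 7 * a ^ 2 * ((a : ℝ) * s) ^ 3) ^ 10 := by ring
      _ < _ := hn
      _ = _ := by ring
  have hη0 : 0 < η := by
    have h0 : 0 ≤ η * (a ^ 2 * ((a : ℝ) * s) ^ 3) := by
      rw [← mul_assoc, ← hη]
      exact sum_nonneg fun _ _ => Nat.cast_nonneg _
    refine lt_of_le_of_ne (nonneg_of_mul_nonneg_left h0 (by positivity)) fun e => ?_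
    rw [← e] at hc
    exact absurd hc (not_lt.2 (by simp; positivity))
  have hη1 : η ≤ X ^ 2 := by
    refine le_of_mul_le_mul_right (a := a ^ 2 * ((a : ℝ) * s) ^ 3) ?_ (by positivity)
    calc _ = T := by rw [hη]; ring
      _ ≤ _ := hT1
      _ = _ := by ring
  rw [hη] at h1
  exact tl_arith hX hXY ha ((pow_le_pow_right₀ ha (by norm_num : 4 ≤ 7)).trans
    (by exact_mod_cast has)) hZ (h.tl_Z hY hv) hη0 hη1 hc rfl h1 (Tok.Lev.tl_lower' _)
    (h.tl_upper hP hY (by positivity) (by linarith))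

/-- most points are tail-good -/
theorem few_not_TG : ∃ C₀ : ℕ, ∀ (P : Finset Pt), GP P → ∀ (S : Tok P) (E : Finset ℕ)
    (G : Finset Pt) (a s J : ℕ) (X Y L : ℝ), S.Lev E G a s X → X ≤ Y → Y ^ C₀ ≤ a → a ^ C₀ ≤ s →
    a ≤ 2 ^ J → (J : ℝ) ≤ Y → 1 ≤ L →
    ((P.filter fun v => ¬ S.TG E a s Y (Y ^ C₀ * L) v).card : ℝ) ≤ ((a * s : ℕ) : ℝ) ^ 3 / L := by
  obtain ⟨C, hC⟩ := overlap_tail
  refine ⟨C + 4, fun P hP S E G a s J X Y L h hXY hYa has haJ hJ hL => ?_⟩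
  have hX := h.X_ge
  have hY : 0 < Y := by linarith
  have hY1 : 1 ≤ Y := by linarith
  have ha : (0 : ℝ) < a := Nat.cast_pos.2 h.a_ge
  have hs : (0 : ℝ) < s := Nat.cast_pos.2 (by linarith [h.s_ge])
  have hL0 : 0 < L := by linarith
  have h1 := hC P hP S E G a s X Y h hXY ((pow_le_pow_right₀ hY1 (by omega)).trans hYa)
    ((Nat.pow_le_pow_right h.a_ge (by omega)).trans has)
  set N : ℝ := ((a * s : ℕ) : ℝ) ^ 3 with hN
  have hN0 : 0 ≤ N := by positivity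
  let B : ℕ → Finset Pt := fun j => P.filter fun v =>
    (Y ^ (C + 4) * L * a ^ 2) ^ 10 < (S.hvy E s Y v (2 ^ j * s ^ 3 / a) : ℝ) ^ 10 * (2 * 2 ^ j)
  have h2 : (P.filter fun v => ¬ S.TG E a s Y (Y ^ (C + 4) * L) v) ⊆
      (range (2 * J + 1)).biUnion B := by
    intro v hv
    obtain ⟨v1, v2⟩ := mem_filter.1 hv
    unfold Tok.TG at v2
    push Not at v2
    obtain ⟨Z, hZ, hv⟩ := v2
    have e1 : Z ≤ X * a := h.tl_Z hY fun e => by
      rw [e] at hv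
      exact absurd hv (not_lt.2 (by simp; positivity))
    have e2 : (a : ℝ) ≤ 2 ^ J := by exact_mod_cast haJ
    have e3 : X ≤ a := hXY.trans ((le_self_pow₀ hY1 (by omega)).trans hYa)
    obtain ⟨j, j1, j2⟩ := exists_nat_pow_near hZ one_lt_two
    have e4 : (2 : ℝ) ^ j ≤ 2 ^ (2 * J) := by
      refine j1.trans (e1.trans ?_)
      rw [two_mul, pow_add]
      gcongr
      exact e3.trans e2
    refine mem_biUnion.2 ⟨j, mem_range.2 (Nat.lt_succ_of_le
      ((pow_le_pow_iff_right₀ one_lt_two).1 e4)), mem_filter.2 ⟨v1, hv.trans_le ?_⟩⟩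
    gcongr
    · refine card_le_card fun x hx => mem_filter.2 ⟨(mem_filter.1 hx).1, le_trans ?_
        (mem_filter.1 hx).2⟩
      gcongr
    · rw [← pow_succ']
      exact j2.le
  have h3 : ∀ j, ((B j).card : ℝ) ≤ 2 * N / (Y ^ 4 * L) := by
    intro j
    obtain ⟨ζ, hζ0, hζ⟩ : ∃ ζ : ℝ, 0 ≤ ζ ∧ ζ ^ 10 = 2 ^ j :=
      ⟨(2 ^ j : ℝ) ^ ((10 : ℕ) : ℝ)⁻¹, by positivity,
        Real.rpow_inv_natCast_pow (by positivity) (by norm_num)⟩
    have e1 := h1 (2 ^ j) (one_le_pow₀ one_le_two)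
    rw [← hζ, ← mul_pow, pow_le_pow_iff_left₀ (by positivity) (by positivity) (by norm_num), hζ,
      Nat.cast_sum] at e1
    have e2 : ((B j).card : ℝ) * (Y ^ (C + 4) * L * a ^ 2) ≤
        (∑ v ∈ P, (S.hvy E s Y v (2 ^ j * s ^ 3 / a) : ℝ)) * (2 * ζ) := by
      rw [← nsmul_eq_mul, ← sum_const, sum_mul]
      refine (sum_le_sum fun v hv => ?_).trans (sum_le_sum_of_subset_of_nonneg (filter_subset _ _)
        fun _ _ _ => by positivity)
      refine le_of_lt (lt_of_pow_lt_pow_left₀ 10 (by positivity) ((mem_filter.1 hv).2.trans_le ?_))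
      rw [mul_pow, mul_pow, hζ]
      gcongr
      norm_num
    rw [le_div_iff₀ (by positivity)]
    refine le_of_mul_le_mul_right (a := Y ^ C * a ^ 2) ?_ (by positivity)
    calc _ = ((B j).card : ℝ) * (Y ^ (C + 4) * L * a ^ 2) := by ring
      _ ≤ _ := e2
      _ = 2 * ((∑ v ∈ P, (S.hvy E s Y v (2 ^ j * s ^ 3 / a) : ℝ)) * ζ) := by ring
      _ ≤ 2 * (Y ^ C * a ^ 2 * N) := by gcongr
      _ = _ := by ring
  have h4 := (Nat.cast_le (α := ℝ)).2 ((card_le_card h2).trans card_biUnion_le)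
  rw [Nat.cast_sum] at h4
  refine h4.trans ((sum_le_sum fun j _ => h3 j).trans ?_)
  rw [sum_const, card_range, nsmul_eq_mul, ← mul_div_assoc, div_le_div_iff₀ (by positivity) hL0]
  have e5 : ((2 * J + 1 : ℕ) : ℝ) * 2 ≤ Y ^ 4 := by
    push_cast
    have : (2 : ℝ) ^ 3 ≤ Y ^ 3 := by gcongr; linarith
    nlinarith
  calc _ = ((2 * J + 1 : ℕ) : ℝ) * 2 * (N * L) := by ring
    _ ≤ Y ^ 4 * (N * L) := by gcongr
    _ = _ := by ring

end Vale.Agent.P065
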