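import Vale.Agent.P065.LevDefs
import Vale.Agent.P065.Meet

/-! Tokens touching a window at a central point (task R). -/

namespace Vale.Agent.P065

open Classical Finset

namespace Tok

variable {P : Finset Pt} (S : Tok P)

/-- the line of event `i` at abscissa `x` -/
def line (i : ℕ) (x : ℝ) : ℝ := ht (S.a i) (S.t i) + S.t i * x

theorem line_le {i k : ℕ} {x : ℝ} (hi : i < S.m) (hk : k < S.m) (h : S.tok k = S.tok i)
    (h₁ : (S.a i).1 ≤ x) (h₂ : x ≤ (S.b i).1) : S.line k x ≤ S.line i x := by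
  have := S.le_seg (ζ := (x, S.line i x)) hk hi h h₁ h₂ (by simp [ht, line])
  simp only [ht, line] at this ⊢
  linarith

theorem ht_a_le {i r : ℕ} (hi : i < S.m) (hr : r ≤ S.m) :
    ht (S.a i) (S.t i) ≤ ht (S.hold r (S.tok i)) (S.t i) := by
  rw [← S.hold_tok i hi]
  exact S.hold_min (S.tok_mem i hi) hi.le hr (fun k hk => S.t_le hk.le hi)
    fun k hk hm => S.t_le hk hm

theorem tile {τ : Pt} (hτ : τ ∈ S.T) (Q : Pt → Prop) {r r' : ℕ} (hr : r ≤ r') (h : r' ≤ S.m)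
    (h₁ : Q (S.hold r τ)) (h₂ : ¬ Q (S.hold r' τ)) :
    ∃ i, r ≤ i ∧ i < r' ∧ S.tok i = τ ∧ Q (S.a i) ∧ ¬ Q (S.b i) := by
  induction r', hr using Nat.le_induction with
  | base => exact absurd h₁ h₂
  | succ n hn ih =>
    by_cases hq : Q (S.hold n τ)
    · by_cases e : τ = S.tok n
      · rw [e, S.hold_tok n h] at hq
        rw [e, S.hold_succ_tok n h] at h₂
        exact ⟨n, hn, n.lt_succ_self, e.symm, hq, h₂⟩
      · exact absurd (S.hold_succ_ne n h τ hτ e ▸ hq) h₂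
    · obtain ⟨i, a, b, c⟩ := ih (n.le_succ.trans h) hq
      exact ⟨i, a, b.trans n.lt_succ_self, c⟩

theorem ne_line (hP : GP P) {i₀ i₁ i : ℕ} {u : Pt} (hu : u ∈ P) (hn : u ∉ S.act i₀ i₁)
    (h₀ : i₀ ≤ i) (h₁ : i < i₁) (hi : i < S.m) : ht (S.a i) (S.t i) ≠ ht u (S.t i) := fun e => by
  rcases hP.three _ (S.a_mem hi) _ (S.b_mem hi) _ hu _ (S.ab_ht i hi) e with h | h | h
  · exact absurd (S.ab_lt i hi) (by rw [h]; exact lt_irrefl _)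
  · exact hn (h ▸ S.a_mem_act h₀ h₁)
  · exact hn (h ▸ S.b_mem_act h₀ h₁)

theorem ht_le_of_low {i : ℕ} {u : Pt} (hi : i < S.m) (hu : u ∈ S.low i) :
    ht u (S.t i) ≤ ht (S.a i) (S.t i) := by
  obtain ⟨σ, hσ, rfl⟩ := mem_image.1 hu
  exact S.below i hi σ hσ

theorem act_line {i₀ i₁ : ℕ} {v : Pt} (h : i₁ ≤ S.m) (hv : v ∈ S.act i₀ i₁) :
    ∃ i, i₀ ≤ i ∧ i < i₁ ∧ ht v (S.t i) = ht (S.a i) (S.t i) := by
  rcases mem_union.1 hv with h' | h' <;> obtain ⟨i, hi, rfl⟩ := mem_image.1 h' <;>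
    obtain ⟨a, b⟩ := mem_Ico.1 hi
  exacts [⟨i, a, b, rfl⟩, ⟨i, a, b, (S.ab_ht i (b.trans_le h)).symm⟩]

theorem card_hold_act {r : ℕ → ℕ} (hr : ∀ k, r k ≤ S.m) (W : ℕ) (Ks : Finset ℕ) :
    ((S.T ×ˢ Ks).filter fun x => S.hold (r x.2) x.1 ∈ S.wact W x.2).card ≤
      ∑ k ∈ Ks, (S.wact W k).card := by
  rw [← card_sigma]
  refine card_le_card_of_injOn (fun x => ⟨x.2, S.hold (r x.2) x.1⟩) (fun x hx => ?_) ?_
  · obtain ⟨a, b⟩ := mem_filter.1 hx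
    exact mem_sigma.2 ⟨(mem_product.1 a).2, b⟩
  · rintro ⟨τ, k⟩ hx ⟨τ', k'⟩ hy e
    obtain ⟨rfl, e⟩ := Sigma.mk.inj e
    rw [S.hold_inj _ (hr k) τ (mem_product.1 (mem_filter.1 hx).1).1 τ'
      (mem_product.1 (mem_filter.1 hy).1).1 (eq_of_heq e)]

end Tok

/-- a token that starts below a window, passes later through an active point `v` and ends outside
the active set meets every piece of the window that starts before and ends after `v` -/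
theorem meet_of_traverse {P : Finset Pt} (hP : GP P) (S : Tok P) {i₀ i₁ r : ℕ} {τ τ' : Pt}
    (h₁ : i₁ ≤ r) (h₂ : r ≤ S.m) (hτ : τ ∈ S.T) (hτ' : τ' ∈ S.T)
    (hv : S.hold r τ ∈ S.act i₀ i₁) (hu₀ : S.hold i₁ τ ∉ S.act i₀ i₁)
    (hu₁ : S.hold S.m τ ∉ S.act i₀ i₁)
    (hl : S.sw i₀ i₁ (S.hold i₀ τ') (S.hold r τ)) (hr : S.sw i₀ i₁ (S.hold r τ) (S.hold i₁ τ')) :
    ∃ i j, i₀ ≤ i ∧ i < i₁ ∧ i₁ ≤ j ∧ j < S.m ∧ S.tok i = τ' ∧ S.tok j = τ ∧ Tok.Meet S S i j :=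
  by
  have hm := h₁.trans h₂
  obtain ⟨n, n₀, n₁, n₂⟩ := S.act_line hm hv
  have c₀ := (S.chain hτ h₁ h₂).resolve_left fun e => hu₀ (e ▸ hv)
  have c₁ := (S.chain hτ h₂ le_rfl).resolve_left fun e => hu₁ (e ▸ hv)
  have hrm := c₁.1
  have mu₀ := S.hold_mem _ hm _ hτ
  have mu₁ := S.hold_mem _ le_rfl _ hτ
  have tl : ∀ j, i₁ ≤ j → j < S.m → S.t (i₁ - 1) < S.t j := fun j a b => S.t_lt _ _ (by omega) b
  have b₀ : ∀ i, i₀ ≤ i → i < i₁ → ht (S.hold i₁ τ) (S.t i) < ht (S.a i) (S.t i) := fun i a b =>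
    (S.ht_le_of_low (b.trans_le hm) ((S.low_const hm hu₀ (by omega) le_rfl a b.le).1
      (mem_image_of_mem _ hτ))).lt_of_ne (S.ne_line hP mu₀ hu₀ a b (b.trans_le hm)).symm
  have b₁ : ∀ i, i₀ ≤ i → i < i₁ → ht (S.a i) (S.t i) < ht (S.hold S.m τ) (S.t i) := by
    intro i a b
    refine (S.above i (b.trans_le hm) _ mu₁ fun σ hσ e => ?_).lt_of_ne
      (S.ne_line hP mu₁ hu₁ a b (b.trans_le hm))
    have h₃ := S.ht_le_of_low (n₁.trans_le hm) ((S.low_const hm hu₁ a b.le n₀ n₁.le).1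
      (mem_image.2 ⟨σ, hσ, e⟩))
    have h₄ := S.t_lt n r (n₁.trans_le h₁) hrm
    obtain ⟨h₅, h₆, -⟩ := c₁.2
    rw [← n₂] at h₃
    simp only [ht] at h₃ h₆
    nlinarith
  obtain ⟨l₁, -, l₂⟩ := hl
  obtain ⟨r₁, -, r₂⟩ := hr
  obtain ⟨i', d₁, d₂, d₃, d₄, -⟩ := S.tile hτ' (· = S.hold i₀ τ') (n₀.trans n₁.le) hm rfl
    fun e => by rw [e] at r₁; linarith
  obtain ⟨j', e₁, e₂, e₃, e₄, -⟩ := S.tile hτ (· = S.hold r τ) h₂ le_rfl rfl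
    fun e => hu₁ (e ▸ hv)
  obtain ⟨j'', f₁, f₂, f₃, -, f₄⟩ := S.tile hτ (· ≠ S.hold S.m τ) h₂ le_rfl
    (fun e => hu₁ (e ▸ hv)) fun e => e rfl
  rw [not_not] at f₄
  set I := (Ico i₀ i₁).filter fun i => S.tok i = τ'
  set J := (Ico i₁ S.m).filter fun j => S.tok j = τ
  have mI : ∀ i, i ∈ I ↔ (i₀ ≤ i ∧ i < i₁) ∧ S.tok i = τ' := fun i => by simp [I]
  have mJ : ∀ j, j ∈ J ↔ (i₁ ≤ j ∧ j < S.m) ∧ S.tok j = τ := fun j => by simp [J]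
  have i'I := (mI i').2 ⟨⟨d₁, d₂⟩, d₃⟩
  have j'J := (mJ j').2 ⟨⟨h₁.trans e₁, e₂⟩, e₃⟩
  have hc : ∀ i j, IsClosed {x | S.line i x ≤ S.line j x} := fun i j =>
    isClosed_le (by unfold Tok.line; fun_prop) (by unfold Tok.line; fun_prop)
  have hL : ∀ j ∈ J, ∃ i ∈ I, S.line j (max (S.hold i₁ τ).1 (S.hold i₀ τ').1) <
      S.line i (max (S.hold i₁ τ).1 (S.hold i₀ τ').1) := fun j hj => by
    obtain ⟨⟨a, b⟩, c⟩ := (mJ j).1 hj
    refine ⟨i', i'I, ?_⟩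
    rcases max_choice (S.hold i₁ τ).1 (S.hold i₀ τ').1 with e | e <;> rw [e]
    · have g₁ := S.ht_a_le b hm
      have g₂ := b₀ i' d₁ d₂
      rw [c] at g₁
      simp only [Tok.line, ht] at g₁ g₂ ⊢
      linarith
    · have g₁ := S.ht_a_le b h₂
      have g₂ := tl j a b
      rw [c] at g₁
      simp only [Tok.line, ht, d₄] at g₁ l₂ ⊢
      nlinarith
  have hR : ∀ i ∈ I, ∃ j ∈ J, S.line i (min (S.hold S.m τ).1 (S.hold i₁ τ').1) <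
      S.line j (min (S.hold S.m τ).1 (S.hold i₁ τ').1) := fun i hi => by
    obtain ⟨⟨a, b⟩, c⟩ := (mI i).1 hi
    rcases min_choice (S.hold S.m τ).1 (S.hold i₁ τ').1 with e | e <;> rw [e]
    · refine ⟨j'', (mJ _).2 ⟨⟨h₁.trans f₁, f₂⟩, f₃⟩, ?_⟩
      have g₁ := b₁ i a b
      have g₂ := S.ab_ht j'' f₂
      simp only [Tok.line, ht, f₄] at g₁ g₂ ⊢
      linarith
    · refine ⟨j', j'J, ?_⟩
      have g₁ := S.ht_a_le (b.trans_le hm) hm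
      have g₂ := tl j' (h₁.trans e₁) e₂
      rw [c] at g₁
      simp only [Tok.line, ht, e₄] at g₁ r₂ ⊢
      nlinarith
  have hLR := (max_lt c₀.2.1 l₁).trans (lt_min c₁.2.1 r₁)
  generalize hxL : max (S.hold i₁ τ).1 (S.hold i₀ τ').1 = xL at *
  generalize hxR : min (S.hold S.m τ).1 (S.hold i₁ τ').1 = xR at *
  have cov : ∀ x, (∃ j ∈ J, ∀ i ∈ I, S.line i x ≤ S.line j x) ∨
      ∃ i ∈ I, ∀ j ∈ J, S.line j x ≤ S.line i x := fun x => by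
    obtain ⟨i, a, b⟩ := exists_max_image I (S.line · x) ⟨_, i'I⟩
    obtain ⟨j, c, d⟩ := exists_max_image J (S.line · x) ⟨_, j'J⟩
    exact (le_total (S.line i x) (S.line j x)).imp (fun h => ⟨j, c, fun k hk => (b k hk).trans h⟩)
      fun h => ⟨i, a, fun k hk => (d k hk).trans h⟩
  have nL : ¬ ∃ j ∈ J, ∀ i ∈ I, S.line i xL ≤ S.line j xL := fun ⟨j, a, b⟩ =>
    let ⟨i, c, d⟩ := hL j a
    absurd (b i c) (not_le.2 d)
  have nR : ¬ ∃ i ∈ I, ∀ j ∈ J, S.line j xR ≤ S.line i xR := fun ⟨i, a, b⟩ =>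
    let ⟨j, c, d⟩ := hR i a
    absurd (b j c) (not_le.2 d)
  obtain ⟨x, ⟨x₁, x₂⟩, x₃, x₄⟩ := isPreconnected_closed_iff.1 (isPreconnected_Icc (a := xL) (b := xR))
    (⋃ j ∈ J, ⋂ i ∈ I, {x | S.line i x ≤ S.line j x})
    (⋃ i ∈ I, ⋂ j ∈ J, {x | S.line j x ≤ S.line i x})
    (isClosed_biUnion_finset fun j _ => isClosed_biInter fun i _ => hc i j)
    (isClosed_biUnion_finset fun i _ => isClosed_biInter fun j _ => hc j i)
    (fun x _ => by simpa using cov x)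
    ⟨xR, ⟨hLR.le, le_rfl⟩, by simpa using (cov xR).resolve_right nR⟩
    ⟨xL, ⟨le_rfl, hLR.le⟩, by simpa using (cov xL).resolve_left nL⟩
  simp only [Set.mem_iUnion, Set.mem_iInter, Set.mem_ofPred_eq, exists_prop] at x₃ x₄
  have x₁' : xL < x := x₁.lt_of_ne fun e => nL (e ▸ x₃)
  have x₂' : x < xR := x₂.lt_of_ne fun e => nR (e ▸ x₄)
  rw [← hxL, max_lt_iff] at x₁'
  rw [← hxR, lt_min_iff] at x₂'
  obtain ⟨i, p₁, p₂, p₃, p₄, p₅⟩ := S.tile hτ' (·.1 ≤ x) (n₀.trans n₁.le) hm x₁'.2.le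
    (not_le.2 x₂'.2)
  obtain ⟨j, q₁, q₂, q₃, q₄, q₅⟩ := S.tile hτ (·.1 < x) hm le_rfl x₁'.1 (not_lt.2 x₂'.1.le)
  rw [not_le] at p₅
  rw [not_lt] at q₅
  obtain ⟨j₁, s₁, s₂⟩ := x₃
  obtain ⟨i₁', s₃, s₄⟩ := x₄
  have him := p₂.trans_le hm
  have t₁ := (s₂ i ((mI i).2 ⟨⟨p₁, p₂⟩, p₃⟩)).trans
    (S.line_le q₂ ((mJ _).1 s₁).1.2 (((mJ _).1 s₁).2.trans q₃.symm) q₄.le q₅)
  have t₂ := (s₄ j ((mJ j).2 ⟨⟨q₁, q₂⟩, q₃⟩)).trans (S.line_le him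
    (((mI _).1 s₃).1.2.trans_le hm) (((mI _).1 s₃).2.trans p₃.symm) p₄ p₅.le)
  refine ⟨i, j, p₁, p₂, q₁, q₂, p₃, q₃, S.t_lt _ _ (p₂.trans_le q₁) q₂, (x, S.line i x), p₄, p₅,
    q₄, q₅, by simp [ht, Tok.line], ?_⟩
  rw [t₁.antisymm t₂]
  simp [ht, Tok.line]

theorem touch_bound {P : Finset Pt} (hP : GP P) (S : Tok P) {W : ℕ} (hW : 0 < W) (Ks : Finset ℕ)
    {f : ℝ} (hf : 0 < f) :
    (((S.T ×ˢ Ks).filter fun x => ∃ r, S.wend W x.2 ≤ r ∧ r ≤ S.m ∧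
      S.hold r x.1 ∈ S.wact W x.2 ∧ f ≤ S.chi (x.2 * W) (S.wend W x.2) (S.hold r x.1)).card : ℝ) ≤
      (P.card : ℝ) ^ 2 / f + 2 * ∑ k ∈ Ks, ((S.wact W k).card : ℝ) := by
  set D := (S.T ×ˢ Ks).filter fun x => ∃ r, S.wend W x.2 ≤ r ∧ r ≤ S.m ∧
      S.hold r x.1 ∈ S.wact W x.2 ∧ f ≤ S.chi (x.2 * W) (S.wend W x.2) (S.hold r x.1)
  set C := D.filter fun x => S.hold (S.wend W x.2) x.1 ∉ S.wact W x.2 ∧
    S.hold S.m x.1 ∉ S.wact W x.2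
  set M := (range S.m ×ˢ range S.m).filter fun x => Tok.Meet S S x.1 x.2
  have h₁ : D.card ≤ C.card + (∑ k ∈ Ks, (S.wact W k).card + ∑ k ∈ Ks, (S.wact W k).card) := by
    refine le_trans (card_le_card fun x hx => ?_) ((card_union_le _ _).trans
      (Nat.add_le_add_left ((card_union_le _ _).trans (Nat.add_le_add
        (S.card_hold_act (S.wend_le W) W Ks) (S.card_hold_act (fun _ => le_rfl) W Ks))) _))
    have := (mem_filter.1 hx).1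
    simp only [C, mem_union, mem_filter (s := D), mem_filter (s := S.T ×ˢ Ks), hx, this, true_and]
    tauto
  have h₂ : ∀ x ∈ C, f ≤ (M.filter fun y => (S.tok y.2, y.1 / W) = x).card := fun x hx => by
    obtain ⟨hx, n₁, n₂⟩ := mem_filter.1 hx
    obtain ⟨hx, r, r₁, r₂, r₃, r₄⟩ := mem_filter.1 hx
    refine r₄.trans (Nat.cast_le.2 (le_trans (card_le_card fun σ hσ => ?_)
      (card_image_le (f := fun y => S.tok y.1))))
    obtain ⟨σ₁, σ₂, σ₃⟩ := mem_filter.1 hσ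
    obtain ⟨i, j, a₁, a₂, -, a₄, a₅, a₆, a₇⟩ :=
      meet_of_traverse hP S r₁ r₂ (mem_product.1 hx).1 σ₁ r₃ n₁ n₂ σ₂ σ₃
    have him := a₂.trans_le (S.wend_le _ _)
    exact mem_image.2 ⟨(i, j), mem_filter.2 ⟨mem_filter.2 ⟨mem_product.2
      ⟨mem_range.2 him, mem_range.2 a₄⟩, a₇⟩,
      Prod.ext a₆ ((S.mem_win_iff hW him).2 ⟨a₁, a₂⟩)⟩, a₅⟩
  have h₃ : (C.card : ℝ) * f ≤ (P.card : ℝ) ^ 2 := by
    rw [← nsmul_eq_mul]
    refine (card_nsmul_le_sum _ _ _ h₂).trans ?_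
    rw [← Nat.cast_sum, sum_card_fiberwise_eq_card_filter]
    exact_mod_cast (card_filter_le _ _).trans (Tok.meet_count_all hP S S)
  have h₄ : (D.card : ℝ) ≤ C.card + (∑ k ∈ Ks, ((S.wact W k).card : ℝ) +
      ∑ k ∈ Ks, ((S.wact W k).card : ℝ)) := by exact_mod_cast h₁
  linarith [(le_div_iff₀ hf).2 h₃]

/-- events whose block leaves the active set of an earlier window (of size `W'`) in which the left
endpoint is central -/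
theorem block_exit_bound {P : Finset Pt} (hP : GP P) (S : Tok P) {E : Finset ℕ}
    (hE : E ⊆ range S.m) {W W' ℓ : ℕ} (hW : 0 < W) (hW' : 0 < W') {k₁ k₂ : ℕ → ℕ}
    (hB : S.Blocks E W ℓ k₁ k₂) (Ks : Finset ℕ) {f : ℝ} (hf : 0 < f) :
    (((E ×ˢ Ks).filter fun x => S.wend W' x.2 ≤ x.1 / W * W ∧ S.a x.1 ∈ S.wact W' x.2 ∧
      f ≤ S.chi (x.2 * W') (S.wend W' x.2) (S.a x.1) ∧
      (S.hold (k₁ x.1) (S.tok x.1) ∉ S.wact W' x.2 ∨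
        S.hold (k₂ x.1) (S.tok x.1) ∉ S.wact W' x.2)).card : ℝ) ≤
      2 * ℓ * ((P.card : ℝ) ^ 2 / f + 2 * ∑ k ∈ Ks, ((S.wact W' k).card : ℝ)) := by
  refine le_trans ?_ (mul_le_mul_of_nonneg_left (touch_bound hP S hW' Ks hf) (by positivity))
  norm_cast
  have hm : ∀ i ∈ E, i < S.m := fun i hi => mem_range.1 (hE hi)
  refine card_le_mul_card_image_of_maps_to (f := fun x => (S.tok x.1, x.2)) (fun x hx => ?_) _ ?_
  · obtain ⟨a, b, c, d, -⟩ := mem_filter.1 hx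
    obtain ⟨a₁, a₂⟩ := mem_product.1 a
    refine mem_filter.2 ⟨mem_product.2 ⟨S.tok_mem _ (hm _ a₁), a₂⟩, x.1,
      b.trans (Nat.div_mul_le_self _ _), (hm _ a₁).le, ?_⟩
    rw [S.hold_tok _ (hm _ a₁)]
    exact ⟨c, d⟩
  rintro ⟨τ, k⟩ -
  let A := E.filter fun i => S.tok i = τ ∧ S.wend W' k ≤ i ∧ S.a i ∈ S.wact W' k
  have mid : ∀ i ∈ A, ∀ j ∈ A, ∀ r, i ≤ r → r ≤ j → S.hold r τ ∈ S.wact W' k := by
    intro i hi j hj r a b
    obtain ⟨i₁, i₂, i₃, i₄⟩ := mem_filter.1 hi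
    obtain ⟨j₁, j₂, -, j₄⟩ := mem_filter.1 hj
    exact S.contig_hold (i₂ ▸ S.tok_mem _ (hm _ i₁)) (S.wend_le _ _) a b (hm _ j₁).le (Or.inl i₃)
      (i₂ ▸ S.hold_tok _ (hm _ i₁) ▸ i₄) (j₂ ▸ S.hold_tok _ (hm _ j₁) ▸ j₄)
  have key : ∀ κ : ℕ → ℕ, (∀ i ∈ E, ∀ j ∈ E, k₂ i ≤ k₁ j → i ≤ κ i ∧ κ i ≤ j ∨ i ≤ κ j ∧ κ j ≤ j) →
      (A.filter fun i => S.hold (κ i) τ ∉ S.wact W' k).card ≤ ℓ := fun κ hκ => by
    rcases (A.filter fun i => S.hold (κ i) τ ∉ S.wact W' k).eq_empty_or_nonempty with e | ⟨i, hi⟩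
    · rw [e]; exact Nat.zero_le _
    obtain ⟨iA, i₀⟩ := mem_filter.1 hi
    obtain ⟨iE, i₁, -⟩ := mem_filter.1 iA
    refine (card_le_card fun j hj => ?_).trans (hB.size i iE)
    obtain ⟨jA, j₀⟩ := mem_filter.1 hj
    obtain ⟨jE, j₁, -⟩ := mem_filter.1 jA
    refine mem_filter.2 ⟨jE, j₁.trans i₁.symm, ?_⟩
    rcases hB.order j jE i iE (j₁.trans i₁.symm) with h | h | h
    · exact h.1
    · exact (hκ j jE i iE h).elim (fun c => absurd (mid j jA i iA _ c.1 c.2) j₀)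
        fun c => absurd (mid j jA i iA _ c.1 c.2) i₀
    · exact (hκ i iE j jE h).elim (fun c => absurd (mid i iA j jA _ c.1 c.2) i₀)
        fun c => absurd (mid i iA j jA _ c.1 c.2) j₀
  have c₁ := key k₁ fun i hi j hj h =>
    Or.inr ⟨(hB.range i hi).2.2.1.le.trans h, (hB.range j hj).2.1⟩
  have c₂ := key k₂ fun i hi j hj h =>
    Or.inl ⟨(hB.range i hi).2.2.1.le, h.trans (hB.range j hj).2.1⟩
  refine le_trans (card_le_card_of_injOn Prod.fst (fun x hx => ?_) ?_)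
    ((card_union_le _ _).trans ((Nat.add_le_add c₁ c₂).trans_eq (two_mul _).symm))
  · obtain ⟨hx, e⟩ := mem_filter.1 hx
    obtain ⟨a, b, c, -, d⟩ := mem_filter.1 hx
    obtain ⟨rfl, rfl⟩ := Prod.ext_iff.1 e
    have hA : x.1 ∈ A := mem_filter.2 ⟨(mem_product.1 a).1, rfl,
      b.trans (Nat.div_mul_le_self _ _), c⟩
    exact mem_union.2 (d.imp (fun h => mem_filter.2 ⟨hA, h⟩) fun h => mem_filter.2 ⟨hA, h⟩)
  · intro x hx y hy e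
    exact Prod.ext e ((Prod.ext_iff.1 (mem_filter.1 hx).2).2.trans
      (Prod.ext_iff.1 (mem_filter.1 hy).2).2.symm)

end Vale.Agent.P065
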