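import Vale.Agent.P065.Swap
import Vale.Agent.P065.Touch
import Vale.Agent.P065.Tail
import Vale.Agent.P065.SuperD

/-! The supercluster (task T). -/

namespace Vale.Agent.P065

open Classical Finset

set_option maxHeartbeats 1600000 in
theorem sup_core : ∃ C₀ : ℕ, 1 ≤ C₀ ∧ ∀ (P : Finset Pt), GP P → ∀ (S : Tok P) (E : Finset ℕ)
    (G : Finset Pt) (b s J : ℕ) (X : ℝ), S.Lev E G (b ^ 2) s X → S.Lev E G b (s * b) X →
    S.Fullw E ((s * b) ^ 4) → (((b ^ 2 : ℕ) : ℝ) * s) ^ 4 / X ≤ E.card → b ^ 2 ≤ 2 ^ J →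
    (J : ℝ) ≤ X → X ^ C₀ ≤ (b : ℝ) ^ 2 → (b ^ 2) ^ C₀ ≤ s →
    ∃ (Q : Finset Pt) (T : Finset (Pt × Pt)) (wj : Pt × Pt → ℕ),
      X ^ 9 ≤ X ^ C₀ ∧ S.SwapCfg E (b ^ 2) s (X ^ 9) (X ^ C₀) Q T wj := by
  obtain ⟨csw, hsw⟩ := many_swaps
  obtain ⟨cth, hth⟩ := few_thin_blocks
  obtain ⟨cnc, hnc⟩ := few_noncentral
  obtain ⟨ctl, htl⟩ := overlap_tail
  obtain ⟨ctg, htg⟩ := few_not_TG
  obtain ⟨eth, heth⟩ : ∃ e, (4 * cnc + 32) * cth = e := ⟨_, rfl⟩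
  obtain ⟨esw, hesw⟩ : ∃ e, (eth + 1) * csw = e := ⟨_, rfl⟩
  refine ⟨2 * (4 * cnc + 100 * ctl + 9 * ctg + eth + esw + 300), by omega, ?_⟩
  intro P hP S E G b s J X L0 L1 hfull hE hbJ hJX hXb hbs
  generalize hC : 2 * (4 * cnc + 100 * ctl + 9 * ctg + eth + esw + 300) = C₀ at hXb hbs ⊢
  have hX := L0.X_ge
  have hX0 : 0 < X := by linarith
  have hX1 : 1 ≤ X := by linarith
  have hb1 : 1 ≤ b := L1.a_ge
  have hb1r : (1 : ℝ) ≤ b := by exact_mod_cast hb1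
  have hs2 : (2 : ℝ) ≤ s := by exact_mod_cast L0.s_ge
  have hmono : ∀ e e' : ℕ, e ≤ e' → X ^ e ≤ X ^ e' := fun e e' h => pow_le_pow_right₀ hX1 h
  have key1 : ∀ e ≤ C₀, X ^ e ≤ (b : ℝ) ^ 2 := fun e he => (hmono _ _ he).trans hXb
  have key2 : ∀ e, 2 * e ≤ C₀ → X ^ e ≤ (b : ℝ) := fun e he => by
    have := key1 (e * 2) (by omega)
    rw [pow_mul] at this
    exact le_of_pow_le_pow_left₀ (by norm_num) (by linarith) this
  have keyn : ∀ e ≤ C₀, (b ^ 2) ^ e ≤ s := fun e he =>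
    (Nat.pow_le_pow_right (by positivity) he).trans hbs
  have hbs1 : (b : ℝ) ^ 2 ≤ s := by
    have := keyn 1 (by omega); rw [pow_one] at this; exact_mod_cast this
  have key3 : ∀ e ≤ C₀, X ^ e ≤ (s : ℝ) := fun e he => (key1 e he).trans hbs1
  have hss : (s : ℝ) ≤ ((s * b : ℕ) : ℝ) := by push_cast; nlinarith
  have hXY : X ≤ X ^ 9 := by simpa using hmono 1 9 (by norm_num)
  set N : ℝ := ((b ^ 2 : ℕ) : ℝ) * s with hN
  have hN' : (b : ℝ) * ((s * b : ℕ) : ℝ) = N := by rw [hN]; push_cast; ring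
  have hNa : ((b ^ 2 * s : ℕ) : ℝ) = N := by rw [hN]; push_cast; ring
  have hNb : ((b * (s * b) : ℕ) : ℝ) = N := by rw [hN]; push_cast; ring
  have hN0 : 0 < N := by rw [hN]; positivity
  have hWM : (s * b) ^ 4 = s ^ 4 * b ^ 4 := mul_pow _ _ _
  have hfull0 : S.Fullw E (s ^ 4) := by
    rw [hWM] at hfull; exact hfull.sup_fine (by positivity)
  have h8 : ∀ e : ℕ, 4 ≤ e → N ^ 4 / X ^ e ≤ N ^ 4 / (8 * X) := fun e he => by
    have h3 : (2 : ℝ) ^ 3 ≤ X ^ 3 := by gcongr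
    have : 8 * X ≤ X ^ e := le_trans (by nlinarith) (hmono 4 e he)
    gcongr
  -- the events with heavy, tail-good left endpoint
  set Ktg : ℝ := (X ^ 9) ^ ctg * X ^ 6 with hKtg
  set E₂ := E.filter fun i => (s : ℝ) / X ^ 9 ≤ S.ldeg E (s ^ 4) (S.a i) (i / s ^ 4) ∧
    S.TG E (b ^ 2) s (X ^ 9) Ktg (S.a i) with hE₂
  have hE₂E : E₂ ⊆ E := filter_subset _ _
  have hlight := L0.sup_light hP (Subset.refl E) (by positivity : 0 < X ^ 9)
  have hlight' : 15 * X * N ^ 4 / X ^ 9 ≤ N ^ 4 / (8 * X) := by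
    rw [div_le_div_iff₀ (by positivity) (by positivity)]
    have h7 : (2 : ℝ) ^ 7 ≤ X ^ 7 := by gcongr
    have : 15 * X * (8 * X) ≤ X ^ 9 := by nlinarith [sq_nonneg X]
    calc 15 * X * N ^ 4 * (8 * X) = N ^ 4 * (15 * X * (8 * X)) := by ring
      _ ≤ _ := by gcongr
  have hntg := htg P hP S E G (b ^ 2) s J X (X ^ 9) (X ^ 6) L0 hXY
    (by rw [← pow_mul]; push_cast; exact key1 _ (by omega)) (keyn _ (by omega)) hbJ (hJX.trans hXY)
    (one_le_pow₀ hX1)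
  rw [hNa] at hntg
  have hntg' : ((E.filter fun i => ¬ S.TG E (b ^ 2) s (X ^ 9) Ktg (S.a i)).card : ℝ) ≤
      N ^ 4 / (8 * X) := by
    have h1 := L0.sup_sum_left (Subset.refl E)
      (fun v => if ¬ S.TG E (b ^ 2) s (X ^ 9) Ktg v then 1 else 0)
      fun v => by split_ifs <;> norm_num
    rw [sum_boole, sum_boole] at h1
    refine h1.trans (le_trans ?_ (h8 4 le_rfl))
    calc X ^ 2 * N * ((P.filter fun v => ¬ S.TG E (b ^ 2) s (X ^ 9) Ktg v).card : ℝ)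
        ≤ X ^ 2 * N * (N ^ 3 / X ^ 6) := by gcongr
      _ = _ := by field_simp
  -- blocks
  set ℓ : ℕ := ⌊(s : ℝ) / X ^ (4 * cnc + 28)⌋₊ with hℓ
  have hℓ1 : (ℓ : ℝ) ≤ s / X ^ (4 * cnc + 28) := Nat.floor_le (by positivity)
  have hℓ0 : 1 ≤ (s : ℝ) / X ^ (4 * cnc + 28) := by
    rw [le_div_iff₀ (by positivity), one_mul]; exact key3 _ (by omega)
  have hℓpos : 0 < ℓ := Nat.floor_pos.2 hℓ0
  have hℓ2 : (s : ℝ) ≤ X ^ (4 * cnc + 32) * ℓ := by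
    have h1 : (s : ℝ) / X ^ (4 * cnc + 28) < ℓ + 1 := Nat.lt_floor_add_one _
    have h2 : (1 : ℝ) ≤ ℓ := by exact_mod_cast hℓpos
    have h3 : (2 : ℝ) ≤ X ^ 4 := hX.trans (by simpa using hmono 1 4 (by norm_num))
    rw [div_lt_iff₀ (by positivity)] at h1
    have h4 : X ^ (4 * cnc + 32) = X ^ 4 * X ^ (4 * cnc + 28) := by ring
    have h5 : 0 < X ^ (4 * cnc + 28) := by positivity
    rw [h4]
    nlinarith [mul_le_mul_of_nonneg_right (mul_le_mul h3 h2 (by norm_num) (by positivity)) h5.le,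
      mul_le_mul_of_nonneg_right (mul_le_mul_of_nonneg_right h3 (by linarith : (0 : ℝ) ≤ ℓ)) h5.le]
  obtain ⟨k₁, k₂, hB⟩ := exists_blocks S L0.E_sub L0.sup_W_pos hℓpos
  have hthin := hth P hP S E E₂ G (b ^ 2) s ℓ X (X ^ (4 * cnc + 32)) k₁ k₂ L0 hfull0 hB hE₂E
    (by simpa using hmono 1 (4 * cnc + 32) (by omega)) hℓ2
    (by rw [← pow_mul, heth]; exact key3 _ (by omega))
  rw [hNa, ← pow_mul X, heth] at hthin
  have hncen := hnc P hP S E G b (s * b) X (X ^ 4) L1 hfull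
    (by simpa using hmono 1 4 (by norm_num))
    (by rw [← pow_mul]; exact (key3 _ (by omega)).trans hss)
  rw [hNb, ← pow_mul X] at hncen
  set E₃ := E₂.filter fun i => ((s * b : ℕ) : ℝ) ^ 3 / X ^ (4 * cnc) ≤
      S.chi (i / (s * b) ^ 4 * (s * b) ^ 4) (S.wend ((s * b) ^ 4) (i / (s * b) ^ 4)) (S.a i) ∧
      (s : ℝ) ^ 4 / X ^ eth ≤ S.fat E₂ (s ^ 4) k₁ k₂ i with hE₃
  have hE₃E₂ : E₃ ⊆ E₂ := filter_subset _ _
  have hE₃c : N ^ 4 / (2 * X) ≤ E₃.card := by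
    have hsub : E ⊆ E₃ ∪
        (E.filter fun i => (S.ldeg E (s ^ 4) (S.a i) (i / s ^ 4) : ℝ) < s / X ^ 9) ∪
        (E.filter fun i => ¬ S.TG E (b ^ 2) s (X ^ 9) Ktg (S.a i)) ∪
        (E₂.filter fun i => (S.fat E₂ (s ^ 4) k₁ k₂ i : ℝ) < s ^ 4 / X ^ eth) ∪
        (E.filter fun i => (S.chi (i / (s * b) ^ 4 * (s * b) ^ 4)
          (S.wend ((s * b) ^ 4) (i / (s * b) ^ 4)) (S.a i) : ℝ) <
          ((s * b : ℕ) : ℝ) ^ 3 / X ^ (4 * cnc)) := by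
      intro i hi
      simp only [mem_union]
      by_cases c1 : (S.ldeg E (s ^ 4) (S.a i) (i / s ^ 4) : ℝ) < s / X ^ 9
      · exact Or.inl (Or.inl (Or.inl (Or.inr (mem_filter.2 ⟨hi, c1⟩))))
      by_cases c2 : ¬ S.TG E (b ^ 2) s (X ^ 9) Ktg (S.a i)
      · exact Or.inl (Or.inl (Or.inr (mem_filter.2 ⟨hi, c2⟩)))
      have hi2 : i ∈ E₂ := mem_filter.2 ⟨hi, not_lt.1 c1, not_not.1 c2⟩
      by_cases c3 : (S.fat E₂ (s ^ 4) k₁ k₂ i : ℝ) < s ^ 4 / X ^ eth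
      · exact Or.inl (Or.inr (mem_filter.2 ⟨hi2, c3⟩))
      by_cases c4 : (S.chi (i / (s * b) ^ 4 * (s * b) ^ 4)
          (S.wend ((s * b) ^ 4) (i / (s * b) ^ 4)) (S.a i) : ℝ) <
          ((s * b : ℕ) : ℝ) ^ 3 / X ^ (4 * cnc)
      · exact Or.inr (mem_filter.2 ⟨hi, c4⟩)
      · exact Or.inl (Or.inl (Or.inl (Or.inl (mem_filter.2 ⟨hi2, not_lt.1 c4, not_lt.1 c3⟩))))
    have h1 := (card_le_card hsub).trans ((card_union_le _ _).trans (Nat.add_le_add_right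
      ((card_union_le _ _).trans (Nat.add_le_add_right ((card_union_le _ _).trans
        (Nat.add_le_add_right (card_union_le _ _) _)) _)) _))
    have h2 := (Nat.cast_le (α := ℝ)).2 h1
    simp only [Nat.cast_add] at h2
    have h3 := h8 (4 * cnc + 32) (by omega)
    have h4 := h8 4 le_rfl
    have h5 : N ^ 4 / X = N ^ 4 / (2 * X) + 4 * (N ^ 4 / (8 * X)) := by field_simp; ring
    linarith
  -- the tail at the coarse level
  set z : ℝ := X ^ (9 * ctl + 21) with hz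
  have hz1 : 1 ≤ z := one_le_pow₀ hX1
  have htail := htl P hP S E G b (s * b) X (X ^ 9) L1 hXY
    (by rw [← pow_mul]; exact key2 _ (by omega))
    (by
      have h1 := keyn ctl (by omega)
      have h2 : b ^ ctl ≤ (b ^ 2) ^ ctl := Nat.pow_le_pow_left (by nlinarith) _
      exact (h2.trans h1).trans (Nat.le_mul_of_pos_right _ hb1))
    (z ^ 10) (one_le_pow₀ hz1)
  rw [hNb, ← mul_pow] at htail
  have htail2 := le_of_pow_le_pow_left₀ (by norm_num) (by positivity) htail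
  obtain ⟨Ω, Ω', Sel, hSel, hne, hprop, hy1, hy2⟩ := L1.sup_pair hP L0.sup_W_pos hWM
    (hE₃E₂.trans hE₂E) (by rw [hN']; exact hE₃c)
    (by
      have h4 : (2 : ℝ) ^ 4 ≤ X ^ 4 := by gcongr
      refine le_trans ?_ (key2 6 (by omega))
      nlinarith [sq_nonneg X])
    hB (K₅ := X ^ (4 * cnc)) (y := z ^ 10 * ((s * b : ℕ) : ℝ) ^ 3 / b) (one_le_pow₀ hX1)
    (fun i hi => (mem_filter.1 hi).2.1)
    (by
      rw [le_div_iff₀ (by positivity)] at hℓ1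
      push_cast
      have : (ℓ : ℝ) * X ^ (4 * cnc) * X ^ 28 = ℓ * X ^ (4 * cnc + 28) := by ring
      rw [this]; gcongr)
    (by
      rw [hN', le_div_iff₀ (by positivity), ← Nat.cast_sum]
      have h1 : z = (X ^ 9) ^ ctl * X ^ 21 := by rw [hz]; ring
      have h2 : 0 < (X ^ 9) ^ ctl := by positivity
      refine le_of_mul_le_mul_left ?_ h2
      calc _ = ((∑ v ∈ P, S.hvy E (s * b) (X ^ 9) v (z ^ 10 * ((s * b : ℕ) : ℝ) ^ 3 / b) : ℕ) : ℝ) *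
            z := by rw [h1]; ring
        _ ≤ _ := htail2
        _ = _ := by ring)
  rw [hN'] at hy2
  set Q := G.filter fun v => v ∈ S.wact ((s * b) ^ 4) Ω ∧ v ∈ S.wact ((s * b) ^ 4) Ω' with hQ
  have hSelE : Sel ⊆ E := hSel.trans (hE₃E₂.trans hE₂E)
  obtain ⟨T, wj, hT, hTm⟩ := L0.sup_graph hE₂E hSelE (k₁ := k₁) (k₂ := k₂) (Q := Q)
    (g := (s : ℝ) ^ 6 / X ^ esw) (by positivity)
    (by
      intro i hi j hj h1 h2
      obtain ⟨p1, p2, p3, p4, p5, p6⟩ := hprop i hi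
      have hm : i / s ^ 4 * s ^ 4 < S.m :=
        lt_of_le_of_lt (Nat.div_mul_le_self _ _) (L0.sup_lt (hSelE hi))
      have hjP := S.a_mem (L0.sup_lt (hE₂E hj))
      exact mem_filter.2 ⟨(L0.mem_G j (hE₂E hj)).1, S.contig_later p1 hm hjP p3 p4 h1 h2,
        S.contig_later p2 hm hjP p5 p6 h1 h2⟩)
    (by
      intro i hi F hF
      have hfat : (s : ℝ) ^ 4 / X ^ eth ≤ F.card := by
        rw [hF]; exact (mem_filter.1 (hSel hi)).2.2
      have hXX : X ≤ X ^ (eth + 1) := by simpa using hmono 1 (eth + 1) (by omega)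
      have hFsub : ∀ j ∈ F, j ∈ E ∧ j / s ^ 4 = i / s ^ 4 := fun j hj => by
        rw [hF] at hj; exact ⟨hE₂E (mem_filter.1 hj).1, (mem_filter.1 hj).2.1⟩
      have := hsw P hP S F (i / s ^ 4 * s ^ 4) (S.wend (s ^ 4) (i / s ^ 4)) s (X ^ (eth + 1))
        (hX.trans hXX) (by rw [← pow_mul, hesw]; exact key3 _ (by omega)) (S.wend_le _ _)
        (fun j hj => mem_Ico.2 ((S.mem_win_iff L0.sup_W_pos (L0.sup_lt (hFsub j hj).1)).1
          (hFsub j hj).2))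
        ((L0.act_le i (hSelE hi)).trans (by gcongr))
        (fun v => le_trans (le_trans (Nat.cast_le.2 (card_le_card fun j hj => mem_filter.2
          ⟨(hFsub j (mem_filter.1 hj).1).1, (hFsub j (mem_filter.1 hj).1).2,
            (mem_filter.1 hj).2⟩)) (L0.deg_le v (i / s ^ 4))) (by gcongr))
        (le_trans (by gcongr; omega) hfat)
      rw [← pow_mul, hesw] at this
      exact this)
  have hTQ : (T.card : ℝ) ≤ (Q.card : ℝ) ^ 2 := by
    have : T ⊆ Q ×ˢ Q := fun x hx => mem_product.2 ⟨(hTm x hx).1, (hTm x hx).2.1⟩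
    have := card_le_card this
    rw [card_product] at this
    rw [sq]; exact_mod_cast this
  set M : ℝ := ((b ^ 2 : ℕ) : ℝ) * s ^ 3 with hM
  have hM0 : 0 < M := by rw [hM]; positivity
  have hT1 : (Q.card : ℝ) * (M / X ^ (esw + 20)) ≤ T.card := by
    have h1 : (Q.card : ℝ) * N / X ^ 20 * ((s : ℝ) ^ 6 / X ^ esw) ≤ s ^ 4 * T.card :=
      le_trans (by gcongr) hT
    have h2 : (Q.card : ℝ) * N / X ^ 20 * ((s : ℝ) ^ 6 / X ^ esw) =
        s ^ 4 * ((Q.card : ℝ) * (M / X ^ (esw + 20))) := by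
      rw [hM, hN]; field_simp; ring
    rw [h2] at h1
    exact le_of_mul_le_mul_left h1 (by positivity)
  have hT0 : (0 : ℝ) < T.card := by
    have h1 : (0 : ℝ) < Sel.card := by exact_mod_cast hne.card_pos
    have h2 : 0 < (Sel.card : ℝ) * ((s : ℝ) ^ 6 / X ^ esw) := by positivity
    have h3 : (0 : ℝ) < (s : ℝ) ^ 4 := by positivity
    exact (mul_pos_iff_of_pos_left h3).1 (h2.trans_le hT)
  have hQ0 : (0 : ℝ) < Q.card := by
    by_contra h0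
    have : (Q.card : ℝ) = 0 := le_antisymm (not_lt.1 h0) (by positivity)
    rw [this] at hTQ; norm_num at hTQ; rw [hTQ] at hT0; simp at hT0
  have hQ1 : M / X ^ (esw + 20) ≤ Q.card := by
    have := hT1.trans hTQ
    rw [sq] at this
    exact le_of_mul_le_mul_left this hQ0
  refine ⟨Q, T, wj, hmono _ _ (by omega), ?_, ?_, ?_, ?_⟩
  · refine hy1.trans ?_
    have : X ^ 23 * (z ^ 10 * ((s * b : ℕ) : ℝ) ^ 3 / b) = X ^ (90 * ctl + 233) * M := by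
      rw [hz, hM]; push_cast; field_simp; ring
    rw [this]
    exact mul_le_mul_of_nonneg_right (hmono _ _ (by omega)) hM0.le
  · calc M ^ 2 / X ^ C₀ ≤ M ^ 2 / X ^ ((esw + 20) * 2) := by gcongr; omega
      _ = M / X ^ (esw + 20) * (M / X ^ (esw + 20)) := by rw [pow_mul]; field_simp
      _ ≤ Q.card * (M / X ^ (esw + 20)) := by gcongr
      _ ≤ _ := hT1
  · intro x hx
    obtain ⟨h1, h2, h3, ⟨j, hj, hjw, hja⟩, ⟨j', hj', hjw', hja'⟩⟩ := hTm x hx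
    refine ⟨h1, h2, mem_filter.2 ⟨mem_image.2 ⟨j, hE₂E hj, hjw⟩, ?_⟩,
      mem_filter.2 ⟨mem_image.2 ⟨j', hE₂E hj', hjw'⟩, ?_⟩, h3⟩
    · rw [← hjw, ← hja]; exact (mem_filter.1 hj).2.1
    · rw [← hjw', ← hja']; exact (mem_filter.1 hj').2.1
  · intro x hx
    obtain ⟨-, -, -, ⟨j, hj, -, hja⟩, ⟨j', hj', -, hja'⟩⟩ := hTm x hx
    have hK : Ktg ≤ X ^ C₀ := by
      rw [hKtg, ← pow_mul, ← pow_add]; exact hmono _ _ (by omega)
    exact ⟨hja ▸ (mem_filter.1 hj).2.2.sup_mono (by positivity) hK,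
      hja' ▸ (mem_filter.1 hj').2.2.sup_mono (by positivity) hK⟩

theorem exists_swapCfg : ∃ C₀ : ℕ, 1 ≤ C₀ ∧ ∀ (P : Finset Pt), GP P → ∀ (S : Tok P) (E : Finset ℕ)
    (G : Finset Pt) (I u : ℕ) (X : ℝ), S.Good E G I u X → X ^ C₀ ≤ 4 ^ I → (4 ^ I) ^ C₀ ≤ u →
    ∃ (Y : ℝ) (Q : Finset Pt) (T : Finset (Pt × Pt)) (wj : Pt × Pt → ℕ),
      X ≤ Y ∧ Y ≤ X ^ C₀ ∧ S.SwapCfg E (4 ^ I) (4 ^ I * u) Y (X ^ C₀) Q T wj := by
  obtain ⟨C₀, hC, h⟩ := sup_core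
  refine ⟨C₀, hC, fun P hP S E G I u X hG hXa hau => ?_⟩
  have h4 : (2 ^ I) ^ 2 = 4 ^ I := by rw [← pow_mul, mul_comm, pow_mul]; norm_num
  have L0 := hG.lev 0 (by omega)
  have L1 := hG.lev I (by omega)
  rw [show 2 * I - 0 = I * 2 by omega, pow_mul, pow_zero, mul_one] at L0
  rw [show 2 * I - I = I by omega] at L1
  have hX := L0.X_ge
  obtain ⟨Q, T, wj, h1, h2⟩ := h P hP S E G (2 ^ I) (4 ^ I * u) (2 * I) X L0 L1 hG.full
    (by
      have := hG.card_E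
      rw [h4]
      push_cast at this ⊢
      rwa [← mul_assoc])
    (by rw [← pow_mul, mul_comm])
    (le_trans (by push_cast; linarith) hG.I_le)
    (by rw [← Nat.cast_pow, h4]; exact_mod_cast hXa)
    (by rw [h4]; exact hau.trans (Nat.le_mul_of_pos_left _ (by positivity)))
  rw [h4] at h2
  exact ⟨X ^ 9, Q, T, wj, by simpa using pow_le_pow_right₀ (by linarith : 1 ≤ X) (by norm_num : 1 ≤ 9),
    h1, h2⟩

end Vale.Agent.P065
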