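import Vale.Agent.P065.Unif1Cnt

/-! Finding a common affine scale (task J). -/

namespace Vale.Agent.P065

open Classical Finset

variable {ι : Type} {C Q : Finset ι} {Z : Finset (ι × ι)} {s κ μ : ι → ℝ} {win : ι × ι → ℕ}
  {lo hi : ℕ → ℝ} {inc : ι → Finset ℕ} {I E : ℕ} {c K : ℝ}

theorem unif1_four {a b c d : ℝ} (h1 : a < b) (h2 : b < c) (h3 : c < d) :
    0 < (d - c) / (d - a) ∧ (d - c) / (d - a) ≤ (d - b) / (d - a) ∧ (d - b) / (d - a) < 1 :=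
  ⟨div_pos (by linarith) (by linarith), div_le_div_of_nonneg_right (by linarith) (by linarith),
    (div_lt_one (by linarith)).mpr (by linarith)⟩

theorem unif1_aff {s₁ s₂ x : ℝ} (h : 0 < (s₂ - x) / (s₂ - s₁)) (κ μ κ' μ' : ℝ) :
    κ * x + μ - (κ' * x + μ') = (s₂ - x) / (s₂ - s₁) * (κ * s₁ + μ - (κ' * s₁ + μ')) +
      (1 - (s₂ - x) / (s₂ - s₁)) * (κ * s₂ + μ - (κ' * s₂ + μ')) := by
  have h1 : s₂ - s₁ ≠ 0 := fun h0 => by simp [h0] at h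
  field_simp
  ring

theorem unif1_ref (W : WinCfg C Q Z s κ μ win lo hi inc I E c K) (ha : K ^ 1100 ≤ 4 ^ I) :
    ∃ p₁ p₀ p₂, ∃ Z₁ ⊆ Z, 4 ^ I * c * ((4 ^ I) ^ 2 * c) / K ^ 27 ≤ Z₁.card ∧ ∀ z ∈ Z₁,
      (p₁, z.2) ∈ Z ∧ (p₀, z.2) ∈ Z ∧ (p₂, z.2) ∈ Z ∧
      (0 < (s p₂ - s z.1) / (s p₂ - s p₁) ∧
        (s p₂ - s z.1) / (s p₂ - s p₁) ≤ (s p₂ - s p₀) / (s p₂ - s p₁) ∧
        (s p₂ - s p₀) / (s p₂ - s p₁) < 1) ∧
      hi (win z) - lo (win z) ≤ hi (win (p₀, z.2)) - lo (win (p₀, z.2)) ∧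
      ULight Z win (K ^ 320 * c) p₁ p₀ z.2 ∧ ULight Z win (K ^ 320 * c) p₁ p₂ z.2 ∧
      ULight Z win (K ^ 320 * c) p₀ p₂ z.2 := by
  have hK := W.K_ge
  have hc := W.c_ge
  set H := (C ×ˢ C ×ˢ Q).filter fun x => (x.1, x.2.2) ∈ Z ∧ (x.2.1, x.2.2) ∈ Z ∧
    (K ^ 32) ^ 10 * c ≤ wov Q inc (win (x.1, x.2.2)) (win (x.2.1, x.2.2)) with hH
  have h1 := aux_wheavy W (t := K ^ 32) (one_le_pow₀ (by linarith)) H fun x hx =>
    (mem_filter.mp hx).2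
  have h2 : ∀ p p' q, (p, q) ∈ Z → (p', q) ∈ Z → (p, p', q) ∉ H →
      ULight Z win (K ^ 320 * c) p p' q := fun p p' q k1 k2 k3 T k4 => by
    have k5 := mem_product.mp (W.sub k1)
    rw [show K ^ 320 = (K ^ 32) ^ 10 by ring]
    refine le_trans ?_ (le_of_not_ge fun k6 => k3 (mem_filter.mpr ⟨mem_product.mpr
      ⟨k5.1, mem_product.mpr ⟨(mem_product.mp (W.sub k2)).1, k5.2⟩⟩, k1, k2, k6⟩))
    refine Nat.cast_le.mpr (card_le_card fun q' hq' => mem_filter.mpr ?_)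
    obtain ⟨k6, k7, k8, k9⟩ := k4 q' hq'
    exact ⟨(mem_product.mp (W.sub k6)).2, k8 ▸ (W.mem _ k6).2.1, k9 ▸ (W.mem _ k7).2.1⟩
  obtain ⟨p₁, p₀, p₂, Z₁, h3, h4, h5⟩ := aux_ref C Q Z s hK W.sub W.s_inj W.card_C W.card_Q
    W.card_Z (((aux_pow hK 4 (by norm_num) (by norm_num)).trans ha).trans
      (le_mul_of_one_le_right (by positivity) hc)) (by positivity)
    (fun p₁ p₀ p₂ p q => (0 < (s p₂ - s p) / (s p₂ - s p₁) ∧
      (s p₂ - s p) / (s p₂ - s p₁) ≤ (s p₂ - s p₀) / (s p₂ - s p₁) ∧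
      (s p₂ - s p₀) / (s p₂ - s p₁) < 1) ∧
      hi (win (p, q)) - lo (win (p, q)) ≤ hi (win (p₀, q)) - lo (win (p₀, q))) (fun q y hy _ => by
      rcases le_total (hi (win (y 2, q)) - lo (win (y 2, q))) (hi (win (y 1, q)) - lo (win (y 1, q)))
        with h | h
      · exact ⟨0, 1, 3, 2, 4, by decide,
          unif1_four (hy (by decide)) (hy (by decide)) (hy (by decide)), h⟩
      · have h2 := unif1_four (a := -s (y 3)) (b := -s (y 2)) (c := -s (y 1)) (d := -s (y 0))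
          (neg_lt_neg (hy (by decide))) (neg_lt_neg (hy (by decide))) (neg_lt_neg (hy (by decide)))
        simp only [← neg_sub', neg_div_neg_eq] at h2
        exact ⟨3, 2, 0, 1, 4, by decide, h2, h⟩) H (by
      rw [le_div_iff₀ (by positivity)]
      exact le_of_mul_le_mul_left (by linarith) (by positivity : 0 < K ^ 4))
  refine ⟨p₁, p₀, p₂, Z₁, h3, h4, fun z hz => ?_⟩
  obtain ⟨k1, k2, k3, k4, k5, k6, k7, -⟩ := h5 z hz
  exact ⟨k1, k2, k3, k4.1, k4.2, h2 _ _ _ k1 k2 k5, h2 _ _ _ k1 k3 k6, h2 _ _ _ k2 k3 k7⟩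

theorem unif1_half {X : Type} (S : Finset X) (P : X → Prop) :
    ∃ T ⊆ S, (S.card : ℝ) / 2 ≤ T.card ∧ ((∀ x ∈ T, P x) ∨ ∀ x ∈ T, ¬ P x) := by
  by_cases h : ((S.filter P).card : ℝ) ≤ S.card / 2
  · obtain ⟨T, h1, h2, h3⟩ := aux_remove S P (m := S.card / 2) (b := S.card / 2) (by linarith)
      fun T h1 h2 => le_trans (Nat.cast_le.mpr (card_le_card fun x hx =>
        mem_filter.mpr ⟨h1 hx, h2 x hx⟩)) h
    exact ⟨T, h1, h2, Or.inr h3⟩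
  · exact ⟨_, filter_subset P S, (not_le.mp h).le, Or.inl fun x hx => (mem_filter.mp hx).2⟩

theorem unif1_scale (W : WinCfg C Q Z s κ μ win lo hi inc I E c K) (ha : K ^ 1100 ≤ 4 ^ I) :
    ∃ p₁ p₂ β g t L R, UBlk Z win lo hi p₂ g t L R (K * 4 ^ I) (K ^ 357) ∧ ∃ Z₂ ⊆ Z,
      4 ^ I * c * ((4 ^ I) ^ 2 * c) / K ^ 382 ≤ Z₂.card ∧ ∀ z ∈ Z₂, (p₁, z.2) ∈ Z ∧ (p₂, z.2) ∈ Z ∧
      0 < (s p₂ - s z.1) / (s p₂ - s p₁) ∧ (s p₂ - s z.1) / (s p₂ - s p₁) < 1 ∧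
      hi (win z) - lo (win z) ≤ (1 - (s p₂ - s z.1) / (s p₂ - s p₁)) * β ∧
      (s p₂ - s z.1) / (s p₂ - s p₁) * (hi (win (p₁, z.2)) - lo (win (p₁, z.2))) ≤
        (1 - (s p₂ - s z.1) / (s p₂ - s p₁)) * β ∧
      β ≤ R (g (win (p₂, z.2))) - L (g (win (p₂, z.2))) ∧ ULight Z win (K ^ 320 * c) p₁ p₂ z.2 := by
  have hK := W.K_ge
  have hc := W.c_ge
  obtain ⟨p₁, p₀, p₂, Z₁, h1, h2, h3⟩ := unif1_ref W ha
  obtain ⟨g, t, L, R, hB⟩ := unif1_blocks W (X := K ^ 357) (one_le_pow₀ (by linarith))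
    (((pow_le_pow_right₀ (by linarith) (by norm_num)).trans ha).trans
      (le_mul_of_one_le_left (by positivity) (by linarith))) p₂
  set l := (s p₂ - s p₀) / (s p₂ - s p₁) with hl
  obtain ⟨z₀, hz₀⟩ : Z₁.Nonempty := card_pos.mp (Nat.cast_pos.mp (lt_of_lt_of_le (by positivity) h2))
  have l0 : 0 < l := (h3 z₀ hz₀).2.2.2.1.1.trans_le (h3 z₀ hz₀).2.2.2.1.2.1
  have l1 : l < 1 := (h3 z₀ hz₀).2.2.2.1.2.2
  obtain ⟨T, h4, h5, h6⟩ := unif1_half Z₁ fun z => 1 * (hi (win (p₀, z.2)) - lo (win (p₀, z.2))) ≤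
    l * (hi (win (p₁, z.2)) - lo (win (p₁, z.2)))
  have h7 : 4 ^ I * c * ((4 ^ I) ^ 2 * c) / K ^ 28 ≤ T.card :=
    calc _ = 4 ^ I * c * ((4 ^ I) ^ 2 * c) / K ^ 27 / K := by field_simp
      _ ≤ (Z₁.card : ℝ) / 2 := by gcongr
      _ ≤ _ := h5
  have key : ∃ δ, ∃ Z₂ ⊆ T, 4 ^ I * c * ((4 ^ I) ^ 2 * c) / K ^ 382 ≤ Z₂.card ∧ ∀ z ∈ Z₂,
      (hi (win (p₀, z.2)) - lo (win (p₀, z.2)) ≤ δ ∧
        l * (hi (win (p₁, z.2)) - lo (win (p₁, z.2))) ≤ δ) ∧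
      δ ≤ (1 - l) * (R (g (win (p₂, z.2))) - L (g (win (p₂, z.2)))) := by
    rcases h6 with h6 | h6
    · obtain ⟨δ, Z₂, k1, k2, k3⟩ := unif1_delta W p₁ p₀ p₂ l0 one_pos (sub_pos.mpr l1) hB
        (h4.trans h1) h7 (fun z hz => by
          obtain ⟨k1, k2, k3, -, -, k4, k5, -⟩ := h3 z (h4 hz)
          exact ⟨k1, k2, k3, k4, k5, h6 z hz⟩) fun q q' => by
          rw [unif1_aff l0]
          exact (unif1_tri l0.le l1.le).2.1
      exact ⟨δ, Z₂, k1, k2, fun z hz => ⟨⟨by linarith [h6 z (k1 hz), (k3 z hz).1], (k3 z hz).1⟩,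
        (k3 z hz).2⟩⟩
    · obtain ⟨δ, Z₂, k1, k2, k3⟩ := unif1_delta W p₀ p₁ p₂ one_pos l0 (sub_pos.mpr l1) hB
        (h4.trans h1) h7 (fun z hz => by
          obtain ⟨k1, k2, k3, -, -, k4, -, k5⟩ := h3 z (h4 hz)
          exact ⟨k2, k1, k3, k4.symm, k5, (not_le.mp (h6 z hz)).le⟩) fun q q' => by
          rw [unif1_aff l0]
          exact (unif1_tri l0.le l1.le).1
      exact ⟨δ, Z₂, k1, k2, fun z hz => ⟨⟨by linarith [(k3 z hz).1],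
        by linarith [h6 z (k1 hz), (k3 z hz).1]⟩, (k3 z hz).2⟩⟩
  obtain ⟨δ, Z₂, k1, k2, k3⟩ := key
  refine ⟨p₁, p₂, δ / (1 - l), g, t, L, R, hB, Z₂, k1.trans (h4.trans h1), k2, fun z hz => ?_⟩
  obtain ⟨m1, m2, m3, ⟨m4, m5, -⟩, m6, -, m7, -⟩ := h3 z (h4 (k1 hz))
  obtain ⟨⟨m8, m9⟩, m10⟩ := k3 z hz
  have m11 : 0 < δ := (sub_pos.mpr (W.lo_lt _ m2)).trans_le m8
  have m12 : δ ≤ (1 - (s p₂ - s z.1) / (s p₂ - s p₁)) * (δ / (1 - l)) := by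
    rw [← mul_div_assoc, le_div_iff₀ (by linarith), mul_comm]
    gcongr
  refine ⟨m1, m3, m4, m5.trans_lt l1, m6.trans (m8.trans m12), le_trans ?_ (m9.trans m12),
    (div_le_iff₀' (by linarith)).mpr m10, m7⟩
  exact mul_le_mul_of_nonneg_right m5 (sub_pos.mpr (W.lo_lt _ m1)).le

theorem scaled_of_win : ∃ C₀ : ℕ, ∀ (ι : Type) (C Q : Finset ι) (Z : Finset (ι × ι)) (s κ μ : ι → ℝ)
    (win : ι × ι → ℕ) (lo hi : ℕ → ℝ) (inc : ι → Finset ℕ) (I E : ℕ) (c K : ℝ),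
    WinCfg C Q Z s κ μ win lo hi inc I E c K → K ^ C₀ ≤ 4 ^ I →
    ∃ (Z' : Finset (ι × ι)) (γ s₁ : ℝ),
      Scaled Z Z' s win lo hi γ s₁ ((4 ^ I * c) * ((4 ^ I) ^ 2 * c)) (K ^ C₀) := by
  refine ⟨1100, fun ι C Q Z s κ μ win lo hi inc I E c K W ha => ?_⟩
  have hK := W.K_ge
  have hc := W.c_ge
  obtain ⟨p₁, p₂, β, g₂, t₂, L₂, R₂, hB₂, Z₂, h1, h2, h3⟩ := unif1_scale W ha
  choose g t L R hB using unif1_blocks W (X := K ^ 1068) (one_le_pow₀ (by linarith))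
    (((pow_le_pow_right₀ (by linarith) (by norm_num)).trans ha).trans
      (le_mul_of_one_le_left (by positivity) (by linarith)))
  set l : ι → ℝ := fun p => (s p₂ - s p) / (s p₂ - s p₁) with hl
  set M := 4 ^ I * c * ((4 ^ I) ^ 2 * c) with hM
  have hM0 : 0 < M := by positivity
  have hin : ∀ {p g t L R A X}, UBlk Z win lo hi p g t L R A X → ∀ q, (p, q) ∈ Z →
      L (g (win (p, q))) ≤ κ q * s p + μ q ∧ κ q * s p + μ q ≤ R (g (win (p, q))) :=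
    fun hB q h => ⟨(hB.hull q h).1.trans (W.mem _ h).2.2.1, (W.mem _ h).2.2.2.trans (hB.hull q h).2⟩
  obtain ⟨Z₃, h4, h5, h6⟩ := aux_remove Z₂ (fun z => R z.1 (g z.1 (win z)) - L z.1 (g z.1 (win z)) <
      (1 - l z.1) * β) (m := M / K ^ 383) (b := M / K ^ 383) (by
    calc M / K ^ 383 + M / K ^ 383 = M / K ^ 382 * (2 / K) := by field_simp; norm_num
      _ ≤ M / K ^ 382 * 1 := by
        gcongr
        exact (div_le_one (by linarith)).mpr hK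
      _ ≤ _ := by rwa [mul_one]) fun T k1 k2 => by
    refine (aux_fib T C Prod.fst (fun z hz => (mem_product.mp (W.sub (h1 (k1 hz)))).1) W.card_C
      (b := K * 4 ^ I * (2 * (K * 4 ^ I) / K ^ 1068) * (6 * (2 * K ^ 357 * (K ^ 320 * c))))
      (by positivity) fun z₀ hz₀ T' k3 k4 => ?_).trans ?_
    · have k5 : ∀ q ∈ T'.image Prod.snd, (z₀.1, q) ∈ T := fun q hq => by
        obtain ⟨z, k5, rfl⟩ := mem_image.mp hq
        rw [← k4 z k5]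
        exact k3 k5
      have k6 := fun q hq => h3 _ (k1 (k5 q hq))
      obtain ⟨-, -, l0, l1, -⟩ := h3 z₀ (k1 hz₀)
      rw [← card_image_of_injOn (f := Prod.snd) fun z hz z' hz' h =>
        Prod.ext ((k4 z hz).trans (k4 z' hz').symm) h]
      refine unif1_conf _ (fun q => win (p₁, q)) (fun q => g z₀.1 (win (z₀.1, q)))
        (fun q => g₂ (win (p₂, q))) (fun q => κ q * s p₁ + μ q) (fun q => κ q * s z₀.1 + μ q)
        (fun q => κ q * s p₂ + μ q) lo hi (L z₀.1) (R z₀.1) L₂ R₂ (usedW Z win p₁) (t z₀.1)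
        l0 one_pos (sub_pos.mpr l1) (unif1_used W p₁) (hB z₀.1).card (by positivity)
        (fun q h => mem_usedW.mpr ⟨q, (k6 q h).1, rfl⟩) (fun q _ => (hB z₀.1).mem _)
        (fun q h => (W.mem _ (k6 q h).1).2.2) (fun q h => hin (hB z₀.1) q (h1 (k1 (k5 q h))))
        (fun q h => hin hB₂ q (k6 q h).2.1)
        (fun q h q' h' => hB₂.ord q q' (k6 q h).2.1 (k6 q' h').2.1) (fun q q' => ?_)
        (fun q h => W.lo_lt _ (k6 q h).1) (fun q h => (k6 q h).2.2.2.2.2.1.trans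
          (mul_le_mul_of_nonneg_left (k6 q h).2.2.2.2.2.2.1 (sub_pos.mpr l1).le))
        (fun q h => ?_) fun q₀ h₀ T'' k7 k8 => ?_
      · rw [unif1_aff l0]
        exact (unif1_tri l0.le l1.le).2.2
      · rw [one_mul]
        exact (k2 _ (k5 q h)).le.trans
          (mul_le_mul_of_nonneg_left (k6 q h).2.2.2.2.2.2.1 (sub_pos.mpr l1).le)
      · refine aux_fib T'' (T''.image fun q => win (p₂, q)) (fun q => win (p₂, q))
          (fun q => mem_image_of_mem _) (hB₂.fib (g₂ (win (p₂, q₀))) _ (fun k hk => ?_)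
          fun k hk => ?_) (by positivity) fun q h T₃ k9 k10 =>
          (k6 q (k7 h)).2.2.2.2.2.2.2 T₃ fun q' h' => ⟨(k6 q' (k7 (k9 h'))).1,
            (k6 q' (k7 (k9 h'))).2.1, (k8 q' (k9 h')).1.trans (k8 q h).1.symm, k10 q' h'⟩
        · obtain ⟨q, k9, rfl⟩ := mem_image.mp hk
          exact mem_usedW.mpr ⟨q, (k6 q (k7 k9)).2.1, rfl⟩
        · obtain ⟨q, k9, rfl⟩ := mem_image.mp hk
          exact (k8 q k9).2
    · have k3 := aux_pow (c := 24) (i := 0) (j := 5) hK 5 le_rfl (by norm_num)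
      calc _ = M / K ^ 383 * (24 * K ^ 0 / K ^ 5) := by rw [hM]; field_simp; norm_num
        _ ≤ M / K ^ 383 * 1 := by
          gcongr
          exact (div_le_one (by positivity)).mpr k3
        _ = _ := mul_one _
  have hw : ∀ z ∈ Z₃, β / (s p₂ - s p₁) * (s z.1 - s p₁) = (1 - l z.1) * β := fun z hz => by
    have k1 : s p₂ - s p₁ ≠ 0 := fun h0 => by simpa [h0] using (h3 z (h4 hz)).2.2.1
    simp only [hl]
    field_simp
    ring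
  refine ⟨Z₃, β / (s p₂ - s p₁), s p₁, h4.trans h1, le_trans ?_ h5,
    fun z hz => hw z hz ▸ (h3 z (h4 hz)).2.2.2.2.1, fun p x => ?_⟩
  · gcongr
    · linarith
    · norm_num
  set F := Z₃.filter fun z => z.1 = p ∧ x ≤ hi (win z) ∧
    lo (win z) ≤ x + β / (s p₂ - s p₁) * (s p - s p₁) with hF
  rcases F.eq_empty_or_nonempty with h | ⟨z₀, h⟩
  · rw [h, image_empty, card_empty, Nat.cast_zero]
    positivity
  obtain ⟨k1, rfl, -⟩ := mem_filter.mp h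
  have k2 : 0 < (1 - l z₀.1) * β :=
    (sub_pos.mpr (W.lo_lt _ (h1 (h4 k1)))).trans_le (h3 z₀ (h4 k1)).2.2.2.2.1
  have k3 : ∀ b ∈ (F.image win).image (g z₀.1), ∃ q, (z₀.1, q) ∈ F ∧ g z₀.1 (win (z₀.1, q)) = b :=
    fun b hb => by
      obtain ⟨k, k3, rfl⟩ := mem_image.mp hb
      obtain ⟨z, k4, rfl⟩ := mem_image.mp k3
      have k5 := (mem_filter.mp k4).2.1
      exact ⟨z.2, k5 ▸ k4, k5 ▸ rfl⟩
  have k4 := aux_pack_meet ((F.image win).image (g z₀.1)) (L z₀.1) (R z₀.1) (x := x) k2 k2.le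
    (fun b hb => by
      obtain ⟨q, k4, rfl⟩ := k3 b hb
      exact not_lt.mp (h6 _ (mem_filter.mp k4).1))
    (fun b hb b' hb' => by
      obtain ⟨q, k4, rfl⟩ := k3 b hb
      obtain ⟨q', k5, rfl⟩ := k3 b' hb'
      exact (hB _).ord q q' (h1 (h4 (mem_filter.mp k4).1)) (h1 (h4 (mem_filter.mp k5).1)))
    (fun b hb => by
      obtain ⟨q, k4, rfl⟩ := k3 b hb
      obtain ⟨k5, -, k6, k7⟩ := mem_filter.mp k4
      have k8 := (hB _).hull q (h1 (h4 k5))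
      rw [hw z₀ k1] at k7
      exact ⟨k6.trans k8.2, k8.1.trans k7⟩)
  refine (aux_fib _ _ (g z₀.1) (fun k => mem_image_of_mem _) (α := 3) (b := 2 * K ^ 1068)
    (le_of_mul_le_mul_right (by linarith) k2) (by positivity) fun k _ T k5 k6 =>
      (hB _).fib _ T (fun k' hk' => ?_) k6).trans ?_
  · obtain ⟨z, k7, rfl⟩ := mem_image.mp (k5 hk')
    obtain ⟨k8, k9, -⟩ := mem_filter.mp k7
    exact mem_usedW.mpr ⟨z.2, k9 ▸ h1 (h4 k8), k9 ▸ rfl⟩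
  · rw [← mul_assoc]
    exact aux_pow hK 3 (by norm_num) (by norm_num)

end Vale.Agent.P065
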