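import Vale.Agent.P065.Unif2Fr

/-! Frostman bound and projective normalization (task K). -/

namespace Vale.Agent.P065

open Classical Finset

variable {ι : Type} {C Q : Finset ι} {Z : Finset (ι × ι)} {s κ μ : ι → ℝ} {win : ι × ι → ℕ}
  {lo hi : ℕ → ℝ} {inc : ι → Finset ℕ} {I E : ℕ} {c K : ℝ}

theorem unif2_top (W : WinCfg C Q Z s κ μ win lo hi inc I E c K) {L : ℝ} (h1 : 1 ≤ L)
    (h2 : L ≤ 4 ^ I) (S : Finset (ι × ι × ι)) (hS : ∀ x ∈ S, (x.1, x.2.2) ∈ Z ∧ (x.2.1, x.2.2) ∈ Z ∧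
      4 ^ I * c / L ≤ wov Q inc (win (x.2.1, x.2.2)) (win (x.1, x.2.2))) :
    (S.card : ℝ) ≤ K * (4 ^ I * c) * (K * ((4 ^ I) ^ 2 * c)) * ((K * L) ^ E * (K * c)) := by
  have hK := W.K_ge
  have hc := W.c_ge
  refine aux_fib2 S (C ×ˢ Q) (fun x => (x.1, x.2.2)) (fun x hx => W.sub (hS x hx).1)
    (fun x => win (x.2.1, x.2.2)) (by
      rw [card_product, Nat.cast_mul]
      exact mul_le_mul W.card_C W.card_Q (Nat.cast_nonneg _) (by positivity)) (by positivity)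
    (by positivity) (fun x₀ _ => ⟨_, W.top L h1 h2 (win (x₀.1, x₀.2.2)), fun x hx h => ?_⟩)
    fun x₀ h₀ T h3 h4 => le_trans (Nat.cast_le.mpr ?_) (W.mult _ (hS x₀ h₀).2.1)
  · obtain ⟨-, h3, h4⟩ := hS x hx
    exact mem_filter.mpr ⟨mem_biUnion.mpr ⟨_, (mem_product.mp (W.sub h3)).2, (W.mem _ h3).2.1⟩,
      h ▸ h4⟩
  · refine card_le_card_of_injOn (fun x => x.2.1) (fun x hx => mem_coe.mpr (mem_filter.mpr
      ⟨(mem_product.mp (W.sub (hS x (h3 hx)).2.1)).1,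
        (h4 x hx).2 ▸ (W.mem _ (hS x (h3 hx)).2.1).1⟩)) fun x hx x' hx' h => ?_
    have h5 := (h4 x hx).1.trans (h4 x' hx').1.symm
    simp only [Prod.mk.injEq] at h5
    exact Prod.ext h5.1 (Prod.ext h h5.2)

theorem unif2_line (W : WinCfg C Q Z s κ μ win lo hi inc I E c K) (ha : K ^ 100 ≤ 4 ^ I)
    {Z₄ : Finset (ι × ι)} (hZ : Z₄ ⊆ Z) (hc : 4 ^ I * c * ((4 ^ I) ^ 2 * c) / K ^ 5 ≤ Z₄.card)
    (w : ι → ℝ) (hw : ∀ z ∈ Z₄, hi (win z) - lo (win z) ≤ w z.1)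
    (hF : ∀ B, UFrost Z₄ win lo hi w (K ^ 24) B) (v : ι → ι → ℤ)
    (hv : ∀ p q, (p, q) ∈ Z₄ → v p q = ⌊(κ q * s p + μ q) / w p⌋) :
    LabCfg (Z₄.image Prod.fst) Q Z₄ v (4 ^ I) (4 ^ I * c) ((4 ^ I) ^ 2 * c) (K ^ 100) (E + 1) 2 ∧
      ∀ p, Frost (colSet Z₄ v p) (K ^ 100) := by
  have hK := W.K_ge
  have hc1 := W.c_ge
  have hp : ∀ {c : ℝ} {i : ℕ}, i ≤ 98 → c ≤ 2 ^ 2 → c * K ^ i ≤ K ^ 100 := fun hi hc =>
    aux_pow hK 2 (by omega) hc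
  have hK1 : 2 * K ≤ K ^ 100 := by simpa using hp (c := 2) (i := 1) (by norm_num) (by norm_num)
  have hC : Z₄.image Prod.fst ⊆ C := forall_mem_image.mpr fun z hz =>
    (mem_product.mp (W.sub (hZ hz))).1
  have hC' : ((Z₄.image Prod.fst).card : ℝ) ≤ K * (4 ^ I * c) :=
    (Nat.cast_le.mpr (card_le_card hC)).trans W.card_C
  have hpos : ∀ z ∈ Z₄, 0 < w z.1 := fun z hz =>
    (sub_pos.mpr (W.lo_lt _ (hZ hz))).trans_le (hw z hz)
  have h1 : ∀ p q, (p, q) ∈ Z₄ →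
      v p q ∈ Icc ⌊lo (win (p, q)) / w p⌋ (⌊lo (win (p, q)) / w p⌋ + (1 : ℕ)) := fun p q h => by
    have k1 := (W.mem _ (hZ h)).2.2
    have k2 : 0 < w p := hpos _ h
    rw [hv p q h, ← Int.floor_add_natCast, Nat.cast_one, div_add_one k2.ne']
    exact mem_Icc.mpr ⟨Int.floor_le_floor (div_le_div_of_nonneg_right k1.1 k2.le),
      Int.floor_le_floor (div_le_div_of_nonneg_right (by linarith [k1.2, hw _ h]) k2.le)⟩
  have h2 : ∀ p q, (p, q) ∈ Z₄ → v p q * w p ≤ hi (win (p, q)) ∧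
      lo (win (p, q)) ≤ (v p q + 1) * w p := fun p q h => by
    have k1 := (W.mem _ (hZ h)).2.2
    have k2 : 0 < w p := hpos _ h
    rw [hv p q h]
    exact ⟨((le_div_iff₀ k2).mp (Int.floor_le _)).trans k1.2,
      k1.1.trans ((div_le_iff₀ k2).mp (Int.lt_floor_add_one _).le)⟩
  have key : ∀ y, 0 ≤ y → ∀ S : Finset (ι × ι × ι), (∀ p ∈ C, ∀ p' ∈ C, ∀ q ∈ Q, (p, q) ∈ Z →
      (p', q) ∈ Z → y / (2 * (K ^ 24) ^ 2) ≤ wov Q inc (win (p, q)) (win (p', q)) → (p, p', q) ∈ S) →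
      (heavy (Z₄.image Prod.fst) Q Z₄ v y : ℝ) ≤ 2 * S.card := fun y hy S hS => by
    exact_mod_cast aux_heavy (Z₄.image Prod.fst) Q Z₄ v (fun p q => win (p, q))
      (fun p p' q => wov Q inc (win (p, q)) (win (p', q))) (M := K ^ 24) hy (by positivity)
      (fun z₀ h₀ => ⟨(Z₄.filter fun z => z.1 = z₀.1 ∧ v z.1 z.2 = v z₀.1 z₀.2).image win,
        le_of_sq_le_sq ((hF 2 z₀.1 (v z₀.1 z₀.2 * w z₀.1) 1 le_rfl one_lt_two _
          (forall_mem_image.mpr fun z hz => by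
            obtain ⟨k1, k2, k3⟩ := mem_filter.mp hz
            have k4 := h2 z.1 z.2 k1
            rw [← k3, ← k2]
            exact ⟨z.2, k1, rfl, k4.1, by linarith [k4.2]⟩)).trans (mul_one _).le) (by positivity),
        fun q k1 k2 => mem_image_of_mem _ (mem_filter.mpr ⟨k1, rfl, k2⟩)⟩)
      (fun p p' q _ _ T k1 k2 => Nat.cast_le.mpr (card_le_card fun q' hq' => mem_filter.mpr
        ⟨k1 hq', (k2 q' hq').2.2.1 ▸ (W.mem _ (hZ (k2 q' hq').1)).2.1,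
          (k2 q' hq').2.2.2 ▸ (W.mem _ (hZ (k2 q' hq').2.1)).2.1⟩)) S
      fun p k1 p' k2 q k3 k4 k5 => hS p (hC k1) p' (hC k2) q k3 (hZ k4) (hZ k5)
  refine ⟨⟨by linarith, one_le_pow₀ (by norm_num), le_mul_of_one_le_right (by positivity) hc1,
    le_mul_of_one_le_right (by positivity) hc1, fun z hz => mem_product.mpr
      ⟨mem_image_of_mem _ hz, (mem_product.mp (W.sub (hZ hz))).2⟩, hC'.trans (by gcongr; linarith),
    W.card_Q.trans (by gcongr; linarith), le_trans ?_ hc, fun p _ => ?_, fun Y hY => ?_,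
    fun L hL hLa => ?_⟩, fun p x R hR => ?_⟩
  · gcongr
    · linarith
    · norm_num
  · have k1 := aux_img (usedW Z win p) (colSet Z₄ v p) (fun k => ⌊lo k / w p⌋) 1 fun b hb => by
      obtain ⟨q, k1, rfl⟩ := aux_mem_colSet.mp hb
      exact ⟨_, mem_usedW.mpr ⟨q, hZ k1, rfl⟩, h1 p q k1⟩
    have k2 := unif1_used W p
    have k3 : (0 : ℝ) < 4 ^ I := by positivity
    push_cast at k1
    nlinarith
  · set X := (4 ^ I * c) ^ 2 * ((4 ^ I) ^ 2 * c) with hX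
    have hX0 : 0 < X := by positivity
    have k1 : 2 ^ 11 * K ^ 88 ≤ K ^ 1000 := aux_pow hK 11 (by norm_num) le_rfl
    refine le_trans ?_ (show 2 ^ 11 * K ^ 88 * X ^ 10 ≤ _ by
      rw [mul_assoc (K ^ 100), mul_pow (K ^ 100), ← pow_mul]
      exact mul_le_mul_of_nonneg_right k1 (by positivity))
    rcases le_total Y (2 * (K ^ 24) ^ 2) with k2 | k2
    · have k3 : K ^ 78 ≤ K ^ 88 := pow_le_pow_right₀ (by linarith) (by norm_num)
      calc _ ≤ (K ^ 3 * (4 ^ I * c) ^ 2 * ((4 ^ I) ^ 2 * c)) ^ 10 * (2 * (K ^ 24) ^ 2) := by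
            gcongr
            exact aux_heavy_triv _ _ _ hC' W.card_Q
        _ = 2 * K ^ 78 * X ^ 10 := by rw [mul_assoc (K ^ 3), ← hX]; ring
        _ ≤ _ := by gcongr; norm_num
    · obtain ⟨t, k3, k4⟩ : ∃ t : ℝ, 1 ≤ t ∧ t ^ 10 = Y / (2 * (K ^ 24) ^ 2) :=
        ⟨_, Real.one_le_rpow ((one_le_div (by positivity)).mpr k2) (by positivity),
          Real.rpow_inv_natCast_pow (by positivity) (by norm_num)⟩
      set S := (C ×ˢ C ×ˢ Q).filter fun x => (x.1, x.2.2) ∈ Z ∧ (x.2.1, x.2.2) ∈ Z ∧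
        t ^ 10 * c ≤ wov Q inc (win (x.1, x.2.2)) (win (x.2.1, x.2.2)) with hS
      have k5 := aux_wheavy W k3 S fun x hx => (mem_filter.mp hx).2
      have k6 := key (Y * ((4 ^ I) ^ 2 * c) / (4 ^ I) ^ 2) (by positivity) S
        fun p l1 p' l2 q l3 l4 l5 l6 => mem_filter.mpr ⟨mem_product.mpr ⟨l1, mem_product.mpr
          ⟨l2, l3⟩⟩, l4, l5, le_trans (le_of_eq (by rw [k4]; field_simp)) l6⟩
      have k7 : Y = t ^ 10 * (2 * (K ^ 24) ^ 2) := by rw [k4]; field_simp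
      calc _ ≤ (2 * S.card : ℝ) ^ 10 * Y := by gcongr
        _ = 2 ^ 11 * K ^ 48 * (S.card * t) ^ 10 := by rw [k7]; ring
        _ ≤ 2 ^ 11 * K ^ 48 * (K ^ 4 * (4 ^ I * c) ^ 2 * ((4 ^ I) ^ 2 * c)) ^ 10 :=
          mul_le_mul_of_nonneg_left (pow_le_pow_left₀
            (mul_nonneg (Nat.cast_nonneg _) (by linarith)) k5 10) (by positivity)
        _ = _ := by rw [mul_assoc (K ^ 4), ← hX]; ring
  · have k1 : 2 * (K ^ 24) ^ 2 * L ≤ 4 ^ I := by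
      refine le_of_sq_le_sq ?_ (by positivity)
      calc (2 * (K ^ 24) ^ 2 * L) ^ 2 = 4 * K ^ 96 * L ^ 2 := by ring
        _ ≤ 4 ^ I * 4 ^ I := by
          gcongr
          exact (hp (by norm_num) (by norm_num)).trans ha
        _ = _ := by ring
    have k2 : 1 ≤ (K ^ 24) ^ 2 := one_le_pow₀ (one_le_pow₀ (by linarith))
    set S := (C ×ˢ C ×ˢ Q).filter fun x => (x.1, x.2.2) ∈ Z ∧ (x.2.1, x.2.2) ∈ Z ∧
      4 ^ I * c / (2 * (K ^ 24) ^ 2 * L) ≤ wov Q inc (win (x.2.1, x.2.2)) (win (x.1, x.2.2)) with hS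
    have k3 := unif2_top W (by nlinarith) k1 S fun x hx => (mem_filter.mp hx).2
    have k4 := key ((4 ^ I) ^ 2 * c / (4 ^ I * L)) (by positivity) S
      fun p l1 p' l2 q l3 l4 l5 l6 => mem_filter.mpr ⟨mem_product.mpr ⟨l1, mem_product.mpr
        ⟨l2, l3⟩⟩, l4, l5, le_trans (le_of_eq (by field_simp)) (l6.trans (le_of_eq (by
          simp only [wov, and_comm])))⟩
    have k5 : 2 * K ^ 49 ≤ K ^ 100 := hp (by norm_num) (by norm_num)
    have k6 : 2 * K ^ 3 ≤ K ^ 100 := hp (by norm_num) (by norm_num)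
    calc _ ≤ 2 * (K * (4 ^ I * c) * (K * ((4 ^ I) ^ 2 * c)) *
          ((K * (2 * (K ^ 24) ^ 2 * L)) ^ E * (K * c))) * 4 ^ I := by
          gcongr
          linarith
      _ = (2 * K ^ 49 * L) ^ E * (2 * K ^ 3 * 1) * (4 ^ I * c) ^ 2 * ((4 ^ I) ^ 2 * c) := by ring
      _ ≤ (K ^ 100 * L) ^ E * (K ^ 100 * L) * (4 ^ I * c) ^ 2 * ((4 ^ I) ^ 2 * c) := by gcongr
      _ = _ := by ring
  · set T := (Z₄.filter fun z => z.1 = p ∧ x ≤ v z.1 z.2 ∧ v z.1 z.2 ≤ x + R).image win with hT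
    have k1 := aux_img T ((colSet Z₄ v p).filter fun z : ℤ => x ≤ z ∧ (z : ℝ) ≤ x + R)
      (fun k => ⌊lo k / w p⌋) 1 fun b hb => by
        obtain ⟨k1, k2⟩ := mem_filter.mp hb
        obtain ⟨q, k3, rfl⟩ := aux_mem_colSet.mp k1
        exact ⟨_, mem_image_of_mem _ (mem_filter.mpr ⟨k3, rfl, k2⟩), h1 p q k3⟩
    have k2 := hF (R + 2) p (x * w p) (R + 1) (by linarith) (by linarith) T
      (forall_mem_image.mpr fun z hz => by
        obtain ⟨k2, rfl, k3, k4⟩ := mem_filter.mp hz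
        have k5 := h2 z.1 z.2 k2
        have k6 := hpos z k2
        exact ⟨z.2, k2, rfl, by nlinarith [k5.1], by nlinarith [k5.2]⟩)
    have k3 : 8 * K ^ 48 ≤ K ^ 200 := aux_pow hK 3 (by norm_num) (by norm_num)
    push_cast at k1
    calc _ ≤ ((1 + 1) * T.card : ℝ) ^ 2 := by gcongr
      _ = 4 * (T.card : ℝ) ^ 2 := by ring
      _ ≤ 4 * ((K ^ 24) ^ 2 * (2 * R)) := by
        gcongr
        exact k2.trans (by gcongr; linarith)
      _ = 8 * K ^ 48 * R := by ring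
      _ ≤ K ^ 200 * R := by gcongr
      _ = _ := by ring

theorem line_of_scaled : ∃ C₀ : ℕ, ∀ (ι : Type) (C Q : Finset ι) (Z Z' : Finset (ι × ι))
    (s κ μ : ι → ℝ) (win : ι × ι → ℕ) (lo hi : ℕ → ℝ) (inc : ι → Finset ℕ) (I E : ℕ)
    (c K γ s₁ : ℝ), WinCfg C Q Z s κ μ win lo hi inc I E c K →
    Scaled Z Z' s win lo hi γ s₁ ((4 ^ I * c) * ((4 ^ I) ^ 2 * c)) K → K ^ C₀ ≤ 4 ^ I →
    ∃ (C' : Finset ι) (Z'' : Finset (ι × ι)) (s' κ' μ' : ι → ℝ),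
      LineCfg C' Q Z'' s' κ' μ' (4 ^ I) (4 ^ I * c) ((4 ^ I) ^ 2 * c) (K ^ C₀) (E + 1) := by
  refine ⟨100, fun ι C Q Z Z' s κ μ win lo hi inc I E c K γ s₁ W S ha => ?_⟩
  obtain ⟨θ, Z₄, h1, h2, h3, h4⟩ := unif2_frost W S
  have h5 : ∀ z ∈ Z₄, θ * γ ≠ 0 ∧ s z.1 - s₁ ≠ 0 := fun z hz =>
    mul_ne_zero_iff.mp ((sub_pos.mpr (W.lo_lt _ (h1 hz))).trans_le (h3 z hz)).ne'
  obtain ⟨h6, h7⟩ := unif2_line W ha h1 h2 _ h3 h4
    (fun p q => ⌊(κ q * s₁ + μ q) / (θ * γ) * (s p - s₁)⁻¹ + κ q / (θ * γ)⌋) fun p q h => by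
      obtain ⟨k1, k2⟩ := h5 _ h
      generalize θ * γ = g at k1 ⊢
      refine congrArg _ ?_
      field_simp
      ring
  refine ⟨Z₄.image Prod.fst, Z₄, fun p => (s p - s₁)⁻¹, fun q => (κ q * s₁ + μ q) / (θ * γ),
    fun q => κ q / (θ * γ), h6, forall_mem_image.mpr fun z hz => forall_mem_image.mpr
      fun z' hz' h => W.s_inj _ (mem_product.mp (W.sub (h1 hz))).1 _
        (mem_product.mp (W.sub (h1 hz'))).1 (by simpa using h), fun p _ => h7 p⟩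

end Vale.Agent.P065
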