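import Vale.Agent.P065.Good
import Vale.Agent.P065.Super
import Vale.Agent.P065.Cherry
import Vale.Agent.P065.Unif1
import Vale.Agent.P065.Unif2
import Vale.Agent.P065.Ref
import Vale.Agent.P065.Sum
import Vale.Agent.P065.Ring
import Vale.Agent.P065.SP1
import Vale.Agent.P065.SP2

/-! Assembly: the power saving for token systems. -/

namespace Vale.Agent.P065

open Classical Finset

theorem WinCfg.mono {ι : Type} {C Q : Finset ι} {Z : Finset (ι × ι)} {s κ μ : ι → ℝ}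
    {win : ι × ι → ℕ} {lo hi : ℕ → ℝ} {inc : ι → Finset ℕ} {I E : ℕ} {c K K' : ℝ}
    (h : WinCfg C Q Z s κ μ win lo hi inc I E c K) (hK : K ≤ K') :
    WinCfg C Q Z s κ μ win lo hi inc I E c K' := by
  have hK0 : 0 < K := lt_of_lt_of_le two_pos h.K_ge
  have hc : 0 < c := lt_of_lt_of_le one_pos h.c_ge
  refine ⟨h.K_ge.trans hK, h.I_le.trans hK, h.c_ge, h.sub, h.s_inj, ?_, ?_, ?_, h.mem, h.lo_lt,
    h.order, ?_, ?_, ?_, ?_, ?_, ?_⟩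
  · exact h.card_C.trans (by gcongr)
  · exact h.card_Q.trans (by gcongr)
  · exact le_trans (by gcongr) h.card_Z
  · intro j hj v hv
    exact (h.coarse j hj v hv).trans (by gcongr)
  · intro j hj v hv k'
    exact (h.fine j hj v hv k').trans (by gcongr)
  · intro k
    exact (h.pop k).trans (by gcongr)
  · intro z hz
    exact (h.mult z hz).trans (by gcongr)
  · intro q hq Y hY
    exact (h.tail q hq Y hY).trans (by gcongr)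
  · intro L hL hL' k₀
    exact (h.top L hL hL' k₀).trans (by gcongr)

theorem Scaled.mono {ι : Type} {Z Z' : Finset (ι × ι)} {s : ι → ℝ} {win : ι × ι → ℕ}
    {lo hi : ℕ → ℝ} {γ s₁ M K K' : ℝ} (h : Scaled Z Z' s win lo hi γ s₁ M K) (hM : 0 ≤ M)
    (hK0 : 0 < K) (hK : K ≤ K') : Scaled Z Z' s win lo hi γ s₁ M K' :=
  ⟨h.sub, le_trans (by gcongr) h.card, h.len, fun p x => (h.sep p x).trans hK⟩

theorem core : ∃ C₀ : ℕ, 1 ≤ C₀ ∧ ∀ (P : Finset Pt), GP P → ∀ (S : Tok P) (I u : ℕ) (K : ℝ),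
    2 ≤ K → ((2 * I + 1 : ℕ) : ℝ) ≤ K → K ^ C₀ ≤ 4 ^ I → (4 ^ I) ^ C₀ ≤ u →
    P.card ≤ (4 ^ I * 4 ^ I * u) ^ 3 → (S.m : ℝ) < ((4 ^ I * 4 ^ I * u : ℕ) : ℝ) ^ 4 / K := by
  obtain ⟨c₁, hc₁, h₁⟩ := exists_good
  obtain ⟨c₂, hc₂, h₂⟩ := exists_swapCfg
  obtain ⟨c₃, E₀, h₃⟩ := win_of_swapCfg
  obtain ⟨c₄, h₄⟩ := scaled_of_win
  obtain ⟨c₅, h₅⟩ := line_of_scaled
  obtain ⟨c₆, h₆⟩ := ref_of_line
  obtain ⟨c₇, h₇⟩ := sum_of_ref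
  obtain ⟨c₈, h₈⟩ := ring_of_sum (E₀ + 1 + 1 + 1)
  obtain ⟨c₉, h₉⟩ := exists_regular
  obtain ⟨e₂, he₂⟩ : ∃ e, c₁ * c₂ = e := ⟨_, rfl⟩
  obtain ⟨e₃, he₃⟩ : ∃ e, e₂ * c₃ = e := ⟨_, rfl⟩
  obtain ⟨e₄, he₄⟩ : ∃ e, e₃ * c₄ = e := ⟨_, rfl⟩
  obtain ⟨e₄', he₄'⟩ : ∃ e, e₃ * (c₄ + 1) = e := ⟨_, rfl⟩
  obtain ⟨e₅, he₅⟩ : ∃ e, e₄' * c₅ = e := ⟨_, rfl⟩
  obtain ⟨e₆, he₆⟩ : ∃ e, e₅ * c₆ = e := ⟨_, rfl⟩
  obtain ⟨e₇, he₇⟩ : ∃ e, e₆ * c₇ = e := ⟨_, rfl⟩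
  obtain ⟨e₈, he₈⟩ : ∃ e, e₇ * c₈ = e := ⟨_, rfl⟩
  obtain ⟨e₉, he₉⟩ : ∃ e, e₈ * c₉ = e := ⟨_, rfl⟩
  refine ⟨c₁ + e₂ + e₃ + e₄ + e₅ + e₆ + e₈ + e₉ + c₂ + c₃, by omega, ?_⟩
  intro P hP S I u K hK hI hKa hau hn
  by_contra hm
  push Not at hm
  have hK1 : 1 ≤ K := by linarith
  have key : ∀ e : ℕ, e ≤ c₁ + e₂ + e₃ + e₄ + e₅ + e₆ + e₈ + e₉ + c₂ + c₃ → K ^ e ≤ 4 ^ I :=
    fun e he => (pow_le_pow_right₀ hK1 he).trans hKa
  have keyu : ∀ e : ℕ, e ≤ c₁ + e₂ + e₃ + e₄ + e₅ + e₆ + e₈ + e₉ + c₂ + c₃ → (4 ^ I) ^ e ≤ u :=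
    fun e he => (Nat.pow_le_pow_right (by positivity) he).trans hau
  have hu : 1 ≤ u := by simpa using keyu 0 (by omega)
  obtain ⟨E, G, hG⟩ := h₁ P hP S I u K hK hI (key _ (by omega)) hu hn hm
  obtain ⟨Y, Q, T, wj, hXY, hY, hS⟩ := h₂ P hP S E G I u _ hG
    (by rw [← pow_mul K, he₂]; exact key _ (by omega)) (keyu _ (by omega))
  rw [← pow_mul K, he₂] at hY hS
  obtain ⟨C', Q', Z, s, κ, μ, win, lo, hi, inc, hW⟩ := h₃ P hP S E G I u _ Y _ Q T wj hG hXY hY hS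
    (by rw [← pow_mul K, he₃]; exact key _ (by omega)) (keyu _ (by omega))
  rw [← pow_mul K, he₃] at hW
  obtain ⟨Z', γ, s₁, hSc⟩ := h₄ _ _ _ _ _ _ _ _ _ _ _ _ _ _ _ hW
    (by rw [← pow_mul K, he₄]; exact key _ (by omega))
  rw [← pow_mul K, he₄] at hSc
  have hle₁ : K ^ e₃ ≤ K ^ e₄' := pow_le_pow_right₀ hK1 (by rw [← he₄']; nlinarith)
  have hle₂ : K ^ e₄ ≤ K ^ e₄' := pow_le_pow_right₀ hK1 (by rw [← he₄', ← he₄]; nlinarith)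
  obtain ⟨C₂, Z₂, s', κ', μ', hL⟩ := h₅ _ _ _ _ _ _ _ _ _ _ _ _ _ _ _ (K ^ e₄') _ _ (hW.mono hle₁)
    (hSc.mono (by positivity) (by positivity) hle₂)
    (by rw [← pow_mul K, he₅]; exact key _ (by omega))
  rw [← pow_mul K, he₅] at hL
  obtain ⟨C₃, Q₃, Z₃, α, β, r, hR⟩ := h₆ _ _ _ _ _ _ _ _ _ _ _ _ hL
    (by rw [← pow_mul K, he₆]; exact key _ (by omega))
  rw [← pow_mul K, he₆] at hR
  obtain ⟨A, B, S', G', hSum⟩ := h₇ _ _ _ _ _ _ _ _ _ _ _ _ hR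
  rw [← pow_mul K, he₇] at hSum
  obtain ⟨D, δ, hD⟩ := h₈ _ _ _ _ _ _ _ _ _ hSum
    (by rw [← pow_mul K, he₈]; exact key _ (by omega))
  rw [← pow_mul K, he₈] at hD
  obtain ⟨h, d, hreg⟩ := h₉ D δ _ _ hD (by rw [← pow_mul K, he₉]; exact key _ (by omega))
  exact not_regular D δ _ _ h d hD hreg

theorem two_mul_le_four_pow {C J : ℕ} (h : C ≤ J) (hC : 1 ≤ C) : 2 * (C * J) + 1 ≤ 4 ^ J := by
  have h1 : ∀ n : ℕ, 2 * (n * n) + 1 ≤ 4 ^ n := by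
    intro n
    induction n with
    | zero => simp
    | succ k ih => rw [pow_succ]; nlinarith [Nat.zero_le k]
  have := h1 J
  nlinarith [Nat.mul_le_mul_right J h]

theorem tok_main : ∃ ε C : ℝ, 0 < ε ∧ ε ≤ 1 / 3 ∧
    ∀ P : Finset Pt, GP P → ∀ S : Tok P, (S.m : ℝ) ≤ C * (P.card : ℝ) ^ (4 / 3 - ε) := by
  obtain ⟨C, hC, hcore⟩ := core
  set M : ℕ := 3 * (C * (C + 2)) with hM
  have hMpos : 0 < M := by rw [hM]; positivity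
  have hM3 : 3 ≤ M := by rw [hM]; nlinarith
  have hMr : (3 : ℝ) ≤ M := by exact_mod_cast hM3
  refine ⟨1 / M, 64 + 14 * 4 ^ C, by positivity, by
    apply one_div_le_one_div_of_le <;> linarith, ?_⟩
  intro P hP S
  rcases Nat.eq_zero_or_pos P.card with h0 | hpos
  · have : S.m = 0 := by
      by_contra hne
      have := S.a_mem (Nat.pos_of_ne_zero hne)
      exact absurd h0 (Finset.card_ne_zero_of_mem this)
    rw [this]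
    simp only [Nat.cast_zero]
    positivity
  set n := P.card with hn
  have hn1 : (1 : ℝ) ≤ n := by exact_mod_cast hpos
  have hn0 : (0 : ℝ) < n := by linarith
  set J := Nat.log (4 ^ M) n with hJ
  have hB : 1 < 4 ^ M := Nat.one_lt_pow (by omega) (by norm_num)
  have hlo : (4 ^ M) ^ J ≤ n := Nat.pow_log_le_self _ (by omega)
  have hhi : n < (4 ^ M) ^ (J + 1) := Nat.lt_pow_succ_log_self hB n
  set x : ℝ := (n : ℝ) ^ ((1 : ℝ) / 3) with hx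
  have hx1 : 1 ≤ x := Real.one_le_rpow hn1 (by norm_num)
  have hx3 : x ^ 3 = n := by
    rw [hx, ← Real.rpow_natCast, ← Real.rpow_mul hn0.le]; norm_num
  have hx4 : x ^ 4 = (n : ℝ) ^ ((4 : ℝ) / 3) := by
    rw [hx, ← Real.rpow_natCast, ← Real.rpow_mul hn0.le]; norm_num
  have heps : (n : ℝ) ^ ((1 : ℝ) / M) ≤ 4 ^ (J + 1) := by
    have h1 : (n : ℝ) ≤ ((4 : ℝ) ^ (J + 1)) ^ M := by
      rw [← pow_mul, mul_comm, pow_mul]; exact_mod_cast hhi.le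
    calc (n : ℝ) ^ ((1 : ℝ) / M) ≤ (((4 : ℝ) ^ (J + 1)) ^ M) ^ ((1 : ℝ) / M) :=
          Real.rpow_le_rpow hn0.le h1 (by positivity)
      _ = 4 ^ (J + 1) := by
          rw [one_div]; exact Real.pow_rpow_inv_natCast (by positivity) (by omega)
  have hsplit : x ^ 4 = (n : ℝ) ^ (4 / 3 - (1 : ℝ) / M) * (n : ℝ) ^ ((1 : ℝ) / M) := by
    rw [hx4, ← Real.rpow_add hn0]; congr 1; ring
  have hy : 0 < (n : ℝ) ^ (4 / 3 - (1 : ℝ) / M) := Real.rpow_pos_of_pos hn0 _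
  set y := (n : ℝ) ^ (4 / 3 - (1 : ℝ) / M) with hydef
  have hxy : x ^ 4 ≤ y * 4 ^ (J + 1) := by rw [hsplit]; gcongr
  rcases lt_or_ge J C with hJC | hJC
  · have h1 := Tok.dey hP S hx1 (le_of_eq hx3.symm)
    have h2 : (4 : ℝ) ^ (J + 1) ≤ 4 ^ C := pow_le_pow_right₀ (by norm_num) hJC
    have h3 : x ^ 4 ≤ y * 4 ^ C := hxy.trans (by gcongr)
    nlinarith
  · set a : ℕ := 4 ^ (C * J) with ha
    have hapos : 0 < a := by positivity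
    have har : (1 : ℝ) ≤ a := by exact_mod_cast hapos
    have hax : ((a : ℝ) ^ (C + 2)) ≤ x := by
      have h1 : ((a : ℝ) ^ (C + 2)) ^ 3 ≤ x ^ 3 := by
        rw [hx3]
        have : (a ^ (C + 2)) ^ 3 = (4 ^ M) ^ J := by
          rw [ha, hM, ← pow_mul, ← pow_mul, ← pow_mul]; congr 1; ring
        exact_mod_cast this ▸ hlo
      exact le_of_pow_le_pow_left₀ (by norm_num) (by linarith) h1
    set u : ℕ := ⌈x / (a : ℝ) ^ 2⌉₊ with hu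
    have hu1 : x / (a : ℝ) ^ 2 ≤ u := Nat.le_ceil _
    have hu2 : (u : ℝ) < x / (a : ℝ) ^ 2 + 1 := Nat.ceil_lt_add_one (by positivity)
    have ha2 : (0 : ℝ) < (a : ℝ) ^ 2 := by positivity
    have hN1 : x ≤ (a : ℝ) ^ 2 * u := by
      rw [div_le_iff₀ ha2] at hu1; linarith
    have ha2x : (a : ℝ) ^ 2 ≤ x := (pow_le_pow_right₀ har (by omega)).trans hax
    have hN2 : (a : ℝ) ^ 2 * u ≤ 2 * x := by
      have : (a : ℝ) ^ 2 * u ≤ (a : ℝ) ^ 2 * (x / (a : ℝ) ^ 2 + 1) := by gcongr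
      rw [mul_add, mul_div_cancel₀ _ ha2.ne'] at this
      linarith
    have hau : a ^ C ≤ u := by
      have h1 : (a : ℝ) ^ C ≤ x / (a : ℝ) ^ 2 := by
        rw [le_div_iff₀ ha2, ← pow_add]; exact hax
      exact_mod_cast h1.trans hu1
    have hcast : ((4 ^ (C * J) * 4 ^ (C * J) * u : ℕ) : ℝ) = (a : ℝ) ^ 2 * u := by
      rw [← ha]; push_cast; ring
    have hJ1 : 1 ≤ J := hC.trans hJC
    have hK2 : (2 : ℝ) ≤ 4 ^ J := by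
      calc (2 : ℝ) ≤ 4 ^ 1 := by norm_num
        _ ≤ 4 ^ J := pow_le_pow_right₀ (by norm_num) hJ1
    have h := hcore P hP S (C * J) u (4 ^ J) hK2
      (by exact_mod_cast two_mul_le_four_pow hJC hC)
      (by rw [← pow_mul, mul_comm]) hau
      (by
        have : (n : ℝ) ≤ ((4 ^ (C * J) * 4 ^ (C * J) * u : ℕ) : ℝ) ^ 3 := by
          rw [hcast, ← hx3]; gcongr
        exact_mod_cast this)
    rw [hcast] at h
    have h4 : ((a : ℝ) ^ 2 * u) ^ 4 ≤ 16 * x ^ 4 := by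
      calc ((a : ℝ) ^ 2 * u) ^ 4 ≤ (2 * x) ^ 4 := by gcongr
        _ = 16 * x ^ 4 := by ring
    have h5 : ((a : ℝ) ^ 2 * u) ^ 4 / 4 ^ J ≤ 64 * y := by
      rw [div_le_iff₀ (by positivity)]
      calc ((a : ℝ) ^ 2 * u) ^ 4 ≤ 16 * (y * 4 ^ (J + 1)) := h4.trans (by gcongr)
        _ = 64 * y * 4 ^ J := by ring
    have h6 : (0 : ℝ) ≤ 14 * 4 ^ C * y := by positivity
    nlinarith

theorem main : ∃ ε : ℝ, 0 < ε ∧ ∃ C : ℝ,
    (∀ P : Finset (ℝ × ℝ), NoThreeCollinear P → Even P.card →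
      (halvingCount P : ℝ) ≤ C * (P.card : ℝ) ^ (4 / 3 - ε)) ∧
    (∀ (P : Finset (ℝ × ℝ)) (k : ℕ), NoThreeCollinear P → 1 ≤ k → 2 * k ≤ P.card →
      (kSetCount P k : ℝ) ≤ C * P.card * (k : ℝ) ^ (1 / 3 - ε)) := by
  obtain ⟨ε, C, hε, hε', h₁⟩ := tok_main
  obtain ⟨C', h₂⟩ := tok_k_bound hε hε' h₁
  refine ⟨ε, hε, final_of_tok (C := max C C') hε hε' ?_ ?_⟩
  · intro P hP S
    exact (h₁ P hP S).trans (by gcongr; exact le_max_left _ _)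
  · intro P hP S hT
    exact (h₂ P hP S hT).trans (by gcongr; exact le_max_right _ _)

end Vale.Agent.P065
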