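import Mathlib

/-! Packing numbers of finite sets of reals (task G). -/

namespace Vale.Agent.P065

open Classical Finset Pointwise

/-- `η`-separated finite set -/
def Sep (η : ℝ) (S : Finset ℝ) : Prop := ∀ x ∈ S, ∀ y ∈ S, x ≠ y → η ≤ |x - y|

/-- packing number: the largest size of an `η`-separated subset -/
noncomputable def pk (S : Finset ℝ) (η : ℝ) : ℕ := (S.powerset.filter (Sep η)).sup card

theorem Sep.card_le_pk {η : ℝ} {S T : Finset ℝ} (hT : T ⊆ S) (h : Sep η T) : T.card ≤ pk S η :=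
  le_sup (f := card) (mem_filter.2 ⟨mem_powerset.2 hT, h⟩)

theorem Sep.subset {η : ℝ} {S T : Finset ℝ} (h : Sep η S) (hT : T ⊆ S) : Sep η T :=
  fun x hx y hy hxy => h x (hT hx) y (hT hy) hxy

theorem exists_pk (S : Finset ℝ) (η : ℝ) : ∃ T ⊆ S, Sep η T ∧ T.card = pk S η := by
  obtain ⟨T, hT, h⟩ := exists_mem_eq_sup (S.powerset.filter (Sep η))
    ⟨∅, mem_filter.2 ⟨mem_powerset.2 (empty_subset _), fun x hx => absurd hx (notMem_empty x)⟩⟩
    card
  exact ⟨T, mem_powerset.1 (mem_filter.1 hT).1, (mem_filter.1 hT).2, h.symm⟩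

/-- an optimal separated set is a cover -/
theorem exists_pk_cover (S : Finset ℝ) {η : ℝ} (hη : 0 < η) :
    ∃ T ⊆ S, Sep η T ∧ T.card = pk S η ∧ ∀ x ∈ S, ∃ y ∈ T, |x - y| < η := by
  obtain ⟨T, hT, hs, hc⟩ := exists_pk S η
  refine ⟨T, hT, hs, hc, fun x hx => ?_⟩
  by_contra hcon
  push Not at hcon
  have hxT : x ∉ T := fun h => by
    have := hcon x h
    rw [sub_self, abs_zero] at this
    linarith
  have h2 : Sep η (insert x T) := by
    intro a ha b hb hab
    rcases mem_insert.1 ha with rfl | ha' <;> rcases mem_insert.1 hb with rfl | hb'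
    · exact absurd rfl hab
    · exact hcon b hb'
    · rw [abs_sub_comm]; exact hcon a ha'
    · exact hs a ha' b hb' hab
  have := Sep.card_le_pk (insert_subset hx hT) h2
  rw [card_insert_of_notMem hxT] at this
  omega

theorem pk_le_card (S : Finset ℝ) (η : ℝ) : pk S η ≤ S.card := by
  obtain ⟨T, hT, -, hc⟩ := exists_pk S η
  exact hc ▸ card_le_card hT

theorem pk_of_sep {η : ℝ} {S : Finset ℝ} (h : Sep η S) : pk S η = S.card :=
  le_antisymm (pk_le_card S η) (Sep.card_le_pk Subset.rfl h)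

theorem one_le_pk {S : Finset ℝ} (h : S.Nonempty) (η : ℝ) : 1 ≤ pk S η := by
  obtain ⟨x, hx⟩ := h
  have : Sep η {x} := fun a ha b hb hab =>
    absurd ((mem_singleton.1 ha).trans (mem_singleton.1 hb).symm) hab
  simpa using Sep.card_le_pk (singleton_subset_iff.2 hx) this

theorem pk_mono {S T : Finset ℝ} (h : S ⊆ T) (η : ℝ) : pk S η ≤ pk T η := by
  obtain ⟨U, hU, hs, hc⟩ := exists_pk S η
  exact hc ▸ Sep.card_le_pk (hU.trans h) hs

theorem pk_anti (S : Finset ℝ) {η η' : ℝ} (h : η ≤ η') : pk S η' ≤ pk S η := by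
  obtain ⟨U, hU, hs, hc⟩ := exists_pk S η'
  exact hc ▸ Sep.card_le_pk hU fun x hx y hy hxy => h.trans (hs x hx y hy hxy)

theorem pk_union_le (S T : Finset ℝ) (η : ℝ) : pk (S ∪ T) η ≤ pk S η + pk T η := by
  obtain ⟨U, hU, hs, hc⟩ := exists_pk (S ∪ T) η
  have h1 : (U ∩ S).card ≤ pk S η := Sep.card_le_pk inter_subset_right (hs.subset inter_subset_left)
  have h2 : (U ∩ T).card ≤ pk T η := Sep.card_le_pk inter_subset_right (hs.subset inter_subset_left)
  have h3 : U = U ∩ S ∪ U ∩ T := by rw [← inter_union_distrib_left, inter_eq_left.2 hU]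
  have h4 := card_union_le (U ∩ S) (U ∩ T)
  rw [← h3] at h4
  omega

theorem pk_biUnion_le {ι : Type} (I : Finset ι) (S : ι → Finset ℝ) (η : ℝ) :
    pk (I.biUnion S) η ≤ ∑ i ∈ I, pk (S i) η := by
  induction I using Finset.induction_on with
  | empty => simpa using pk_le_card ∅ η
  | insert a I ha ih =>
    rw [biUnion_insert, sum_insert ha]
    exact (pk_union_le _ _ _).trans (Nat.add_le_add_left ih _)

theorem pk_le_image (S : Finset ℝ) {f : ℝ → ℝ} (hf : Function.Injective f) {η η' : ℝ}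
    (h : ∀ x y, η ≤ |x - y| → η' ≤ |f x - f y|) : pk S η ≤ pk (S.image f) η' := by
  obtain ⟨U, hU, hs, hc⟩ := exists_pk S η
  rw [← hc, ← card_image_of_injective U hf]
  refine Sep.card_le_pk (image_subset_image hU) fun a ha b hb hab => ?_
  obtain ⟨x, hx, rfl⟩ := mem_image.1 ha
  obtain ⟨y, hy, rfl⟩ := mem_image.1 hb
  exact h x y (hs x hx y hy fun e => hab (by rw [e]))

theorem pk_affine (S : Finset ℝ) {c : ℝ} (hc : c ≠ 0) (d η : ℝ) :
    pk (S.image fun x => c * x + d) (|c| * η) = pk S η := by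
  have hc' : 0 < |c| := abs_pos.2 hc
  refine le_antisymm ?_ (pk_le_image S (fun x y h => ?_) fun x y h => ?_)
  · have h := pk_le_image (S.image fun x => c * x + d) (f := fun y => (y - d) / c)
      (fun x y h => ?_) (η := |c| * η) (η' := η) fun x y h => ?_
    · rw [image_image] at h
      have e : ((fun y => (y - d) / c) ∘ fun x => c * x + d) = id := by
        funext x
        simp only [Function.comp, id]
        field_simp
        ring
      rwa [e, image_id] at h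
    · have h2 : (x - d) / c = (y - d) / c := h
      rw [div_left_inj' hc] at h2
      linarith
    · rw [← sub_div, abs_div, le_div_iff₀ hc', sub_sub_sub_cancel_right]
      linarith
  · have h2 : c * x + d = c * y + d := h
    exact mul_left_cancel₀ hc (add_right_cancel h2)
  · rw [add_sub_add_right_eq_sub, ← mul_sub, abs_mul]
    exact mul_le_mul_of_nonneg_left h hc'.le

theorem pk_add_le (X S : Finset ℝ) (η : ℝ) : pk (X + S) η ≤ X.card * pk S η := by
  have e : X + S ⊆ X.biUnion fun x => S.image fun y => 1 * y + x := by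
    intro z hz
    obtain ⟨x, hx, y, hy, rfl⟩ := mem_add.1 hz
    exact mem_biUnion.2 ⟨x, hx, mem_image.2 ⟨y, hy, by ring⟩⟩
  refine (pk_mono e η).trans ((pk_biUnion_le _ _ _).trans (le_of_eq ?_))
  rw [← smul_eq_mul, ← sum_const]
  refine sum_congr rfl fun x _ => ?_
  have := pk_affine S one_ne_zero x η
  rwa [abs_one, one_mul] at this

theorem pk_le_card_floor (S : Finset ℝ) {η : ℝ} (hη : 0 < η) :
    pk S η ≤ (S.image fun x => ⌊x / η⌋).card := by
  obtain ⟨U, hU, hs, hc⟩ := exists_pk S η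
  rw [← hc]
  refine card_le_card_of_injOn (fun x => ⌊x / η⌋) (fun x hx => ?_) fun x hx y hy h => ?_
  · exact mem_coe.2 (mem_image_of_mem _ (hU hx))
  · by_contra hne
    have h1 := hs x hx y hy hne
    have h2 := Int.abs_sub_lt_one_of_floor_eq_floor h
    rw [← sub_div, abs_div, abs_of_pos hη, div_lt_one hη] at h2
    linarith

/-- points in an interval of length `ℓ` -/
theorem pk_le_of_diam {S : Finset ℝ} {η ℓ x : ℝ} (hη : 0 < η) (hℓ : 0 ≤ ℓ)
    (h : ∀ y ∈ S, x ≤ y ∧ y ≤ x + ℓ) : (pk S η : ℝ) ≤ ℓ / η + 1 := by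
  have h1 := pk_affine S one_ne_zero (-x) η
  rw [abs_one, one_mul] at h1
  have h2 := pk_le_card_floor (S.image fun y => 1 * y + -x) hη
  have h3 : ((S.image fun y => 1 * y + -x).image fun x => ⌊x / η⌋) ⊆ Icc 0 ⌊ℓ / η⌋ := by
    intro k hk
    obtain ⟨z, hz, rfl⟩ := mem_image.1 hk
    obtain ⟨y, hy, rfl⟩ := mem_image.1 hz
    have := h y hy
    refine mem_Icc.2 ⟨Int.floor_nonneg.2 (div_nonneg (by linarith) hη.le),
      Int.floor_le_floor (div_le_div_of_nonneg_right (by linarith) hη.le)⟩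
  have h4 := card_le_card h3
  rw [Int.card_Icc] at h4
  have h5 : 0 ≤ ⌊ℓ / η⌋ := Int.floor_nonneg.2 (div_nonneg hℓ hη.le)
  have h6 : ((pk S η : ℕ) : ℤ) ≤ ⌊ℓ / η⌋ + 1 := by omega
  have h7 : ((pk S η : ℕ) : ℝ) ≤ (⌊ℓ / η⌋ : ℝ) + 1 := by exact_mod_cast h6
  linarith [Int.floor_le (ℓ / η)]

/-- comparison of scales and perturbation: every point of `S` is within `ε` of `T` -/
theorem pk_le_near {S T : Finset ℝ} {η η' ε : ℝ} (hη : 0 < η) (hη' : 0 < η') (hε : 0 ≤ ε)
    (h : ∀ x ∈ S, ∃ y ∈ T, |x - y| ≤ ε) :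
    (pk S η : ℝ) ≤ (2 * (η' + ε) / η + 1) * pk T η' := by
  obtain ⟨U, -, -, hc, hcov⟩ := exists_pk_cover T hη'
  have e : S ⊆ U.biUnion fun u => S.filter fun y =>
      u - (η' + ε) ≤ y ∧ y ≤ u - (η' + ε) + 2 * (η' + ε) := by
    intro x hx
    obtain ⟨y, hy, h1⟩ := h x hx
    obtain ⟨u, hu, h2⟩ := hcov y hy
    rw [abs_le] at h1
    rw [abs_lt] at h2
    exact mem_biUnion.2 ⟨u, hu, mem_filter.2 ⟨hx, by linarith, by linarith⟩⟩
  have h1 := (pk_mono e η).trans (pk_biUnion_le _ _ _)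
  have h2 : (pk S η : ℝ) ≤ ∑ u ∈ U, (pk (S.filter fun y =>
      u - (η' + ε) ≤ y ∧ y ≤ u - (η' + ε) + 2 * (η' + ε)) η : ℝ) := by exact_mod_cast h1
  refine h2.trans ((sum_le_sum fun u _ => pk_le_of_diam (x := u - (η' + ε)) hη (by linarith)
    fun y hy => (mem_filter.1 hy).2).trans (le_of_eq ?_))
  rw [sum_const, hc, nsmul_eq_mul, mul_comm]

/-- product lower bound -/
theorem pk_mul_le {S T : Finset ℝ} {η d x : ℝ} (hη : 0 < η) (hd : 0 ≤ d)
    (h : ∀ y ∈ T, x ≤ y ∧ y ≤ x + d) : pk S (d + η) * pk T η ≤ pk (S + T) η := by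
  obtain ⟨A, hA, hAs, hAc⟩ := exists_pk S (d + η)
  obtain ⟨B, hB, hBs, hBc⟩ := exists_pk T η
  have key : ∀ p ∈ A ×ˢ B, ∀ q ∈ A ×ˢ B, p ≠ q → η ≤ |p.1 + p.2 - (q.1 + q.2)| := by
    rintro ⟨a, b⟩ hp ⟨a', b'⟩ hq hne
    obtain ⟨ha, hb⟩ := mem_product.1 hp
    obtain ⟨ha', hb'⟩ := mem_product.1 hq
    dsimp only at ha hb ha' hb' ⊢
    by_cases e : a = a'
    · subst e
      rw [add_sub_add_left_eq_sub]
      exact hBs b hb b' hb' fun e => hne (by rw [e])
    · have h1 := hAs a ha a' ha' e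
      have h2 := h b (hB hb)
      have h3 := h b' (hB hb')
      rcases le_abs.1 h1 with h4 | h4
      · exact le_abs.2 (Or.inl (by linarith))
      · exact le_abs.2 (Or.inr (by linarith))
  rw [← hAc, ← hBc, ← card_product,
    ← card_image_of_injOn (f := fun p : ℝ × ℝ => p.1 + p.2) fun p hp q hq e => ?_]
  · refine Sep.card_le_pk (fun z hz => ?_) fun z hz w hw hne => ?_
    · obtain ⟨p, hp, rfl⟩ := mem_image.1 hz
      exact add_mem_add (hA (mem_product.1 hp).1) (hB (mem_product.1 hp).2)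
    · obtain ⟨p, hp, rfl⟩ := mem_image.1 hz
      obtain ⟨q, hq, rfl⟩ := mem_image.1 hw
      exact key p hp q hq fun e => hne (by rw [e])
  · by_contra hne
    have h1 := key p hp q hq hne
    have e' : p.1 + p.2 = q.1 + q.2 := e
    rw [e', sub_self, abs_zero] at h1
    linarith

/-- localization -/
theorem exists_local (S : Finset ℝ) {η ℓ : ℝ} (hℓ : 0 < ℓ) :
    ∃ x : ℝ, pk S η ≤ 2 * pk S ℓ * pk (S.filter fun y => x ≤ y ∧ y ≤ x + ℓ) η := by
  let f : ℝ → ℕ := fun x => pk (S.filter fun y => x ≤ y ∧ y ≤ x + ℓ) η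
  have hb : BddAbove (Set.range f) := ⟨S.card, by
    rintro _ ⟨x, rfl⟩
    exact (pk_le_card _ _).trans (card_filter_le _ _)⟩
  obtain ⟨x, hx⟩ := Nat.sSup_mem (Set.range_nonempty f) hb
  have hmax : ∀ y, f y ≤ f x := fun y => hx ▸ le_csSup hb ⟨y, rfl⟩
  refine ⟨x, ?_⟩
  obtain ⟨U, -, -, hc, hcov⟩ := exists_pk_cover S hℓ
  have e : S ⊆ U.biUnion fun u => (S.filter fun y => u ≤ y ∧ y ≤ u + ℓ) ∪
      S.filter fun y => u - ℓ ≤ y ∧ y ≤ u - ℓ + ℓ := by
    intro y hy
    obtain ⟨u, hu, h2⟩ := hcov y hy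
    rw [abs_lt] at h2
    refine mem_biUnion.2 ⟨u, hu, mem_union.2 ?_⟩
    rcases le_total u y with h | h
    · exact Or.inl (mem_filter.2 ⟨hy, h, by linarith⟩)
    · exact Or.inr (mem_filter.2 ⟨hy, by linarith, by linarith⟩)
  refine (pk_mono e η).trans ((pk_biUnion_le _ _ _).trans ?_)
  refine (sum_le_sum fun u _ => (pk_union_le _ _ _).trans
    (Nat.add_le_add (hmax u) (hmax (u - ℓ)))).trans (le_of_eq ?_)
  rw [sum_const, hc, smul_eq_mul]
  change _ = 2 * pk S ℓ * f x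
  ring

/-- a drop of the packing number exhibits a difference of that size -/
theorem exists_diff {S : Finset ℝ} {η η' : ℝ} (h : pk S η' < pk S η) :
    ∃ x ∈ S, ∃ y ∈ S, η ≤ x - y ∧ x - y < η' := by
  obtain ⟨U, hU, hs, hc⟩ := exists_pk S η
  have : ¬ Sep η' U := fun h2 => by
    have := Sep.card_le_pk hU h2
    omega
  unfold Sep at this
  push Not at this
  obtain ⟨x, hx, y, hy, hne, hlt⟩ := this
  have h1 := hs x hx y hy hne
  rcases le_total y x with h2 | h2
  · rw [abs_of_nonneg (sub_nonneg.2 h2)] at h1 hlt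
    exact ⟨x, hU hx, y, hU hy, h1, hlt⟩
  · rw [abs_sub_comm, abs_of_nonneg (sub_nonneg.2 h2)] at h1 hlt
    exact ⟨y, hU hy, x, hU hx, h1, hlt⟩

/-- the minimal gap of an optimal set -/
theorem exists_gap {S : Finset ℝ} {η : ℝ} (hη : 0 < η) (h : 2 ≤ pk S η) :
    ∃ x ∈ S, ∃ y ∈ S, η ≤ x - y ∧ pk S η ≤ pk S (x - y) := by
  obtain ⟨U, hU, hs, hc⟩ := exists_pk S η
  obtain ⟨a, ha, b, hb, hab⟩ := one_lt_card.1 (by omega : 1 < U.card)
  obtain ⟨p, hp, hmin⟩ := exists_min_image U.offDiag (fun p => |p.1 - p.2|)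
    ⟨(a, b), mem_offDiag.2 ⟨ha, hb, hab⟩⟩
  obtain ⟨h1, h2, h3⟩ := mem_offDiag.1 hp
  have h4 := hs _ h1 _ h2 h3
  have h5 : pk S η ≤ pk S |p.1 - p.2| := hc ▸ Sep.card_le_pk hU fun x hx y hy hne =>
    hmin (x, y) (mem_offDiag.2 ⟨hx, hy, hne⟩)
  rcases le_total p.2 p.1 with h6 | h6
  · rw [abs_of_nonneg (sub_nonneg.2 h6)] at h4 h5
    exact ⟨_, hU h1, _, hU h2, h4, h5⟩
  · rw [abs_sub_comm, abs_of_nonneg (sub_nonneg.2 h6)] at h4 h5
    exact ⟨_, hU h2, _, hU h1, h4, h5⟩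

/-- integer parts at scale `η` versus packing numbers -/
theorem card_floor_le (S : Finset ℝ) {η : ℝ} (hη : 0 < η) :
    (S.image fun x => ⌊x / η⌋).card ≤ 2 * pk S η := by
  have hrep : ∀ k : ℤ, ∃ x : ℝ, k ∈ (S.image fun x => ⌊x / η⌋) → x ∈ S ∧ ⌊x / η⌋ = k := by
    intro k
    by_cases hk : k ∈ (S.image fun x => ⌊x / η⌋)
    · obtain ⟨x, hx, e⟩ := mem_image.1 hk
      exact ⟨x, fun _ => ⟨hx, e⟩⟩
    · exact ⟨0, fun h => absurd h hk⟩
  choose rep hrep using hrep
  have key : ∀ J ⊆ S.image fun x => ⌊x / η⌋, (∀ a ∈ J, ∀ b ∈ J, a % 2 = b % 2) →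
      J.card ≤ pk S η := by
    intro J hJ hpar
    rw [← card_image_of_injOn (f := rep) fun a ha b hb e => ?_]
    · refine Sep.card_le_pk (fun z hz => ?_) fun z hz w hw hne => ?_
      · obtain ⟨a, ha, rfl⟩ := mem_image.1 hz
        exact (hrep a (hJ ha)).1
      · obtain ⟨a, ha, rfl⟩ := mem_image.1 hz
        obtain ⟨b, hb, rfl⟩ := mem_image.1 hw
        have hab : a ≠ b := fun e => hne (by rw [e])
        have h1 := hpar a ha b hb
        have a1 := Int.floor_le (rep a / η)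
        have a2 := Int.lt_floor_add_one (rep a / η)
        have b1 := Int.floor_le (rep b / η)
        have b2 := Int.lt_floor_add_one (rep b / η)
        rw [(hrep a (hJ ha)).2] at a1 a2
        rw [(hrep b (hJ hb)).2] at b1 b2
        rw [le_div_iff₀ hη] at a1 b1
        rw [div_lt_iff₀ hη] at a2 b2
        rcases (by omega : a + 2 ≤ b ∨ b + 2 ≤ a) with h | h
        · have h' : (a : ℝ) + 2 ≤ b := by exact_mod_cast h
          exact le_abs.2 (Or.inr (by nlinarith))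
        · have h' : (b : ℝ) + 2 ≤ a := by exact_mod_cast h
          exact le_abs.2 (Or.inl (by nlinarith))
    · rw [← (hrep a (hJ ha)).2, ← (hrep b (hJ hb)).2, e]
  have h1 := key _ (filter_subset (fun k => k % 2 = 0) _) fun a ha b hb => by
    rw [(mem_filter.1 ha).2, (mem_filter.1 hb).2]
  have h2 := key _ (filter_subset (fun k => ¬ k % 2 = 0) _) fun a ha b hb => by
    have := (mem_filter.1 ha).2
    have := (mem_filter.1 hb).2
    omega
  have h3 := card_filter_add_card_filter_not (s := S.image fun x => ⌊x / η⌋) fun k => k % 2 = 0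
  omega

end Vale.Agent.P065
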