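import Vale.Agent.P065.CfgDefs

/-! Tools for the construction of the discretized ring. -/

namespace Vale.Agent.P065

open Classical Finset Pointwise

theorem ring_pr {A B : Finset ℤ} {a K : ℝ} (ha : 0 < a) (hK : 0 < K) (hB : a / K ≤ B.card)
    (hB' : (B.card : ℝ) ≤ K * a) (hs : ((B + A).card : ℝ) ≤ K * a) (m n : ℕ) :
    ((m • A - n • A).card : ℝ) ≤ K ^ (2 * (m + n) + 1) * a := by
  have hB0 : (0 : ℝ) < B.card := lt_of_lt_of_le (by positivity) hB
  have hne : B.Nonempty := card_pos.1 (by exact_mod_cast hB0)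
  have h := pluennecke_ruzsa_inequality_nsmul_sub_nsmul_add hne A m n
  have h2 : ((m • A - n • A).card : ℝ) ≤ (((B + A).card : ℝ) / B.card) ^ (m + n) * B.card := by
    have := (NNRat.cast_le (K := ℝ)).2 h
    push_cast at this
    exact this
  have h3 : ((B + A).card : ℝ) / B.card ≤ K ^ 2 := by
    rw [div_le_iff₀ hB0]
    rw [div_le_iff₀ hK] at hB
    nlinarith
  calc _ ≤ _ := h2
    _ ≤ (K ^ 2) ^ (m + n) * (K * a) := by gcongr
    _ = _ := by rw [← pow_mul]; ring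

theorem ring_mem_toR {A : Finset ℤ} {x : ℝ} : x ∈ toR A ↔ ∃ z ∈ A, (z : ℝ) = x := mem_image

theorem ring_card_toR (A : Finset ℤ) : (toR A).card = A.card :=
  card_image_of_injective _ Int.cast_injective

theorem ring_sep_toR (A : Finset ℤ) : Sep 1 (toR A) := by
  intro x hx y hy hne
  obtain ⟨z, -, rfl⟩ := ring_mem_toR.1 hx
  obtain ⟨w, -, rfl⟩ := ring_mem_toR.1 hy
  have h : z ≠ w := fun h => hne (by rw [h])
  have : (1 : ℤ) ≤ |z - w| := Int.one_le_abs (sub_ne_zero.2 h)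
  exact_mod_cast this

theorem ring_toR_add (A B : Finset ℤ) : toR A + toR B ⊆ toR (A + B) := by
  intro x hx
  obtain ⟨y, hy, z, hz, rfl⟩ := mem_add.1 hx
  obtain ⟨y', hy', rfl⟩ := ring_mem_toR.1 hy
  obtain ⟨z', hz', rfl⟩ := ring_mem_toR.1 hz
  exact ring_mem_toR.2 ⟨y' + z', add_mem_add hy' hz', by push_cast; rfl⟩

theorem ring_pk_step (S : Finset ℝ) {η η' c : ℝ} (hη : 0 < η) (hη' : 0 < η') (h : η' ≤ c * η) :
    (pk S η : ℝ) ≤ (2 * c + 1) * pk S η' := by
  have := pk_le_near (S := S) (T := S) hη hη' le_rfl fun x hx => ⟨x, hx, by simp⟩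
  refine this.trans ?_
  gcongr
  rw [add_zero, div_le_iff₀ hη]; linarith

theorem ring_pk_H (H D : Finset ℤ) {ℓ : ℝ} (hℓ : 1 ≤ ℓ) :
    (pk (toR H) ℓ : ℝ) * D.card ≤ 10 * (H + D).card * pk (toR D) ℓ := by
  obtain ⟨x, hx⟩ := exists_local (toR D) (η := 1) (by linarith : 0 < ℓ)
  rw [pk_of_sep (ring_sep_toR D), ring_card_toR] at hx
  set T := (toR D).filter fun y => x ≤ y ∧ y ≤ x + ℓ with hT
  have h1 := pk_mul_le (S := toR H) (T := T) (η := 1) (d := ℓ) (x := x) one_pos (by linarith)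
    fun y hy => (mem_filter.1 hy).2
  have h2 : pk (toR H + T) 1 ≤ (H + D).card := by
    refine (pk_le_card _ _).trans ?_
    rw [← ring_card_toR]
    exact card_le_card ((add_subset_add_left (filter_subset _ _)).trans (ring_toR_add H D))
  have h3 := ring_pk_step (toR H) (η := ℓ) (η' := ℓ + 1) (c := 2) (by linarith) (by linarith)
    (by linarith)
  have h4 : (D.card : ℝ) ≤ 2 * pk (toR D) ℓ * pk T 1 := by exact_mod_cast hx
  have h5 : (pk (toR H) (ℓ + 1) : ℝ) * pk T 1 ≤ (H + D).card := by exact_mod_cast h1.trans h2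
  calc (pk (toR H) ℓ : ℝ) * D.card
      ≤ ((2 * 2 + 1) * pk (toR H) (ℓ + 1)) * (2 * pk (toR D) ℓ * pk T 1) := by gcongr
    _ = 10 * ((pk (toR H) (ℓ + 1) : ℝ) * pk T 1) * pk (toR D) ℓ := by ring
    _ ≤ _ := by gcongr

theorem ring_short (B : Finset ℤ) (β : ℤ) {L : ℝ} (hL : 0 < L) :
    ((B.filter fun y => y ≠ β ∧ L ≤ pk (toR B) (|(β : ℝ) - y|)).card : ℝ) ≤
      7 * (B + B).card / L := by
  set F := B.filter fun y => y ≠ β ∧ L ≤ pk (toR B) (|(β : ℝ) - y|) with hF
  rcases F.eq_empty_or_nonempty with h0 | hne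
  · rw [h0]; simp only [card_empty, Nat.cast_zero]; positivity
  obtain ⟨y₀, hy₀, hmax⟩ := exists_max_image F (fun y => |(β : ℝ) - y|) hne
  set ℓ : ℝ := |(β : ℝ) - y₀| with hℓ
  obtain ⟨-, hy1, hy2⟩ := mem_filter.1 hy₀
  have hℓ1 : 1 ≤ ℓ := by
    have : (1 : ℤ) ≤ |β - y₀| := Int.one_le_abs (sub_ne_zero.2 hy1.symm)
    rw [hℓ]; exact_mod_cast this
  have h1 := pk_mul_le (S := toR B) (T := toR F) (η := 1) (d := 2 * ℓ) (x := β - ℓ) one_pos
    (by linarith) fun y hy => by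
      obtain ⟨z, hz, rfl⟩ := ring_mem_toR.1 hy
      have := abs_le.1 (hmax z hz)
      constructor <;> linarith
  rw [pk_of_sep (ring_sep_toR F), ring_card_toR] at h1
  have h2 : pk (toR B + toR F) 1 ≤ (B + B).card := by
    refine (pk_le_card _ _).trans ((card_le_card (ring_toR_add B F)).trans ?_)
    rw [ring_card_toR]
    exact card_le_card (add_subset_add_left (filter_subset _ _))
  have h3 := ring_pk_step (toR B) (η := ℓ) (η' := 2 * ℓ + 1) (c := 3) (by linarith) (by linarith)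
    (by linarith)
  have h5 : (pk (toR B) (2 * ℓ + 1) : ℝ) * F.card ≤ (B + B).card := by exact_mod_cast h1.trans h2
  rw [le_div_iff₀ hL]
  calc (F.card : ℝ) * L ≤ F.card * ((2 * 3 + 1) * pk (toR B) (2 * ℓ + 1)) := by
        gcongr; exact hy2.trans h3
    _ = 7 * ((pk (toR B) (2 * ℓ + 1) : ℝ) * F.card) := by ring
    _ ≤ _ := by gcongr

theorem ring_cs {κ : Type} (G : Finset κ) (f : κ → ℤ) :
    (G.card : ℝ) ^ 2 ≤ (G.image f).card * ((G ×ˢ G).filter fun x => f x.1 = f x.2).card := by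
  have h1 : G.card = ∑ z ∈ G.image f, (G.filter fun x => f x = z).card :=
    card_eq_sum_card_image f G
  have h2 : ((G ×ˢ G).filter fun x => f x.1 = f x.2).card =
      ∑ z ∈ G.image f, (G.filter fun x => f x = z).card ^ 2 := by
    rw [card_eq_sum_card_fiberwise (f := fun x : κ × κ => f x.1) (t := G.image f)
      fun x hx => mem_image_of_mem _ (mem_product.1 (mem_filter.1 hx).1).1]
    refine sum_congr rfl fun z _ => ?_
    rw [sq, ← card_product]
    congr 1
    ext x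
    simp only [mem_filter, mem_product]
    constructor
    · rintro ⟨⟨⟨h1, h2⟩, h3⟩, h4⟩; exact ⟨⟨h1, h4⟩, h2, h3 ▸ h4⟩
    · rintro ⟨⟨h1, h3⟩, h2, h4⟩; exact ⟨⟨⟨h1, h2⟩, h3.trans h4.symm⟩, h3⟩
  rw [h2, h1]
  push_cast
  exact sq_sum_le_card_mul_sum_sq (s := G.image f)
    (f := fun z => ((G.filter fun x => f x = z).card : ℝ))

variable {ι : Type} {A B : Finset ℤ} {S : Finset ι} {r : ι → ℝ} {G : ι → Finset (ℤ × ℤ)}
  {a nC K : ℝ} {E : ℕ}

theorem SumCfg.ring_A_le (h : SumCfg A B S r G a nC K E) : (A.card : ℝ) ≤ K * a := by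
  have hK : 0 < K := by linarith [h.K_ge]
  have ha : 0 < a := by linarith [h.a_ge]
  have hB0 : (0 : ℝ) < B.card := lt_of_lt_of_le (by positivity) h.B_ge
  have hne : B.Nonempty := card_pos.1 (by exact_mod_cast hB0)
  exact le_trans (Nat.cast_le.2 (card_le_card_add_right hne)) h.sum_le

theorem SumCfg.ring_B_le (h : SumCfg A B S r G a nC K E) : (B.card : ℝ) ≤ K * a := by
  have hK : 0 < K := by linarith [h.K_ge]
  have ha : 0 < a := by linarith [h.a_ge]
  have hB0 : (0 : ℝ) < A.card := lt_of_lt_of_le (by positivity) h.A_ge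
  have hne : A.Nonempty := card_pos.1 (by exact_mod_cast hB0)
  exact le_trans (Nat.cast_le.2 (card_le_card_add_left hne)) h.sum_le

theorem SumCfg.ring_prA (h : SumCfg A B S r G a nC K E) (m n : ℕ) :
    ((m • A - n • A).card : ℝ) ≤ K ^ (2 * (m + n) + 1) * a :=
  ring_pr (by linarith [h.a_ge]) (by linarith [h.K_ge]) h.B_ge h.ring_B_le
    (by rw [add_comm]; exact h.sum_le) m n

theorem SumCfg.ring_BB (h : SumCfg A B S r G a nC K E) : ((B + B).card : ℝ) ≤ K ^ 5 * a := by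
  have := ring_pr (by linarith [h.a_ge]) (by linarith [h.K_ge]) h.A_ge h.ring_A_le h.sum_le 2 0
  simpa [two_nsmul] using this

end Vale.Agent.P065
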