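import Vale.Agent.P065.RingA

/-! Selection of a long pair with many columns. -/

namespace Vale.Agent.P065

open Classical Finset Pointwise

/-- long triples -/
noncomputable def ringT (A B : Finset ℤ) (L : ℝ) : Finset (ℤ × ℤ × ℤ) :=
  (A ×ˢ B ×ˢ B).filter fun t => t.2.2 < t.2.1 ∧ (pk (toR B) (|(t.2.1 : ℝ) - t.2.2|) : ℝ) < L

theorem ring_U (A B : Finset ℤ) {L : ℝ} (hL : 0 < L) :
    (((A ×ˢ B ×ˢ B).filter fun t : ℤ × ℤ × ℤ =>
      t.2.2 = t.2.1 ∨ L ≤ pk (toR B) (|(t.2.1 : ℝ) - t.2.2|)).card : ℝ) ≤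
      A.card * (B.card * (1 + 7 * (B + B).card / L)) := by
  have h1 : ((A ×ˢ B ×ˢ B).filter fun t : ℤ × ℤ × ℤ =>
      t.2.2 = t.2.1 ∨ L ≤ pk (toR B) (|(t.2.1 : ℝ) - t.2.2|)) ⊆
      A ×ˢ (B.biUnion fun β => (insert β (B.filter fun y => y ≠ β ∧
        L ≤ pk (toR B) (|(β : ℝ) - y|))).image fun y => (β, y)) := by
    rintro ⟨x, β, y⟩ ht
    simp only [mem_filter, mem_product] at ht
    obtain ⟨⟨hx, hβ, hy⟩, h⟩ := ht
    refine mem_product.2 ⟨hx, mem_biUnion.2 ⟨β, hβ, mem_image.2 ⟨y, ?_, rfl⟩⟩⟩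
    by_cases e : y = β
    · exact mem_insert.2 (Or.inl e)
    · exact mem_insert.2 (Or.inr (mem_filter.2 ⟨hy, e, h.resolve_left e⟩))
  refine (Nat.cast_le.2 (card_le_card h1)).trans ?_
  rw [card_product]
  push_cast
  gcongr
  refine (Nat.cast_le.2 card_biUnion_le).trans ?_
  push_cast
  rw [← nsmul_eq_mul, ← sum_const]
  refine sum_le_sum fun β _ => ?_
  refine (Nat.cast_le.2 (card_image_le.trans (card_insert_le _ _))).trans ?_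
  push_cast
  linarith [ring_short B β hL]

theorem ring_Tp (A B : Finset ℤ) (G : Finset (ℤ × ℤ)) (hG : G ⊆ A ×ˢ B) (ρ L : ℝ) :
    ((G ×ˢ G).filter fun x => x.1.1 + ⌊ρ * x.1.2⌋ = x.2.1 + ⌊ρ * x.2.2⌋).card ≤
      2 * ((ringT A B L).filter fun t => t.1 + ⌊ρ * t.2.1⌋ - ⌊ρ * t.2.2⌋ ∈ A).card +
      ((A ×ˢ B ×ˢ B).filter fun t : ℤ × ℤ × ℤ =>
        t.2.2 = t.2.1 ∨ L ≤ pk (toR B) (|(t.2.1 : ℝ) - t.2.2|)).card := by
  set T := (ringT A B L).filter fun t => t.1 + ⌊ρ * t.2.1⌋ - ⌊ρ * t.2.2⌋ ∈ A with hT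
  set U := (A ×ˢ B ×ˢ B).filter fun t : ℤ × ℤ × ℤ =>
        t.2.2 = t.2.1 ∨ L ≤ pk (toR B) (|(t.2.1 : ℝ) - t.2.2|) with hU
  set T' := T.image fun t : ℤ × ℤ × ℤ => (t.1 + ⌊ρ * t.2.1⌋ - ⌊ρ * t.2.2⌋, t.2.2, t.2.1) with hT'
  have h1 : T'.card ≤ T.card := card_image_le
  have h2 : (T ∪ T' ∪ U).card ≤ T.card + T'.card + U.card :=
    (card_union_le _ _).trans (Nat.add_le_add_right (card_union_le _ _) _)
  have h3 : ((G ×ˢ G).filter fun x => x.1.1 + ⌊ρ * x.1.2⌋ = x.2.1 + ⌊ρ * x.2.2⌋).card ≤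
      (T ∪ T' ∪ U).card := by
    refine card_le_card_of_injOn (fun x => (x.1.1, x.1.2, x.2.2)) ?_ ?_
    · rintro ⟨⟨x, β⟩, ⟨x', β'⟩⟩ hx
      simp only [coe_filter, mem_product, Set.mem_setOf_eq] at hx
      obtain ⟨⟨h1, h2⟩, h3⟩ := hx
      obtain ⟨hx, hβ⟩ := mem_product.1 (hG h1)
      obtain ⟨hx', hβ'⟩ := mem_product.1 (hG h2)
      simp only at hx hβ hx' hβ'
      simp only [mem_coe, mem_union]
      by_cases hs : β' = β ∨ L ≤ pk (toR B) (|(β : ℝ) - β'|)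
      · exact Or.inr (mem_filter.2 ⟨mem_product.2 ⟨hx, mem_product.2 ⟨hβ, hβ'⟩⟩, hs⟩)
      · left
        push Not at hs
        rcases lt_or_gt_of_ne hs.1 with hlt | hlt
        · left
          refine mem_filter.2 ⟨mem_filter.2 ⟨mem_product.2 ⟨hx, mem_product.2 ⟨hβ, hβ'⟩⟩,
            hlt, hs.2⟩, ?_⟩
          have : x + ⌊ρ * β⌋ - ⌊ρ * β'⌋ = x' := by omega
          simp only [this]; exact hx'
        · right
          refine mem_image.2 ⟨(x', β', β), mem_filter.2 ⟨mem_filter.2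
            ⟨mem_product.2 ⟨hx', mem_product.2 ⟨hβ', hβ⟩⟩, hlt, ?_⟩, ?_⟩, ?_⟩
          · simp only [abs_sub_comm (β' : ℝ)]; exact hs.2
          · have : x' + ⌊ρ * β'⌋ - ⌊ρ * β⌋ = x := by omega
            simp only [this]; exact hx
          · have : x' + ⌊ρ * β'⌋ - ⌊ρ * β⌋ = x := by omega
            simp only [this]
    · rintro ⟨⟨x, β⟩, ⟨x', β'⟩⟩ hx ⟨⟨y, γ⟩, ⟨y', γ'⟩⟩ hy e
      simp only [coe_filter, mem_product, Set.mem_setOf_eq] at hx hy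
      simp only [Prod.mk.injEq] at e ⊢
      obtain ⟨rfl, rfl, rfl⟩ := e
      refine ⟨⟨rfl, rfl⟩, ?_, rfl⟩
      omega
  omega

variable {ι : Type} {A B : Finset ℤ} {S : Finset ι} {r : ι → ℝ} {G : ι → Finset (ℤ × ℤ)}
  {a nC K : ℝ} {E : ℕ}

theorem SumCfg.ring_Tge (h : SumCfg A B S r G a nC K E) (ha : 4 * K ^ 5 ≤ a) {p : ι} (hp : p ∈ S) :
    a ^ 3 / K ^ 5 ≤ ((ringT A B (K ^ 15)).filter
      fun t => t.1 + ⌊r p * t.2.1⌋ - ⌊r p * t.2.2⌋ ∈ A).card := by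
  have hK2 := h.K_ge
  have hK : 0 < K := by linarith
  have ha0 : 0 < a := by linarith [h.a_ge]
  have h1 := ring_cs (G p) fun x => x.1 + ⌊r p * x.2⌋
  have h2 := ring_Tp A B (G p) (h.G_sub p hp) (r p) (K ^ 15)
  have h3 := ring_U A B (L := K ^ 15) (by positivity)
  set e := ((G p ×ˢ G p).filter fun x => x.1.1 + ⌊r p * x.1.2⌋ = x.2.1 + ⌊r p * x.2.2⌋).card
  set t := ((ringT A B (K ^ 15)).filter fun t => t.1 + ⌊r p * t.2.1⌋ - ⌊r p * t.2.2⌋ ∈ A).card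
  set u := ((A ×ˢ B ×ˢ B).filter fun t : ℤ × ℤ × ℤ =>
        t.2.2 = t.2.1 ∨ K ^ 15 ≤ pk (toR B) (|(t.2.1 : ℝ) - t.2.2|)).card
  have h2' : (e : ℝ) ≤ 2 * t + u := by exact_mod_cast h2
  have h4 : a ^ 3 / K ^ 3 ≤ e := by
    have h5 : (a ^ 2 / K) ^ 2 ≤ K * a * e := by
      calc _ ≤ ((G p).card : ℝ) ^ 2 := by gcongr; exact h.G_ge p hp
        _ ≤ _ := h1
        _ ≤ _ := by gcongr; exact h.G_val p hp
    rw [div_le_iff₀ (by positivity)]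
    rw [div_pow, div_le_iff₀ (by positivity)] at h5
    have : a * a ^ 3 ≤ a * (e * K ^ 3) := by nlinarith
    exact le_of_mul_le_mul_left this ha0
  have h6 : (u : ℝ) ≤ K * a * (K * a * (1 + 7 * (K ^ 5 * a) / K ^ 15)) := by
    refine h3.trans ?_
    have := h.ring_A_le
    have := h.ring_B_le
    have := h.ring_BB
    gcongr
  have hK5 : 32 ≤ K ^ 5 := by
    calc (32 : ℝ) = 2 ^ 5 := by norm_num
      _ ≤ _ := by gcongr
  have hK4 : 4 ≤ K ^ 2 := by nlinarith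
  have h7 : K * a * (K * a * (1 + 7 * (K ^ 5 * a) / K ^ 15)) ≤ a ^ 3 / K ^ 3 / 2 := by
    have e1 : K * a * (K * a * (1 + 7 * (K ^ 5 * a) / K ^ 15)) =
        a ^ 3 / K ^ 3 * (K ^ 5 / a + 7 / K ^ 5) := by field_simp
    have e2 : K ^ 5 / a ≤ 1 / 4 := by rw [div_le_iff₀ ha0]; linarith
    have e3 : 7 / K ^ 5 ≤ 1 / 4 := by rw [div_le_iff₀ (by positivity)]; linarith
    rw [e1]
    have : 0 ≤ a ^ 3 / K ^ 3 := by positivity
    nlinarith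
  have h8 : a ^ 3 / K ^ 5 = a ^ 3 / K ^ 3 / K ^ 2 := by field_simp
  have h9 : a ^ 3 / K ^ 3 / K ^ 2 ≤ a ^ 3 / K ^ 3 / 4 := by gcongr
  linarith

theorem SumCfg.ring_select (h : SumCfg A B S r G a nC K E) (ha : 4 * K ^ 5 ≤ a) :
    ∃ α ∈ A, ∃ β ∈ B, ∃ β' ∈ B, β' < β ∧ (pk (toR B) ((β : ℝ) - β') : ℝ) ≤ K ^ 15 ∧
      nC / K ^ 9 ≤ (S.filter fun p => α + ⌊r p * β⌋ - ⌊r p * β'⌋ ∈ A).card := by
  have hK2 := h.K_ge
  have hK : 0 < K := by linarith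
  have ha0 : 0 < a := by linarith [h.a_ge]
  have hn := h.nC_pos
  set T := ringT A B (K ^ 15) with hT
  have hS0 : (0 : ℝ) < S.card := lt_of_lt_of_le (by positivity) h.S_ge
  obtain ⟨p₀, hp₀⟩ : S.Nonempty := card_pos.1 (by exact_mod_cast hS0)
  have hne : T.Nonempty := by
    have := lt_of_lt_of_le (by positivity) (h.ring_Tge ha hp₀)
    exact (card_pos.1 (by exact_mod_cast this)).mono (filter_subset _ _)
  have hTc : (T.card : ℝ) ≤ K * a * (K * a * (K * a)) := by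
    refine (Nat.cast_le.2 (card_filter_le _ _)).trans ?_
    rw [card_product, card_product]
    push_cast
    have := h.ring_A_le
    have := h.ring_B_le
    gcongr
  have hsum : ∑ p ∈ S, (T.filter fun t => t.1 + ⌊r p * t.2.1⌋ - ⌊r p * t.2.2⌋ ∈ A).card =
      ∑ t ∈ T, (S.filter fun p => t.1 + ⌊r p * t.2.1⌋ - ⌊r p * t.2.2⌋ ∈ A).card := by
    simp only [card_filter]
    exact sum_comm
  have h1 : ∑ _t ∈ T, nC / K ^ 9 ≤
      ∑ t ∈ T, ((S.filter fun p => t.1 + ⌊r p * t.2.1⌋ - ⌊r p * t.2.2⌋ ∈ A).card : ℝ) := by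
    rw [← Nat.cast_sum, ← hsum, Nat.cast_sum, sum_const, nsmul_eq_mul]
    calc (T.card : ℝ) * (nC / K ^ 9) ≤ K * a * (K * a * (K * a)) * (nC / K ^ 9) := by gcongr
      _ = nC / K * (a ^ 3 / K ^ 5) := by field_simp
      _ ≤ S.card * (a ^ 3 / K ^ 5) := by gcongr; exact h.S_ge
      _ = ∑ _p ∈ S, a ^ 3 / K ^ 5 := by rw [sum_const, nsmul_eq_mul]
      _ ≤ _ := sum_le_sum fun p hp => h.ring_Tge ha hp
  obtain ⟨⟨α, β, β'⟩, ht, h2⟩ := exists_le_of_sum_le hne h1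
  obtain ⟨h3, h4, h5⟩ := mem_filter.1 ht
  obtain ⟨h6, h7⟩ := mem_product.1 h3
  obtain ⟨h8, h9⟩ := mem_product.1 h7
  refine ⟨α, h6, β, h8, β', h9, h4, ?_, h2⟩
  have : (0 : ℝ) ≤ (β : ℝ) - β' := by
    have : (β' : ℝ) < β := by exact_mod_cast h4
    linarith
  simp only [abs_of_nonneg this] at h5
  exact h5.le

end Vale.Agent.P065
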