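import Vale.Agent.P065.RingB

/-! Properties of the set of differences of integer parts. -/

namespace Vale.Agent.P065

open Classical Finset Pointwise

theorem ring_mem_dil {c x : ℝ} {D : Finset ℝ} : x ∈ dil c D ↔ ∃ y ∈ D, c * y = x := mem_image

theorem ring_pk_dil (S : Finset ℝ) {c : ℝ} (hc : 0 < c) (η : ℝ) :
    pk (dil c S) (c * η) = pk S η := by
  have := pk_affine S hc.ne' 0 η
  simpa [abs_of_pos hc, dil] using this

theorem ring_toR_add' (A B : Finset ℤ) : toR (A + B) ⊆ toR A + toR B := by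
  intro x hx
  obtain ⟨z, hz, rfl⟩ := ring_mem_toR.1 hx
  obtain ⟨u, hu, v, hv, rfl⟩ := mem_add.1 hz
  push_cast
  exact add_mem_add (ring_mem_toR.2 ⟨u, hu, rfl⟩) (ring_mem_toR.2 ⟨v, hv, rfl⟩)

theorem ring_d {ρ : ℝ} (h0 : 0 < ρ) (h1 : ρ ≤ 1) {β β' : ℤ} (h : β' < β) :
    (0 : ℝ) ≤ ((⌊ρ * β⌋ - ⌊ρ * β'⌋ : ℤ) : ℝ) ∧ ((⌊ρ * β⌋ - ⌊ρ * β'⌋ : ℤ) : ℝ) ≤ (β : ℝ) - β' ∧
      |ρ * ((β : ℝ) - β') - ((⌊ρ * β⌋ - ⌊ρ * β'⌋ : ℤ) : ℝ)| ≤ 1 := by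
  have h2 : (β' : ℝ) < β := by exact_mod_cast h
  refine ⟨?_, ?_, ?_⟩
  · have : ⌊ρ * β'⌋ ≤ ⌊ρ * β⌋ := Int.floor_le_floor (by nlinarith)
    exact_mod_cast sub_nonneg.2 this
  · have : ⌊ρ * β⌋ ≤ ⌊ρ * β' + ((β - β' : ℤ) : ℝ)⌋ := Int.floor_le_floor (by push_cast; nlinarith)
    rw [Int.floor_add_intCast] at this
    have h3 : ⌊ρ * β⌋ - ⌊ρ * β'⌋ ≤ β - β' := by omega
    exact_mod_cast h3
  · push_cast
    have := Int.floor_le (ρ * β)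
    have := Int.lt_floor_add_one (ρ * β)
    have := Int.floor_le (ρ * β')
    have := Int.lt_floor_add_one (ρ * β')
    rw [abs_le]; constructor <;> nlinarith

variable {ι : Type}

/-- the number of classes at scale `1 / ℓ` is controlled by the packing number -/
theorem ring_classes {S T : Finset ι} (hT : T ⊆ S) (r : ι → ℝ) {D : Finset ℝ} {x : ℝ} (hx : 0 < x)
    (h : ∀ p ∈ T, ∃ y ∈ D, |r p - y| ≤ x) :
    (T.card : ℝ) ^ 2 ≤ 10 * pk D x * colEn S r x⁻¹ := by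
  have h1 := ring_cs T fun p => ⌊x⁻¹ * r p⌋
  have h2 : ((T ×ˢ T).filter fun y => ⌊x⁻¹ * r y.1⌋ = ⌊x⁻¹ * r y.2⌋).card ≤ colEn S r x⁻¹ :=
    card_le_card (filter_subset_filter _ (product_subset_product hT hT))
  have h3 := card_floor_le (T.image r) hx
  rw [image_image] at h3
  have h4 : (T.image fun p => ⌊x⁻¹ * r p⌋) = T.image ((fun y => ⌊y / x⌋) ∘ r) := by
    congr 1; ext p; simp [div_eq_inv_mul]
  have h5 := pk_le_near (S := T.image r) (T := D) hx hx hx.le fun y hy => by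
    obtain ⟨p, hp, rfl⟩ := mem_image.1 hy
    exact h p hp
  have h6 : 2 * (x + x) / x + 1 = 5 := by field_simp; ring
  rw [h6] at h5
  rw [← h4] at h3
  have h7 : ((T.image fun p => ⌊x⁻¹ * r p⌋).card : ℝ) ≤ 10 * pk D x := by
    have : ((T.image fun p => ⌊x⁻¹ * r p⌋).card : ℝ) ≤ 2 * pk (T.image r) x := by exact_mod_cast h3
    linarith
  refine h1.trans ?_
  gcongr

theorem ring_pk_H' {A H D : Finset ℤ} {α : ℤ} (hD : ∀ d ∈ D, α + d ∈ A) {a M N ℓ : ℝ}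
    (ha : 0 < a) (hN : 0 < N) (hM : ((H + A).card : ℝ) ≤ M * a) (hc : a / N ≤ D.card)
    (hℓ : 1 ≤ ℓ) : (pk (toR H) ℓ : ℝ) ≤ 10 * M * N * pk (toR D) ℓ := by
  have h1 := ring_pk_H H D hℓ
  have h2 : (H + D).card ≤ (H + A).card := by
    refine card_le_card_of_injOn (fun z => α + z) ?_ fun x _ y _ e => by simpa using e
    intro z hz
    obtain ⟨u, hu, v, hv, rfl⟩ := mem_add.1 (mem_coe.1 hz)
    exact mem_coe.2 (mem_add.2 ⟨u, hu, α + v, hD v hv, by ring⟩)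
  have h3 : ((H + D).card : ℝ) ≤ M * a := le_trans (by exact_mod_cast h2) hM
  have h4 : (pk (toR H) ℓ : ℝ) * (a / N) ≤ 10 * (M * a) * pk (toR D) ℓ := by
    calc _ ≤ (pk (toR H) ℓ : ℝ) * D.card := by gcongr
      _ ≤ _ := h1
      _ ≤ _ := by gcongr
  rw [← mul_div_assoc, div_le_iff₀ hN] at h4
  have : a * (pk (toR H) ℓ : ℝ) ≤ a * (10 * M * N * pk (toR D) ℓ) := by linarith
  exact le_of_mul_le_mul_left this ha

/-- products are approximated by sums -/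
theorem ring_prod {A P X X' : Finset ℤ} {ρ ρ' z Λ : ℝ} (α : ℤ)
    (hX : ∀ x ∈ A, ⌊ρ * x⌋ ∈ X + P) (hX' : ∀ x ∈ A, ⌊ρ' * x⌋ ∈ X' + P)
    (hz : |z - (ρ - ρ')| * Λ ≤ 2) :
    ∃ Y : Finset ℝ, Y.card ≤ X.card * X'.card ∧ ∀ e : ℤ, α + e ∈ A → (0 : ℝ) ≤ e → (e : ℝ) ≤ Λ →
      ∃ y ∈ Y, ∃ u ∈ P - P, |z * e - (y + u)| ≤ 3 := by
  refine ⟨(X - X').image fun w : ℤ => (w : ℝ) - (ρ - ρ') * α, card_image_le.trans card_sub_le, ?_⟩
  intro e he h0 h1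
  obtain ⟨x, hx, u, hu, e1⟩ := mem_add.1 (hX _ he)
  obtain ⟨x', hx', u', hu', e2⟩ := mem_add.1 (hX' _ he)
  refine ⟨_, mem_image_of_mem _ (sub_mem_sub hx hx'), u - u', sub_mem_sub hu hu', ?_⟩
  have e3 : (x : ℝ) + u = (⌊ρ * ((α + e : ℤ) : ℝ)⌋ : ℝ) := by exact_mod_cast e1
  have e4 : (x' : ℝ) + u' = (⌊ρ' * ((α + e : ℤ) : ℝ)⌋ : ℝ) := by exact_mod_cast e2
  have := Int.floor_le (ρ * ((α + e : ℤ) : ℝ))
  have := Int.lt_floor_add_one (ρ * ((α + e : ℤ) : ℝ))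
  have := Int.floor_le (ρ' * ((α + e : ℤ) : ℝ))
  have := Int.lt_floor_add_one (ρ' * ((α + e : ℤ) : ℝ))
  have h2 : |(z - (ρ - ρ')) * e| ≤ 2 := by
    rw [abs_mul, abs_of_nonneg h0]
    exact le_trans (by gcongr) hz
  rw [abs_le] at h2 ⊢
  push_cast at *
  constructor <;> nlinarith

theorem ring_sumset (A : Finset ℤ) :
    A + A + ((4 • A - 4 • A) - (4 • A - 4 • A)) + ((4 • A - 4 • A) - (4 • A - 4 • A)) +
      ((4 • A - 4 • A) - (4 • A - 4 • A)) + ((4 • A - 4 • A) - (4 • A - 4 • A)) + A =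
      35 • A - 32 • A := by
  simp only [sub_eq_add_neg, neg_add, neg_neg, ← neg_nsmul]
  generalize -A = N
  abel

theorem ring_sumset' (A : Finset ℤ) : A - A + A = 2 • A - 1 • A := by
  simp only [sub_eq_add_neg, ← neg_nsmul]
  generalize -A = N
  abel

end Vale.Agent.P065
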