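import Vale.Agent.P065.RingC

/-! Closure and lower bound of the ring. -/

namespace Vale.Agent.P065

open Classical Finset Pointwise

variable {ι : Type} {A B : Finset ℤ} {S : Finset ι} {r : ι → ℝ} {G : ι → Finset (ℤ × ℤ)}
  {a nC K : ℝ} {E : ℕ}

theorem SumCfg.ring_pkB (h : SumCfg A B S r G a nC K E) {D : Finset ℤ} {α : ℤ}
    (hD : ∀ d ∈ D, α + d ∈ A) {N ℓ : ℝ} (hN : 0 < N) (hc : a / N ≤ D.card) (hℓ : 1 ≤ ℓ) :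
    (pk (toR B) ℓ : ℝ) ≤ K ^ 2 * (10 * K ^ 7 * N * pk (toR D) ℓ) := by
  have hK : 0 < K := by linarith [h.K_ge]
  have ha : 0 < a := by linarith [h.a_ge]
  have hA0 : (0 : ℝ) < A.card := lt_of_lt_of_le (by positivity) h.A_ge
  have hne : A.Nonempty := card_pos.1 (by exact_mod_cast hA0)
  have h1 : ((B + A).card : ℝ) ≤ K ^ 2 * A.card := by
    have h2 := h.A_ge
    have h3 := h.sum_le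
    rw [div_le_iff₀ hK] at h2
    rw [add_comm B A]
    nlinarith
  obtain ⟨F, -, hF, hB⟩ := ruzsa_covering_add hne h1
  have h2 : toR B ⊆ toR F + toR (A - A) := (image_subset_image hB).trans (ring_toR_add' _ _)
  have h3 := (pk_mono h2 ℓ).trans (pk_add_le _ _ _)
  rw [ring_card_toR] at h3
  have h4 := ring_pk_H' (H := A - A) (M := K ^ 7) hD ha hN
    (by rw [ring_sumset']; exact h.ring_prA 2 1) hc hℓ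
  calc (pk (toR B) ℓ : ℝ) ≤ F.card * pk (toR (A - A)) ℓ := by exact_mod_cast h3
    _ ≤ _ := by gcongr

theorem ring_mem6 {D₁ D₂ D₃ D₄ D₅ D₆ : Finset ℝ} {w : ℝ} (hw : w ∈ D₁ + D₂ + D₃ + D₄ + D₅ + D₆) :
    ∃ a ∈ D₁, ∃ b ∈ D₂, ∃ c ∈ D₃, ∃ d ∈ D₄, ∃ e ∈ D₅, ∃ f ∈ D₆, a + b + c + d + e + f = w := by
  obtain ⟨v₄, hv₄, w₄, hw₄, e₄⟩ := mem_add.1 hw
  obtain ⟨v₃, hv₃, w₃, hw₃, e₃⟩ := mem_add.1 hv₄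
  obtain ⟨v₂, hv₂, w₂, hw₂, e₂⟩ := mem_add.1 hv₃
  obtain ⟨v₁, hv₁, w₁, hw₁, e₁⟩ := mem_add.1 hv₂
  obtain ⟨v, hv, v', hv', e₀⟩ := mem_add.1 hv₁
  exact ⟨_, hv, _, hv', _, hw₁, _, hw₂, _, hw₃, _, hw₄, by rw [e₀, e₁, e₂, e₃, e₄]⟩

theorem ring_near_num {Λ z₁ z₂ z₃ z₄ y₁ y₂ y₃ y₄ : ℝ} {α d d' d₁ d₂ d₃ d₄ u₁ u₂ u₃ u₄ : ℤ}
    (hΛ : 0 < Λ) (f₁ : |z₁ * d₁ - (y₁ + u₁)| ≤ 3) (f₂ : |z₂ * d₂ - (y₂ + u₂)| ≤ 3)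
    (f₃ : |z₃ * d₃ - (y₃ + u₃)| ≤ 3) (f₄ : |z₄ * d₄ - (y₄ + u₄)| ≤ 3) :
    |Λ * (Λ⁻¹ * d + Λ⁻¹ * d' + z₁ * (Λ⁻¹ * d₁) + z₂ * (Λ⁻¹ * d₂) + z₃ * (Λ⁻¹ * d₃) +
      z₄ * (Λ⁻¹ * d₄)) - (y₁ + y₂ + y₃ + y₄ - 2 * (α : ℝ) +
        ((α + d + (α + d') + u₁ + u₂ + u₃ + u₄ : ℤ) : ℝ))| ≤ 12 := by
  have : Λ * (Λ⁻¹ * d + Λ⁻¹ * d' + z₁ * (Λ⁻¹ * d₁) + z₂ * (Λ⁻¹ * d₂) + z₃ * (Λ⁻¹ * d₃) +
      z₄ * (Λ⁻¹ * d₄)) = d + d' + z₁ * d₁ + z₂ * d₂ + z₃ * d₃ + z₄ * d₄ := by field_simp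
  rw [this]
  push_cast
  rw [abs_le] at f₁ f₂ f₃ f₄ ⊢
  constructor <;> linarith

theorem ring_near {A Q D : Finset ℤ} {D' Y₁ Y₂ Y₃ Y₄ : Finset ℝ} {α : ℤ} {Λ z₁ z₂ z₃ z₄ : ℝ}
    (hΛ : 0 < Λ) (hD : ∀ d ∈ D, α + d ∈ A) (hmem : ∀ x ∈ D', ∃ d ∈ D, Λ⁻¹ * d = x)
    (k₁ : ∀ e ∈ D, ∃ y ∈ Y₁, ∃ u ∈ Q, |z₁ * e - (y + u)| ≤ 3)
    (k₂ : ∀ e ∈ D, ∃ y ∈ Y₂, ∃ u ∈ Q, |z₂ * e - (y + u)| ≤ 3)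
    (k₃ : ∀ e ∈ D, ∃ y ∈ Y₃, ∃ u ∈ Q, |z₃ * e - (y + u)| ≤ 3)
    (k₄ : ∀ e ∈ D, ∃ y ∈ Y₄, ∃ u ∈ Q, |z₄ * e - (y + u)| ≤ 3) :
    ∀ w ∈ dil Λ (D' + D' + dil z₁ D' + dil z₂ D' + dil z₃ D' + dil z₄ D'),
      ∃ y ∈ ((Y₁ + Y₂ + Y₃ + Y₄).image fun y => y - 2 * (α : ℝ)) + toR (A + A + Q + Q + Q + Q),
        |w - y| ≤ 12 := by
  intro w hw
  obtain ⟨w', hw', rfl⟩ := ring_mem_dil.1 hw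
  clear hw
  obtain ⟨v, hv, v', hv', w₁, hw₁, w₂, hw₂, w₃, hw₃, w₄, hw₄, rfl⟩ := ring_mem6 hw'
  clear hw'
  obtain ⟨x₄, hx₄, rfl⟩ := ring_mem_dil.1 hw₄
  obtain ⟨x₃, hx₃, rfl⟩ := ring_mem_dil.1 hw₃
  obtain ⟨x₂, hx₂, rfl⟩ := ring_mem_dil.1 hw₂
  obtain ⟨x₁, hx₁, rfl⟩ := ring_mem_dil.1 hw₁
  clear hw₁ hw₂ hw₃ hw₄
  obtain ⟨d₄, hd₄, rfl⟩ := hmem _ hx₄
  obtain ⟨d₃, hd₃, rfl⟩ := hmem _ hx₃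
  obtain ⟨d₂, hd₂, rfl⟩ := hmem _ hx₂
  obtain ⟨d₁, hd₁, rfl⟩ := hmem _ hx₁
  obtain ⟨d, hd, rfl⟩ := hmem _ hv
  obtain ⟨d', hd', rfl⟩ := hmem _ hv'
  obtain ⟨y₁, hy₁, u₁, hu₁, f₁⟩ := k₁ _ hd₁
  obtain ⟨y₂, hy₂, u₂, hu₂, f₂⟩ := k₂ _ hd₂
  obtain ⟨y₃, hy₃, u₃, hu₃, f₃⟩ := k₃ _ hd₃
  obtain ⟨y₄, hy₄, u₄, hu₄, f₄⟩ := k₄ _ hd₄
  have m1 : y₁ + y₂ + y₃ + y₄ - 2 * (α : ℝ) ∈
      (Y₁ + Y₂ + Y₃ + Y₄).image fun y => y - 2 * (α : ℝ) :=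
    mem_image.2 ⟨_, add_mem_add (add_mem_add (add_mem_add hy₁ hy₂) hy₃) hy₄, rfl⟩
  have m2 : α + d + (α + d') + u₁ + u₂ + u₃ + u₄ ∈ A + A + Q + Q + Q + Q :=
    add_mem_add (add_mem_add (add_mem_add (add_mem_add
      (add_mem_add (hD _ hd) (hD _ hd')) hu₁) hu₂) hu₃) hu₄
  exact ⟨_, add_mem_add m1 (ring_mem_toR.2 ⟨_, m2, rfl⟩), ring_near_num hΛ f₁ f₂ f₃ f₄⟩

theorem SumCfg.ring_key (h : SumCfg A B S r G a nC K E) {D : Finset ℤ} {D' : Finset ℝ} {α : ℤ}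
    {Λ : ℝ} (hΛ : 0 < Λ) (hD : ∀ d ∈ D, α + d ∈ A) (hD0 : ∀ d ∈ D, (0 : ℝ) ≤ d ∧ (d : ℝ) ≤ Λ)
    (hDr : ∀ d ∈ D, ∃ p ∈ S, |r p * Λ - d| ≤ 1) (hmem : ∀ x ∈ D', ∃ d ∈ D, Λ⁻¹ * d = x)
    {P : Finset ℤ} (hP : 4 • A - 4 • A = P) :
    ∀ z ∈ D' - D', ∃ Y : Finset ℝ, (Y.card : ℝ) ≤ K ^ 2 ∧
      ∀ e ∈ D, ∃ y ∈ Y, ∃ u ∈ P - P, |z * e - (y + u)| ≤ 3 := by
  have hK : 0 < K := by linarith [h.K_ge]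
  intro z hz
  obtain ⟨x, hx, x', hx', rfl⟩ := mem_sub.1 hz
  obtain ⟨d, hd, rfl⟩ := hmem x hx
  obtain ⟨d', hd', rfl⟩ := hmem x' hx'
  obtain ⟨p, hp, e1⟩ := hDr d hd
  obtain ⟨p', hp', e2⟩ := hDr d' hd'
  obtain ⟨X, hX, hX1⟩ := h.cover p hp
  obtain ⟨X', hX', hX2⟩ := h.cover p' hp'
  rw [hP] at hX1 hX2
  have h0 : |Λ⁻¹ * d - Λ⁻¹ * d' - (r p - r p')| * Λ ≤ 2 := by
    have e0 : |Λ⁻¹ * d - Λ⁻¹ * d' - (r p - r p')| * Λ =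
        |(Λ⁻¹ * d - Λ⁻¹ * d' - (r p - r p')) * Λ| := by rw [abs_mul, abs_of_pos hΛ]
    have : (Λ⁻¹ * d - Λ⁻¹ * d' - (r p - r p')) * Λ = (r p' * Λ - d') - (r p * Λ - d) := by
      field_simp; ring
    rw [e0, this]
    rw [abs_le] at e1 e2 ⊢
    constructor <;> linarith
  obtain ⟨Y, hY, hY1⟩ := ring_prod α hX1 hX2 h0
  refine ⟨Y, ?_, fun e he => hY1 e (hD e he) (hD0 e he).1 (hD0 e he).2⟩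
  calc (Y.card : ℝ) ≤ X.card * X'.card := by exact_mod_cast hY
    _ ≤ K * K := by gcongr
    _ = _ := by ring

theorem SumCfg.ring_closure (h : SumCfg A B S r G a nC K E) {D : Finset ℤ} {D' : Finset ℝ}
    {α : ℤ} {Λ N : ℝ} (hD' : D' = dil Λ⁻¹ (toR D))
    (hΛ : 0 < Λ) (hD : ∀ d ∈ D, α + d ∈ A) (hD0 : ∀ d ∈ D, (0 : ℝ) ≤ d ∧ (d : ℝ) ≤ Λ)
    (hDr : ∀ d ∈ D, ∃ p ∈ S, |r p * Λ - d| ≤ 1) (hN : 0 < N) (hc : a / N ≤ D.card)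
    {z₁ z₂ z₃ z₄ η : ℝ} (h₁ : z₁ ∈ D' - D') (h₂ : z₂ ∈ D' - D') (h₃ : z₃ ∈ D' - D')
    (h₄ : z₄ ∈ D' - D') (hη : Λ⁻¹ ≤ η) :
    (pk (D' + D' + dil z₁ D' + dil z₂ D' + dil z₃ D' + dil z₄ D') η : ℝ) ≤
      27 * (K ^ 8 * (10 * K ^ 135 * N * pk D' η)) := by
  have hK : 0 < K := by linarith [h.K_ge]
  have ha : 0 < a := by linarith [h.a_ge]
  have hmem : ∀ x ∈ D', ∃ d ∈ D, Λ⁻¹ * d = x := by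
    intro x hx
    rw [hD'] at hx
    obtain ⟨y, hy, rfl⟩ := ring_mem_dil.1 hx
    obtain ⟨d, hd, rfl⟩ := ring_mem_toR.1 hy
    exact ⟨d, hd, rfl⟩
  obtain ⟨P, hP⟩ : ∃ P, 4 • A - 4 • A = P := ⟨_, rfl⟩
  have key := h.ring_key hΛ hD hD0 hDr hmem hP
  obtain ⟨Y₁, c₁, k₁⟩ := key z₁ h₁
  obtain ⟨Y₂, c₂, k₂⟩ := key z₂ h₂
  obtain ⟨Y₃, c₃, k₃⟩ := key z₃ h₃
  obtain ⟨Y₄, c₄, k₄⟩ := key z₄ h₄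
  have hnear := ring_near hΛ hD hmem k₁ k₂ k₃ k₄
  have hHA : ((A + A + (P - P) + (P - P) + (P - P) + (P - P) + A).card : ℝ) ≤ K ^ 135 * a := by
    have := h.ring_prA 35 32
    rw [← ring_sumset, hP] at this
    exact this
  generalize A + A + (P - P) + (P - P) + (P - P) + (P - P) = H at hnear hHA
  have hYc : (((Y₁ + Y₂ + Y₃ + Y₄).image fun y => y - 2 * (α : ℝ)).card : ℝ) ≤ K ^ 8 := by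
    have : ((Y₁ + Y₂ + Y₃ + Y₄).image fun y => y - 2 * (α : ℝ)).card ≤
        Y₁.card * Y₂.card * Y₃.card * Y₄.card :=
      card_image_le.trans (card_add_le.trans (Nat.mul_le_mul_right _
        (card_add_le.trans (Nat.mul_le_mul_right _ card_add_le))))
    calc _ ≤ (Y₁.card : ℝ) * Y₂.card * Y₃.card * Y₄.card := by exact_mod_cast this
      _ ≤ K ^ 2 * K ^ 2 * K ^ 2 * K ^ 2 := by gcongr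
      _ = _ := by ring
  generalize ((Y₁ + Y₂ + Y₃ + Y₄).image fun y => y - 2 * (α : ℝ)) = Y at hnear hYc
  have hℓ : 1 ≤ Λ * η := by
    rw [inv_le_iff_one_le_mul₀' hΛ] at hη; exact hη
  have e1 : pk D' η = pk (toR D) (Λ * η) := by
    rw [← ring_pk_dil (toR D) (inv_pos.2 hΛ) (Λ * η), ← mul_assoc, inv_mul_cancel₀ hΛ.ne', one_mul,
      hD']
  rw [← ring_pk_dil _ hΛ η, e1]
  generalize Λ * η = ℓ at hℓ ⊢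
  have h1 := pk_le_near (η := ℓ) (η' := ℓ) (by linarith) (by linarith) (by norm_num) hnear
  have h2 : 2 * (ℓ + 12) / ℓ + 1 ≤ 27 := by
    have : 2 * (ℓ + 12) / ℓ ≤ 26 := by rw [div_le_iff₀ (by linarith)]; linarith
    linarith
  have h3 := pk_add_le Y (toR H) ℓ
  have h4 := ring_pk_H' hD ha hN hHA hc hℓ
  have h5 : (pk (Y + toR H) ℓ : ℝ) ≤ K ^ 8 * (10 * K ^ 135 * N * pk (toR D) ℓ) := by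
    calc (pk (Y + toR H) ℓ : ℝ) ≤ Y.card * pk (toR H) ℓ := by exact_mod_cast h3
      _ ≤ _ := by gcongr
  exact h1.trans (mul_le_mul h2 h5 (Nat.cast_nonneg _) (by norm_num))

end Vale.Agent.P065
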