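import Vale.Agent.P065.SPDefs

/-! Common facts on ring configurations, and the analytic core of the regular range lemma. -/

namespace Vale.Agent.P065

open Classical Finset Pointwise

theorem pk_le_add (A : Finset ℝ) {B : Finset ℝ} (hB : B.Nonempty) (η : ℝ) :
    pk A η ≤ pk (A + B) η := by
  obtain ⟨b, hb⟩ := hB
  have h := pk_affine A one_ne_zero b η
  rw [abs_one, one_mul] at h
  rw [← h]
  refine pk_mono (fun z hz => ?_) η
  obtain ⟨x, hx, rfl⟩ := mem_image.1 hz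
  rw [one_mul]
  exact add_mem_add hx hb

theorem dil_nonempty (z : ℝ) {D : Finset ℝ} (h : D.Nonempty) : (dil z D).Nonempty := h.image _

theorem dil_mono (z : ℝ) {D E : Finset ℝ} (h : D ⊆ E) : dil z D ⊆ dil z E := image_subset_image h

theorem mem_dil {z x : ℝ} {D : Finset ℝ} (h : x ∈ D) : z * x ∈ dil z D := mem_image_of_mem _ h

theorem pk_dil (D : Finset ℝ) {c : ℝ} (hc : c ≠ 0) (η : ℝ) : pk (dil c D) (|c| * η) = pk D η := by
  have h := pk_affine D hc 0 η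
  simpa only [add_zero, dil] using h

namespace RingCfg

variable {D : Finset ℝ} {δ g K : ℝ}

theorem K_pos (hD : RingCfg D δ g K) : 0 < K := by linarith [hD.K_ge]

theorem nonempty (hD : RingCfg D δ g K) : D.Nonempty := by
  have h := (div_pos hD.g_pos hD.K_pos).trans_le hD.card_ge
  exact card_pos.1 (by exact_mod_cast h)

theorem zero_mem (hD : RingCfg D δ g K) : (0 : ℝ) ∈ D - D := by
  obtain ⟨x, hx⟩ := hD.nonempty
  exact sub_self x ▸ sub_mem_sub hx hx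

theorem one_le (hD : RingCfg D δ g K) (η : ℝ) : (1 : ℝ) ≤ pk D η := by
  exact_mod_cast one_le_pk hD.nonempty η

theorem pk_pos (hD : RingCfg D δ g K) (η : ℝ) : (0 : ℝ) < pk D η :=
  zero_lt_one.trans_le (hD.one_le η)

theorem pk_one (hD : RingCfg D δ g K) : (pk D 1 : ℝ) ≤ 2 := by
  have := pk_le_of_diam (S := D) (η := 1) (ℓ := 1) (x := 0) one_pos zero_le_one
    fun y hy => by simpa using hD.sub y hy
  linarith

theorem closure2 (hD : RingCfg D δ g K) {y z : ℝ} (hy : y ∈ D - D) (hz : z ∈ D - D) {η : ℝ}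
    (hη : δ ≤ η) : (pk (D + D + dil y D + dil z D) η : ℝ) ≤ K * pk D η := by
  refine le_trans ?_ (hD.closure y hy z hz 0 hD.zero_mem 0 hD.zero_mem η hη)
  exact_mod_cast (pk_le_add _ (dil_nonempty _ hD.nonempty) η).trans
    (pk_le_add _ (dil_nonempty _ hD.nonempty) η)

theorem closure1 (hD : RingCfg D δ g K) {y : ℝ} (hy : y ∈ D - D) {η : ℝ}
    (hη : δ ≤ η) : (pk (D + dil y D) η : ℝ) ≤ K * pk D η := by
  refine le_trans ?_ (hD.closure2 hy hD.zero_mem hη)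
  have h := pk_le_add (D + dil y D) hD.nonempty η
  rw [add_right_comm] at h
  exact_mod_cast h.trans (pk_le_add _ (dil_nonempty _ hD.nonempty) η)

theorem log_le (hD : RingCfg D δ g K) {c : ℝ} (hc0 : 0 < c) (hc : c ≤ 2 ^ 16) :
    Real.log (c * K ^ 4) ≤ 20 * Real.log K := by
  have h1 : (2 : ℝ) ^ 16 ≤ K ^ 16 := pow_le_pow_left₀ (by norm_num) hD.K_ge 16
  have hK := hD.K_pos
  have h2 : c * K ^ 4 ≤ K ^ 20 := by
    calc c * K ^ 4 ≤ K ^ 16 * K ^ 4 := by gcongr; linarith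
      _ = K ^ 20 := by ring
  have h3 := Real.log_le_log (by positivity) h2
  rwa [Real.log_pow K] at h3

theorem k_ge (hD : RingCfg D δ g K) : 13 ≤ 20 * Real.log K := by
  have h1 := Real.log_le_log (by norm_num) hD.K_ge
  have h2 := Real.log_two_gt_d9
  linarith

theorem le_pow_four (hD : RingCfg D δ g K) : K ≤ K ^ 4 ∧ K ^ 2 ≤ K ^ 4 := by
  have h : (1 : ℝ) ≤ K := by linarith [hD.K_ge]
  exact ⟨le_self_pow₀ h (by norm_num), pow_le_pow_right₀ h (by norm_num)⟩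

theorem lpk_nonneg (hD : RingCfg D δ g K) (t : ℝ) : 0 ≤ lpk D t := Real.log_nonneg (hD.one_le _)

theorem lpk_mono (hD : RingCfg D δ g K) : Monotone (lpk D) := fun s t h =>
  Real.log_le_log (hD.pk_pos _) (by
    exact_mod_cast pk_anti D (Real.exp_le_exp.2 (neg_le_neg h)))

theorem exp_lpk (hD : RingCfg D δ g K) (t : ℝ) :
    Real.exp (lpk D t) = pk D (Real.exp (-t)) := Real.exp_log (hD.pk_pos _)

/-- submultiplicativity along a difference -/
theorem sm (hD : RingCfg D δ g K) {y ℓ η : ℝ} (hy : y ∈ D - D) (hy0 : 0 < y) (hℓ : 0 < ℓ)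
    (hη : δ ≤ η) (hη' : η ≤ y * ℓ) :
    (pk D (y * ℓ) : ℝ) * pk D (η / y) ≤ 10 * K * pk D ℓ * pk D η := by
  have hη0 : 0 < η := hD.δ_pos.trans_le hη
  have hyl : 0 < y * ℓ := mul_pos hy0 hℓ
  obtain ⟨x, hx⟩ := exists_local D (η := η / y) hℓ
  set D' := D.filter fun z => x ≤ z ∧ z ≤ x + ℓ with hD'
  have h1 := pk_dil D' hy0.ne' (η / y)
  rw [abs_of_pos hy0, mul_div_cancel₀ _ hy0.ne'] at h1
  have h2 := pk_mul_le (S := D) (T := dil y D') (x := y * x) hη0 hyl.le fun z hz => by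
    obtain ⟨w, hw, rfl⟩ := mem_image.1 hz
    have := (mem_filter.1 hw).2
    constructor <;> nlinarith [this.1, this.2]
  have h3 := h2.trans (pk_mono (add_subset_add_left (dil_mono y (filter_subset _ D))) η)
  have h4 := hD.closure1 hy hη
  have h5 := pk_le_near (S := D) (T := D) (η := y * ℓ) (η' := y * ℓ + η) (ε := 0) hyl
    (by linarith) le_rfl fun z hz => ⟨z, hz, by simp⟩
  have h6 : 2 * (y * ℓ + η + 0) / (y * ℓ) + 1 ≤ 5 := by
    have : 2 * (y * ℓ + η + 0) / (y * ℓ) ≤ 4 := by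
      rw [div_le_iff₀ hyl]; linarith
    linarith
  have h7 : (pk D (y * ℓ) : ℝ) ≤ 5 * pk D (y * ℓ + η) :=
    h5.trans (mul_le_mul_of_nonneg_right h6 (Nat.cast_nonneg _))
  have h8 : (pk D (η / y) : ℝ) ≤ 2 * pk D ℓ * pk (dil y D') η := by
    rw [h1]; exact_mod_cast hx
  have h9 : (pk D (y * ℓ + η) : ℝ) * pk (dil y D') η ≤ K * pk D η :=
    le_trans (by exact_mod_cast h3) h4
  calc _ ≤ (5 * (pk D (y * ℓ + η) : ℝ)) * (2 * pk D ℓ * pk (dil y D') η) :=
        mul_le_mul h7 h8 (Nat.cast_nonneg _) (by positivity)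
    _ = 10 * pk D ℓ * ((pk D (y * ℓ + η) : ℝ) * pk (dil y D') η) := by ring
    _ ≤ 10 * pk D ℓ * (K * pk D η) := mul_le_mul_of_nonneg_left h9 (by positivity)
    _ = _ := by ring

/-- supermultiplicativity -/
theorem sa (hD : RingCfg D δ g K) {x x' : ℝ} (hx0 : 0 < x) (hx : x ≤ 1) (hx0' : 0 < x')
    (hx' : x' ≤ 1) (h : δ ≤ x * x') :
    (pk D x : ℝ) * pk D x' ≤ 20 * K * pk D (x * x') := by
  have hK := hD.K_ge
  have hp := hD.pk_pos (x * x')
  by_cases h2 : 2 ≤ pk D x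
  · obtain ⟨a, ha, b, hb, h3, h4⟩ := exists_gap hx0 h2
    have hy0 : 0 < a - b := hx0.trans_le h3
    have h5 := hD.sm (ℓ := 1) (sub_mem_sub ha hb) hy0 one_pos h (by nlinarith)
    rw [mul_one] at h5
    have h6 : pk D x' ≤ pk D (x * x' / (a - b)) := pk_anti D (by
      rw [div_le_iff₀ hy0]; nlinarith)
    have h7 := hD.pk_one
    calc _ ≤ (pk D (a - b) : ℝ) * pk D (x * x' / (a - b)) :=
          mul_le_mul (by exact_mod_cast h4) (by exact_mod_cast h6) (Nat.cast_nonneg _)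
            (Nat.cast_nonneg _)
      _ ≤ _ := h5
      _ ≤ 10 * K * 2 * pk D (x * x') := by gcongr
      _ = _ := by ring
  · have h3 : (pk D x : ℝ) ≤ 1 := by exact_mod_cast (by omega : pk D x ≤ 1)
    have h4 : (pk D x' : ℝ) ≤ pk D (x * x') := by
      exact_mod_cast pk_anti D (by nlinarith : x * x' ≤ x')
    have h5 := mul_le_mul h3 h4 (Nat.cast_nonneg _) zero_le_one
    nlinarith

end RingCfg

theorem regular_A {μ : ℝ → ℝ} {T G k a : ℝ} (hk : 0 ≤ k) (mono : Monotone μ)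
    (nonneg : ∀ t, 0 ≤ μ t) (top1 : G - k ≤ μ T) (top2 : μ T ≤ G + k)
    (SM : ∀ s t, t ≤ T → a + s ≤ t → μ (a + s) + μ (t - a) ≤ k + μ s + μ t)
    (WL : G ≤ k + 10 * μ a + μ (T - a)) (ha : 0 < a) (haT : a ≤ T) (N : ℕ) (hN : T ≤ N * a) :
    G ≤ 11 * N * μ a + (N + 1) ^ 2 * k := by
  have P : ∀ i : ℕ, μ (T - i * a) - μ (T - (i + 1) * a) ≤ 10 * μ a + 2 * k + i * k := by
    intro i
    induction i with
    | zero => simp only [Nat.cast_zero, zero_mul, sub_zero, zero_add, one_mul]; linarith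
    | succ i ih =>
      have hi : (0 : ℝ) ≤ i * a := by positivity
      have h := SM (T - (i + 1 + 1) * a) (T - i * a) (by linarith) (by linarith)
      rw [show a + (T - (i + 1 + 1) * a) = T - (i + 1) * a by ring,
        show T - i * a - a = T - (i + 1) * a by ring] at h
      push_cast
      linarith
  have Q : ∀ i : ℕ, μ T ≤ μ (T - i * a) + i * (10 * μ a + 2 * k) + i ^ 2 * k := by
    intro i
    induction i with
    | zero => simp
    | succ i ih =>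
      have h := P i
      have hi : (0 : ℝ) ≤ i * k := by positivity
      push_cast
      nlinarith
  have hN1 : (1 : ℝ) ≤ N := by
    by_contra h
    have : N = 0 := by
      have : (N : ℝ) < 1 := not_le.1 h
      have : N < 1 := by exact_mod_cast this
      omega
    rw [this] at hN
    simp at hN
    linarith
  have h1 := Q N
  have h2 : μ (T - N * a) ≤ μ a := mono (by linarith)
  have h3 := nonneg a
  nlinarith

theorem regular_core {μ : ℝ → ℝ} {Val : Finset ℝ} {T G k : ℝ} {n : ℕ}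
    (hn : (121 : ℝ) ≤ (1 + 1 / 88) ^ n) (hk : 3 ≤ k) (hT : 0 ≤ T) (mono : Monotone μ)
    (nonneg : ∀ t, 0 ≤ μ t) (zero : μ 0 ≤ 1) (step : ∀ t, μ (t + 1) ≤ μ t + 3)
    (top1 : G - k ≤ μ T) (top2 : μ T ≤ G + k)
    (SM : ∀ a ∈ Val, ∀ s t, t ≤ T → a + s ≤ t → μ (a + s) + μ (t - a) ≤ k + μ s + μ t)
    (SA : ∀ s t, 0 ≤ s → 0 ≤ t → s + t ≤ T → μ s + μ t ≤ μ (s + t) + k)
    (VAL : ∀ s t, μ s < μ t → ∃ a ∈ Val, s < a ∧ a ≤ t)
    (WL : ∀ t, 0 ≤ t → t ≤ T → G ≤ k + 10 * μ t + μ (T - t))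
    (hG : 10 ^ 5 * ((11 : ℝ) ^ n) ^ 2 * k ≤ G) :
    ∃ h, 0 < h ∧ 11 * h ≤ T ∧ 1000 * k ≤ μ h ∧ μ (11 * h) ≤ 11 * μ h + μ h / 8 := by
  obtain ⟨J, hJ⟩ : ∃ J : ℕ, J = 11 ^ n := ⟨_, rfl⟩
  have hJr : (J : ℝ) = 11 ^ n := by rw [hJ]; push_cast; rfl
  have hJ1 : (1 : ℝ) ≤ J := by rw [hJr]; exact one_le_pow₀ (by norm_num)
  rw [← hJr] at hG
  have hJk : k ≤ (J : ℝ) ^ 2 * k := by nlinarith [one_le_pow₀ (n := 2) hJ1]
  have hJk' : J * k ≤ (J : ℝ) ^ 2 * k := by nlinarith [mul_nonneg (sub_nonneg.2 hJ1) (by linarith : 0 ≤ k)]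
  have hT0 : 0 < T := by
    rcases hT.eq_or_lt with h | h
    · rw [← h] at top1
      nlinarith
    · exact h
  obtain ⟨h₀, hh₀⟩ : ∃ h₀, h₀ = T / J := ⟨_, rfl⟩
  have hTJ : T = J * h₀ := by rw [hh₀]; field_simp
  have h0pos : 0 < h₀ := by rw [hh₀]; positivity
  have h0T : h₀ ≤ T := by nlinarith
  have A : ∀ a ∈ Val, h₀ / 2 < a → a ≤ T → G ≤ 22 * J * μ a + 9 * J ^ 2 * k := by
    intro a ha h1 h2
    have h3 := regular_A (by linarith) mono nonneg top1 top2 (SM a ha) (WL a (by linarith) h2)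
      (by linarith) h2 (2 * J) (by push_cast; nlinarith)
    push_cast at h3
    nlinarith
  have S1 : 2 * k < μ (h₀ / 2) := by
    by_contra hc
    have hc := not_lt.1 hc
    obtain ⟨a₀, ha₀, h1, h2⟩ := VAL (h₀ / 2) T (by nlinarith)
    obtain ⟨a, ha, hmin⟩ := exists_min_image (Val.filter fun a => h₀ / 2 < a) id
      ⟨a₀, mem_filter.2 ⟨ha₀, h1⟩⟩
    obtain ⟨ha1, ha2⟩ := mem_filter.1 ha
    have haT : a ≤ T := (hmin a₀ (mem_filter.2 ⟨ha₀, h1⟩)).trans h2
    have h3 : μ (a - 1) ≤ μ (h₀ / 2) := by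
      by_contra h3
      obtain ⟨b, hb, h4, h5⟩ := VAL _ _ (not_le.1 h3)
      have : a ≤ b := hmin b (mem_filter.2 ⟨hb, h4⟩)
      linarith
    have h4 := step (a - 1)
    rw [sub_add_cancel] at h4
    have h5 := A a ha1 ha2 haT
    have h6 : μ a ≤ 3 * k := by linarith
    have h7 : 22 * J * μ a ≤ 22 * J * (3 * k) := by gcongr
    nlinarith
  have S2 : G ≤ 60 * J * μ h₀ := by
    have h1 := SA (h₀ / 2) (h₀ / 2) (by linarith) (by linarith) (by linarith)
    rw [add_halves] at h1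
    obtain ⟨a, ha, h2, h3⟩ := VAL (h₀ / 2) h₀ (by linarith)
    have h4 := A a ha h2 (h3.trans h0T)
    have h5 : 22 * J * μ a ≤ 22 * J * μ h₀ := by gcongr; exact mono h3
    nlinarith
  have S3 : ∃ i < n, μ (11 * (11 ^ i * h₀)) ≤ 11 * μ (11 ^ i * h₀) + μ (11 ^ i * h₀) / 8 := by
    by_contra hc
    push Not at hc
    have key : ∀ i ≤ n, (1 + 1 / 88) ^ i * 11 ^ i * μ h₀ ≤ μ (11 ^ i * h₀) := by
      intro i
      induction i with
      | zero => simp
      | succ i ih =>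
        intro hi
        have h1 := ih (by omega)
        have h2 := hc i (by omega)
        rw [pow_succ, pow_succ, show (11 : ℝ) ^ i * 11 * h₀ = 11 * (11 ^ i * h₀) by ring]
        nlinarith
    have h1 := key n le_rfl
    rw [← hJr, ← hTJ] at h1
    have h2 : 0 ≤ J * μ h₀ := mul_nonneg (by linarith) (nonneg _)
    have h3 : 121 * (J * μ h₀) ≤ (1 + 1 / 88) ^ n * (J * μ h₀) :=
      mul_le_mul_of_nonneg_right hn h2
    nlinarith
  obtain ⟨i, hi, h1⟩ := S3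
  have h11 : (1 : ℝ) ≤ 11 ^ i := one_le_pow₀ (by norm_num)
  refine ⟨11 ^ i * h₀, by positivity, ?_, ?_, h1⟩
  · rw [hTJ, hJr, ← mul_assoc, ← pow_succ']
    exact mul_le_mul_of_nonneg_right (pow_le_pow_right₀ (by norm_num) hi) h0pos.le
  · have h2 : μ h₀ ≤ μ (11 ^ i * h₀) := mono (by nlinarith)
    have h3 : 1000 * k ≤ μ h₀ := by
      by_contra h3
      have h4 : J * μ h₀ ≤ J * (1000 * k) := by gcongr; exact (not_le.1 h3).le
      nlinarith
    linarith

end Vale.Agent.P065
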