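import Vale.Agent.P065.SP1Aux

/-! Counting lemmas for the gap / dense dichotomy. -/

namespace Vale.Agent.P065

open Classical Finset Pointwise

theorem sp2_cs {α β : Type} [DecidableEq β] (s : Finset α) (f : α → β) :
    (s.card : ℝ) ^ 2 ≤ (s.image f).card * ((s ×ˢ s).filter fun p => f p.1 = f p.2).card := by
  have h1 : s.card = ∑ c ∈ s.image f, (s.filter fun x => f x = c).card :=
    card_eq_sum_card_fiberwise fun x hx => mem_coe.2 (mem_image_of_mem f hx)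
  have h2 : ((s ×ˢ s).filter fun p => f p.1 = f p.2).card =
      ∑ c ∈ s.image f, (s.filter fun x => f x = c).card ^ 2 := by
    rw [card_eq_sum_card_fiberwise (f := fun p : α × α => f p.1) (t := s.image f) fun p hp =>
      mem_coe.2 (mem_image_of_mem f (mem_product.1 (mem_filter.1 hp).1).1)]
    refine sum_congr rfl fun c _ => ?_
    rw [sq, ← card_product]
    congr 1
    ext ⟨a, b⟩
    simp only [mem_filter, mem_product]
    constructor
    · rintro ⟨⟨⟨ha, hb⟩, h⟩, h'⟩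
      exact ⟨⟨ha, h'⟩, hb, h ▸ h'⟩
    · rintro ⟨⟨ha, h⟩, hb, h'⟩
      exact ⟨⟨⟨ha, hb⟩, h.trans h'.symm⟩, h⟩
  rw [h1, h2]
  exact_mod_cast sq_sum_le_card_mul_sum_sq

theorem sp2_floor {u v η : ℝ} (hη : 0 < η) (h : ⌊u / η⌋ = ⌊v / η⌋) : |u - v| < η := by
  have h2 := Int.abs_sub_lt_one_of_floor_eq_floor h
  rwa [← sub_div, abs_div, abs_of_pos hη, div_lt_one hη] at h2

theorem sp2_energy {D : Finset ℝ} {η ρ n P : ℝ} (hη : 0 < η) (hρ : 0 < ρ) (hsep : Sep η D)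
    (L : ℕ) (e : ℕ → ℝ) (he : ∀ i < L, ∀ j < L, i ≠ j → 2 * ρ ≤ |e i - e j|)
    (hn : ∀ x, ((D.filter fun y => x - η / ρ ≤ y ∧ y ≤ x - η / ρ + 2 * (η / ρ)).card : ℝ) ≤ n)
    (hP0 : 0 ≤ P)
    (hP : ∀ j < L, (((D ×ˢ D).image fun p => ⌊(p.1 + e j * p.2) / η⌋).card : ℝ) ≤ P) :
    L * (D.card : ℝ) ^ 4 ≤ P * ((D.card : ℝ) ^ 4 + L * ((D.card : ℝ) ^ 2 * (n * 3))) := by
  let E : ℕ → Finset ((ℝ × ℝ) × ℝ × ℝ) := fun j => ((D ×ˢ D) ×ˢ (D ×ˢ D)).filter fun q =>
    ⌊(q.1.1 + e j * q.1.2) / η⌋ = ⌊(q.2.1 + e j * q.2.2) / η⌋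
  let far : (ℝ × ℝ) × ℝ × ℝ → Prop := fun q => η / ρ ≤ |q.1.2 - q.2.2|
  have h1 : ∀ j ∈ range L, (D.card : ℝ) ^ 4 ≤ P * (E j).card := by
    intro j hj
    have h := sp2_cs (D ×ˢ D) fun p => ⌊(p.1 + e j * p.2) / η⌋
    rw [card_product] at h
    push_cast at h
    calc _ = ((D.card : ℝ) * D.card) ^ 2 := by ring
      _ ≤ _ := h
      _ ≤ _ := mul_le_mul_of_nonneg_right (hP j (mem_range.1 hj)) (Nat.cast_nonneg _)
  have h2 : ∑ j ∈ range L, ((E j).filter far).card ≤ D.card ^ 4 := by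
    rw [← card_biUnion]
    · refine (card_le_card (t := (D ×ˢ D) ×ˢ (D ×ˢ D)) fun q hq => ?_).trans (le_of_eq ?_)
      · obtain ⟨j, -, hq⟩ := mem_biUnion.1 hq
        exact (mem_filter.1 (mem_filter.1 hq).1).1
      · rw [card_product, card_product]; ring
    · intro i hi j hj hij
      refine disjoint_left.2 fun q hqi hqj => ?_
      have a1 := sp2_floor hη (mem_filter.1 (mem_filter.1 hqi).1).2
      have a2 := sp2_floor hη (mem_filter.1 (mem_filter.1 hqj).1).2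
      have a3 : η / ρ ≤ |q.1.2 - q.2.2| := (mem_filter.1 hqi).2
      have a4 := he i (mem_range.1 hi) j (mem_range.1 hj) hij
      have a5 : |(e i - e j) * (q.1.2 - q.2.2)| < 2 * η := by
        rw [abs_lt] at a1 a2 ⊢
        constructor <;> nlinarith [a1.1, a1.2, a2.1, a2.2]
      rw [abs_mul] at a5
      have a6 := mul_le_mul a4 a3 (by positivity) (abs_nonneg _)
      have a7 : 2 * ρ * (η / ρ) = 2 * η := by field_simp
      linarith
  have h3 : ∀ j, (((E j).filter fun q => ¬ far q).card : ℝ) ≤ (D.card : ℝ) ^ 2 * (n * 3) := by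
    intro j
    have hsub : ((E j).filter fun q => ¬ far q) ⊆ (D ×ˢ D).biUnion fun r =>
        (D.filter fun y => r.2 - η / ρ ≤ y ∧ y ≤ r.2 - η / ρ + 2 * (η / ρ)).biUnion fun y =>
          (D.filter fun x => r.1 + e j * (r.2 - y) - η ≤ x ∧
            x ≤ r.1 + e j * (r.2 - y) - η + 2 * η).image fun x => ((x, y), r) := by
      rintro ⟨⟨x, y⟩, r⟩ hq
      obtain ⟨hq1, hq2⟩ := mem_filter.1 hq
      obtain ⟨hq3, hq4⟩ := mem_filter.1 hq1
      have a1 := abs_lt.1 (sp2_floor hη hq4)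
      have a2 : |y - r.2| < η / ρ := not_le.1 hq2
      rw [abs_lt] at a2
      obtain ⟨a3, a4⟩ := mem_product.1 hq3
      obtain ⟨a5, a6⟩ := mem_product.1 a3
      dsimp only at a1 a4 a5 a6
      exact mem_biUnion.2 ⟨r, a4, mem_biUnion.2 ⟨y, mem_filter.2 ⟨a6, by linarith, by linarith⟩,
        mem_image.2 ⟨x, mem_filter.2 ⟨a5, by linarith, by linarith⟩, rfl⟩⟩⟩
    have h3 : ∀ c : ℝ, (D.filter fun x => c ≤ x ∧ x ≤ c + 2 * η).card ≤ 3 := by
      intro c
      have h := pk_le_of_diam (S := D.filter fun x => c ≤ x ∧ x ≤ c + 2 * η) (x := c)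
        (ℓ := 2 * η) hη (by linarith) fun y hy => (mem_filter.1 hy).2
      rw [pk_of_sep (hsep.subset (filter_subset _ _)), mul_div_cancel_right₀ _ hη.ne'] at h
      have : ((D.filter fun x => c ≤ x ∧ x ≤ c + 2 * η).card : ℝ) ≤ (3 : ℕ) := by
        push_cast; linarith
      exact_mod_cast this
    have h4 := (card_le_card hsub).trans (card_biUnion_le.trans (sum_le_sum fun r _ =>
      card_biUnion_le.trans (sum_le_sum fun y _ => card_image_le.trans (h3 _))))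
    have h5 : (((E j).filter fun q => ¬ far q).card : ℝ) ≤ ∑ r ∈ D ×ˢ D,
        ((D.filter fun y => r.2 - η / ρ ≤ y ∧ y ≤ r.2 - η / ρ + 2 * (η / ρ)).card : ℝ) * 3 := by
      simp only [sum_const, smul_eq_mul] at h4
      exact_mod_cast h4
    refine h5.trans ((sum_le_sum fun r _ =>
      mul_le_mul_of_nonneg_right (hn r.2) (by norm_num)).trans (le_of_eq ?_))
    rw [sum_const, card_product, nsmul_eq_mul]
    push_cast
    ring
  have h4 : ∑ j ∈ range L, ((E j).card : ℝ) ≤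
      (D.card : ℝ) ^ 4 + L * ((D.card : ℝ) ^ 2 * (n * 3)) := by
    have h5 : ∀ j ∈ range L, ((E j).card : ℝ) ≤
        ((E j).filter far).card + (D.card : ℝ) ^ 2 * (n * 3) := by
      intro j _
      rw [← card_filter_add_card_filter_not (s := E j) far]
      push_cast
      linarith [h3 j]
    refine (sum_le_sum h5).trans ?_
    rw [sum_add_distrib, sum_const, card_range, nsmul_eq_mul]
    have h6 : ∑ j ∈ range L, (((E j).filter far).card : ℝ) ≤ (D.card : ℝ) ^ 4 := by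
      exact_mod_cast h2
    linarith
  have h5 := sum_le_sum h1
  rw [sum_const, card_range, nsmul_eq_mul, ← mul_sum] at h5
  exact h5.trans (mul_le_mul_of_nonneg_left h4 hP0)

theorem sp2_dense {B : ℝ → Prop} {ρ : ℝ} (hρ : 0 < ρ) (h0 : B 0) (h1 : B 1)
    (H : ∀ b, B b → 0 ≤ b → b ≤ 1 → ∀ ε : ℝ, ε = 0 ∨ ε = 1 → ∃ b', B b' ∧ |(b + ε) / 2 - b'| < ρ)
    (z : ℝ) (hz0 : 0 ≤ z) (hz1 : z ≤ 1) : ∃ b, B b ∧ |z - b| ≤ 3 * ρ := by
  have key : ∀ n : ℕ, ∀ z : ℝ, 0 ≤ z → z ≤ 1 →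
      ∃ b, B b ∧ 0 ≤ b ∧ b ≤ 1 ∧ |z - b| ≤ (1 / 2) ^ n + 2 * ρ := by
    intro n
    induction n with
    | zero =>
      intro z hz0 hz1
      exact ⟨0, h0, le_rfl, zero_le_one, by rw [sub_zero, abs_of_nonneg hz0, pow_zero]; linarith⟩
    | succ n ih =>
      intro z hz0 hz1
      obtain ⟨ε, hε, a0, a1⟩ : ∃ ε : ℝ, (ε = 0 ∨ ε = 1) ∧ 0 ≤ 2 * z - ε ∧ 2 * z - ε ≤ 1 := by
        rcases le_total z (1 / 2) with h | h
        · exact ⟨0, Or.inl rfl, by linarith, by linarith⟩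
        · exact ⟨1, Or.inr rfl, by linarith, by linarith⟩
      obtain ⟨b, hb, b0, b1, hzb⟩ := ih _ a0 a1
      obtain ⟨b', hb', hbb⟩ := H b hb b0 b1 ε hε
      have e0 : 0 ≤ ε := by rcases hε with rfl | rfl <;> norm_num
      have e1 : ε ≤ 1 := by rcases hε with rfl | rfl <;> norm_num
      rw [abs_le] at hzb
      rw [abs_lt] at hbb
      rw [pow_succ]
      rcases le_total b' 0 with c0 | c0
      · exact ⟨0, h0, le_rfl, zero_le_one, abs_le.2 ⟨by linarith, by linarith⟩⟩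
      rcases le_total 1 b' with c1 | c1
      · exact ⟨1, h1, zero_le_one, le_rfl, abs_le.2 ⟨by linarith, by linarith⟩⟩
      · exact ⟨b', hb', c0, c1, abs_le.2 ⟨by linarith, by linarith⟩⟩
  obtain ⟨n, hn⟩ := exists_pow_lt_of_lt_one hρ (by norm_num : (1 / 2 : ℝ) < 1)
  obtain ⟨b, hb, -, -, h⟩ := key n z hz0 hz1
  exact ⟨b, hb, by linarith⟩

theorem sp2_gap {D : Finset ℝ} {κ ρ y e η : ℝ} (hκ : 0 < κ) (hρ : 0 < ρ) (hy : κ ≤ y)
    (hη : η = ρ * κ ^ 2)
    (H : ∀ u ∈ D - D, ∀ v ∈ D - D, κ ≤ v → ρ ≤ |e - u / v|) (S : Finset ℝ)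
    (hS : ∀ a ∈ D, ∀ b ∈ D, 2 * y * (a + e * b) ∈ S) : pk D (η / y) * pk D κ ≤ pk S η := by
  obtain ⟨A, hA, hAs, hAc⟩ := exists_pk D (η / y)
  obtain ⟨B, hB, hBs, hBc⟩ := exists_pk D κ
  have hy0 : 0 < y := hκ.trans_le hy
  have hη0 : 0 < η := by rw [hη]; positivity
  have key0 : ∀ a ∈ D, ∀ a' ∈ D, ∀ b ∈ D, ∀ b' ∈ D, κ ≤ b - b' →
      η ≤ |2 * y * (a + e * b) - 2 * y * (a' + e * b')| := by
    intro a ha a' ha' b hb b' hb' h
    have h1 := H _ (sub_mem_sub ha' ha) _ (sub_mem_sub hb hb') h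
    have h2 : 0 < b - b' := hκ.trans_le h
    have h3 : 2 * y * (a + e * b) - 2 * y * (a' + e * b') =
        2 * y * (b - b') * (e - (a' - a) / (b - b')) := by field_simp; ring
    rw [h3, abs_mul, abs_of_pos (by positivity), hη]
    have h4 : κ * κ ≤ y * (b - b') := mul_le_mul hy h hκ.le hy0.le
    have h5 := mul_le_mul h4 h1 hρ.le (by positivity)
    have h6 : 0 ≤ y * (b - b') * |e - (a' - a) / (b - b')| := by positivity
    nlinarith
  have key : ∀ p ∈ A ×ˢ B, ∀ q ∈ A ×ˢ B, p ≠ q →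
      η ≤ |2 * y * (p.1 + e * p.2) - 2 * y * (q.1 + e * q.2)| := by
    rintro ⟨a, b⟩ hp ⟨a', b'⟩ hq hne
    obtain ⟨ha, hb⟩ := mem_product.1 hp
    obtain ⟨ha', hb'⟩ := mem_product.1 hq
    dsimp only at ha hb ha' hb' ⊢
    by_cases h : b = b'
    · subst h
      have h1 := hAs a ha a' ha' fun h => hne (by rw [h])
      rw [show 2 * y * (a + e * b) - 2 * y * (a' + e * b) = 2 * y * (a - a') by ring, abs_mul,
        abs_of_pos (by positivity)]
      rw [div_le_iff₀ hy0] at h1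
      nlinarith
    · rcases le_abs.1 (hBs b hb b' hb' h) with h1 | h1
      · exact key0 a (hA ha) a' (hA ha') b (hB hb) b' (hB hb') h1
      · rw [abs_sub_comm]
        exact key0 a' (hA ha') a (hA ha) b' (hB hb') b (hB hb) (by linarith)
  rw [← hAc, ← hBc, ← card_product,
    ← card_image_of_injOn (f := fun p : ℝ × ℝ => 2 * y * (p.1 + e * p.2)) fun p hp q hq h => ?_]
  · refine Sep.card_le_pk (fun z hz => ?_) fun z hz w hw hne => ?_
    · obtain ⟨p, hp, rfl⟩ := mem_image.1 hz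
      exact hS _ (hA (mem_product.1 hp).1) _ (hB (mem_product.1 hp).2)
    · obtain ⟨p, hp, rfl⟩ := mem_image.1 hz
      obtain ⟨q, hq, rfl⟩ := mem_image.1 hw
      exact key p hp q hq fun e => hne (by rw [e])
  · by_contra hne
    have h1 := key p hp q hq hne
    have h' : 2 * y * (p.1 + e * p.2) = 2 * y * (q.1 + e * q.2) := h
    rw [h', sub_self, abs_zero] at h1
    linarith

end Vale.Agent.P065
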