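import Vale.Agent.P065.Pack

/-! The discretized ring configuration. -/

namespace Vale.Agent.P065

open Classical Finset Pointwise

/-- dilate -/
noncomputable def dil (z : ℝ) (D : Finset ℝ) : Finset ℝ := D.image fun x => z * x

/-- `D ⊆ [0,1]` is an approximate ring of size `g` at resolution `δ` with loss `K` -/
structure RingCfg (D : Finset ℝ) (δ g K : ℝ) : Prop where
  δ_pos : 0 < δ
  δ_le : δ ≤ 1
  K_ge : 2 ≤ K
  g_pos : 0 < g
  sub : ∀ x ∈ D, 0 ≤ x ∧ x ≤ 1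
  sep : Sep δ D
  card_ge : g / K ≤ D.card
  card_le : (D.card : ℝ) ≤ K * g
  closure : ∀ z₁ ∈ D - D, ∀ z₂ ∈ D - D, ∀ z₃ ∈ D - D, ∀ z₄ ∈ D - D, ∀ η : ℝ, δ ≤ η →
    (pk (D + D + dil z₁ D + dil z₂ D + dil z₃ D + dil z₄ D) η : ℝ) ≤ K * pk D η
  lower : ∀ x : ℝ, δ ≤ x → x ≤ 1 → g ≤ K * (pk D x : ℝ) ^ 10 * pk D (δ / x)
  frost : ∀ x R : ℝ, 1 ≤ R →
    (((D.filter fun y => x ≤ y ∧ y ≤ x + R * δ).card : ℝ)) ^ 2 ≤ K ^ 2 * R

/-- the logarithmic packing function -/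
noncomputable def lpk (D : Finset ℝ) (t : ℝ) : ℝ := Real.log (pk D (Real.exp (-t)))

/-- eleven regular blocks of logarithmic length `h`, each with branching about `d` -/
structure Regular (D : Finset ℝ) (δ h d k : ℝ) : Prop where
  h_pos : 0 < h
  range : δ ≤ Real.exp (-(11 * h))
  big : 1000 * k ≤ d
  dim : d ≤ h / 2 + k
  lo : ∀ j : ℕ, j ≤ 11 → j * d - j * k ≤ lpk D (j * h)
  hi : ∀ j : ℕ, j ≤ 11 → lpk D (j * h) ≤ j * d + d / 8 + 11 * k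

end Vale.Agent.P065
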