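import Vale.Agent.P065.CfgDefs
import Vale.Agent.P065.BSG

/-! Additive structure, part one: the first application of Balog-Szemeredi-Gowers and tiles. -/

namespace Vale.Agent.P065

open Classical Finset Pointwise

theorem sum_cpow {K c : ℝ} (hK : 2 ≤ K) {j m n : ℕ} (hc : c ≤ 2 ^ j) (h : j + m ≤ n) :
    c * K ^ m ≤ K ^ n := by
  have h1 : (2 : ℝ) ^ j ≤ K ^ j := pow_le_pow_left₀ (by norm_num) hK j
  have h2 : K ^ (j + m) ≤ K ^ n := pow_le_pow_right₀ (by linarith) h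
  rw [pow_add] at h2
  exact (mul_le_mul_of_nonneg_right (hc.trans h1) (by positivity)).trans h2

theorem sum_card_le {ι κ : Type*} [DecidableEq κ] (s : Finset ι) (f : ι → κ) (T : Finset κ)
    (hT : ∀ x ∈ s, f x ∈ T) (M : ℝ) (h : ∀ t ∈ T, ((s.filter fun x => f x = t).card : ℝ) ≤ M) :
    (s.card : ℝ) ≤ T.card * M := by
  rw [card_eq_sum_card_fiberwise hT, Nat.cast_sum, ← nsmul_eq_mul]
  exact sum_le_card_nsmul _ _ _ h

theorem sum_card_ge {ι κ : Type*} [DecidableEq κ] (s : Finset ι) (f : ι → κ) (T : Finset κ)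
    (M : ℝ) (h : ∀ t ∈ T, M ≤ ((s.filter fun x => f x = t).card : ℝ)) :
    T.card * M ≤ ((s.filter fun x => f x ∈ T).card : ℝ) := by
  rw [← sum_card_fiberwise_eq_card_filter, Nat.cast_sum, ← nsmul_eq_mul]
  exact card_nsmul_le_sum _ _ _ h

theorem sum_le_cast {ι κ : Type*} {s : Finset ι} {t : Finset κ} (h : s.card ≤ t.card) :
    (s.card : ℝ) ≤ t.card := Nat.cast_le.mpr h

theorem sum_side {A B : Finset ℤ} {G : Finset (ℤ × ℤ)} {a K L : ℝ} (ha : 0 < a) (hK : 0 < K)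
    (hL : 0 < L) (hA : (A.card : ℝ) ≤ K * a) (hB : (B.card : ℝ) ≤ K * a)
    (h : a ^ 2 / L ≤ ((G.filter fun x => x.1 ∈ A ∧ x.2 ∈ B).card : ℝ)) :
    a / (K * L) ≤ A.card ∧ a / (K * L) ≤ B.card := by
  have h1 : ((G.filter fun x => x.1 ∈ A ∧ x.2 ∈ B).card : ℝ) ≤ A.card * B.card := by
    rw [← Nat.cast_mul, ← card_product]
    exact sum_le_cast (card_le_card fun x hx => mem_product.mpr (mem_filter.mp hx).2)
  have h2 := (div_le_iff₀ hL).mp (h.trans h1)
  have h3 : (0 : ℝ) ≤ A.card := Nat.cast_nonneg _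
  have h4 : (0 : ℝ) ≤ B.card := Nat.cast_nonneg _
  constructor
  · rw [div_le_iff₀ (by positivity)]
    refine le_of_mul_le_mul_left ?_ ha
    have := mul_le_mul_of_nonneg_left hB (mul_nonneg h3 hL.le)
    nlinarith
  · rw [div_le_iff₀ (by positivity)]
    refine le_of_mul_le_mul_left ?_ ha
    have := mul_le_mul_of_nonneg_left hA (mul_nonneg h4 hL.le)
    nlinarith

theorem sum_deg {ι : Type} (C Q : Finset ι) (Z : Finset (ι × ι)) :
    ∑ q ∈ Q, ((C.filter fun p => (p, q) ∈ Z).card : ℝ)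
      = ∑ p ∈ C, ((Q.filter fun q => (p, q) ∈ Z).card : ℝ) := by
  simp only [natCast_card_filter]
  exact sum_comm

theorem sum_mid : ∃ c : ℕ, ∀ (ι : Type) (C Q : Finset ι) (Z : Finset (ι × ι)) (α β : ι → ℤ)
    (r : ι → ℝ) (a nC nQ K : ℝ) (E : ℕ), RefCfg C Q Z α β r a nC nQ K E →
    ∃ (A B : Finset ℤ) (S Q' : Finset ι), A ⊆ Q.image α ∧ B ⊆ Q.image β ∧ S ⊆ C ∧ Q' ⊆ Q ∧
      (∀ q ∈ Q', α q ∈ A ∧ β q ∈ B) ∧ ((A + B).card : ℝ) ≤ K ^ c * a ∧ a / K ^ c ≤ A.card ∧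
      a / K ^ c ≤ B.card ∧ nC / K ^ c ≤ S.card ∧
      ∀ p ∈ S, nQ / K ^ c ≤ ((Q'.filter fun q => (p, q) ∈ Z).card : ℝ) := by
  obtain ⟨c, hc⟩ := bsg
  refine ⟨5 * c + 11, fun ι C Q Z α β r a nC nQ K E h => ?_⟩
  have hK := h.lab.K_ge
  have K0 : 0 < K := by linarith
  have a0 : 0 < a := by linarith [h.lab.a_ge]
  have c0 : 0 < nC := by linarith [h.lab.nC_ge]
  have q0 : 0 < nQ := lt_of_lt_of_le (by positivity) h.lab.nQ_ge
  have hZ : (Z.card : ℝ) = ∑ q ∈ Q, ((C.filter fun p => (p, q) ∈ Z).card : ℝ) := by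
    rw [sum_deg]
    simp only [natCast_card_filter]
    rw [← sum_product' (f := fun p q => if (p, q) ∈ Z then (1 : ℝ) else 0), ← natCast_card_filter,
      filter_mem_eq_inter, inter_eq_right.mpr h.lab.sub]
  have h1 := bsg_filter Q (fun q => ((C.filter fun p => (p, q) ∈ Z).card : ℝ))
    (c := nC / (2 * K ^ 2)) (by positivity) h.lab.card_Q
  obtain ⟨Q₂, hQ₂⟩ : ∃ T, T = Q.filter
    (fun q => nC / (2 * K ^ 2) ≤ ((C.filter fun p => (p, q) ∈ Z).card : ℝ)) := ⟨_, rfl⟩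
  rw [← hQ₂, ← hZ] at h1
  have s2 : Q₂ ⊆ Q := hQ₂ ▸ filter_subset _ _
  have h2 : nQ / (2 * K ^ 2) ≤ Q₂.card := by
    have h3 := sum_le_card_nsmul Q₂ (fun q => ((C.filter fun p => (p, q) ∈ Z).card : ℝ)) (K * nC)
      fun q _ => (sum_le_cast (card_filter_le _ _)).trans h.lab.card_C
    rw [nsmul_eq_mul] at h3
    refine le_of_mul_le_mul_right (le_trans (le_of_eq ?_)
      (((sub_le_sub_right h.lab.card_Z _).trans h1).trans h3)) (show 0 < K * nC by positivity)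
    field_simp
    ring
  have hP : (((Q.image α) ×ˢ (Q.image β)).card : ℝ) ≤ K ^ 2 * a ^ 2 := by
    rw [card_product, Nat.cast_mul]
    refine (mul_le_mul h.card_α h.card_β (Nat.cast_nonneg _) (by positivity)).trans_eq (by ring)
  have h3 := bsg_filter ((Q.image α) ×ˢ (Q.image β))
    (fun t => ((Q₂.filter fun q => (α q, β q) = t).card : ℝ))
    (c := nQ / (4 * K ^ 4 * a ^ 2)) (by positivity) hP
  obtain ⟨G, hG⟩ : ∃ T, T = ((Q.image α) ×ˢ (Q.image β)).filter (fun t =>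
    nQ / (4 * K ^ 4 * a ^ 2) ≤ ((Q₂.filter fun q => (α q, β q) = t).card : ℝ)) := ⟨_, rfl⟩
  rw [← hG, ← Nat.cast_sum, ← card_eq_sum_card_fiberwise (f := fun q => (α q, β q))
    (t := (Q.image α) ×ˢ (Q.image β)) fun q hq =>
      mem_product.mpr ⟨mem_image_of_mem α (s2 hq), mem_image_of_mem β (s2 hq)⟩] at h3
  have hGw : ∀ t ∈ G, nQ / (4 * K ^ 4 * a ^ 2)
      ≤ ((Q₂.filter fun q => (α q, β q) = t).card : ℝ) := fun t ht => by
    rw [hG] at ht; exact (mem_filter.mp ht).2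
  have h4 : a ^ 2 / K ^ 5 ≤ G.card := by
    have h5 := sum_le_card_nsmul G (fun t => ((Q₂.filter fun q => (α q, β q) = t).card : ℝ))
      (K * nQ / a ^ 2) fun t _ => le_trans (sum_le_cast (card_le_card fun q hq => by
        obtain ⟨h6, h7⟩ := mem_filter.mp hq
        exact mem_filter.mpr ⟨s2 h6, by rw [← h7], by rw [← h7]⟩)) (h.mult t.1 t.2)
    rw [nsmul_eq_mul] at h5
    have h6 : a ^ 2 / (4 * K ^ 3) ≤ G.card := by
      refine le_of_mul_le_mul_right (le_trans (le_of_eq ?_)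
        (((sub_le_sub_right h2 _).trans h3).trans h5)) (show 0 < K * nQ / a ^ 2 by positivity)
      field_simp
      ring
    exact le_trans (div_le_div_of_nonneg_left (by positivity) (by positivity)
      (sum_cpow (j := 2) hK (by norm_num) le_rfl)) h6
  have K5 : K * a ≤ K ^ 5 * a := mul_le_mul_of_nonneg_right
    (by simpa using pow_le_pow_right₀ (show 1 ≤ K by linarith) (show 1 ≤ 5 by norm_num)) a0.le
  obtain ⟨A, sA, B, sB, h5, h6⟩ := hc (Q.image α) (Q.image β) G a (K ^ 5) a0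
    (by simpa using sum_cpow (j := 1) (m := 0) (n := 5) (c := 2) hK (by norm_num) (by norm_num))
    (hG ▸ filter_subset _ _) (h.card_α.trans K5) (h.card_β.trans K5) h4
    (le_trans (sum_le_cast (card_le_card fun s hs => by
      obtain ⟨t, ht, rfl⟩ := mem_image.mp hs
      have h7 : (0 : ℝ) < (Q₂.filter fun q => (α q, β q) = t).card :=
        lt_of_lt_of_le (by positivity) (hGw t ht)
      obtain ⟨q, hq⟩ := card_pos.mp (Nat.cast_pos.mp h7)
      obtain ⟨h8, rfl⟩ := mem_filter.mp hq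
      exact mem_image.mpr ⟨q, s2 h8, rfl⟩)) (h.card_sum.trans K5))
  rw [← pow_mul] at h5 h6
  obtain ⟨h7, h8⟩ := sum_side a0 K0 (by positivity)
    ((sum_le_cast (card_le_card sA)).trans h.card_α)
    ((sum_le_cast (card_le_card sB)).trans h.card_β) h6
  obtain ⟨Q₃, hQ₃⟩ : ∃ T, T = Q₂.filter (fun q => α q ∈ A ∧ β q ∈ B) := ⟨_, rfl⟩
  have s3 : Q₃ ⊆ Q₂ := hQ₃ ▸ filter_subset _ _
  have h9 : nQ / (4 * K ^ (5 * c + 4)) ≤ Q₃.card := by
    have h10 := sum_card_ge Q₂ (fun q => (α q, β q)) (G.filter fun x => x.1 ∈ A ∧ x.2 ∈ B) _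
      fun t ht => hGw t (mem_filter.mp ht).1
    refine le_trans (le_of_eq ?_) (((mul_le_mul_of_nonneg_right h6 (by positivity)).trans
      h10).trans (sum_le_cast (card_le_card fun q hq => ?_)))
    · field_simp
      ring
    · rw [hQ₃]
      exact mem_filter.mpr ⟨(mem_filter.mp hq).1, (mem_filter.mp (mem_filter.mp hq).2).2⟩
  have h10 : nC * nQ / (8 * K ^ (5 * c + 6))
      ≤ ∑ p ∈ C, ((Q₃.filter fun q => (p, q) ∈ Z).card : ℝ) := by
    have h11 := card_nsmul_le_sum Q₃ (fun q => ((C.filter fun p => (p, q) ∈ Z).card : ℝ))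
      (nC / (2 * K ^ 2)) fun q hq => by
        have := s3 hq
        rw [hQ₂] at this
        exact (mem_filter.mp this).2
    rw [nsmul_eq_mul, sum_deg] at h11
    refine le_trans (le_of_eq ?_) ((mul_le_mul_of_nonneg_right h9 (by positivity)).trans h11)
    field_simp
    ring
  have h11 := bsg_filter C (fun p => ((Q₃.filter fun q => (p, q) ∈ Z).card : ℝ))
    (c := nQ / (16 * K ^ (5 * c + 7))) (by positivity) h.lab.card_C
  have hd : ∀ {x : ℝ} {y : ℝ} {j m : ℕ}, 0 ≤ x → 0 < y → y ≤ 2 ^ j → j + m ≤ 5 * c + 11 →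
      x / K ^ (5 * c + 11) ≤ x / (y * K ^ m) := fun hx hy h1 h2 =>
    div_le_div_of_nonneg_left hx (by positivity) (sum_cpow hK h1 h2)
  have hd' : a / K ^ (5 * c + 11) ≤ a / (K * K ^ (5 * c)) := by
    rw [← pow_succ']
    exact div_le_div_of_nonneg_left a0.le (by positivity)
      (pow_le_pow_right₀ (by linarith) (by omega))
  refine ⟨A, B, C.filter fun p => nQ / (16 * K ^ (5 * c + 7))
    ≤ ((Q₃.filter fun q => (p, q) ∈ Z).card : ℝ), Q₃, sA, sB, filter_subset _ _, s3.trans s2,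
    fun q hq => ?_, h5.trans (mul_le_mul_of_nonneg_right
      (pow_le_pow_right₀ (by linarith) (by omega)) a0.le), hd'.trans h7, hd'.trans h8, ?_,
    fun p hp => le_trans (hd (j := 4) q0.le (by norm_num) (by norm_num) (by omega))
      (mem_filter.mp hp).2⟩
  · rw [hQ₃] at hq
    exact (mem_filter.mp hq).2
  · have h12 := sum_le_card_nsmul (C.filter fun p => nQ / (16 * K ^ (5 * c + 7))
      ≤ ((Q₃.filter fun q => (p, q) ∈ Z).card : ℝ))
      (fun p => ((Q₃.filter fun q => (p, q) ∈ Z).card : ℝ)) (K * nQ) fun p _ =>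
        (sum_le_cast (card_le_card ((filter_subset _ _).trans (s3.trans s2)))).trans h.lab.card_Q
    rw [nsmul_eq_mul] at h12
    refine le_trans (hd (j := 4) (y := 16) (m := 5 * c + 7) c0.le (by norm_num) (by norm_num)
      (by omega)) ?_
    refine le_of_mul_le_mul_right (le_trans (le_of_eq ?_)
      (((sub_le_sub_right h10 _).trans h11).trans h12)) (show 0 < K * nQ by positivity)
    field_simp
    ring

end Vale.Agent.P065
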