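import Vale.Agent.P065.LevDefs
import Vale.Agent.P065.Meet

/-! Counting facts at one scale, used for the supercluster. -/

namespace Vale.Agent.P065

open Classical Finset

namespace Tok

variable {P : Finset Pt} {S : Tok P} {E : Finset ℕ} {G : Finset Pt} {a s : ℕ} {X : ℝ}

theorem Lev.sup_W_pos (h : S.Lev E G a s X) : 0 < s ^ 4 := by
  have := h.s_ge; positivity

theorem Lev.sup_lt (h : S.Lev E G a s X) {i : ℕ} (hi : i ∈ E) : i < S.m :=
  mem_range.1 (h.E_sub hi)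

theorem Lev.sup_nwin (hP : GP P) (h : S.Lev E G a s X) :
    ((E.image fun i => i / s ^ 4).card : ℝ) ≤ 15 * (a : ℝ) ^ 4 := by
  have hs : (2 : ℝ) ≤ s := by exact_mod_cast h.s_ge
  have ha : (1 : ℝ) ≤ a := by exact_mod_cast h.a_ge
  have hN : (1 : ℝ) ≤ (a : ℝ) * s := by nlinarith
  have hm := S.dey hP hN (by exact_mod_cast h.card_P)
  have h1 : (E.image fun i => i / s ^ 4) ⊆ range (S.m / s ^ 4 + 1) := by
    intro k hk
    obtain ⟨i, hi, rfl⟩ := mem_image.1 hk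
    exact mem_range.2 (Nat.lt_succ_of_le (Nat.div_le_div_right (h.sup_lt hi).le))
  have h2 : ((E.image fun i => i / s ^ 4).card : ℝ) ≤ ((S.m / s ^ 4 : ℕ) : ℝ) + 1 := by
    have := card_le_card h1
    rw [card_range] at this
    exact_mod_cast this
  have h3 : ((S.m / s ^ 4 : ℕ) : ℝ) ≤ 14 * (a : ℝ) ^ 4 := by
    refine (Nat.cast_div_le).trans ?_
    rw [div_le_iff₀ (by exact_mod_cast h.sup_W_pos)]
    push_cast
    nlinarith
  have h4 : (1 : ℝ) ≤ (a : ℝ) ^ 4 := one_le_pow₀ ha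
  linarith

theorem Lev.sup_sum_act (hP : GP P) (h : S.Lev E G a s X) :
    ∑ k ∈ E.image (fun i => i / s ^ 4), ((S.wact (s ^ 4) k).card : ℝ) ≤
      15 * (a : ℝ) ^ 4 * (X * s ^ 3) := by
  have hX : 0 ≤ X := by linarith [h.X_ge]
  calc ∑ k ∈ E.image (fun i => i / s ^ 4), ((S.wact (s ^ 4) k).card : ℝ)
      ≤ ∑ _k ∈ E.image (fun i => i / s ^ 4), X * s ^ 3 := by
        refine sum_le_sum fun k hk => ?_
        obtain ⟨i, hi, rfl⟩ := mem_image.1 hk
        exact h.act_le i hi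
    _ = ((E.image fun i => i / s ^ 4).card : ℝ) * (X * s ^ 3) := by
        rw [sum_const, nsmul_eq_mul]
    _ ≤ _ := by gcongr; exact h.sup_nwin hP

/-- events of a subfamily whose left endpoint is light -/
theorem Lev.sup_light (hP : GP P) (h : S.Lev E G a s X) {E' : Finset ℕ} (hE' : E' ⊆ E) {Y : ℝ}
    (hY : 0 < Y) :
    ((E'.filter fun i => (S.ldeg E' (s ^ 4) (S.a i) (i / s ^ 4) : ℝ) < s / Y).card : ℝ) ≤
      15 * X * ((a : ℝ) * s) ^ 4 / Y := by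
  have hX : 0 ≤ X := by linarith [h.X_ge]
  set F := E'.filter fun i => (S.ldeg E' (s ^ 4) (S.a i) (i / s ^ 4) : ℝ) < s / Y with hF
  set Ks := E.image (fun i => i / s ^ 4) with hKs
  have hmaps : ∀ i ∈ F, (⟨i / s ^ 4, S.a i⟩ : Σ _ : ℕ, Pt) ∈ Ks.sigma fun k => S.wact (s ^ 4) k := by
    intro i hi
    have hiE := hE' (mem_filter.1 hi).1
    exact mem_sigma.2 ⟨mem_image_of_mem _ hiE, S.a_mem_wact h.sup_W_pos (h.sup_lt hiE)⟩
  have h1 := card_eq_sum_card_fiberwise hmaps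
  have h2 : ∀ x ∈ Ks.sigma fun k => S.wact (s ^ 4) k,
      ((F.filter fun i => (⟨i / s ^ 4, S.a i⟩ : Σ _ : ℕ, Pt) = x).card : ℝ) ≤ s / Y := by
    intro x _
    rcases (F.filter fun i => (⟨i / s ^ 4, S.a i⟩ : Σ _ : ℕ, Pt) = x).eq_empty_or_nonempty with
      h0 | ⟨j, hj⟩
    · rw [h0]; simp only [card_empty, Nat.cast_zero]; positivity
    · obtain ⟨hjF, hjx⟩ := mem_filter.1 hj
      refine le_trans ?_ (mem_filter.1 hjF).2.le
      refine Nat.cast_le.2 (card_le_card fun i hi => ?_)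
      obtain ⟨hiF, hix⟩ := mem_filter.1 hi
      have := hix.trans hjx.symm
      simp only [Sigma.mk.injEq, heq_eq_eq] at this
      exact mem_filter.2 ⟨(mem_filter.1 hiF).1, this.1, this.2⟩
  calc (F.card : ℝ) = ∑ x ∈ Ks.sigma fun k => S.wact (s ^ 4) k,
        ((F.filter fun i => (⟨i / s ^ 4, S.a i⟩ : Σ _ : ℕ, Pt) = x).card : ℝ) := by
        rw [h1]; push_cast; rfl
    _ ≤ ∑ _x ∈ Ks.sigma fun k => S.wact (s ^ 4) k, (s : ℝ) / Y := sum_le_sum h2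
    _ = (∑ k ∈ Ks, ((S.wact (s ^ 4) k).card : ℝ)) * (s / Y) := by
        rw [sum_const, nsmul_eq_mul, card_sigma]; push_cast; rfl
    _ ≤ 15 * (a : ℝ) ^ 4 * (X * s ^ 3) * (s / Y) := by gcongr; exact h.sup_sum_act hP
    _ = _ := by ring

theorem Lev.sup_inc_sub (h : S.Lev E G a s X) {E' : Finset ℕ} (_hE' : E' ⊆ E) {Y : ℝ} (hY : 0 < Y)
    {v : Pt} {k : ℕ} (hk : k ∈ S.inc E' s Y v) : ∃ i ∈ E', i / s ^ 4 = k ∧ S.a i = v := by
  have hs : (2 : ℝ) ≤ s := by exact_mod_cast h.s_ge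
  have h1 := (mem_filter.1 hk).2
  have h2 : (0 : ℝ) < S.ldeg E' (s ^ 4) v k := lt_of_lt_of_le (by positivity) h1
  obtain ⟨i, hi⟩ := card_pos.1 (Nat.cast_pos.1 h2)
  exact ⟨i, (mem_filter.1 hi).1, (mem_filter.1 hi).2⟩

theorem sup_inc_mono {E' : Finset ℕ} (hE' : E' ⊆ E) (Y : ℝ) (v : Pt) :
    S.inc E' s Y v ⊆ S.inc E s Y v := by
  intro k hk
  obtain ⟨h1, h2⟩ := mem_filter.1 hk
  refine mem_filter.2 ⟨image_subset_image hE' h1, h2.trans ?_⟩
  exact Nat.cast_le.2 (card_le_card (filter_subset_filter _ hE'))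

theorem Lev.sup_act_windows (h : S.Lev E G a s X) {v : Pt} (hv : v ∈ G) {Ks : Finset ℕ}
    (hKs : Ks ⊆ E.image fun i => i / s ^ 4) :
    ((Ks.filter fun k => v ∈ S.wact (s ^ 4) k).card : ℝ) ≤ X * a := by
  refine le_trans (Nat.cast_le.2 (card_le_card fun k hk => ?_)) (h.nact_le v hv)
  obtain ⟨h1, h2⟩ := mem_filter.1 hk
  obtain ⟨i, hi, rfl⟩ := mem_image.1 (hKs h1)
  exact mem_filter.2 ⟨mem_range.2 (lt_of_le_of_lt (Nat.div_le_self _ _) (h.sup_lt hi)), h2⟩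

theorem Lev.sup_card_inc (h : S.Lev E G a s X) {Y : ℝ} (hY : 0 < Y) (v : Pt) :
    ((S.inc E s Y v).card : ℝ) ≤ X * a := by
  have hX : 0 ≤ X := by linarith [h.X_ge]
  rcases (S.inc E s Y v).eq_empty_or_nonempty with h0 | ⟨k, hk⟩
  · rw [h0]; simp only [card_empty, Nat.cast_zero]; positivity
  · obtain ⟨i, hi, -, rfl⟩ := h.sup_inc_sub Subset.rfl hY hk
    refine le_trans (Nat.cast_le.2 (card_le_card fun k' hk' => ?_))
      (h.sup_act_windows (h.mem_G i hi).1 (Subset.refl _))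
    obtain ⟨j, hj, rfl, hja⟩ := h.sup_inc_sub Subset.rfl hY hk'
    exact mem_filter.2 ⟨mem_image_of_mem _ hj, hja ▸ S.a_mem_wact h.sup_W_pos (h.sup_lt hj)⟩

theorem Lev.sup_tot_deg (h : S.Lev E G a s X) (v : Pt) :
    ((E.filter fun i => S.a i = v).card : ℝ) ≤ X ^ 2 * ((a : ℝ) * s) := by
  have hX : 0 ≤ X := by linarith [h.X_ge]
  rcases (E.filter fun i => S.a i = v).eq_empty_or_nonempty with h0 | ⟨j, hj⟩
  · rw [h0]; simp only [card_empty, Nat.cast_zero]; positivity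
  obtain ⟨hjE, rfl⟩ := mem_filter.1 hj
  set Ks := (E.image fun i => i / s ^ 4).filter fun k => S.a j ∈ S.wact (s ^ 4) k with hKs
  have hmaps : ∀ i ∈ E.filter fun i => S.a i = S.a j, i / s ^ 4 ∈ Ks := by
    intro i hi
    obtain ⟨hiE, hia⟩ := mem_filter.1 hi
    exact mem_filter.2 ⟨mem_image_of_mem _ hiE, hia ▸ S.a_mem_wact h.sup_W_pos (h.sup_lt hiE)⟩
  have h1 := card_eq_sum_card_fiberwise hmaps
  calc ((E.filter fun i => S.a i = S.a j).card : ℝ)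
      = ∑ k ∈ Ks, (((E.filter fun i => S.a i = S.a j).filter fun i => i / s ^ 4 = k).card : ℝ) := by
        rw [h1]; push_cast; rfl
    _ ≤ ∑ _k ∈ Ks, X * s := by
        refine sum_le_sum fun k _ => le_trans (le_of_eq ?_) (h.deg_le (S.a j) k)
        rw [filter_filter, ldeg]
        congr 2
        ext i; simp only [and_comm]
    _ = (Ks.card : ℝ) * (X * s) := by rw [sum_const, nsmul_eq_mul]
    _ ≤ X * a * (X * s) := by
        gcongr; exact h.sup_act_windows (h.mem_G j hjE).1 (Subset.refl _)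
    _ = _ := by ring

/-- events with left endpoint in a given set, with weights -/
theorem Lev.sup_sum_left (h : S.Lev E G a s X) {E' : Finset ℕ} (hE' : E' ⊆ E) (g : Pt → ℝ)
    (hg : ∀ v, 0 ≤ g v) :
    ∑ i ∈ E', g (S.a i) ≤ X ^ 2 * ((a : ℝ) * s) * ∑ v ∈ P, g v := by
  have hmaps : ∀ i ∈ E', S.a i ∈ P := fun i hi => S.a_mem (h.sup_lt (hE' hi))
  rw [← sum_fiberwise_of_maps_to hmaps, mul_sum]
  refine sum_le_sum fun v _ => ?_
  calc ∑ i ∈ E'.filter (fun i => S.a i = v), g (S.a i)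
      = ∑ _i ∈ E'.filter (fun i => S.a i = v), g v :=
        sum_congr rfl fun i hi => by rw [(mem_filter.1 hi).2]
    _ = ((E'.filter fun i => S.a i = v).card : ℝ) * g v := by rw [sum_const, nsmul_eq_mul]
    _ ≤ _ := by
        refine mul_le_mul_of_nonneg_right ?_ (hg v)
        exact le_trans (Nat.cast_le.2 (card_le_card (filter_subset_filter _ hE'))) (h.sup_tot_deg v)

theorem Lev.sup_sum_y (h : S.Lev E G a s X) {Ks : Finset ℕ}
    (hKs : Ks ⊆ E.image fun i => i / s ^ 4) :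
    ∑ x ∈ Ks ×ˢ Ks, ((G.filter fun v => v ∈ S.wact (s ^ 4) x.1 ∧ v ∈ S.wact (s ^ 4) x.2).card : ℝ) ≤
      (X * a) ^ 2 * ((a : ℝ) * s) ^ 3 := by
  have hX : 0 ≤ X := by linarith [h.X_ge]
  have h1 : ∑ x ∈ Ks ×ˢ Ks,
      (G.filter fun v => v ∈ S.wact (s ^ 4) x.1 ∧ v ∈ S.wact (s ^ 4) x.2).card =
      ∑ v ∈ G, ((Ks ×ˢ Ks).filter fun x => v ∈ S.wact (s ^ 4) x.1 ∧ v ∈ S.wact (s ^ 4) x.2).card :=
    sum_card_bipartiteAbove_eq_sum_card_bipartiteBelow
      (fun (x : ℕ × ℕ) (v : Pt) => v ∈ S.wact (s ^ 4) x.1 ∧ v ∈ S.wact (s ^ 4) x.2)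
  have h2 : (G.card : ℝ) ≤ ((a : ℝ) * s) ^ 3 := by
    exact_mod_cast (card_le_card h.G_sub).trans h.card_P
  calc _ = ((∑ v ∈ G, ((Ks ×ˢ Ks).filter fun x =>
        v ∈ S.wact (s ^ 4) x.1 ∧ v ∈ S.wact (s ^ 4) x.2).card : ℕ) : ℝ) := by
        rw [← h1]; push_cast; rfl
    _ ≤ ∑ _v ∈ G, (X * a) ^ 2 := by
        push_cast
        refine sum_le_sum fun v hv => ?_
        rw [filter_product (fun k => v ∈ S.wact (s ^ 4) k) (fun k => v ∈ S.wact (s ^ 4) k),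
          card_product, sq]
        push_cast
        have := h.sup_act_windows hv hKs
        gcongr
    _ = (G.card : ℝ) * (X * a) ^ 2 := by rw [sum_const, nsmul_eq_mul]
    _ ≤ _ := by rw [mul_comm]; gcongr

end Tok

end Vale.Agent.P065
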