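import Vale.Agent.P065.SuperA
import Vale.Agent.P065.Touch

/-! Choice of the two coarse windows. -/

namespace Vale.Agent.P065

open Classical Finset

namespace Tok

variable {P : Finset Pt} {S : Tok P} {E : Finset ℕ} {G : Finset Pt} {a s : ℕ} {X : ℝ}

/-- many events have many earlier heavy windows at their left endpoint -/
theorem Lev.sup_quads (hP : GP P) (h : S.Lev E G a s X) {E₃ : Finset ℕ} (hE₃ : E₃ ⊆ E)
    (hc : ((a : ℝ) * s) ^ 4 / (2 * X) ≤ E₃.card) (ha : 16 * X ^ 2 ≤ a) :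
    ((a : ℝ) * s) ^ 4 * a ^ 2 / X ^ 16 ≤ ∑ i ∈ E₃,
      (((S.inc E₃ s (X ^ 9) (S.a i)).filter fun k => k < i / s ^ 4).card : ℝ) ^ 2 := by
  have hX := h.X_ge
  have hX0 : 0 < X := by linarith
  have hs : (2 : ℝ) ≤ s := by exact_mod_cast h.s_ge
  have ha1 : (1 : ℝ) ≤ a := by exact_mod_cast h.a_ge
  set N : ℝ := (a : ℝ) * s with hN
  have hN0 : 0 < N := by positivity
  set ρ : ℝ := a / (16 * X ^ 2) with hρ
  have hρ1 : 1 ≤ ρ := by rw [hρ, le_div_iff₀ (by positivity)]; linarith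
  set rk : ℕ → ℕ := fun i => ((S.inc E₃ s (X ^ 9) (S.a i)).filter fun k => k < i / s ^ 4).card
    with hrk
  set L := E₃.filter fun i => (S.ldeg E₃ (s ^ 4) (S.a i) (i / s ^ 4) : ℝ) < s / X ^ 9 with hL
  set B := E₃.filter fun i => i / s ^ 4 ∈ S.inc E₃ s (X ^ 9) (S.a i) ∧ (rk i : ℝ) < ρ with hB
  set F := E₃.filter fun i => ρ ≤ (rk i : ℝ) with hF
  have hLc : (L.card : ℝ) ≤ N ^ 4 / (4 * X) := by
    refine (h.sup_light hP hE₃ (by positivity : 0 < X ^ 9)).trans ?_
    rw [div_le_div_iff₀ (by positivity) (by positivity)]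
    have h7 : (2 : ℝ) ^ 7 ≤ X ^ 7 := by gcongr
    have : 15 * X * (4 * X) ≤ X ^ 9 := by nlinarith [sq_nonneg X]
    calc 15 * X * N ^ 4 * (4 * X) = N ^ 4 * (15 * X * (4 * X)) := by ring
      _ ≤ _ := by gcongr
  have hBc : (B.card : ℝ) ≤ N ^ 4 / (8 * X) := by
    have hmaps : ∀ i ∈ B, S.a i ∈ P := fun i hi => S.a_mem (h.sup_lt (hE₃ (mem_filter.1 hi).1))
    have h1 := card_eq_sum_card_fiberwise hmaps
    have h2 : ∀ v ∈ P, ((B.filter fun i => S.a i = v).card : ℝ) ≤ 2 * ρ * (X * s) := by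
      intro v _
      set Kv := (S.inc E₃ s (X ^ 9) v).filter fun k =>
        (((S.inc E₃ s (X ^ 9) v).filter fun k' => k' < k).card : ℝ) < ρ with hKv
      have hK : (Kv.card : ℝ) ≤ 2 * ρ := by
        have hinj : Set.InjOn (fun k => ((S.inc E₃ s (X ^ 9) v).filter fun k' => k' < k).card)
            (Kv : Set ℕ) := by
          have key : ∀ k ∈ Kv, ∀ l ∈ Kv, k < l →
              ((S.inc E₃ s (X ^ 9) v).filter fun k' => k' < k).card <
              ((S.inc E₃ s (X ^ 9) v).filter fun k' => k' < l).card := by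
            intro k hk l _ hkl
            refine card_lt_card ⟨fun x hx => ?_, fun hsub => ?_⟩
            · exact mem_filter.2 ⟨(mem_filter.1 hx).1, (mem_filter.1 hx).2.trans hkl⟩
            · have := hsub (mem_filter.2 ⟨(mem_filter.1 hk).1, hkl⟩)
              exact lt_irrefl _ (mem_filter.1 this).2
          intro k hk l hl hkl
          rcases lt_trichotomy k l with h' | h' | h'
          · exact absurd hkl (key k hk l hl h').ne
          · exact h'
          · exact absurd hkl.symm (key l hl k hk h').ne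
        have hmap : ∀ k ∈ Kv, ((S.inc E₃ s (X ^ 9) v).filter fun k' => k' < k).card ∈
            range ⌈ρ⌉₊ := fun k hk => mem_range.2 (Nat.lt_ceil.2 (mem_filter.1 hk).2)
        have := card_le_card_of_injOn _ hmap hinj
        rw [card_range] at this
        have h3 : (⌈ρ⌉₊ : ℝ) < ρ + 1 := Nat.ceil_lt_add_one (by linarith)
        have h4 : (Kv.card : ℝ) ≤ ⌈ρ⌉₊ := by exact_mod_cast this
        linarith
      have hm2 : ∀ i ∈ B.filter fun i => S.a i = v, i / s ^ 4 ∈ Kv := by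
        intro i hi
        obtain ⟨hiB, rfl⟩ := mem_filter.1 hi
        exact mem_filter.2 (mem_filter.1 hiB).2
      have h3 := card_eq_sum_card_fiberwise hm2
      calc ((B.filter fun i => S.a i = v).card : ℝ)
          = ∑ k ∈ Kv, (((B.filter fun i => S.a i = v).filter fun i => i / s ^ 4 = k).card : ℝ) := by
            rw [h3]; push_cast; rfl
        _ ≤ ∑ _k ∈ Kv, X * s := by
            refine sum_le_sum fun k _ => le_trans (Nat.cast_le.2 (card_le_card fun i hi => ?_))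
              (h.deg_le v k)
            obtain ⟨h5, h6⟩ := mem_filter.1 hi
            obtain ⟨h7, h8⟩ := mem_filter.1 h5
            exact mem_filter.2 ⟨hE₃ (mem_filter.1 h7).1, h6, h8⟩
        _ = (Kv.card : ℝ) * (X * s) := by rw [sum_const, nsmul_eq_mul]
        _ ≤ _ := by gcongr
    have hP3 : (P.card : ℝ) ≤ N ^ 3 := by rw [hN]; exact_mod_cast h.card_P
    calc (B.card : ℝ) = ∑ v ∈ P, ((B.filter fun i => S.a i = v).card : ℝ) := by
          rw [h1]; push_cast; rfl
      _ ≤ ∑ _v ∈ P, 2 * ρ * (X * s) := sum_le_sum h2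
      _ = (P.card : ℝ) * (2 * ρ * (X * s)) := by rw [sum_const, nsmul_eq_mul]
      _ ≤ N ^ 3 * (2 * ρ * (X * s)) := by gcongr
      _ = N ^ 4 / (8 * X) := by rw [hρ, hN]; field_simp; ring
  have hcover : E₃ ⊆ L ∪ B ∪ F := by
    intro i hi
    by_cases h1 : (S.ldeg E₃ (s ^ 4) (S.a i) (i / s ^ 4) : ℝ) < s / X ^ 9
    · exact mem_union_left _ (mem_union_left _ (mem_filter.2 ⟨hi, h1⟩))
    by_cases h2 : (rk i : ℝ) < ρ
    · refine mem_union_left _ (mem_union_right _ (mem_filter.2 ⟨hi, ?_, h2⟩))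
      exact mem_filter.2 ⟨mem_image_of_mem _ hi, not_lt.1 h1⟩
    · exact mem_union_right _ (mem_filter.2 ⟨hi, not_lt.1 h2⟩)
  have hFc : N ^ 4 / (8 * X) ≤ F.card := by
    have h1 : (E₃.card : ℝ) ≤ L.card + B.card + F.card := by
      have := (card_le_card hcover).trans
        ((card_union_le _ _).trans (Nat.add_le_add_right (card_union_le _ _) _))
      exact_mod_cast this
    have h2 : N ^ 4 / (2 * X) = N ^ 4 / (4 * X) + N ^ 4 / (8 * X) + N ^ 4 / (8 * X) := by
      field_simp; ring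
    linarith
  calc N ^ 4 * a ^ 2 / X ^ 16 ≤ N ^ 4 / (8 * X) * ρ ^ 2 := by
        rw [hρ, div_pow, div_mul_div_comm, div_le_div_iff₀ (by positivity) (by positivity)]
        have h11 : (2 : ℝ) ^ 11 ≤ X ^ 11 := by gcongr
        have : 8 * X * (16 * X ^ 2) ^ 2 ≤ X ^ 16 := by
          have : X ^ 16 = X ^ 11 * X ^ 5 := by ring
          rw [this]; nlinarith [pow_pos hX0 5]
        gcongr
    _ ≤ F.card * ρ ^ 2 := by gcongr
    _ = ∑ _i ∈ F, ρ ^ 2 := by rw [sum_const, nsmul_eq_mul]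
    _ ≤ ∑ i ∈ F, (rk i : ℝ) ^ 2 := by
        refine sum_le_sum fun i hi => ?_
        have := (mem_filter.1 hi).2
        gcongr
    _ ≤ _ := sum_le_sum_of_subset_of_nonneg (filter_subset _ _) fun _ _ _ => by positivity

end Tok

end Vale.Agent.P065
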