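import Vale.Agent.P065.SuperB

/-! Choice of the two coarse windows, continued. -/

namespace Vale.Agent.P065

open Classical Finset

namespace Tok

variable {P : Finset Pt} {S : Tok P} {E : Finset ℕ} {G : Finset Pt} {a s : ℕ} {X : ℝ}

theorem sup_before {W M i k : ℕ} (hk : k < i / (W * M)) : S.wend (W * M) k ≤ i / W * W := by
  refine (min_le_left _ _).trans ?_
  calc (k + 1) * (W * M) ≤ i / (W * M) * (W * M) := Nat.mul_le_mul_right _ hk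
    _ = (i / W / M * M) * W := by rw [Nat.div_div_eq_div_mul]; ring
    _ ≤ i / W * W := Nat.mul_le_mul_right _ (Nat.div_mul_le_self _ _)

theorem Lev.sup_exit (hP : GP P) (h : S.Lev E G a s X) {W M ℓ : ℕ} (hW : 0 < W)
    (hWM : s ^ 4 = W * M) {E₃ : Finset ℕ} (hE₃ : E₃ ⊆ E) {k₁ k₂ : ℕ → ℕ}
    (hB : S.Blocks E W ℓ k₁ k₂) {K₅ : ℝ} (hK₅ : 1 ≤ K₅)
    (hcen : ∀ i ∈ E₃, (s : ℝ) ^ 3 / K₅ ≤
      S.chi (i / s ^ 4 * s ^ 4) (S.wend (s ^ 4) (i / s ^ 4)) (S.a i)) :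
    ∑ i ∈ E₃, ((((S.inc E₃ s (X ^ 9) (S.a i)).filter fun k => k < i / s ^ 4).filter fun k =>
      S.hold (k₁ i) (S.tok i) ∉ S.wact (s ^ 4) k ∨ S.hold (k₂ i) (S.tok i) ∉ S.wact (s ^ 4) k).card : ℝ)
      ≤ 2 * ℓ * (K₅ * X ^ 6 * ((a : ℝ) * s) ^ 3 * a ^ 3) := by
  have hX := h.X_ge
  have hX0 : 0 < X := by linarith
  have hs : (2 : ℝ) ≤ s := by exact_mod_cast h.s_ge
  have ha1 : (1 : ℝ) ≤ a := by exact_mod_cast h.a_ge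
  set Ks := E.image fun i => i / s ^ 4 with hKs
  have hf : (0 : ℝ) < (s : ℝ) ^ 3 / K₅ := by positivity
  have h1 := block_exit_bound hP S h.E_sub hW h.sup_W_pos hB Ks hf
  have h2 := h.sup_sum_act hP
  have hP3 : (P.card : ℝ) ≤ ((a : ℝ) * s) ^ 3 := by exact_mod_cast h.card_P
  have h3 : (P.card : ℝ) ^ 2 / ((s : ℝ) ^ 3 / K₅) + 2 * ∑ k ∈ Ks, ((S.wact (s ^ 4) k).card : ℝ) ≤
      K₅ * X ^ 6 * ((a : ℝ) * s) ^ 3 * a ^ 3 := by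
    have e1 : (P.card : ℝ) ^ 2 / ((s : ℝ) ^ 3 / K₅) ≤ K₅ * (((a : ℝ) * s) ^ 3 * a ^ 3) := by
      calc _ ≤ (((a : ℝ) * s) ^ 3) ^ 2 / ((s : ℝ) ^ 3 / K₅) := by gcongr
        _ = _ := by field_simp
    have e2 : 15 * (a : ℝ) ^ 4 * (X * s ^ 3) ≤ 15 * X * (((a : ℝ) * s) ^ 3 * a ^ 3) := by
      have : (a : ℝ) ^ 4 ≤ a ^ 6 := pow_le_pow_right₀ ha1 (by norm_num)
      calc 15 * (a : ℝ) ^ 4 * (X * s ^ 3) ≤ 15 * (a : ℝ) ^ 6 * (X * s ^ 3) := by gcongr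
        _ = _ := by ring
    have h5 : (2 : ℝ) ^ 5 ≤ X ^ 5 := by gcongr
    have e3 : K₅ + 30 * X ≤ K₅ * X ^ 6 := by
      have : X ^ 6 = X ^ 5 * X := by ring
      nlinarith [mul_le_mul_of_nonneg_right h5 hX0.le]
    have e4 : (0 : ℝ) ≤ ((a : ℝ) * s) ^ 3 * a ^ 3 := by positivity
    nlinarith [mul_le_mul_of_nonneg_right e3 e4]
  refine le_trans ?_ (h1.trans (by gcongr))
  rw [← Nat.cast_sum, ← card_sigma]
  refine Nat.cast_le.2 (card_le_card_of_injOn (fun x => (x.1, x.2)) (fun x hx => ?_) ?_)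
  · obtain ⟨hi, hk⟩ := mem_sigma.1 (mem_coe.1 hx)
    obtain ⟨hk1, hk2⟩ := mem_filter.1 hk
    obtain ⟨hk3, hk4⟩ := mem_filter.1 hk1
    obtain ⟨j, hj, hjk, hja⟩ := h.sup_inc_sub hE₃ (by positivity) hk3
    refine mem_coe.2 (mem_filter.2 ⟨mem_product.2 ⟨hE₃ hi, ?_⟩, ?_, ?_, ?_, hk2⟩)
    · exact mem_image.2 ⟨j, hE₃ hj, hjk⟩
    · rw [hWM] at hk4 ⊢; exact sup_before hk4
    · have := S.a_mem_wact h.sup_W_pos (h.sup_lt (hE₃ hj))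
      rwa [hjk, hja] at this
    · have := hcen j hj
      rwa [hjk, hja] at this
  · rintro ⟨i, k⟩ _ ⟨j, l⟩ _ hxy
    simp only [Prod.mk.injEq] at hxy
    obtain ⟨rfl, rfl⟩ := hxy
    rfl

theorem Lev.sup_pair (hP : GP P) (h : S.Lev E G a s X) {W M ℓ : ℕ} (hW : 0 < W)
    (hWM : s ^ 4 = W * M) {E₃ : Finset ℕ} (hE₃ : E₃ ⊆ E)
    (hc : ((a : ℝ) * s) ^ 4 / (2 * X) ≤ E₃.card) (ha : 16 * X ^ 2 ≤ a) {k₁ k₂ : ℕ → ℕ}
    (hB : S.Blocks E W ℓ k₁ k₂) {K₅ y : ℝ} (hK₅ : 1 ≤ K₅)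
    (hcen : ∀ i ∈ E₃, (s : ℝ) ^ 3 / K₅ ≤
      S.chi (i / s ^ 4 * s ^ 4) (S.wend (s ^ 4) (i / s ^ 4)) (S.a i))
    (hℓ : ℓ * K₅ * X ^ 28 * a ≤ s)
    (htail : ∑ v ∈ P, (S.hvy E s (X ^ 9) v y : ℝ) ≤ (a : ℝ) ^ 2 * ((a : ℝ) * s) ^ 3 / X ^ 21) :
    ∃ (Ω Ω' : ℕ) (Sel : Finset ℕ), Sel ⊆ E₃ ∧ Sel.Nonempty ∧
      (∀ i ∈ Sel, S.wend (s ^ 4) Ω ≤ i / W * W ∧ S.wend (s ^ 4) Ω' ≤ i / W * W ∧
        S.hold (k₁ i) (S.tok i) ∈ S.wact (s ^ 4) Ω ∧ S.hold (k₂ i) (S.tok i) ∈ S.wact (s ^ 4) Ω ∧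
        S.hold (k₁ i) (S.tok i) ∈ S.wact (s ^ 4) Ω' ∧ S.hold (k₂ i) (S.tok i) ∈ S.wact (s ^ 4) Ω') ∧
      ((G.filter fun v => v ∈ S.wact (s ^ 4) Ω ∧ v ∈ S.wact (s ^ 4) Ω').card : ℝ) ≤ X ^ 23 * y ∧
      ((G.filter fun v => v ∈ S.wact (s ^ 4) Ω ∧ v ∈ S.wact (s ^ 4) Ω').card : ℝ) *
        ((a : ℝ) * s) / X ^ 20 ≤ Sel.card := by
  have hX := h.X_ge
  have hX0 : 0 < X := by linarith
  have hs : (2 : ℝ) ≤ s := by exact_mod_cast h.s_ge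
  have ha1 : (1 : ℝ) ≤ a := by exact_mod_cast h.a_ge
  have hquad := h.sup_quads hP hE₃ hc ha
  have hexit := h.sup_exit hP hW hWM hE₃ hB hK₅ hcen
  set N : ℝ := (a : ℝ) * s with hN
  have hN0 : 0 < N := by positivity
  set Ks := E.image fun i => i / s ^ 4 with hKs
  set 𝒲 : ℕ → Finset ℕ := fun i => (S.inc E₃ s (X ^ 9) (S.a i)).filter fun k => k < i / s ^ 4
    with h𝒲
  have h𝒲inc : ∀ i, 𝒲 i ⊆ S.inc E s (X ^ 9) (S.a i) := fun i =>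
    (filter_subset _ _).trans (sup_inc_mono hE₃ _ _)
  have h𝒲K : ∀ i, 𝒲 i ⊆ Ks := fun i => (h𝒲inc i).trans (filter_subset _ _)
  have h𝒲c : ∀ i, ((𝒲 i).card : ℝ) ≤ X * a := fun i =>
    le_trans (Nat.cast_le.2 (card_le_card (h𝒲inc i))) (h.sup_card_inc (by positivity) _)
  set ex : ℕ → ℕ → Prop := fun i k =>
    S.hold (k₁ i) (S.tok i) ∉ S.wact (s ^ 4) k ∨ S.hold (k₂ i) (S.tok i) ∉ S.wact (s ^ 4) k with hex
  set y₂ : ℕ × ℕ → ℕ := fun x =>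
    (G.filter fun v => v ∈ S.wact (s ^ 4) x.1 ∧ v ∈ S.wact (s ^ 4) x.2).card with hy₂
  set gd : ℕ → ℕ × ℕ → Prop := fun i x => x.1 ∈ 𝒲 i ∧ x.2 ∈ 𝒲 i ∧ ¬ ex i x.1 ∧ ¬ ex i x.2 ∧
    (S.ov E s (X ^ 9) x.1 x.2 : ℝ) < y ∧ (y₂ x : ℝ) ≤ X ^ 23 * S.ov E s (X ^ 9) x.1 x.2 with hgd
  set b3 : ℕ → ℕ × ℕ → Prop := fun i x => x.1 ∈ 𝒲 i ∧ x.2 ∈ 𝒲 i ∧
    X ^ 23 * S.ov E s (X ^ 9) x.1 x.2 < (y₂ x : ℝ) with hb3
  have hsplit : ∀ i, ((𝒲 i).card : ℝ) ^ 2 ≤ (((Ks ×ˢ Ks).filter (gd i)).card : ℝ) +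
      2 * (X * a) * (((𝒲 i).filter (ex i)).card : ℝ) + S.hvy E s (X ^ 9) (S.a i) y +
      (((Ks ×ˢ Ks).filter (b3 i)).card : ℝ) := by
    intro i
    have hsub : 𝒲 i ×ˢ 𝒲 i ⊆ (Ks ×ˢ Ks).filter (gd i) ∪ ((𝒲 i).filter (ex i)) ×ˢ 𝒲 i ∪
        𝒲 i ×ˢ ((𝒲 i).filter (ex i)) ∪
        ((S.inc E s (X ^ 9) (S.a i) ×ˢ S.inc E s (X ^ 9) (S.a i)).filter fun x =>
          y ≤ S.ov E s (X ^ 9) x.1 x.2) ∪ (Ks ×ˢ Ks).filter (b3 i) := by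
      intro x hx
      obtain ⟨hx1, hx2⟩ := mem_product.1 hx
      have hxK : x ∈ Ks ×ˢ Ks := mem_product.2 ⟨h𝒲K i hx1, h𝒲K i hx2⟩
      simp only [mem_union]
      by_cases c1 : ex i x.1
      · exact Or.inl (Or.inl (Or.inl (Or.inr (mem_product.2 ⟨mem_filter.2 ⟨hx1, c1⟩, hx2⟩))))
      by_cases c2 : ex i x.2
      · exact Or.inl (Or.inl (Or.inr (mem_product.2 ⟨hx1, mem_filter.2 ⟨hx2, c2⟩⟩)))
      by_cases c3 : y ≤ S.ov E s (X ^ 9) x.1 x.2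
      · exact Or.inl (Or.inr (mem_filter.2 ⟨mem_product.2 ⟨h𝒲inc i hx1, h𝒲inc i hx2⟩, c3⟩))
      by_cases c4 : X ^ 23 * S.ov E s (X ^ 9) x.1 x.2 < (y₂ x : ℝ)
      · exact Or.inr (mem_filter.2 ⟨hxK, hx1, hx2, c4⟩)
      · exact Or.inl (Or.inl (Or.inl (Or.inl
          (mem_filter.2 ⟨hxK, hx1, hx2, c1, c2, not_le.1 c3, not_lt.1 c4⟩))))
    have h1 := (card_le_card hsub).trans ((card_union_le _ _).trans (Nat.add_le_add_right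
      ((card_union_le _ _).trans (Nat.add_le_add_right ((card_union_le _ _).trans
        (Nat.add_le_add_right (card_union_le _ _) _)) _)) _))
    simp only [card_product] at h1
    have h2 : ((𝒲 i).card : ℝ) * (𝒲 i).card ≤ (((Ks ×ˢ Ks).filter (gd i)).card : ℝ) +
        (((𝒲 i).filter (ex i)).card : ℝ) * (𝒲 i).card +
        ((𝒲 i).card : ℝ) * ((𝒲 i).filter (ex i)).card + S.hvy E s (X ^ 9) (S.a i) y +
        (((Ks ×ˢ Ks).filter (b3 i)).card : ℝ) := by exact_mod_cast h1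
    have h3 := h𝒲c i
    have h4 : (0 : ℝ) ≤ (((𝒲 i).filter (ex i)).card : ℝ) := by positivity
    nlinarith [mul_le_mul_of_nonneg_left h3 h4]
  have hT : N ^ 4 * a ^ 2 / X ^ 19 ≤ N ^ 4 * a ^ 2 / X ^ 16 / 8 := by
    rw [div_div, div_le_div_iff₀ (by positivity) (by positivity)]
    have h3 : (2 : ℝ) ^ 3 ≤ X ^ 3 := by gcongr
    have : X ^ 16 * 8 ≤ X ^ 19 := by
      have : X ^ 19 = X ^ 16 * X ^ 3 := by ring
      rw [this]; gcongr; linarith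
    gcongr
  have hB1 : 2 * (X * a) * ∑ i ∈ E₃, (((𝒲 i).filter (ex i)).card : ℝ) ≤
      N ^ 4 * a ^ 2 / X ^ 19 := by
    calc _ ≤ 2 * (X * a) * (2 * ℓ * (K₅ * X ^ 6 * N ^ 3 * a ^ 3)) := by gcongr
      _ = 4 * X ^ 7 * N ^ 3 * a ^ 3 * (ℓ * K₅ * X ^ 28 * a) / X ^ 28 := by field_simp; ring
      _ ≤ 4 * X ^ 7 * N ^ 3 * a ^ 3 * s / X ^ 28 := by gcongr
      _ = N ^ 4 * a ^ 2 / X ^ 19 * (4 / X ^ 2) := by rw [hN]; field_simp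
      _ ≤ N ^ 4 * a ^ 2 / X ^ 19 * 1 := by
          gcongr; rw [div_le_one (by positivity)]; nlinarith
      _ = _ := mul_one _
  have hB2 : ∑ i ∈ E₃, (S.hvy E s (X ^ 9) (S.a i) y : ℝ) ≤ N ^ 4 * a ^ 2 / X ^ 19 := by
    refine (h.sup_sum_left hE₃ (fun v => (S.hvy E s (X ^ 9) v y : ℝ)) fun v => by positivity).trans ?_
    calc _ ≤ X ^ 2 * N * ((a : ℝ) ^ 2 * N ^ 3 / X ^ 21) := by gcongr
      _ = _ := by field_simp
  have hsumy : ∑ x ∈ Ks ×ˢ Ks, (y₂ x : ℝ) ≤ (X * a) ^ 2 * N ^ 3 := h.sup_sum_y (Subset.refl _)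
  have hdc : ∀ (p : ℕ → ℕ × ℕ → Prop) [∀ i, DecidablePred (p i)]
      [∀ x, DecidablePred fun i => p i x], ∑ i ∈ E₃, (((Ks ×ˢ Ks).filter (p i)).card : ℝ) =
      ∑ x ∈ Ks ×ˢ Ks, ((E₃.filter fun i => p i x).card : ℝ) := by
    intro p _ _
    simp only [card_filter]
    push_cast
    exact sum_comm
  have hB3 : ∑ i ∈ E₃, (((Ks ×ˢ Ks).filter (b3 i)).card : ℝ) ≤ N ^ 4 * a ^ 2 / X ^ 19 := by
    rw [hdc b3]
    have h1 : ∀ x ∈ Ks ×ˢ Ks, ((E₃.filter fun i => b3 i x).card : ℝ) ≤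
        X ^ 2 * N / X ^ 23 * y₂ x := by
      intro x _
      rcases (E₃.filter fun i => b3 i x).eq_empty_or_nonempty with h0 | ⟨j, hj⟩
      · rw [h0]; simp only [card_empty, Nat.cast_zero]; positivity
      have h2 := (mem_filter.1 hj).2.2.2
      set g : Pt → ℝ := fun v =>
        if x.1 ∈ S.inc E s (X ^ 9) v ∧ x.2 ∈ S.inc E s (X ^ 9) v then 1 else 0 with hg
      have h3 := h.sup_sum_left ((filter_subset (fun i => b3 i x) E₃).trans hE₃) g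
        fun v => by simp only [hg]; split_ifs <;> norm_num
      have h4 : ∑ i ∈ E₃.filter (fun i => b3 i x), g (S.a i) =
          ((E₃.filter fun i => b3 i x).card : ℝ) := by
        rw [card_eq_sum_ones]; push_cast
        refine sum_congr rfl fun i hi => ?_
        have := (mem_filter.1 hi).2
        simp only [hg]
        rw [if_pos ⟨h𝒲inc i this.1, h𝒲inc i this.2.1⟩]
      have h5 : ∑ v ∈ P, g v = S.ov E s (X ^ 9) x.1 x.2 := by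
        simp only [hg, ov]; rw [sum_boole]
      rw [h4, h5] at h3
      refine h3.trans ?_
      rw [div_mul_eq_mul_div, le_div_iff₀ (by positivity), mul_assoc (X ^ 2 * N)]
      gcongr
      linarith
    calc _ ≤ ∑ x ∈ Ks ×ˢ Ks, X ^ 2 * N / X ^ 23 * y₂ x := sum_le_sum h1
      _ = X ^ 2 * N / X ^ 23 * ∑ x ∈ Ks ×ˢ Ks, (y₂ x : ℝ) := by rw [mul_sum]
      _ ≤ X ^ 2 * N / X ^ 23 * ((X * a) ^ 2 * N ^ 3) := by gcongr
      _ = _ := by field_simp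
  have hgood : N ^ 4 * a ^ 2 / X ^ 16 / 2 ≤
      ∑ x ∈ Ks ×ˢ Ks, ((E₃.filter fun i => gd i x).card : ℝ) := by
    rw [← hdc gd]
    have h1 := hquad.trans (sum_le_sum fun i (_ : i ∈ E₃) => hsplit i)
    simp only [sum_add_distrib, ← mul_sum] at h1
    have h2 : 0 ≤ N ^ 4 * a ^ 2 / X ^ 16 := by positivity
    linarith
  by_contra hcon
  have hall : ∀ x ∈ Ks ×ˢ Ks, ((E₃.filter fun i => gd i x).card : ℝ) ≤ N / X ^ 20 * y₂ x := by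
    intro x _
    rcases (E₃.filter fun i => gd i x).eq_empty_or_nonempty with h0 | ⟨j, hj⟩
    · rw [h0]; simp only [card_empty, Nat.cast_zero]; positivity
    by_contra hlt
    refine hcon ⟨x.1, x.2, E₃.filter fun i => gd i x, filter_subset _ _, ⟨j, hj⟩, ?_, ?_, ?_⟩
    · intro i hi
      obtain ⟨h1, h2, h3, h4, -⟩ := (mem_filter.1 hi).2
      have h5 := (mem_filter.1 h1).2
      have h6 := (mem_filter.1 h2).2
      simp only [hex, not_or, not_not] at h3 h4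
      rw [hWM] at h5 h6
      refine ⟨?_, ?_, h3.1, h3.2, h4.1, h4.2⟩
      · rw [hWM]; exact sup_before h5
      · rw [hWM]; exact sup_before h6
    · obtain ⟨-, -, -, -, h1, h2⟩ := (mem_filter.1 hj).2
      exact h2.trans (by gcongr)
    · have := (not_le.1 hlt).le
      calc _ = N / X ^ 20 * y₂ x := by simp only [hy₂]; ring
        _ ≤ _ := this
  have h1 : ∑ x ∈ Ks ×ˢ Ks, ((E₃.filter fun i => gd i x).card : ℝ) ≤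
      N ^ 4 * a ^ 2 / X ^ 16 / X ^ 2 := by
    calc _ ≤ ∑ x ∈ Ks ×ˢ Ks, N / X ^ 20 * y₂ x := sum_le_sum hall
      _ = N / X ^ 20 * ∑ x ∈ Ks ×ˢ Ks, (y₂ x : ℝ) := by rw [mul_sum]
      _ ≤ N / X ^ 20 * ((X * a) ^ 2 * N ^ 3) := by gcongr
      _ = _ := by field_simp
  have h2 : 0 < N ^ 4 * a ^ 2 / X ^ 16 := by positivity
  have h3 : N ^ 4 * a ^ 2 / X ^ 16 / X ^ 2 < N ^ 4 * a ^ 2 / X ^ 16 / 2 := by
    apply div_lt_div_of_pos_left h2 (by norm_num); nlinarith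
  linarith

end Tok

end Vale.Agent.P065
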