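import Vale.Agent.P065.Basic

/-! Elementary lemmas on token systems (task A). -/

namespace Vale.Agent.P065

open Classical Finset

theorem ht_le_of_le {p q : Pt} {s s' : ℝ} (hx : p.1 ≤ q.1) (h : ht p s ≤ ht q s) (hs : s' ≤ s) :
    ht p s' ≤ ht q s' := by
  unfold ht at *
  nlinarith [mul_nonneg (sub_nonneg.2 hs) (sub_nonneg.2 hx)]

theorem ht_lt_of_lt {p q : Pt} {s s' : ℝ} (hx : p.1 < q.1) (h : ht p s ≤ ht q s) (hs : s' < s) :
    ht p s' < ht q s' := by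
  unfold ht at *
  nlinarith [mul_pos (sub_pos.2 hs) (sub_pos.2 hx)]

theorem ht_ge_of_ge {p q : Pt} {s s' : ℝ} (hx : p.1 ≤ q.1) (h : ht q s ≤ ht p s) (hs : s ≤ s') :
    ht q s' ≤ ht p s' := by
  unfold ht at *
  nlinarith [mul_nonneg (sub_nonneg.2 hs) (sub_nonneg.2 hx)]

theorem ht_gt_of_gt {p q : Pt} {s s' : ℝ} (hx : p.1 < q.1) (h : ht q s ≤ ht p s) (hs : s < s') :
    ht q s' < ht p s' := by
  unfold ht at *
  nlinarith [mul_pos (sub_pos.2 hs) (sub_pos.2 hx)]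

theorem ht_slope_eq {p q : Pt} {s s' : ℝ} (hx : p.1 < q.1) (h : ht p s = ht q s)
    (h' : ht p s' = ht q s') : s = s' := by
  rcases lt_trichotomy s s' with k | k | k
  · exact absurd h' (ht_gt_of_gt hx h.ge k).ne'
  · exact k
  · exact absurd h' (ht_lt_of_lt hx h.le k).ne

namespace Tok

variable {P : Finset Pt} (S : Tok P)

theorem a_mem {i : ℕ} (hi : i < S.m) : S.a i ∈ P :=
  S.hold_tok i hi ▸ S.hold_mem i hi.le _ (S.tok_mem i hi)

theorem b_mem {i : ℕ} (hi : i < S.m) : S.b i ∈ P :=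
  S.hold_succ_tok i hi ▸ S.hold_mem (i + 1) hi _ (S.tok_mem i hi)

theorem ab_inj {i j : ℕ} (hi : i < S.m) (hj : j < S.m) (ha : S.a i = S.a j) (hb : S.b i = S.b j) :
    i = j := by
  have h := ht_slope_eq (S.ab_lt i hi) (S.ab_ht i hi) (by rw [ha, hb]; exact S.ab_ht j hj)
  rcases lt_trichotomy i j with k | k | k
  · exact absurd h (S.t_lt i j k hj).ne
  · exact k
  · exact absurd h (S.t_lt j i k hi).ne'

theorem t_le {i j : ℕ} (hij : i ≤ j) (hj : j < S.m) : S.t i ≤ S.t j := by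
  rcases hij.lt_or_eq with h | rfl
  · exact (S.t_lt i j h hj).le
  · exact le_rfl

theorem card_low {i : ℕ} (hi : i ≤ S.m) : (S.low i).card = S.T.card :=
  card_image_of_injOn fun τ h τ' h' => S.hold_inj i hi τ h τ' h'

theorem low_subset {i : ℕ} (hi : i ≤ S.m) : S.low i ⊆ P := fun _ h =>
  let ⟨τ, h1, h2⟩ := mem_image.1 h
  h2 ▸ S.hold_mem i hi τ h1

theorem a_mem_low {i : ℕ} (hi : i < S.m) : S.a i ∈ S.low i :=
  mem_image.2 ⟨_, S.tok_mem i hi, S.hold_tok i hi⟩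

theorem a_ne_b {i : ℕ} (hi : i < S.m) : S.a i ≠ S.b i := fun e => by
  have := S.ab_lt i hi
  rw [e] at this
  exact lt_irrefl _ this

theorem b_not_mem_low {i : ℕ} (hi : i < S.m) : S.b i ∉ S.low i := fun h => by
  obtain ⟨τ, h1, h2⟩ := mem_image.1 h
  by_cases e : τ = S.tok i
  · rw [e, S.hold_tok i hi] at h2
    exact S.a_ne_b hi h2
  · exact e (S.hold_inj (i + 1) hi τ h1 _ (S.tok_mem i hi)
      (by rw [S.hold_succ_ne i hi τ h1 e, h2, S.hold_succ_tok i hi]))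

theorem low_succ {i : ℕ} (hi : i < S.m) :
    S.low (i + 1) = insert (S.b i) ((S.low i).erase (S.a i)) := by
  ext p
  simp only [low, mem_image, mem_insert, mem_erase]
  constructor
  · rintro ⟨τ, h1, rfl⟩
    by_cases e : τ = S.tok i
    · exact Or.inl (e ▸ S.hold_succ_tok i hi)
    · rw [S.hold_succ_ne i hi τ h1 e]
      exact Or.inr ⟨fun k => e (S.hold_inj i hi.le τ h1 _ (S.tok_mem i hi)
        (k.trans (S.hold_tok i hi).symm)), τ, h1, rfl⟩
  · rintro (rfl | ⟨h0, τ, h1, rfl⟩)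
    · exact ⟨_, S.tok_mem i hi, S.hold_succ_tok i hi⟩
    · exact ⟨τ, h1, S.hold_succ_ne i hi τ h1 fun e => h0 (e ▸ S.hold_tok i hi)⟩

theorem mem_act {i₀ i₁ : ℕ} {p : Pt} :
    p ∈ S.act i₀ i₁ ↔ ∃ i, i₀ ≤ i ∧ i < i₁ ∧ (S.a i = p ∨ S.b i = p) := by
  simp only [act, mem_union, mem_image, mem_Ico]
  constructor
  · rintro (⟨i, ⟨h1, h2⟩, h⟩ | ⟨i, ⟨h1, h2⟩, h⟩)
    · exact ⟨i, h1, h2, Or.inl h⟩
    · exact ⟨i, h1, h2, Or.inr h⟩
  · rintro ⟨i, h1, h2, h | h⟩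
    · exact Or.inl ⟨i, ⟨h1, h2⟩, h⟩
    · exact Or.inr ⟨i, ⟨h1, h2⟩, h⟩

theorem a_mem_act {i i₀ i₁ : ℕ} (h₀ : i₀ ≤ i) (h₁ : i < i₁) : S.a i ∈ S.act i₀ i₁ :=
  S.mem_act.2 ⟨i, h₀, h₁, Or.inl rfl⟩

theorem b_mem_act {i i₀ i₁ : ℕ} (h₀ : i₀ ≤ i) (h₁ : i < i₁) : S.b i ∈ S.act i₀ i₁ :=
  S.mem_act.2 ⟨i, h₀, h₁, Or.inr rfl⟩

theorem act_subset {i₀ i₁ : ℕ} (h : i₁ ≤ S.m) : S.act i₀ i₁ ⊆ P := fun _ hp => by
  obtain ⟨i, -, h2, rfl | rfl⟩ := S.mem_act.1 hp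
  · exact S.a_mem (by omega)
  · exact S.b_mem (by omega)

theorem act_mono {i₀ i₁ j₀ j₁ : ℕ} (h₀ : j₀ ≤ i₀) (h₁ : i₁ ≤ j₁) :
    S.act i₀ i₁ ⊆ S.act j₀ j₁ := fun _ hp =>
  let ⟨i, h1, h2, h3⟩ := S.mem_act.1 hp
  S.mem_act.2 ⟨i, by omega, by omega, h3⟩

theorem wend_le (W k : ℕ) : S.wend W k ≤ S.m := min_le_right _ _

theorem mem_win_iff {W i k : ℕ} (hW : 0 < W) (hi : i < S.m) :
    i / W = k ↔ k * W ≤ i ∧ i < S.wend W k := by
  rw [wend, lt_min_iff, Nat.div_eq_iff hW, add_mul, one_mul]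
  omega

theorem a_mem_wact {W i : ℕ} (hW : 0 < W) (hi : i < S.m) : S.a i ∈ S.wact W (i / W) :=
  let h := (S.mem_win_iff hW hi).1 rfl
  S.a_mem_act h.1 h.2

theorem b_mem_wact {W i : ℕ} (hW : 0 < W) (hi : i < S.m) : S.b i ∈ S.wact W (i / W) :=
  let h := (S.mem_win_iff hW hi).1 rfl
  S.b_mem_act h.1 h.2

/-- an inactive point keeps its membership in `low` throughout the window -/
theorem low_const {i₀ i₁ i j : ℕ} {p : Pt} (h : i₁ ≤ S.m) (hp : p ∉ S.act i₀ i₁)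
    (hi₀ : i₀ ≤ i) (hi₁ : i ≤ i₁) (hj₀ : i₀ ≤ j) (hj₁ : j ≤ i₁) :
    p ∈ S.low i ↔ p ∈ S.low j := by
  have key : ∀ i, i₀ ≤ i → i ≤ i₁ → (p ∈ S.low i ↔ p ∈ S.low i₀) := by
    intro i hi
    induction i, hi using Nat.le_induction with
    | base => exact fun _ => Iff.rfl
    | succ i hi ih =>
      intro k
      have h1 : p ≠ S.a i := fun e => hp (e ▸ S.a_mem_act hi k)
      have h2 : p ≠ S.b i := fun e => hp (e ▸ S.b_mem_act hi k)
      rw [S.low_succ (by omega), ← ih (by omega)]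
      simp [h1, h2]
  rw [key i hi₀ hi₁, key j hj₀ hj₁]

/-- a token without events in `[r, r')` does not move -/
theorem hold_const {r r' : ℕ} {τ : Pt} (hτ : τ ∈ S.T) (hr : r ≤ r') (h : r' ≤ S.m)
    (hno : ∀ i, r ≤ i → i < r' → S.tok i ≠ τ) : S.hold r τ = S.hold r' τ := by
  induction r', hr using Nat.le_induction with
  | base => rfl
  | succ i hi ih =>
    rw [S.hold_succ_ne i h τ hτ (hno i hi (by omega)).symm]
    exact ih (by omega) fun j h1 h2 => hno j h1 (by omega)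

/-- all holders, during a window, of a token having an event in the window are active -/
theorem hold_mem_act {i₀ i₁ i r : ℕ} (h : i₁ ≤ S.m) (hi₀ : i₀ ≤ i) (hi₁ : i < i₁)
    (hr₀ : i₀ ≤ r) (hr₁ : r ≤ i₁) : S.hold r (S.tok i) ∈ S.act i₀ i₁ := by
  have hτ := S.tok_mem i (by omega)
  by_contra k
  rcases le_or_gt r i with hri | hri
  · have key : ∀ j, r ≤ j → j ≤ i → S.hold j (S.tok i) = S.hold r (S.tok i) := by
      intro j hj
      induction j, hj using Nat.le_induction with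
      | base => exact fun _ => rfl
      | succ j hj ih =>
        intro hj'
        rw [← ih (by omega)]
        refine S.hold_succ_ne j (by omega) _ hτ fun e => k ?_
        rw [← ih (by omega), e, S.hold_tok j (by omega)]
        exact S.a_mem_act (by omega) (by omega)
    rw [← key i hri le_rfl, S.hold_tok i (by omega)] at k
    exact k (S.a_mem_act hi₀ hi₁)
  · have key : ∀ j, i + 1 ≤ j → j ≤ i₁ → S.hold j (S.tok i) ∈ S.act i₀ i₁ := by
      intro j hj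
      induction j, hj using Nat.le_induction with
      | base =>
        intro _
        rw [S.hold_succ_tok i (by omega)]
        exact S.b_mem_act hi₀ hi₁
      | succ j hj ih =>
        intro hj'
        by_cases e : S.tok i = S.tok j
        · rw [e, S.hold_succ_tok j (by omega)]
          exact S.b_mem_act (by omega) (by omega)
        · rw [S.hold_succ_ne j (by omega) _ hτ e]
          exact ih (by omega)
    exact k (key r hri hr₁)

/-- the number of tokens having an event in a window is at most the number of active points -/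
theorem card_tok_le {i₀ i₁ : ℕ} (h : i₁ ≤ S.m) :
    ((Ico i₀ i₁).image S.tok).card ≤ (S.act i₀ i₁).card := by
  refine card_le_card_of_injOn (S.hold i₁) (fun τ hτ => ?_) fun τ hτ τ' hτ' e => ?_
  · obtain ⟨i, hi, rfl⟩ := mem_image.1 (mem_coe.1 hτ)
    rw [mem_Ico] at hi
    exact S.hold_mem_act h hi.1 hi.2 (by omega) le_rfl
  · obtain ⟨i, hi, rfl⟩ := mem_image.1 (mem_coe.1 hτ)
    obtain ⟨j, hj, rfl⟩ := mem_image.1 (mem_coe.1 hτ')
    rw [mem_Ico] at hi hj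
    exact S.hold_inj i₁ h _ (S.tok_mem i (by omega)) _ (S.tok_mem j (by omega)) e

theorem sw_trans {i₀ i₁ : ℕ} {p q r : Pt} (h : S.sw i₀ i₁ p q) (h' : S.sw i₀ i₁ q r) :
    S.sw i₀ i₁ p r :=
  ⟨h.1.trans h'.1, h.2.1.trans h'.2.1, h'.2.2.trans h.2.2⟩

theorem sw_mono {i₀ i₁ j₀ j₁ : ℕ} {p q : Pt} (h : S.sw i₀ i₁ p q) (h₀ : j₀ ≤ i₀) (h₁ : i₀ < i₁)
    (h₂ : i₁ ≤ j₁) (h₃ : j₁ ≤ S.m) : S.sw j₀ j₁ p q :=
  ⟨h.1, ht_le_of_le h.1.le h.2.1 (S.t_le h₀ (by omega)),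
    ht_ge_of_ge h.1.le h.2.2 (S.t_le (by omega) (by omega))⟩

theorem sw_event {i : ℕ} (hi : i < S.m) : S.sw i (i + 1) (S.a i) (S.b i) :=
  ⟨S.ab_lt i hi, (S.ab_ht i hi).le, (S.ab_ht i hi).ge⟩

/-- in a window with at least two events the swap relation is the dominance order -/
theorem sw_of_le (hP : GP P) {i₀ i₁ : ℕ} {p q : Pt} (h₀ : i₀ + 2 ≤ i₁) (h₁ : i₁ ≤ S.m)
    (hp : p ∈ P) (hq : q ∈ P) (hne : p ≠ q) (hα : ht p (S.t i₀) ≤ ht q (S.t i₀))
    (hβ : ht q (S.t (i₁ - 1)) ≤ ht p (S.t (i₁ - 1))) : S.sw i₀ i₁ p q := by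
  refine ⟨?_, hα, hβ⟩
  rcases lt_trichotomy p.1 q.1 with k | k | k
  · exact k
  · exact absurd (hP.xinj p hp q hq k) hne
  · exact absurd hβ (not_le.2 (ht_gt_of_gt k hα (S.t_lt _ _ (by omega) (by omega))))

/-- a pair swaps in at most one of two disjoint windows -/
theorem sw_disjoint {i₀ i₁ j₀ j₁ : ℕ} {p q : Pt} (h₀ : i₀ < i₁) (h₁ : i₁ ≤ j₀) (h₂ : j₀ < S.m)
    (h : S.sw i₀ i₁ p q) (h' : S.sw j₀ j₁ p q) : False :=
  absurd h'.2.1 (not_le.2 (ht_gt_of_gt h.1 h.2.2 (S.t_lt _ _ (by omega) h₂)))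

/-- successive holders of a token form a convex chain -/
theorem chain {r r' : ℕ} {τ : Pt} (hτ : τ ∈ S.T) (hr : r ≤ r') (h : r' ≤ S.m) :
    S.hold r τ = S.hold r' τ ∨ (r < r' ∧ S.sw r r' (S.hold r τ) (S.hold r' τ)) := by
  induction r', hr using Nat.le_induction with
  | base => exact Or.inl rfl
  | succ i hi ih =>
    by_cases e : τ = S.tok i
    · have h1 : S.sw r (i + 1) (S.hold i τ) (S.hold (i + 1) τ) := by
        rw [e, S.hold_tok i h, S.hold_succ_tok i h]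
        exact S.sw_mono (S.sw_event h) hi (by omega) le_rfl h
      refine Or.inr ⟨by omega, ?_⟩
      rcases ih (by omega) with k | k
      · rwa [k]
      · exact S.sw_trans (S.sw_mono k.2 le_rfl k.1 (by omega) h) h1
    · rw [S.hold_succ_ne i h τ hτ e]
      exact (ih (by omega)).imp_right fun k =>
        ⟨by omega, S.sw_mono k.2 le_rfl k.1 (by omega) h⟩

theorem chain_lt {r r' i : ℕ} (h₀ : r ≤ i) (h₁ : i < r') (h : r' ≤ S.m) :
    S.sw r r' (S.hold r (S.tok i)) (S.hold r' (S.tok i)) := by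
  have hi : i < S.m := by omega
  have hτ := S.tok_mem i hi
  have h1 : S.sw r r' (S.hold i (S.tok i)) (S.hold (i + 1) (S.tok i)) := by
    rw [S.hold_tok i hi, S.hold_succ_tok i hi]
    exact S.sw_mono (S.sw_event hi) h₀ (by omega) h₁ h
  have h2 : S.sw r r' (S.hold r (S.tok i)) (S.hold (i + 1) (S.tok i)) := by
    rcases S.chain hτ h₀ hi.le with k | k
    · rwa [k]
    · exact S.sw_trans (S.sw_mono k.2 le_rfl k.1 h₁.le h) h1
  rcases S.chain hτ (show i + 1 ≤ r' from h₁) h with k | k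
  · rwa [← k]
  · exact S.sw_trans h2 (S.sw_mono k.2 (by omega) k.1 le_rfl h)

/-- the current holder is the lowest of all holders of its token: at a time `s` between the
times of events `r - 1` and `r` -/
theorem hold_min {r r' : ℕ} {τ : Pt} {s : ℝ} (hτ : τ ∈ S.T) (hr : r ≤ S.m) (hr' : r' ≤ S.m)
    (h₀ : ∀ i, i < r → S.t i ≤ s) (h₁ : ∀ i, r ≤ i → i < S.m → s ≤ S.t i) :
    ht (S.hold r τ) s ≤ ht (S.hold r' τ) s := by
  rcases le_total r r' with k | k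
  · rcases S.chain hτ k hr' with e | ⟨e, h⟩
    · rw [e]
    · exact ht_le_of_le h.1.le h.2.1 (h₁ r le_rfl (by omega))
  · rcases S.chain hτ k hr with e | ⟨e, h⟩
    · rw [e]
    · exact ht_ge_of_ge h.1.le h.2.2 (h₀ _ (by omega))

theorem below_low {i : ℕ} (hi : i < S.m) {p : Pt} (hp : p ∈ S.low i) :
    ht p (S.t i) ≤ ht (S.a i) (S.t i) :=
  let ⟨τ, h1, h2⟩ := mem_image.1 hp
  h2 ▸ S.below i hi τ h1

theorem above_low {i : ℕ} (hi : i < S.m) {p : Pt} (hP : p ∈ P) (hp : p ∉ S.low i) :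
    ht (S.a i) (S.t i) ≤ ht p (S.t i) :=
  S.above i hi p hP fun τ h e => hp (mem_image.2 ⟨τ, h, e⟩)

theorem low_down {i₀ i₁ : ℕ} {u v : Pt} (h₀ : i₀ < i₁) (h : i₁ ≤ S.m) (hu : u ∈ P)
    (hlt : ∀ i, i₀ ≤ i → i < i₁ → ht u (S.t i) < ht v (S.t i)) {i : ℕ} (h1 : i₀ ≤ i)
    (h2 : i ≤ i₁) (hv : v ∈ S.low i) : u ∈ S.low i := by
  by_contra k
  rcases h2.lt_or_eq with h2 | rfl
  · exact absurd ((S.below_low (by omega) hv).trans (S.above_low (by omega) hu k))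
      (not_le.2 (hlt i h1 h2))
  · obtain ⟨j, rfl⟩ : ∃ j, i = j + 1 := ⟨i - 1, by omega⟩
    have hj : j < S.m := h
    rw [S.low_succ hj, mem_insert, mem_erase] at hv k
    have k1 : ht v (S.t j) ≤ ht (S.a j) (S.t j) := by
      rcases hv with rfl | hv
      · exact (S.ab_ht j hj).ge
      · exact S.below_low hj hv.2
    have k2 : ht (S.a j) (S.t j) ≤ ht u (S.t j) := by
      by_cases e : u = S.a j
      · rw [e]
      · exact S.above_low hj hu fun k' => k (Or.inr ⟨e, k'⟩)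
    exact absurd (k1.trans k2) (not_le.2 (hlt j (by omega) (by omega)))

theorem act_change {i₀ i₁ : ℕ} {p : Pt} (h : i₁ ≤ S.m) (hp : p ∈ S.act i₀ i₁) :
    (∃ i, i₀ ≤ i ∧ i ≤ i₁ ∧ p ∈ S.low i) ∧ ∃ i, i₀ ≤ i ∧ i ≤ i₁ ∧ p ∉ S.low i := by
  obtain ⟨i, h1, h2, rfl | rfl⟩ := S.mem_act.1 hp
  · refine ⟨⟨i, h1, h2.le, S.a_mem_low (by omega)⟩, i + 1, by omega, h2, ?_⟩
    rw [S.low_succ (by omega)]
    simp [S.a_ne_b (show i < S.m by omega)]
  · refine ⟨⟨i + 1, by omega, h2, ?_⟩, i, h1, h2.le, S.b_not_mem_low (by omega)⟩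
    rw [S.low_succ (by omega)]
    simp

theorem act_lt {i₀ i₁ : ℕ} {p : Pt} (hp : p ∈ S.act i₀ i₁) : i₀ < i₁ :=
  let ⟨_, h1, h2, _⟩ := S.mem_act.1 hp
  h1.trans_lt h2

theorem contig {i₀ i₁ : ℕ} {u v w : Pt} (h : i₁ ≤ S.m) (hv : v ∈ P)
    (hu : u ∈ S.act i₀ i₁) (hw : w ∈ S.act i₀ i₁)
    (huv : ∀ i, i₀ ≤ i → i < i₁ → ht u (S.t i) < ht v (S.t i))
    (hvw : ∀ i, i₀ ≤ i → i < i₁ → ht v (S.t i) < ht w (S.t i)) : v ∈ S.act i₀ i₁ := by
  by_contra k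
  obtain ⟨i, h1, h2, h3⟩ := (S.act_change h hu).2
  obtain ⟨j, k1, k2, k3⟩ := (S.act_change h hw).1
  exact h3 (S.low_down (S.act_lt hu) h (S.act_subset h hu) huv h1 h2
    ((S.low_const h k k1 k2 h1 h2).1 (S.low_down (S.act_lt hu) h hv hvw k1 k2 k3)))

/-- contiguity, for slopes later than the window `[i₀, i₁)` -/
theorem contig_later {i₀ i₁ j₀ j₁ : ℕ} {u v w : Pt} (h₁ : i₁ ≤ j₀) (h₂ : j₀ < S.m) (hv : v ∈ P)
    (hu : u ∈ S.act i₀ i₁) (hw : w ∈ S.act i₀ i₁) (huv : S.sw j₀ j₁ u v) (hvw : S.sw j₀ j₁ v w) :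
    v ∈ S.act i₀ i₁ :=
  S.contig (by omega) hv hu hw
    (fun i _ k => ht_lt_of_lt huv.1 huv.2.1 (S.t_lt i j₀ (by omega) h₂))
    fun i _ k => ht_lt_of_lt hvw.1 hvw.2.1 (S.t_lt i j₀ (by omega) h₂)

/-- contiguity, for slopes earlier than the window `[i₀, i₁)` -/
theorem contig_earlier {i₀ i₁ j₀ j₁ : ℕ} {u v w : Pt} (h₀ : j₀ < j₁) (h₁ : j₁ ≤ i₀) (h₂ : i₁ ≤ S.m)
    (hv : v ∈ P) (hu : u ∈ S.act i₀ i₁) (hw : w ∈ S.act i₀ i₁) (huv : S.sw j₀ j₁ u v)
    (hvw : S.sw j₀ j₁ v w) : v ∈ S.act i₀ i₁ :=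
  S.contig h₂ hv hw hu
    (fun i _ k => ht_gt_of_gt hvw.1 hvw.2.2 (S.t_lt _ i (by omega) (by omega)))
    fun i _ k => ht_gt_of_gt huv.1 huv.2.2 (S.t_lt _ i (by omega) (by omega))

/-- contiguity along a token, outside the window `[i₀, i₁)` -/
theorem contig_hold {i₀ i₁ r₁ r₂ r₃ : ℕ} {τ : Pt} (hτ : τ ∈ S.T) (h₂ : i₁ ≤ S.m) (h₁₂ : r₁ ≤ r₂)
    (h₂₃ : r₂ ≤ r₃) (h₃ : r₃ ≤ S.m) (hout : i₁ ≤ r₁ ∨ r₃ ≤ i₀)
    (hu : S.hold r₁ τ ∈ S.act i₀ i₁) (hw : S.hold r₃ τ ∈ S.act i₀ i₁) :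
    S.hold r₂ τ ∈ S.act i₀ i₁ := by
  rcases S.chain hτ h₁₂ (by omega) with e | ⟨e, k⟩
  · rwa [← e]
  rcases S.chain hτ h₂₃ h₃ with e' | ⟨e', k'⟩
  · rwa [e']
  have hv := S.hold_mem r₂ (by omega) τ hτ
  have k1 := S.sw_mono k le_rfl e h₂₃ h₃
  have k2 := S.sw_mono k' h₁₂ e' le_rfl h₃
  rcases hout with h | h
  · exact S.contig_later h (by omega) hv hu hw k1 k2
  · exact S.contig_earlier (by omega) h h₂ hv hu hw k1 k2

theorem filter_lt_event (hP : GP P) {i : ℕ} (hi : i < S.m) :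
    (P.filter fun q => ht q (S.t i) < ht (S.a i) (S.t i)) = (S.low i).erase (S.a i) := by
  ext q
  rw [mem_filter, mem_erase]
  constructor
  · rintro ⟨h1, h2⟩
    exact ⟨fun e => by rw [e] at h2; exact lt_irrefl _ h2,
      by_contra fun k => absurd (S.above_low hi h1 k) (not_le.2 h2)⟩
  · rintro ⟨h1, h2⟩
    have hq := S.low_subset hi.le h2
    refine ⟨hq, (S.below_low hi h2).lt_of_ne fun e => ?_⟩
    rcases hP.three _ (S.a_mem hi) _ (S.b_mem hi) q hq _ (S.ab_ht i hi) e.symm with k | k | k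
    · exact S.a_ne_b hi k
    · exact h1 k.symm
    · exact S.b_not_mem_low hi (k ▸ h2)

/-- at the time of an event exactly `|T| - 1` points are strictly below its line -/
theorem depth_event (hP : GP P) {i : ℕ} (hi : i < S.m) :
    (P.filter fun q => ht q (S.t i) < ht (S.a i) (S.t i)).card + 1 = S.T.card := by
  rw [S.filter_lt_event hP hi, card_erase_add_one (S.a_mem_low hi), S.card_low hi.le]

/-- restriction of a token system to a window and its active points -/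
theorem exists_restrict {i₀ i₁ : ℕ} (h₀ : i₀ ≤ i₁) (h : i₁ ≤ S.m) :
    ∃ S' : Tok (S.act i₀ i₁), S'.m = i₁ - i₀ := by
  have hT : ∀ τ ∈ (Ico i₀ i₁).image S.tok, τ ∈ S.T := fun τ hτ => by
    obtain ⟨i, hi, rfl⟩ := mem_image.1 hτ
    exact S.tok_mem i (by have := (mem_Ico.1 hi).2; omega)
  have hA : ∀ i, i ≤ i₁ - i₀ → ∀ τ ∈ (Ico i₀ i₁).image S.tok, S.hold (i₀ + i) τ ∈ S.act i₀ i₁ :=
    fun i hi τ hτ => by
      obtain ⟨j, hj, rfl⟩ := mem_image.1 hτ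
      rw [mem_Ico] at hj
      exact S.hold_mem_act h hj.1 hj.2 (by omega) (by omega)
  refine ⟨{ m := i₁ - i₀
            a := fun i => S.a (i₀ + i)
            b := fun i => S.b (i₀ + i)
            t := fun i => S.t (i₀ + i)
            T := (Ico i₀ i₁).image S.tok
            hold := fun i => S.hold (i₀ + i)
            tok := fun i => S.tok (i₀ + i)
            t_lt := fun i j h1 h2 => S.t_lt _ _ (by omega) (by omega)
            ab_lt := fun i hi => S.ab_lt _ (by omega)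
            ab_ht := fun i hi => S.ab_ht _ (by omega)
            tok_mem := fun i hi => mem_image_of_mem _ (mem_Ico.2 ⟨by omega, by omega⟩)
            hold_mem := hA
            hold_inj := fun i hi τ h1 τ' h2 => S.hold_inj _ (by omega) τ (hT τ h1) τ' (hT τ' h2)
            hold_tok := fun i hi => S.hold_tok _ (by omega)
            hold_succ_tok := fun i hi => S.hold_succ_tok (i₀ + i) (by omega)
            hold_succ_ne := fun i hi τ h1 => S.hold_succ_ne (i₀ + i) (by omega) τ (hT τ h1)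
            below := fun i hi τ h1 => S.below _ (by omega) τ (hT τ h1)
            above := fun i hi q hq h1 => S.above _ (by omega) q (S.act_subset h hq)
              fun τ h2 e => ?_ }, rfl⟩
  by_cases k : τ ∈ (Ico i₀ i₁).image S.tok
  · exact h1 τ k e
  · have hc : ∀ r, i₀ ≤ r → r ≤ i₁ → S.hold r τ = q := fun r k1 k2 => by
      have k3 : ∀ r, i₀ ≤ r → r ≤ i₁ → S.hold i₀ τ = S.hold r τ := fun r k1 k2 =>
        S.hold_const h2 k1 (by omega) fun j l1 l2 l3 =>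
          k (mem_image.2 ⟨j, mem_Ico.2 ⟨l1, by omega⟩, l3⟩)
      rw [← k3 r k1 k2, k3 (i₀ + i) (by omega) (by omega), e]
    obtain ⟨r, k1, k2, k3⟩ := (S.act_change h hq).2
    exact k3 (mem_image.2 ⟨τ, h2, hc r k1 k2⟩)

end Tok

end Vale.Agent.P065
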