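import Vale.Agent.P065.CfgDefs

/-! Counting tools: fibers, packing of intervals, hulls, blocks and refinement of classes. -/

namespace Vale.Agent.P065

open Classical Finset

section General

variable {X A B : Type}

theorem aux_fib (s : Finset X) (t : Finset B) (f : X → B) (hf : ∀ x ∈ s, f x ∈ t) {α b : ℝ}
    (ht : (t.card : ℝ) ≤ α) (hb0 : 0 ≤ b)
    (hb : ∀ x₀ ∈ s, ∀ T ⊆ s, (∀ x ∈ T, f x = f x₀) → (T.card : ℝ) ≤ b) :
    (s.card : ℝ) ≤ α * b := by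
  rw [card_eq_sum_card_fiberwise hf, Nat.cast_sum]
  refine (sum_le_card_nsmul _ _ b fun y _ => ?_).trans
    (by rw [nsmul_eq_mul]; exact mul_le_mul_of_nonneg_right ht hb0)
  rcases (s.filter fun x => f x = y).eq_empty_or_nonempty with h | ⟨x₀, h⟩
  · simpa [h] using hb0
  · rw [mem_filter] at h
    exact hb x₀ h.1 _ (filter_subset _ _) fun x hx => (mem_filter.mp hx).2.trans h.2.symm

theorem aux_fib2 (s : Finset X) (t : Finset A) (f : X → A) (hf : ∀ x ∈ s, f x ∈ t) (g : X → B)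
    {α n y : ℝ} (ht : (t.card : ℝ) ≤ α) (hn : 0 ≤ n) (hy : 0 ≤ y)
    (h1 : ∀ x₀ ∈ s, ∃ t' : Finset B, (t'.card : ℝ) ≤ n ∧ ∀ x ∈ s, f x = f x₀ → g x ∈ t')
    (h2 : ∀ x₀ ∈ s, ∀ T ⊆ s, (∀ x ∈ T, f x = f x₀ ∧ g x = g x₀) → (T.card : ℝ) ≤ y) :
    (s.card : ℝ) ≤ α * (n * y) := by
  refine aux_fib s t f hf ht (mul_nonneg hn hy) fun x₀ hx₀ T hT h => ?_
  obtain ⟨t', h3, h4⟩ := h1 x₀ hx₀
  exact aux_fib T t' g (fun x hx => h4 x (hT hx) (h x hx)) h3 hy fun x₁ hx₁ T' hT' h' =>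
    h2 x₁ (hT hx₁) T' (hT'.trans hT) fun x hx =>
      ⟨(h x (hT' hx)).trans (h x₁ hx₁).symm, h' x hx⟩

theorem aux_pigeon (s : Finset X) (t : Finset B) (f : X → B) (hf : ∀ x ∈ s, f x ∈ t) {α b : ℝ}
    (ht : (t.card : ℝ) ≤ α) (hα : 0 < α) (hb : 0 < b) (hs : α * b ≤ s.card) :
    ∃ y, ∃ T ⊆ s, (∀ x ∈ T, f x = y) ∧ b ≤ T.card := by
  have h0 : s.Nonempty := card_pos.mp (by exact_mod_cast (mul_pos hα hb).trans_le hs)
  obtain ⟨x₀, -, h⟩ := exists_max_image s (fun x => (s.filter fun x' => f x' = f x).card) h0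
  refine ⟨f x₀, _, filter_subset _ _, fun x hx => (mem_filter.mp hx).2, ?_⟩
  refine le_of_mul_le_mul_left (hs.trans (aux_fib s t f hf ht (Nat.cast_nonneg _)
    fun x₁ hx₁ T hT h' => ?_)) hα
  exact_mod_cast (card_le_card fun x hx => mem_filter.mpr ⟨hT hx, h' x hx⟩).trans (h x₁ hx₁)

theorem aux_top (S : Finset X) (f : X → ℝ) {H : ℝ} (hH : 0 ≤ H)
    (h : ∀ x ∈ S, (∀ x' ∈ S, f x' ≤ f x) → (S.card : ℝ) ≤ H) : (S.card : ℝ) ≤ H := by
  rcases S.eq_empty_or_nonempty with rfl | h0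
  · simpa using hH
  · obtain ⟨x, h1, h2⟩ := exists_max_image S f h0
    exact h x h1 h2

theorem aux_remove (S : Finset X) (P : X → Prop) {m b : ℝ} (hS : m + b ≤ S.card)
    (hb : ∀ T ⊆ S, (∀ x ∈ T, P x) → (T.card : ℝ) ≤ b) :
    ∃ S' ⊆ S, m ≤ S'.card ∧ ∀ x ∈ S', ¬ P x := by
  refine ⟨_, filter_subset (fun x => ¬ P x) S, ?_, fun x hx => (mem_filter.mp hx).2⟩
  have h1 := hb _ (filter_subset P S) fun x hx => (mem_filter.mp hx).2
  have h2 : ((S.filter P).card : ℝ) + (S.filter fun x => ¬ P x).card = S.card := by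
    exact_mod_cast card_filter_add_card_filter_not P
  linarith

theorem aux_refine (S S₁ S₂ : Finset X) (cl : X → A) (sc : X → B) (m : X → ℝ) {y M : ℝ}
    (hy : 0 ≤ y) (hM : 0 < M)
    (hM' : ∀ x₀ ∈ S, ∃ t : Finset B, (t.card : ℝ) ≤ M ∧ ∀ x ∈ S, cl x = cl x₀ → sc x ∈ t)
    (hm : ∀ x₀ ∈ S, ∀ T ⊆ S, (∀ x ∈ T, cl x = cl x₀ ∧ sc x = sc x₀) → (T.card : ℝ) ≤ m x₀)
    (h₁ : S₁ ⊆ S) (h₁' : ∀ x₀ ∈ S₁, ∃ T ⊆ S, (∀ x ∈ T, cl x = cl x₀) ∧ y ≤ T.card)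
    (h₂ : ∀ x ∈ S, y / (2 * M) ≤ m x → x ∈ S₂) : S₁.card ≤ 2 * S₂.card := by
  have key : ∀ c ∈ S₁.image cl, (S₁.filter fun x => cl x = c).card ≤
      2 * (S₂.filter fun x => cl x = c).card := by
    intro c hc
    obtain ⟨x₀, hx₀, rfl⟩ := mem_image.mp hc
    obtain ⟨T, k1, k2, k3⟩ := h₁' x₀ hx₀
    obtain ⟨t, k4, k5⟩ := hM' x₀ (h₁ hx₀)
    set F := S.filter fun x => cl x = cl x₀ with hF
    have k6 : (T.card : ℝ) ≤ F.card := by
      exact_mod_cast card_le_card fun x hx => mem_filter.mpr ⟨k1 hx, k2 x hx⟩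
    have k7 : ((F \ S₂).card : ℝ) ≤ M * (y / (2 * M)) := by
      refine aux_fib _ t sc (fun x hx => ?_) k4 (by positivity) fun x₁ hx₁ T' hT' h' => ?_
      · have := mem_filter.mp (mem_sdiff.mp hx).1
        exact k5 x this.1 this.2
      · obtain ⟨k8, k9⟩ := mem_sdiff.mp hx₁
        rw [mem_filter] at k8
        refine (hm x₁ k8.1 T' (fun x hx => (mem_filter.mp (mem_sdiff.mp (hT' hx)).1).1)
          fun x hx => ⟨(mem_filter.mp (mem_sdiff.mp (hT' hx)).1).2.trans k8.2.symm,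
            h' x hx⟩).trans (le_of_not_ge fun h => k9 (h₂ x₁ k8.1 h))
    have k8 : M * (y / (2 * M)) = y / 2 := by field_simp
    have k9 : (F.card : ℝ) ≤ (F \ S₂).card + (S₂.filter fun x => cl x = cl x₀).card := by
      have := card_sdiff_add_card_inter F S₂
      have k10 : (F ∩ S₂).card ≤ (S₂.filter fun x => cl x = cl x₀).card :=
        card_le_card fun x hx =>
          mem_filter.mpr ⟨(mem_inter.mp hx).2, (mem_filter.mp (mem_inter.mp hx).1).2⟩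
      exact_mod_cast (by omega : F.card ≤ (F \ S₂).card + (S₂.filter fun x => cl x = cl x₀).card)
    have k10 : ((S₁.filter fun x => cl x = cl x₀).card : ℝ) ≤ F.card := by
      exact_mod_cast card_le_card (filter_subset_filter _ h₁)
    exact_mod_cast (by linarith : ((S₁.filter fun x => cl x = cl x₀).card : ℝ) ≤
      2 * (S₂.filter fun x => cl x = cl x₀).card)
  rw [card_eq_sum_card_image cl S₁]
  refine (sum_le_sum key).trans ?_
  rw [← mul_sum]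
  exact Nat.mul_le_mul_left _ ((sum_card_fiberwise_eq_card_filter S₂ _ cl).le.trans
    (card_filter_le _ _))

end General

theorem aux_pow {K c : ℝ} (hK : 2 ≤ K) {i j : ℕ} (d : ℕ) (h : i + d ≤ j) (hc : c ≤ 2 ^ d) :
    c * K ^ i ≤ K ^ j :=
  calc c * K ^ i ≤ K ^ d * K ^ i := by
        gcongr
        exact hc.trans (pow_le_pow_left₀ (by norm_num) hK d)
    _ = K ^ (i + d) := by ring
    _ ≤ K ^ j := pow_le_pow_right₀ (by linarith) h

theorem aux_pack_in (T : Finset ℕ) (L R : ℕ → ℝ) {ℓ x D : ℝ} (hℓ : 0 < ℓ) (hD : 0 ≤ D)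
    (hlen : ∀ k ∈ T, ℓ ≤ R k - L k) (hord : ∀ k ∈ T, ∀ k' ∈ T, k < k' → R k < L k')
    (hin : ∀ k ∈ T, x ≤ L k ∧ R k ≤ x + D) : T.card * ℓ ≤ D := by
  have h0 : ∀ k ∈ T, 1 ≤ (R k - x) / ℓ := fun k hk =>
    (one_le_div hℓ).mpr (by linarith [hlen k hk, (hin k hk).1])
  have h1 : ∀ k ∈ T, ∀ k' ∈ T, k < k' → ⌊(R k - x) / ℓ⌋₊ < ⌊(R k' - x) / ℓ⌋₊ := by
    intro k hk k' hk' h
    rw [← Nat.add_one_le_iff, ← Nat.floor_add_one (by linarith [h0 k hk])]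
    refine Nat.floor_le_floor ?_
    rw [div_add_one hℓ.ne']
    exact div_le_div_of_nonneg_right (by linarith [hlen k' hk', hord k hk k' hk' h]) hℓ.le
  have h2 : T.card ≤ (Icc 1 ⌊D / ℓ⌋₊).card := by
    refine card_le_card_of_injOn (fun k => ⌊(R k - x) / ℓ⌋₊) (fun k hk => ?_) fun k hk k' hk' h => ?_
    · exact mem_coe.mpr (mem_Icc.mpr ⟨Nat.one_le_floor_iff _ |>.mpr (h0 k hk), Nat.floor_le_floor
        (div_le_div_of_nonneg_right (by linarith [(hin k hk).2]) hℓ.le)⟩)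
    · by_contra hne
      rcases lt_or_gt_of_ne hne with h3 | h3
      · exact (h1 k hk k' hk' h3).ne h
      · exact (h1 k' hk' k hk h3).ne h.symm
  rw [Nat.card_Icc, Nat.add_sub_cancel] at h2
  rw [← le_div_iff₀ hℓ]
  exact (Nat.cast_le.mpr h2).trans (Nat.floor_le (by positivity))

theorem aux_pack_meet (T : Finset ℕ) (L R : ℕ → ℝ) {ℓ x D : ℝ} (hℓ : 0 < ℓ) (hD : 0 ≤ D)
    (hlen : ∀ k ∈ T, ℓ ≤ R k - L k) (hord : ∀ k ∈ T, ∀ k' ∈ T, k < k' → R k < L k')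
    (hin : ∀ k ∈ T, x ≤ R k ∧ L k ≤ x + D) : T.card * ℓ ≤ D + 2 * ℓ := by
  refine aux_pack_in T (fun k => max (L k) (x - ℓ)) (fun k => min (R k) (x + D + ℓ)) (x := x - ℓ)
    hℓ (by linarith) (fun k hk => ?_) (fun k hk k' hk' h => ?_) fun k _ =>
      ⟨le_max_right _ _, (min_le_right _ _).trans (by linarith)⟩
  · have h1 := hlen k hk
    have h2 := hin k hk
    simp only [max_def, min_def]
    split_ifs <;> linarith
  · exact (min_le_left _ _).trans_lt ((hord k hk k' hk' h).trans_le (le_max_left _ _))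

/-- points close to a base point lie in few long intervals -/
theorem aux_near {X : Type} (S : Finset X) (k : X → ℕ) (u : X → ℝ) (L R : ℕ → ℝ) {ℓ x n : ℝ}
    (hℓ : 0 < ℓ) (hn : 0 ≤ n) (hu : ∀ q ∈ S, L (k q) ≤ u q ∧ u q ≤ R (k q))
    (hlen : ∀ q ∈ S, ℓ ≤ R (k q) - L (k q))
    (hord : ∀ q ∈ S, ∀ q' ∈ S, k q < k q' → R (k q) < L (k q'))
    (hx : ∀ q ∈ S, |u q - x| ≤ n * ℓ) : ((S.image k).card : ℝ) ≤ 2 * n + 2 := by
  refine le_of_mul_le_mul_right ((aux_pack_meet _ L R (x := x - n * ℓ) (D := 2 * n * ℓ) hℓ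
    (by positivity) ?_ ?_ ?_).trans (le_of_eq (by ring))) hℓ
  · simpa using hlen
  · simpa using hord
  · simp only [mem_image, forall_exists_index, and_imp, forall_apply_eq_imp_iff₂]
    intro q hq
    have h1 := abs_le.mp (hx q hq)
    have h2 := hu q hq
    constructor <;> linarith

theorem aux_hull (U : Finset ℕ) (lo hi : ℕ → ℝ) (hlt : ∀ k ∈ U, lo k < hi k)
    (hord : ∀ k ∈ U, ∀ k' ∈ U, k < k' → hi k < lo k') (g : ℕ → ℕ) (hg : Monotone g) :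
    ∃ L R : ℕ → ℝ, (∀ k ∈ U, L (g k) ≤ lo k ∧ hi k ≤ R (g k)) ∧
      ∀ k ∈ U, ∀ k' ∈ U, g k < g k' → R (g k) < L (g k') := by
  have h1 : ∀ k ∈ U, ∀ k' ∈ U, k ≤ k' → lo k ≤ lo k' ∧ hi k ≤ hi k' := fun k hk k' hk' h => by
    rcases h.eq_or_lt with rfl | h
    · exact ⟨le_rfl, le_rfl⟩
    · have := hord k hk k' hk' h
      constructor <;> linarith [hlt k hk, hlt k' hk']
  have h2 : ∀ b, BddAbove {k | k ∈ U ∧ g k = b} := fun b =>
    (U.finite_toSet.subset fun k hk => hk.1).bddAbove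
  have h3 : ∀ k ∈ U, sInf {k' | k' ∈ U ∧ g k' = g k} ∈ {k' | k' ∈ U ∧ g k' = g k} :=
    fun k hk => Nat.sInf_mem ⟨k, hk, rfl⟩
  have h4 : ∀ k ∈ U, sSup {k' | k' ∈ U ∧ g k' = g k} ∈ {k' | k' ∈ U ∧ g k' = g k} :=
    fun k hk => Nat.sSup_mem ⟨k, hk, rfl⟩ (h2 _)
  refine ⟨fun b => lo (sInf {k | k ∈ U ∧ g k = b}), fun b => hi (sSup {k | k ∈ U ∧ g k = b}),
    fun k hk => ⟨(h1 _ (h3 k hk).1 k hk (Nat.sInf_le ⟨hk, rfl⟩)).1,
      (h1 k hk _ (h4 k hk).1 (le_csSup (h2 _) ⟨hk, rfl⟩)).2⟩, fun k hk k' hk' h => ?_⟩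
  refine hord _ (h4 k hk).1 _ (h3 k' hk').1 (hg.reflect_lt ?_)
  rw [(h4 k hk).2, (h3 k' hk').2]
  exact h

theorem aux_blocks (U : Finset ℕ) (lo hi : ℕ → ℝ) (hlt : ∀ k ∈ U, lo k < hi k)
    (hord : ∀ k ∈ U, ∀ k' ∈ U, k < k' → hi k < lo k') {A X : ℝ} (hX : 1 ≤ X) (hA : X ≤ A)
    (hU : (U.card : ℝ) ≤ A) : ∃ (g : ℕ → ℕ) (t : Finset ℕ) (L R : ℕ → ℝ), (∀ k, g k ∈ t) ∧
      (t.card : ℝ) ≤ 2 * A / X ∧
      (∀ b, ∀ T ⊆ U, (∀ k ∈ T, g k = b) → (T.card : ℝ) ≤ 2 * X) ∧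
      (∀ k ∈ U, L (g k) ≤ lo k ∧ hi k ≤ R (g k)) ∧
      ∀ k ∈ U, ∀ k' ∈ U, g k < g k' → R (g k) < L (g k') := by
  set n := ⌈X⌉₊ with hn
  have hn0 : 0 < n := Nat.ceil_pos.mpr (by linarith)
  have hn1 : X ≤ n := Nat.le_ceil X
  have hn2 : (n : ℝ) ≤ 2 * X := (Nat.ceil_lt_add_one (by linarith)).le.trans (by linarith)
  set rk : ℕ → ℕ := fun k => (U.filter (· < k)).card with hrk
  have h1 : Monotone rk := fun k k' h => card_le_card fun x hx =>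
    mem_filter.mpr ⟨(mem_filter.mp hx).1, (mem_filter.mp hx).2.trans_le h⟩
  have h2 : ∀ k ∈ U, ∀ k', k < k' → rk k < rk k' := fun k hk k' h => card_lt_card
    ⟨fun x hx => mem_filter.mpr ⟨(mem_filter.mp hx).1, (mem_filter.mp hx).2.trans h⟩,
      fun h' => by simpa using h' (mem_filter.mpr ⟨hk, h⟩)⟩
  obtain ⟨L, R, h3, h4⟩ := aux_hull U lo hi hlt hord (fun k => rk k / n)
    fun k k' h => Nat.div_le_div_right (h1 h)
  refine ⟨fun k => rk k / n, range (U.card / n + 1), L, R, fun k => mem_range.mpr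
    (Nat.lt_succ_of_le (Nat.div_le_div_right (card_filter_le _ _))), ?_, fun b T hT h => ?_, h3, h4⟩
  · have h5 : ((U.card / n : ℕ) : ℝ) ≤ A / X :=
      Nat.cast_div_le.trans (div_le_div₀ (by linarith) hU (by linarith) hn1)
    have h6 : 1 ≤ A / X := (one_le_div (by linarith)).mpr hA
    rw [card_range, Nat.cast_add, Nat.cast_one, mul_div_assoc]
    linarith
  · refine le_trans ?_ hn2
    have h5 : T.card ≤ (range n).card := by
      refine card_le_card_of_injOn (fun k => rk k % n) (fun k _ => ?_) fun k hk k' hk' h' => ?_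
      · exact mem_coe.mpr (mem_range.mpr (Nat.mod_lt _ hn0))
      · have h6 : rk k = rk k' := Nat.ext_div_mod ((h k hk).trans (h k' hk').symm) h'
        by_contra hne
        rcases lt_or_gt_of_ne hne with h3 | h3
        · exact (h2 k (hT hk) k' h3).ne h6
        · exact (h2 k' (hT hk') k h3).ne h6.symm
    rw [card_range] at h5
    exact_mod_cast h5

end Vale.Agent.P065
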