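import Vale.Agent.P065.Unif1Tup

/-! Confinement counts, blocks of windows and the choice of a common scale. -/

namespace Vale.Agent.P065

open Classical Finset

variable {ι : Type}

theorem unif1_double {X Y : Type} (S : Finset X) (U : Finset Y) (r : X → Y → Prop) {H α b : ℝ}
    (h : ∀ x ∈ S, ∃ T ⊆ U, (∀ y ∈ T, r x y) ∧ H ≤ T.card) (hU : (U.card : ℝ) ≤ α) (hb : 0 < b)
    (hα : 0 < α) (hS : α * b ≤ S.card * H) : ∃ y, ∃ T ⊆ S, (∀ x ∈ T, r x y) ∧ b ≤ T.card := by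
  have h1 : (S.card : ℝ) * H ≤ ∑ y ∈ U, ((S.filter fun x => r x y).card : ℝ) := by
    have h2 : ∑ x ∈ S, (U.filter (r x)).card = ∑ y ∈ U, (S.filter fun x => r x y).card :=
      sum_card_bipartiteAbove_eq_sum_card_bipartiteBelow r
    rw [← Nat.cast_sum, ← h2, Nat.cast_sum, ← nsmul_eq_mul]
    refine card_nsmul_le_sum _ _ _ fun x hx => ?_
    obtain ⟨T, h3, h4, h5⟩ := h x hx
    exact h5.trans (Nat.cast_le.mpr (card_le_card fun y hy => mem_filter.mpr ⟨h3 hy, h4 y hy⟩))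
  have h2 : U.Nonempty := by
    rw [nonempty_iff_ne_empty]
    rintro rfl
    rw [sum_empty] at h1
    linarith [mul_pos hα hb]
  obtain ⟨y, -, h3⟩ := exists_le_of_sum_le h2 (f := fun _ => b)
    (g := fun y => ((S.filter fun x => r x y).card : ℝ)) (by
      rw [sum_const, nsmul_eq_mul]
      linarith [mul_le_mul_of_nonneg_right hU hb.le])
  exact ⟨y, _, filter_subset _ _, fun x hx => (mem_filter.mp hx).2, h3⟩

theorem unif1_tri {l a b : ℝ} (h0 : 0 ≤ l) (h1 : l ≤ 1) :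
    1 * |l * a + (1 - l) * b| ≤ l * |a| + (1 - l) * |b| ∧
    l * |a| ≤ 1 * |l * a + (1 - l) * b| + (1 - l) * |b| ∧
    (1 - l) * |b| ≤ l * |a| + 1 * |l * a + (1 - l) * b| := by
  have h2 : l * |a| = |l * a| := by rw [abs_mul, abs_of_nonneg h0]
  have h3 : (1 - l) * |b| = |(1 - l) * b| := by rw [abs_mul, abs_of_nonneg (sub_nonneg.mpr h1)]
  rw [h2, h3, one_mul]
  generalize l * a = x
  generalize (1 - l) * b = y
  refine ⟨abs_add_le _ _, ?_, ?_⟩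
  · simpa using abs_sub (x + y) y
  · simpa [add_comm] using abs_sub (x + y) x

theorem unif1_abs {L R x y : ℝ} (hx : L ≤ x ∧ x ≤ R) (hy : L ≤ y ∧ y ≤ R) : |x - y| ≤ R - L :=
  abs_le.mpr ⟨by linarith [hx.1, hy.2], by linarith [hx.2, hy.1]⟩

theorem unif1_conf (S : Finset ι) (i j k : ι → ℕ) (x y z : ι → ℝ) (L₁ R₁ L₂ R₂ L₃ R₃ : ℕ → ℝ)
    (t₁ t₂ : Finset ℕ) {c₁ c₂ c₃ α₁ α₂ b : ℝ} (hc₁ : 0 < c₁) (hc₂ : 0 < c₂) (hc₃ : 0 < c₃)
    (h₁ : (t₁.card : ℝ) ≤ α₁) (h₂ : (t₂.card : ℝ) ≤ α₂) (hb : 0 ≤ b)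
    (hi : ∀ q ∈ S, i q ∈ t₁) (hj : ∀ q ∈ S, j q ∈ t₂)
    (hx : ∀ q ∈ S, L₁ (i q) ≤ x q ∧ x q ≤ R₁ (i q)) (hy : ∀ q ∈ S, L₂ (j q) ≤ y q ∧ y q ≤ R₂ (j q))
    (hz : ∀ q ∈ S, L₃ (k q) ≤ z q ∧ z q ≤ R₃ (k q))
    (hord : ∀ q ∈ S, ∀ q' ∈ S, k q < k q' → R₃ (k q) < L₃ (k q'))
    (htri : ∀ q q', c₃ * |z q - z q'| ≤ c₁ * |x q - x q'| + c₂ * |y q - y q'|)
    (hpos : ∀ q ∈ S, L₁ (i q) < R₁ (i q))
    (hl₁ : ∀ q ∈ S, c₁ * (R₁ (i q) - L₁ (i q)) ≤ c₃ * (R₃ (k q) - L₃ (k q)))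
    (hl₂ : ∀ q ∈ S, c₂ * (R₂ (j q) - L₂ (j q)) ≤ c₃ * (R₃ (k q) - L₃ (k q)))
    (hT : ∀ q₀ ∈ S, ∀ T ⊆ S, (∀ q ∈ T, i q = i q₀ ∧ k q = k q₀) → (T.card : ℝ) ≤ b) :
    (S.card : ℝ) ≤ α₁ * α₂ * (6 * b) := by
  refine aux_fib2 S (t₁ ×ˢ t₂) (fun q => (i q, j q))
    (fun q hq => mem_product.mpr ⟨hi q hq, hj q hq⟩) k (by
      rw [card_product, Nat.cast_mul]
      exact mul_le_mul h₁ h₂ (Nat.cast_nonneg _) ((Nat.cast_nonneg _).trans h₁)) (by norm_num) hb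
    (fun q₀ hq₀ => ?_) fun q₀ hq₀ T h3 h4 => hT q₀ hq₀ T h3 fun q hq =>
      ⟨congrArg Prod.fst (h4 q hq).1, (h4 q hq).2⟩
  refine ⟨(S.filter fun q => i q = i q₀ ∧ j q = j q₀).image k, ?_, fun q hq h =>
    mem_image_of_mem _ (mem_filter.mpr ⟨hq, congrArg Prod.fst h, congrArg Prod.snd h⟩)⟩
  set m := max (c₁ * (R₁ (i q₀) - L₁ (i q₀))) (c₂ * (R₂ (j q₀) - L₂ (j q₀))) with hm
  have h3 : 0 < m := lt_max_of_lt_left (mul_pos hc₁ (sub_pos.mpr (hpos q₀ hq₀)))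
  refine (aux_near _ k z L₃ R₃ (ℓ := m / c₃) (x := z q₀) (n := 2) (by positivity) (by norm_num)
    (fun q hq => hz q (mem_filter.mp hq).1) (fun q hq => ?_)
    (fun q hq q' hq' => hord q (mem_filter.mp hq).1 q' (mem_filter.mp hq').1)
    fun q hq => ?_).trans (by norm_num)
  · obtain ⟨h4, h5, h6⟩ := mem_filter.mp hq
    rw [div_le_iff₀' hc₃, hm, ← h5, ← h6]
    exact max_le (hl₁ q h4) (hl₂ q h4)
  · obtain ⟨h4, h5, h6⟩ := mem_filter.mp hq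
    have h7 := mul_le_mul_of_nonneg_left (unif1_abs (h5 ▸ hx q h4) (hx q₀ hq₀)) hc₁.le
    have h8 := mul_le_mul_of_nonneg_left (unif1_abs (h6 ▸ hy q h4) (hy q₀ hq₀)) hc₂.le
    rw [← mul_div_assoc, le_div_iff₀' hc₃]
    linarith [htri q q₀, le_max_left (c₁ * (R₁ (i q₀) - L₁ (i q₀))) (c₂ * (R₂ (j q₀) - L₂ (j q₀))),
      le_max_right (c₁ * (R₁ (i q₀) - L₁ (i q₀))) (c₂ * (R₂ (j q₀) - L₂ (j q₀)))]

/-- windows used at a column -/
noncomputable def usedW (Z : Finset (ι × ι)) (win : ι × ι → ℕ) (p : ι) : Finset ℕ :=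
  (Z.filter fun z => z.1 = p).image win

theorem mem_usedW {Z : Finset (ι × ι)} {win : ι × ι → ℕ} {p : ι} {k : ℕ} :
    k ∈ usedW Z win p ↔ ∃ q, (p, q) ∈ Z ∧ win (p, q) = k := by
  simp only [usedW, mem_image, mem_filter]
  exact ⟨fun ⟨z, ⟨h1, h2⟩, h3⟩ => ⟨z.2, h2 ▸ h1, h2 ▸ h3⟩,
    fun ⟨q, h1, h2⟩ => ⟨(p, q), ⟨h1, rfl⟩, h2⟩⟩

/-- few points share the two windows of `q` at the columns `p`, `p'` -/
def ULight (Z : Finset (ι × ι)) (win : ι × ι → ℕ) (y : ℝ) (p p' q : ι) : Prop :=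
  ∀ T : Finset ι, (∀ q' ∈ T, (p, q') ∈ Z ∧ (p', q') ∈ Z ∧ win (p, q') = win (p, q) ∧
    win (p', q') = win (p', q)) → (T.card : ℝ) ≤ y

theorem ULight.symm {Z : Finset (ι × ι)} {win : ι × ι → ℕ} {y : ℝ} {p p' q : ι}
    (h : ULight Z win y p p' q) : ULight Z win y p' p q := fun T hT =>
  h T fun q' hq' => ⟨(hT q' hq').2.1, (hT q' hq').1, (hT q' hq').2.2.2, (hT q' hq').2.2.1⟩

/-- blocks of consecutive windows at a column, with their hulls -/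
structure UBlk (Z : Finset (ι × ι)) (win : ι × ι → ℕ) (lo hi : ℕ → ℝ) (p : ι) (g : ℕ → ℕ)
    (t : Finset ℕ) (L R : ℕ → ℝ) (A X : ℝ) : Prop where
  mem : ∀ k, g k ∈ t
  card : (t.card : ℝ) ≤ 2 * A / X
  fib : ∀ b, ∀ T ⊆ usedW Z win p, (∀ k ∈ T, g k = b) → (T.card : ℝ) ≤ 2 * X
  hull : ∀ q, (p, q) ∈ Z → L (g (win (p, q))) ≤ lo (win (p, q)) ∧ hi (win (p, q)) ≤ R (g (win (p, q)))
  ord : ∀ q q', (p, q) ∈ Z → (p, q') ∈ Z → g (win (p, q)) < g (win (p, q')) →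
    R (g (win (p, q))) < L (g (win (p, q')))

variable {C Q : Finset ι} {Z : Finset (ι × ι)} {s κ μ : ι → ℝ} {win : ι × ι → ℕ}
  {lo hi : ℕ → ℝ} {inc : ι → Finset ℕ} {I E : ℕ} {c K : ℝ}

theorem unif1_used (W : WinCfg C Q Z s κ μ win lo hi inc I E c K) (p : ι) :
    ((usedW Z win p).card : ℝ) ≤ K * 4 ^ I := by
  have hK := W.K_ge
  rcases (usedW Z win p).eq_empty_or_nonempty with h | ⟨k, h⟩
  · rw [h, card_empty, Nat.cast_zero]
    positivity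
  · obtain ⟨q, h1, -⟩ := mem_usedW.mp h
    have h2 := W.coarse 0 (Nat.zero_le _) p (mem_union_left _ (mem_product.mp (W.sub h1)).1)
    simp only [pow_zero, Nat.div_one, image_id', div_one] at h2
    refine le_trans (Nat.cast_le.mpr (card_le_card fun k hk => ?_)) h2
    obtain ⟨q, h3, rfl⟩ := mem_usedW.mp hk
    exact (W.mem _ h3).1

theorem unif1_blocks (W : WinCfg C Q Z s κ μ win lo hi inc I E c K) {X : ℝ} (hX : 1 ≤ X)
    (hA : X ≤ K * 4 ^ I) (p : ι) : ∃ g t L R, UBlk Z win lo hi p g t L R (K * 4 ^ I) X := by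
  obtain ⟨g, t, L, R, h1, h2, h3, h4, h5⟩ := aux_blocks (usedW Z win p) lo hi (fun k hk => by
    obtain ⟨q, h, rfl⟩ := mem_usedW.mp hk
    exact W.lo_lt _ h) (fun k hk k' hk' => by
    obtain ⟨q, h, rfl⟩ := mem_usedW.mp hk
    obtain ⟨q', h', rfl⟩ := mem_usedW.mp hk'
    exact W.order _ h _ h') hX hA (unif1_used W p)
  exact ⟨g, t, L, R, h1, h2, h3, fun q h => h4 _ (mem_usedW.mpr ⟨q, h, rfl⟩), fun q q' h h' =>
    h5 _ (mem_usedW.mpr ⟨q, h, rfl⟩) _ (mem_usedW.mpr ⟨q', h', rfl⟩)⟩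

theorem unif1_pairs (W : WinCfg C Q Z s κ μ win lo hi inc I E c K) {T : Finset (ι × ι)}
    (hT : T ⊆ Z) {b : ℝ} (hb : ((T.image Prod.snd).card : ℝ) ≤ b) :
    (T.card : ℝ) ≤ b * (K * (4 ^ I * c)) :=
  aux_fib T _ Prod.snd (fun _ => mem_image_of_mem _) hb ((Nat.cast_nonneg _).trans W.card_C)
    fun _ _ _ h1 h2 => le_trans (Nat.cast_le.mpr (card_le_card_of_injOn Prod.fst
      (fun _ hz => (mem_product.mp (W.sub (hT (h1 hz)))).1)
      fun z hz z' hz' h => Prod.ext h ((h2 z hz).trans (h2 z' hz').symm))) W.card_C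

theorem unif1_delta (W : WinCfg C Q Z s κ μ win lo hi inc I E c K) (pa pb p₂ : ι) {ca cb c₂ : ℝ}
    (hca : 0 < ca) (hcb : 0 < cb) (hc₂ : 0 < c₂) {g : ℕ → ℕ} {t : Finset ℕ} {L R : ℕ → ℝ}
    (hB : UBlk Z win lo hi p₂ g t L R (K * 4 ^ I) (K ^ 357)) {Z₁ : Finset (ι × ι)} (hZ : Z₁ ⊆ Z)
    (hc : 4 ^ I * c * ((4 ^ I) ^ 2 * c) / K ^ 28 ≤ Z₁.card)
    (hz : ∀ z ∈ Z₁, (pa, z.2) ∈ Z ∧ (pb, z.2) ∈ Z ∧ (p₂, z.2) ∈ Z ∧
      ULight Z win (K ^ 320 * c) pa pb z.2 ∧ ULight Z win (K ^ 320 * c) pa p₂ z.2 ∧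
      cb * (hi (win (pb, z.2)) - lo (win (pb, z.2))) ≤ ca * (hi (win (pa, z.2)) - lo (win (pa, z.2))))
    (htri : ∀ q q', ca * |κ q * s pa + μ q - (κ q' * s pa + μ q')| ≤
      cb * |κ q * s pb + μ q - (κ q' * s pb + μ q')| +
      c₂ * |κ q * s p₂ + μ q - (κ q' * s p₂ + μ q')|) :
    ∃ δ, ∃ Z₂ ⊆ Z₁, 4 ^ I * c * ((4 ^ I) ^ 2 * c) / K ^ 382 ≤ Z₂.card ∧ ∀ z ∈ Z₂,
      ca * (hi (win (pa, z.2)) - lo (win (pa, z.2))) ≤ δ ∧
      δ ≤ c₂ * (R (g (win (p₂, z.2))) - L (g (win (p₂, z.2)))) := by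
  have hK := W.K_ge
  have hc1 := W.c_ge
  set a : ℝ := 4 ^ I with ha
  have ha0 : 0 < a := by positivity
  set M := a * c * (a ^ 2 * c) with hM
  set m : ℕ → ℝ := fun k => ca * (hi k - lo k) with hm
  set σ : ℕ → ℝ := fun k => c₂ * (R (g k) - L (g k)) with hσ
  have hq : ∀ T ⊆ Z₁, ∀ q ∈ T.image Prod.snd, ∃ p, (p, q) ∈ T := fun T _ q h => by
    obtain ⟨z, h1, rfl⟩ := mem_image.mp h
    exact ⟨z.1, h1⟩
  have hM4 : M / K ^ 30 ≤ M / K ^ 28 / 4 := by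
    have := aux_pow (c := 4) (i := 28) (j := 30) hK 2 le_rfl (by norm_num)
    rw [div_div, mul_comm]
    gcongr
  obtain ⟨Z₂, s2, c2, n2⟩ := aux_remove Z₁ (fun z => σ (win (p₂, z.2)) < m (win (pa, z.2)))
    (m := M / K ^ 28 * (3 / 4)) (b := M / K ^ 30) (by linarith) fun T h1 h2 => by
      have h3 := fun q h => hz _ (h1 (hq T h1 q h).choose_spec)
      refine (unif1_pairs W (h1.trans hZ) (unif1_conf _ (fun q => win (pb, q))
        (fun q => g (win (p₂, q))) (fun q => win (pa, q)) (fun q => κ q * s pb + μ q)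
        (fun q => κ q * s p₂ + μ q) (fun q => κ q * s pa + μ q) lo hi L R lo hi (usedW Z win pb) t
        hcb hc₂ hca (unif1_used W pb) hB.card (b := K ^ 320 * c) (by positivity)
        (fun q h => mem_usedW.mpr ⟨q, (h3 q h).2.1, rfl⟩) (fun q _ => hB.mem _)
        (fun q h => (W.mem _ (h3 q h).2.1).2.2) (fun q h => ?_) (fun q h => (W.mem _ (h3 q h).1).2.2)
        (fun q h q' h' => W.order _ (h3 q h).1 _ (h3 q' h').1) htri
        (fun q h => W.lo_lt _ (h3 q h).2.1) (fun q h => (h3 q h).2.2.2.2.2)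
        (fun q h => (h2 _ (hq T h1 q h).choose_spec).le) fun q h T' h4 h5 =>
          (h3 q h).2.2.2.1 T' fun q' h' => ⟨(h3 q' (h4 h')).1, (h3 q' (h4 h')).2.1,
            (h5 q' h').2, (h5 q' h').1⟩)).trans ?_
      · have h4 := hB.hull q (h3 q h).2.2.1
        have h5 := (W.mem _ (h3 q h).2.2.1).2.2
        exact ⟨h4.1.trans h5.1, h5.2.trans h4.2⟩
      · have h4 := aux_pow (c := 12) (i := 0) (j := 4) hK 4 le_rfl (by norm_num)
        calc _ = M / K ^ 30 * (12 * K ^ 0 / K ^ 4) := by rw [hM, ha]; field_simp; norm_num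
          _ ≤ M / K ^ 30 * 1 := by
            gcongr
            exact (div_le_one (by positivity)).mpr h4
          _ = _ := mul_one _
  obtain ⟨Z₃, s3, c3, n3⟩ := aux_remove Z₂ (fun z => ∀ T ⊆ usedW Z win p₂,
      (∀ k ∈ T, m (win (pa, z.2)) ≤ σ k ∧ σ k ≤ σ (win (p₂, z.2))) → (T.card : ℝ) ≤ a / K ^ 352)
    (m := M / K ^ 28 / 2) (b := M / K ^ 30) (by linarith) fun T h1 h2 => by
      have h1' := h1.trans s2
      have h3 := fun q h => hz _ (h1' (hq T h1' q h).choose_spec)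
      refine (unif1_pairs W (h1'.trans hZ) (aux_fib2 _ (usedW Z win pa) (fun q => win (pa, q))
        (fun q h => mem_usedW.mpr ⟨q, (h3 q h).1, rfl⟩) (fun q => win (p₂, q)) (unif1_used W pa)
        (n := a / K ^ 352) (y := K ^ 320 * c) (by positivity) (by positivity) (fun q₀ h₀ => ?_)
        fun q h T' h4 h5 => (h3 q h).2.2.2.2.1 T' fun q' h' => ⟨(h3 q' (h4 h')).1,
          (h3 q' (h4 h')).2.2.1, h5 q' h'⟩)).trans (le_of_eq (by rw [hM, ha]; field_simp))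
      refine ⟨((T.image Prod.snd).filter fun q => win (pa, q) = win (pa, q₀)).image
        fun q => win (p₂, q), aux_top _ σ (by positivity) fun k hk h4 => ?_,
        fun q h h' => mem_image_of_mem _ (mem_filter.mpr ⟨h, h'⟩)⟩
      obtain ⟨q, h5, rfl⟩ := mem_image.mp hk
      obtain ⟨h6, h7⟩ := mem_filter.mp h5
      refine h2 _ (hq T h1' q h6).choose_spec _ (fun k hk => ?_) fun k hk => ⟨?_, h4 k hk⟩
      · obtain ⟨q', h8, rfl⟩ := mem_image.mp hk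
        exact mem_usedW.mpr ⟨q', (h3 q' (mem_filter.mp h8).1).2.2.1, rfl⟩
      · obtain ⟨q', h8, rfl⟩ := mem_image.mp hk
        obtain ⟨h9, h10⟩ := mem_filter.mp h8
        have h11 := n2 _ (h1 (hq T h1' q' h9).choose_spec)
        rw [h7, ← h10]
        exact not_lt.mp h11
  obtain ⟨k, Z₄, s4, n4, c4⟩ := unif1_double Z₃ (usedW Z win p₂)
    (fun z k => m (win (pa, z.2)) ≤ σ k ∧ σ k ≤ σ (win (p₂, z.2))) (H := a / K ^ 352)
    (b := M / K ^ 382) (fun z h => by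
      have h1 := n3 z h
      push Not at h1
      obtain ⟨T, h2, h3, h4⟩ := h1
      exact ⟨T, h2, h3, h4.le⟩) (unif1_used W p₂) (by positivity) (by positivity) (by
      calc K * a * (M / K ^ 382) = M / K ^ 28 / K * (a / K ^ 352) := by field_simp
        _ ≤ M / K ^ 28 / 2 * (a / K ^ 352) := by gcongr
        _ ≤ _ := by gcongr)
  exact ⟨σ k, Z₄, s4.trans (s3.trans s2), c4, n4⟩

end Vale.Agent.P065
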