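import Vale.Agent.P065.Unif1Aux

/-! Heavy triples, and the choice of three reference columns. -/

namespace Vale.Agent.P065

open Classical Finset

variable {ι B : Type}

theorem aux_heavy (C Q : Finset ι) (Z : Finset (ι × ι)) (v : ι → ι → ℤ)
    (sc : ι → ι → B) (m : ι → ι → ι → ℝ) {y M : ℝ} (hy : 0 ≤ y) (hM : 0 < M)
    (hM' : ∀ z₀ ∈ Z, ∃ t : Finset B, (t.card : ℝ) ≤ M ∧
      ∀ q, (z₀.1, q) ∈ Z → v z₀.1 q = v z₀.1 z₀.2 → sc z₀.1 q ∈ t)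
    (hm : ∀ p p' q, (p, q) ∈ Z → (p', q) ∈ Z → ∀ T ⊆ Q, (∀ q' ∈ T, (p, q') ∈ Z ∧ (p', q') ∈ Z ∧
      sc p q' = sc p q ∧ sc p' q' = sc p' q) → (T.card : ℝ) ≤ m p p' q)
    (S₂ : Finset (ι × ι × ι)) (h₂ : ∀ p ∈ C, ∀ p' ∈ C, ∀ q ∈ Q, (p, q) ∈ Z → (p', q) ∈ Z →
      y / (2 * M ^ 2) ≤ m p p' q → (p, p', q) ∈ S₂) : heavy C Q Z v y ≤ 2 * S₂.card := by
  refine aux_refine ((C ×ˢ C ×ˢ Q).filter fun x => (x.1, x.2.2) ∈ Z ∧ (x.2.1, x.2.2) ∈ Z) _ S₂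
    (fun x => (x.1, x.2.1, v x.1 x.2.2, v x.2.1 x.2.2)) (fun x => (sc x.1 x.2.2, sc x.2.1 x.2.2))
    (fun x => m x.1 x.2.1 x.2.2) hy (pow_pos hM 2) ?_ ?_ ?_ ?_ ?_
  · rintro ⟨p, p', q⟩ hx
    obtain ⟨-, h1, h2⟩ := mem_filter.mp hx
    obtain ⟨t, h3, h4⟩ := hM' _ h1
    obtain ⟨t', h5, h6⟩ := hM' _ h2
    refine ⟨t ×ˢ t', ?_, ?_⟩
    · rw [card_product, Nat.cast_mul, sq]
      exact mul_le_mul h3 h5 (Nat.cast_nonneg _) hM.le
    · rintro ⟨p₁, p₁', q₁⟩ hx' h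
      simp only [Prod.mk.injEq] at h
      obtain ⟨rfl, rfl, h7, h8⟩ := h
      obtain ⟨-, h9, h10⟩ := mem_filter.mp hx'
      exact mem_product.mpr ⟨h4 _ h9 h7, h6 _ h10 h8⟩
  · rintro ⟨p, p', q⟩ hx T hT h
    obtain ⟨-, h1, h2⟩ := mem_filter.mp hx
    have h3 : ∀ x ∈ T, x = (p, p', x.2.2) := fun x hx => by
      have h4 := (h x hx).1
      simp only [Prod.mk.injEq] at h4
      rw [← h4.1, ← h4.2.1]
    rw [← card_image_of_injOn (f := fun x => x.2.2) fun x hx x' hx' h' => by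
      rw [h3 x hx, h3 x' hx', show x.2.2 = x'.2.2 from h']]
    refine hm p p' q h1 h2 _ (fun q' hq' => ?_) fun q' hq' => ?_
    · obtain ⟨x, h4, rfl⟩ := mem_image.mp hq'
      exact (mem_product.mp (mem_product.mp (mem_filter.mp (hT h4)).1).2).2
    · obtain ⟨x, h4, rfl⟩ := mem_image.mp hq'
      have h5 := (mem_filter.mp (hT h4)).2
      have h6 := (h x h4).2
      rw [h3 x h4] at h5 h6
      exact ⟨h5.1, h5.2, congrArg Prod.fst h6, congrArg Prod.snd h6⟩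
  · intro x hx
    rw [mem_filter] at hx ⊢
    exact ⟨hx.1, hx.2.1, hx.2.2.1⟩
  · rintro ⟨p, p', q⟩ hx
    obtain ⟨h0, h1, h2, h3⟩ := mem_filter.mp hx
    simp only [mem_product] at h0
    refine ⟨(Q.filter fun q' => (p, q') ∈ Z ∧ (p', q') ∈ Z ∧ v p q' = v p q ∧
      v p' q' = v p' q).image fun q' => (p, p', q'), fun x hx => ?_, fun x hx => ?_, ?_⟩
    · obtain ⟨q', h4, rfl⟩ := mem_image.mp hx
      rw [mem_filter] at h4
      simp only [mem_filter, mem_product]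
      exact ⟨⟨h0.1, h0.2.1, h4.1⟩, h4.2.1, h4.2.2.1⟩
    · obtain ⟨q', h4, rfl⟩ := mem_image.mp hx
      rw [mem_filter] at h4
      simp only [h4.2.2.2.1, h4.2.2.2.2]
    · rw [card_image_of_injective _ fun q₁ q₂ h => by simpa using h]
      exact h3
  · rintro ⟨p, p', q⟩ hx h
    obtain ⟨h0, h1, h2⟩ := mem_filter.mp hx
    simp only [mem_product] at h0
    exact h₂ p h0.1 p' h0.2.1 q h0.2.2 h1 h2 h

theorem aux_heavy_triv {C Q : Finset ι} (Z : Finset (ι × ι)) (v : ι → ι → ℤ) (y : ℝ)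
    {nC nQ K : ℝ} (hC : (C.card : ℝ) ≤ K * nC) (hQ : (Q.card : ℝ) ≤ K * nQ) :
    (heavy C Q Z v y : ℝ) ≤ K ^ 3 * nC ^ 2 * nQ := by
  have h0 : 0 ≤ K * nC := (Nat.cast_nonneg _).trans hC
  calc (heavy C Q Z v y : ℝ) ≤ (C ×ˢ C ×ˢ Q).card := by exact_mod_cast card_filter_le _ _
    _ = C.card * (C.card * Q.card) := by rw [card_product, card_product]; push_cast; rfl
    _ ≤ K * nC * (K * nC * (K * nQ)) := by gcongr
    _ = _ := by ring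

theorem aux_img {X : Type} (A : Finset X) (S : Finset ℤ) (f : X → ℤ) (n : ℕ)
    (h : ∀ b ∈ S, ∃ a ∈ A, b ∈ Icc (f a) (f a + n)) : (S.card : ℝ) ≤ (n + 1) * A.card := by
  have h1 : S ⊆ A.biUnion fun a => Icc (f a) (f a + n) := fun b hb => mem_biUnion.mpr (h b hb)
  have h2 := (card_le_card h1).trans (card_biUnion_le_card_mul _ _ (n + 1) fun a _ => by
    rw [Int.card_Icc]
    omega)
  rw [mul_comm]
  exact_mod_cast h2

theorem aux_mem_colSet {Z : Finset (ι × ι)} {v : ι → ι → ℤ} {p : ι} {x : ℤ} :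
    x ∈ colSet Z v p ↔ ∃ q, (p, q) ∈ Z ∧ v p q = x := by
  simp only [colSet, mem_image, mem_filter]
  exact ⟨fun ⟨z, ⟨h1, h2⟩, h3⟩ => ⟨z.2, h2 ▸ h1, h3⟩, fun ⟨q, h1, h2⟩ => ⟨(p, q), ⟨h1, rfl⟩, h2⟩⟩

theorem aux_five (N : Finset ι) (s : ι → ℝ) (hs : ∀ p ∈ N, ∀ p' ∈ N, s p = s p' → p = p')
    (T : Finset (ι × ι × ι × ι))
    (hT : ∀ y : Fin 5 → ι, StrictMono (fun i => s (y i)) → (∀ i, y i ∈ N) →
      ∃ i₁ i₀ i₂ i e : Fin 5, (∀ j, j ∈ [i₁, i₀, i₂, i, e]) ∧ (y i₁, y i₀, y i₂, y i) ∈ T)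
    {D : ℝ} (hD : 8 ≤ D) : (N.card - D) * (D ^ 3 / 3840) ≤ T.card := by
  rcases le_total (N.card : ℝ) D with h | h
  · exact (mul_nonpos_of_nonpos_of_nonneg (by linarith) (by positivity)).trans (Nat.cast_nonneg _)
  have h1 : N.powersetCard 5 ⊆ (T ×ˢ N).image fun x =>
      ({x.1.1, x.1.2.1, x.1.2.2.1, x.1.2.2.2, x.2} : Finset ι) := by
    intro F hF
    obtain ⟨h2, h3⟩ := mem_powersetCard.mp hF
    have h4 : (F.image s).card = 5 :=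
      (card_image_of_injOn fun p hp p' hp' => hs p (h2 hp) p' (h2 hp')).trans h3
    choose y h5 h6 using fun i => mem_image.mp ((F.image s).orderEmbOfFin_mem h4 i)
    obtain ⟨i₁, i₀, i₂, i, e, h7, h8⟩ := hT y (by
      simp only [h6]
      exact ((F.image s).orderEmbOfFin h4).strictMono) fun i => h2 (h5 i)
    refine mem_image.mpr ⟨((y i₁, y i₀, y i₂, y i), y e), mem_product.mpr ⟨h8, h2 (h5 e)⟩, ?_⟩
    ext p
    simp only [mem_insert, mem_singleton]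
    refine ⟨?_, fun hp => ?_⟩
    · rintro (rfl | rfl | rfl | rfl | rfl) <;> exact h5 _
    · have h9 : s p ∈ Set.range ((F.image s).orderEmbOfFin h4) := by
        rw [range_orderEmbOfFin]
        exact mem_image_of_mem s hp
      obtain ⟨j, hj⟩ := h9
      have h10 : p = y j := hs p (h2 hp) _ (h2 (h5 j)) (by rw [h6, hj])
      have h11 := h7 j
      simp only [List.mem_cons, List.not_mem_nil, or_false] at h11
      rcases h11 with rfl | rfl | rfl | rfl | rfl <;> simp [h10]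
  have h2 := (card_le_card h1).trans card_image_le
  rw [card_powersetCard, card_product] at h2
  have h3 : ((N.card + 1 - 5 : ℕ) : ℝ) ^ 5 / (Nat.factorial 5 : ℕ) ≤ N.card.choose 5 :=
    Nat.pow_le_choose 5 N.card
  have h4 : 8 ≤ N.card := by exact_mod_cast hD.trans h
  have h5 : (N.card : ℝ) / 2 ≤ ((N.card + 1 - 5 : ℕ) : ℝ) := by
    rw [div_le_iff₀ (by norm_num)]
    exact_mod_cast (by omega : N.card ≤ (N.card + 1 - 5) * 2)
  have h6 : ((N.card : ℝ) / 2) ^ 5 / 120 ≤ T.card * N.card :=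
    calc ((N.card : ℝ) / 2) ^ 5 / 120 ≤ ((N.card + 1 - 5 : ℕ) : ℝ) ^ 5 / 120 := by gcongr
      _ ≤ (N.card.choose 5 : ℝ) := by simpa [Nat.factorial] using h3
      _ ≤ _ := by exact_mod_cast h2
  have h7 : (0 : ℝ) < N.card := by linarith
  refine le_of_mul_le_mul_right (le_trans ?_ h6) h7
  calc (N.card - D) * (D ^ 3 / 3840) * N.card ≤ N.card * (N.card ^ 3 / 3840) * N.card := by
        gcongr
        linarith
    _ = _ := by ring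

theorem aux_tuples (C Q : Finset ι) (Z : Finset (ι × ι)) (s : ι → ℝ) {nC nQ K : ℝ} (hK : 2 ≤ K)
    (hZ : Z ⊆ C ×ˢ Q) (hs : ∀ p ∈ C, ∀ p' ∈ C, s p = s p' → p = p')
    (hQ : (Q.card : ℝ) ≤ K * nQ) (hZc : nC * nQ / K ≤ Z.card)
    (hn : 16 * K ^ 2 ≤ nC) (hnQ : 0 < nQ) (G : ι → ι → ι → ι → ι → Prop)
    (hG : ∀ q, ∀ y : Fin 5 → ι, StrictMono (fun i => s (y i)) → (∀ i, (y i, q) ∈ Z) →
      ∃ i₁ i₀ i₂ i e : Fin 5, (∀ j, j ∈ [i₁, i₀, i₂, i, e]) ∧ G (y i₁) (y i₀) (y i₂) (y i) q) :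
    ∃ T : Finset ((ι × ι × ι) × ι × ι), nC ^ 4 * nQ / K ^ 23 ≤ T.card ∧ ∀ x ∈ T, x.2 ∈ Z ∧
      (x.1.1, x.2.2) ∈ Z ∧ (x.1.2.1, x.2.2) ∈ Z ∧ (x.1.2.2, x.2.2) ∈ Z ∧
      G x.1.1 x.1.2.1 x.1.2.2 x.2.1 x.2.2 := by
  have hK0 : 0 < K := by linarith
  have hn0 : 0 < nC := lt_of_lt_of_le (by positivity) hn
  have hZ1 : ∀ p q, (p, q) ∈ Z → p ∈ C := fun p q h => (mem_product.mp (hZ h)).1
  set T := ((C ×ˢ C ×ˢ C) ×ˢ Z).filter fun x => (x.1.1, x.2.2) ∈ Z ∧ (x.1.2.1, x.2.2) ∈ Z ∧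
    (x.1.2.2, x.2.2) ∈ Z ∧ G x.1.1 x.1.2.1 x.1.2.2 x.2.1 x.2.2 with hT
  refine ⟨T, ?_, fun x hx => ⟨(mem_product.mp (mem_filter.mp hx).1).2, (mem_filter.mp hx).2⟩⟩
  set D := nC / (2 * K ^ 2) with hD
  have hD8 : 8 ≤ D := by
    rw [hD, le_div_iff₀ (by positivity)]
    linarith
  have h1 : ∀ q ∈ Q, (((Z.filter fun z => z.2 = q).card : ℝ) - D) * (D ^ 3 / 3840) ≤
      (T.filter fun x => x.2.2 = q).card := by
    intro q _
    have h2 : ((Z.filter fun z => z.2 = q).image Prod.fst).card =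
        (Z.filter fun z => z.2 = q).card := card_image_of_injOn fun z hz z' hz' h =>
      Prod.ext h ((mem_filter.mp hz).2.trans (mem_filter.mp hz').2.symm)
    have h3 : ∀ p ∈ (Z.filter fun z => z.2 = q).image Prod.fst, (p, q) ∈ Z := fun p hp => by
      obtain ⟨z, h4, rfl⟩ := mem_image.mp hp
      rw [mem_filter] at h4
      rw [← h4.2]
      exact h4.1
    rw [← h2]
    refine (aux_five _ s (fun p hp p' hp' => hs p (hZ1 _ _ (h3 p hp)) p' (hZ1 _ _ (h3 p' hp')))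
      ((T.filter fun x => x.2.2 = q).image fun x => (x.1.1, x.1.2.1, x.1.2.2, x.2.1))
      (fun y h4 h5 => ?_) hD8).trans (by exact_mod_cast card_image_le)
    have h6 := fun i => h3 _ (h5 i)
    obtain ⟨i₁, i₀, i₂, i, e, h7, h8⟩ := hG q y h4 h6
    refine ⟨i₁, i₀, i₂, i, e, h7, mem_image.mpr ⟨((y i₁, y i₀, y i₂), y i, q), ?_, rfl⟩⟩
    simp only [hT, mem_filter, mem_product]
    exact ⟨⟨⟨⟨hZ1 _ _ (h6 _), hZ1 _ _ (h6 _), hZ1 _ _ (h6 _)⟩, h6 _⟩, h6 _, h6 _, h6 _, h8⟩, trivial⟩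
  have h3 := sum_le_sum h1
  rw [← sum_mul, sum_sub_distrib, ← Nat.cast_sum, ← Nat.cast_sum,
    ← card_eq_sum_card_fiberwise (f := Prod.snd) fun z hz => (mem_product.mp (hZ hz)).2,
    ← card_eq_sum_card_fiberwise (f := fun x : (ι × ι × ι) × ι × ι => x.2.2) fun x hx =>
      (mem_product.mp (hZ (mem_product.mp (mem_filter.mp hx).1).2)).2,
    sum_const, nsmul_eq_mul] at h3
  have h4 : (Q.card : ℝ) * D ≤ nC * nQ / K / 2 :=
    (mul_le_mul_of_nonneg_right hQ (by linarith)).trans (le_of_eq (by rw [hD]; field_simp))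
  have h5 := aux_pow (c := 61440) (i := 7) (j := 23) hK 16 le_rfl (by norm_num)
  calc nC ^ 4 * nQ / K ^ 23 ≤ nC ^ 4 * nQ / (61440 * K ^ 7) := by gcongr
    _ = nC * nQ / K / 2 * (D ^ 3 / 3840) := by rw [hD]; field_simp; norm_num
    _ ≤ (Z.card - Q.card * D) * (D ^ 3 / 3840) := by gcongr; linarith
    _ ≤ _ := h3

theorem aux_ref (C Q : Finset ι) (Z : Finset (ι × ι)) (s : ι → ℝ) {nC nQ K : ℝ} (hK : 2 ≤ K)
    (hZ : Z ⊆ C ×ˢ Q) (hs : ∀ p ∈ C, ∀ p' ∈ C, s p = s p' → p = p')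
    (hC : (C.card : ℝ) ≤ K * nC) (hQ : (Q.card : ℝ) ≤ K * nQ) (hZc : nC * nQ / K ≤ Z.card)
    (hn : 16 * K ^ 2 ≤ nC) (hnQ : 0 < nQ) (G : ι → ι → ι → ι → ι → Prop)
    (hG : ∀ q, ∀ y : Fin 5 → ι, StrictMono (fun i => s (y i)) → (∀ i, (y i, q) ∈ Z) →
      ∃ i₁ i₀ i₂ i e : Fin 5, (∀ j, j ∈ [i₁, i₀, i₂, i, e]) ∧ G (y i₁) (y i₀) (y i₂) (y i) q)
    (H : Finset (ι × ι × ι)) (hH : (H.card : ℝ) ≤ nC ^ 2 * nQ / K ^ 28) :
    ∃ p₁ p₀ p₂, ∃ Z₁ ⊆ Z, nC * nQ / K ^ 27 ≤ Z₁.card ∧ ∀ z ∈ Z₁, (p₁, z.2) ∈ Z ∧ (p₀, z.2) ∈ Z ∧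
      (p₂, z.2) ∈ Z ∧ G p₁ p₀ p₂ z.1 z.2 ∧ (p₁, p₀, z.2) ∉ H ∧ (p₁, p₂, z.2) ∉ H ∧
      (p₀, p₂, z.2) ∉ H ∧ (p₁, z.1, z.2) ∉ H := by
  have hK0 : 0 < K := by linarith
  have hn0 : 0 < nC := lt_of_lt_of_le (by positivity) hn
  have hZ1 : ∀ p q, (p, q) ∈ Z → p ∈ C := fun p q h => (mem_product.mp (hZ h)).1
  obtain ⟨T, h2, hT⟩ := aux_tuples C Q Z s hK hZ hs hQ hZc hn hnQ G hG
  have h3 : ∀ (f : (ι × ι × ι) × ι × ι → ι × ι × ι) (g : (ι × ι × ι) × ι × ι → ι × ι),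
      (∀ x ∈ T, g x ∈ C ×ˢ C) → (∀ x x', f x = f x' → g x = g x' → x = x') → ∀ T' ⊆ T,
      (∀ x ∈ T', f x ∈ H) → (T'.card : ℝ) ≤ nC ^ 4 * nQ / K ^ 26 := fun f g k1 k2 T' k4 k5 => by
    have k3 : T'.card ≤ (H ×ˢ C ×ˢ C).card :=
      card_le_card_of_injOn (fun x => (f x, g x)) (fun x hx => mem_coe.mpr (mem_product.mpr
        ⟨k5 x hx, k1 x (k4 hx)⟩)) fun x _ x' _ h =>
        k2 x x' (congrArg Prod.fst h) (congrArg Prod.snd h)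
    rw [card_product, card_product] at k3
    calc (T'.card : ℝ) ≤ H.card * (C.card * C.card) := by exact_mod_cast k3
      _ ≤ nC ^ 2 * nQ / K ^ 28 * (K * nC * (K * nC)) := by gcongr
      _ = _ := by field_simp
  have hTC : ∀ x ∈ T, x.1.1 ∈ C ∧ x.1.2.1 ∈ C ∧ x.1.2.2 ∈ C ∧ x.2.1 ∈ C := fun x hx =>
    ⟨hZ1 _ _ (hT x hx).2.1, hZ1 _ _ (hT x hx).2.2.1, hZ1 _ _ (hT x hx).2.2.2.1,
      hZ1 _ _ (hT x hx).1⟩
  have k5 : 8 * (nC ^ 4 * nQ / K ^ 26) ≤ nC ^ 4 * nQ / K ^ 23 := by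
    have k6 := aux_pow (c := 8) (i := 23) (j := 26) hK 3 le_rfl (by norm_num)
    calc 8 * (nC ^ 4 * nQ / K ^ 26) ≤ 8 * (nC ^ 4 * nQ / (8 * K ^ 23)) := by gcongr
      _ = _ := by field_simp
  set b := nC ^ 4 * nQ / K ^ 26 with hb
  set A := nC ^ 4 * nQ / K ^ 23 with hA
  obtain ⟨T₁, s1, c1, n1⟩ := aux_remove T _ (m := A - b) (by linarith)
    (h3 (fun x => (x.1.1, x.1.2.1, x.2.2)) (fun x => (x.1.2.2, x.2.1))
      (fun x hx => by simp [hTC x hx]) (by simp +contextual))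
  obtain ⟨T₂, s2, c2, n2⟩ := aux_remove T₁ _ (m := A - 2 * b) (by linarith) fun T' h =>
    h3 (fun x => (x.1.1, x.1.2.2, x.2.2)) (fun x => (x.1.2.1, x.2.1))
      (fun x hx => by simp [hTC x hx]) (by simp +contextual) T' (h.trans s1)
  obtain ⟨T₃, s3, c3, n3⟩ := aux_remove T₂ _ (m := A - 3 * b) (by linarith) fun T' h =>
    h3 (fun x => (x.1.2.1, x.1.2.2, x.2.2)) (fun x => (x.1.1, x.2.1))
      (fun x hx => by simp [hTC x hx]) (by simp +contextual) T' (h.trans (s2.trans s1))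
  obtain ⟨T₄, s4, c4, n4⟩ := aux_remove T₃ _ (m := A / 2) (by linarith) fun T' h =>
    h3 (fun x => (x.1.1, x.2.1, x.2.2)) (fun x => (x.1.2.1, x.1.2.2))
      (fun x hx => by simp [hTC x hx]) (by simp +contextual) T' (h.trans (s3.trans (s2.trans s1)))
  have s5 : T₄ ⊆ T := s4.trans (s3.trans (s2.trans s1))
  obtain ⟨⟨p₁, p₀, p₂⟩, T', l1, l2, l3⟩ := aux_pigeon T₄ (C ×ˢ C ×ˢ C) Prod.fst
    (fun x hx => by simp [hTC x (s5 hx)]) (α := (K * nC) ^ 3) (b := nC * nQ / K ^ 27) (by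
      rw [card_product, card_product]
      push_cast
      calc (C.card : ℝ) * (C.card * C.card) ≤ K * nC * (K * nC * (K * nC)) := by gcongr
        _ = _ := by ring) (by positivity) (by positivity) (le_trans (by
      calc (K * nC) ^ 3 * (nC * nQ / K ^ 27) = nC ^ 4 * nQ / K ^ 23 / K := by field_simp
        _ ≤ _ := by gcongr) c4)
  have l4 : ∀ z ∈ T'.image Prod.snd, ((p₁, p₀, p₂), z) ∈ T₄ := fun z hz => by
    obtain ⟨x, l5, rfl⟩ := mem_image.mp hz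
    rw [← l2 x l5]
    exact l1 l5
  refine ⟨p₁, p₀, p₂, T'.image Prod.snd, fun z hz => (hT _ (s5 (l4 z hz))).1, ?_, fun z hz => ?_⟩
  · rwa [card_image_of_injOn fun x hx x' hx' h => Prod.ext ((l2 x hx).trans (l2 x' hx').symm) h]
  · have l5 := l4 z hz
    obtain ⟨-, l6, l7, l8, l9⟩ := hT _ (s5 l5)
    exact ⟨l6, l7, l8, l9, n1 _ (s2 (s3 (s4 l5))), n2 _ (s3 (s4 l5)), n3 _ (s4 l5), n4 _ l5⟩

theorem aux_wheavy {C Q : Finset ι} {Z : Finset (ι × ι)} {s κ μ : ι → ℝ} {win : ι × ι → ℕ}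
    {lo hi : ℕ → ℝ} {inc : ι → Finset ℕ} {I E : ℕ} {c K : ℝ}
    (W : WinCfg C Q Z s κ μ win lo hi inc I E c K) {t : ℝ} (ht : 1 ≤ t)
    (S : Finset (ι × ι × ι)) (hS : ∀ x ∈ S, (x.1, x.2.2) ∈ Z ∧ (x.2.1, x.2.2) ∈ Z ∧
      t ^ 10 * c ≤ wov Q inc (win (x.1, x.2.2)) (win (x.2.1, x.2.2))) :
    (S.card : ℝ) * t ≤ K ^ 4 * (4 ^ I * c) ^ 2 * ((4 ^ I) ^ 2 * c) := by
  have hK := W.K_ge
  have hc := W.c_ge
  rw [← le_div_iff₀ (by linarith)]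
  refine (aux_fib2 S Q (fun x => x.2.2) (fun x hx => (mem_product.mp (W.sub (hS x hx).1)).2)
    (fun x => (win (x.1, x.2.2), win (x.2.1, x.2.2))) W.card_Q (n := K * (4 ^ I) ^ 2 / t)
    (y := K * c * (K * c)) (by positivity) (by positivity) (fun x₀ hx₀ => ?_)
    fun x₀ hx₀ T hT h => ?_).trans (le_of_eq (by ring))
  · have h1 := W.tail _ (mem_product.mp (W.sub (hS x₀ hx₀).1)).2 (t ^ 10) (one_le_pow₀ ht)
    rw [← mul_pow] at h1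
    refine ⟨_, (le_div_iff₀ (by linarith)).mpr (le_of_pow_le_pow_left₀ (by norm_num)
      (by positivity) h1), fun x hx h => ?_⟩
    obtain ⟨h2, h3, h4⟩ := hS x hx
    rw [← h]
    exact mem_filter.mpr ⟨mem_product.mpr ⟨(W.mem _ h2).2.1, (W.mem _ h3).2.1⟩, h4⟩
  · have h1 : T.card ≤ ((C.filter fun p => win (x₀.1, x₀.2.2) ∈ inc p) ×ˢ
        C.filter fun p => win (x₀.2.1, x₀.2.2) ∈ inc p).card := by
      refine card_le_card_of_injOn (fun x => (x.1, x.2.1)) (fun x hx => ?_) fun x hx x' hx' h' => ?_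
      · obtain ⟨h2, h3, -⟩ := hS x (hT hx)
        have h4 := (h x hx).2
        simp only [Prod.mk.injEq] at h4
        simp only [coe_product, Set.mem_prod, mem_coe, mem_filter]
        exact ⟨⟨(mem_product.mp (W.sub h2)).1, h4.1 ▸ (W.mem _ h2).1⟩,
          (mem_product.mp (W.sub h3)).1, h4.2 ▸ (W.mem _ h3).1⟩
      · simp only [Prod.mk.injEq] at h'
        exact Prod.ext h'.1 (Prod.ext h'.2 ((h x hx).1.trans (h x' hx').1.symm))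
    rw [card_product] at h1
    refine (Nat.cast_le.mpr h1).trans ?_
    rw [Nat.cast_mul]
    exact mul_le_mul (W.mult _ (hS x₀ hx₀).1) (W.mult _ (hS x₀ hx₀).2.1) (Nat.cast_nonneg _)
      (by positivity)

end Vale.Agent.P065
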