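import Vale.Agent.P065.Unif1Cnt

/-! The Frostman bound for the windows at a column. -/

namespace Vale.Agent.P065

open Classical Finset

theorem unif2_split {X : Type} (S : Finset X) (P : X → Prop) {b₁ b₂ : ℝ}
    (h1 : ∀ T ⊆ S, (∀ x ∈ T, P x) → (T.card : ℝ) ≤ b₁)
    (h2 : ∀ T ⊆ S, (∀ x ∈ T, ¬ P x) → (T.card : ℝ) ≤ b₂) : (S.card : ℝ) ≤ b₁ + b₂ := by
  obtain ⟨T, h3, h4, h5⟩ := aux_remove S P (m := S.card - b₁) (by linarith) h1
  linarith [h2 T h3 h5]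

theorem unif2_fib_ge {X B : Type} (Y : Finset X) (t : Finset B) (f : X → B) {m : ℝ}
    (h : ∀ b ∈ t, ∃ T ⊆ Y, (∀ x ∈ T, f x = b) ∧ m ≤ T.card) : t.card * m ≤ Y.card := by
  have h1 := (sum_card_fiberwise_eq_card_filter Y t f).le.trans (card_filter_le _ _)
  refine le_trans ?_ (Nat.cast_le.mpr h1)
  rw [Nat.cast_sum, ← nsmul_eq_mul]
  refine card_nsmul_le_sum _ _ _ fun b hb => ?_
  obtain ⟨T, h2, h3, h4⟩ := h b hb
  exact h4.trans (Nat.cast_le.mpr (card_le_card fun x hx => mem_filter.mpr ⟨h2 hx, h3 x hx⟩))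

theorem unif2_half {X : Type} (S : Finset X) (P : X → Prop) :
    ∃ T ⊆ S, (S.card : ℝ) / 2 ≤ T.card ∧ ((∀ x ∈ T, P x) ∨ ∀ x ∈ T, ¬ P x) := by
  by_contra h
  simp only [not_exists, not_and, not_or] at h
  have h1 : ∀ T ⊆ S, (∀ x ∈ T, P x) → (T.card : ℝ) < S.card / 2 := fun T h1 h2 =>
    lt_of_not_ge fun h3 => (h T h1 h3).1 h2
  obtain ⟨T, h2, h3, h4⟩ := aux_remove S P (m := S.card / 2) (b := S.card / 2) (by linarith)
    fun T h2 h3 => (h1 T h2 h3).le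
  exact (h T h2 h3).2 h4

variable {ι : Type} {C Q : Finset ι} {Z : Finset (ι × ι)} {s κ μ : ι → ℝ} {win : ι × ι → ℕ}
  {lo hi : ℕ → ℝ} {inc : ι → Finset ℕ} {I E : ℕ} {c K : ℝ}

theorem unif2_fiber (W : WinCfg C Q Z s κ μ win lo hi inc I E c K) {z₀ : ι × ι} (h₀ : z₀ ∈ Z)
    {T : Finset (ι × ι)} (hT : T ⊆ Z) (h : ∀ z ∈ T, win z = win z₀) :
    (T.card : ℝ) ≤ K * c * (K * (4 ^ I * c)) := by
  have h1 : T ⊆ (C.filter fun p => win z₀ ∈ inc p) ×ˢ Q.filter fun q => win z₀ ∈ inc q :=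
    fun z hz => by
      have h2 := mem_product.mp (W.sub (hT hz))
      have h3 := W.mem z (hT hz)
      rw [h z hz] at h3
      exact mem_product.mpr ⟨mem_filter.mpr ⟨h2.1, h3.1⟩, mem_filter.mpr ⟨h2.2, h3.2.1⟩⟩
  refine (Nat.cast_le.mpr (card_le_card h1)).trans ?_
  rw [card_product, Nat.cast_mul]
  exact mul_le_mul (W.mult _ h₀) (W.pop _) (Nat.cast_nonneg _)
    ((Nat.cast_nonneg _).trans (W.mult _ h₀))

theorem unif2_bad (W : WinCfg C Q Z s κ μ win lo hi inc I E c K) {Z₃ : Finset (ι × ι)}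
    (hZ : Z₃ ⊆ Z) (w : ι → ℝ) (hw : ∀ z ∈ Z₃, 0 < w z.1 ∧ w z.1 / 2 ≤ hi (win z) - lo (win z))
    {j : ℕ} (hj : j ≤ 2 * I) {L R : ℕ → ℝ}
    (hLR : ∀ z ∈ Z, L (win z / 16 ^ j) ≤ lo (win z) ∧ hi (win z) ≤ R (win z / 16 ^ j))
    {T : Finset (ι × ι)} (hT : T ⊆ Z₃)
    (h : ∀ z ∈ T, R (win z / 16 ^ j) - L (win z / 16 ^ j) < 4 ^ j * w z.1 / (2 * K ^ 20)) :
    (T.card : ℝ) ≤ 2 * (4 ^ I * c * ((4 ^ I) ^ 2 * c) / K ^ 7) := by
  have hK := W.K_ge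
  have hc := W.c_ge
  have hZC := fun z (hz : z ∈ T) => mem_product.mp (W.sub (hZ (hT hz)))
  rw [two_mul]
  refine unif2_split T (fun z => ∀ T' ⊆ Z₃, (∀ z' ∈ T', z'.1 = z.1 ∧
    win z' / 16 ^ j = win z / 16 ^ j) → (T'.card : ℝ) ≤ 4 ^ I * 2 ^ j * c / K ^ 9)
    (fun T₁ h1 h2 => ?_) fun T₂ h1 h2 => ?_
  · refine (aux_fib2 T₁ C Prod.fst (fun z hz => (hZC z (h1 hz)).1) (fun z => win z / 16 ^ j)
      W.card_C (n := K * 4 ^ I / 2 ^ j) (by positivity) (by positivity) (fun z₀ h₀ =>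
        ⟨_, W.coarse j hj _ (mem_union_left _ (hZC z₀ (h1 h₀)).1), fun z hz h3 =>
          mem_image_of_mem _ (h3 ▸ (W.mem z (hZ (hT (h1 hz)))).1)⟩)
      fun z₀ h₀ T' h3 h4 => h2 z₀ h₀ T' (h3.trans (h1.trans hT)) h4).trans
      (le_of_eq (by field_simp))
  refine (aux_fib2 T₂ Q Prod.snd (fun z hz => (hZC z (h1 hz)).2) (fun z => win z / 16 ^ j)
    W.card_Q (n := K * 4 ^ I / 2 ^ j) (y := 2 ^ j * c / K ^ 9) (by positivity) (by positivity)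
    (fun z₀ h₀ => ⟨_, W.coarse j hj _ (mem_union_right _ (hZC z₀ (h1 h₀)).2), fun z hz h3 =>
      mem_image_of_mem _ (h3 ▸ (W.mem z (hZ (hT (h1 hz)))).2.1)⟩)
    fun z₀ h₀ T' h3 h4 => ?_).trans (le_of_eq (by field_simp))
  refine aux_top T' (fun z => -w z.1) (by positivity) fun z hz h5 => le_of_not_gt fun h6 => ?_
  set Y := Z₃.filter fun z' => z'.1 ∈ T'.image Prod.fst ∧ win z' / 16 ^ j = win z / 16 ^ j with hY
  have h7 := unif2_fib_ge Y (T'.image Prod.fst) Prod.fst (m := 4 ^ I * 2 ^ j * c / K ^ 9)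
    fun p hp => by
      obtain ⟨z', k1, rfl⟩ := mem_image.mp hp
      have k2 := h2 z' (h3 k1)
      push Not at k2
      obtain ⟨T'', k3, k4, k5⟩ := k2
      exact ⟨T'', fun x hx => mem_filter.mpr ⟨k3 hx, (k4 x hx).1 ▸ hp,
        (k4 x hx).2.trans ((h4 z' k1).2.trans (h4 z hz).2.symm)⟩, fun x hx => (k4 x hx).1, k5.le⟩
  rw [card_image_of_injOn fun x hx x' hx' h =>
    Prod.ext h ((h4 x hx).1.trans (h4 x' hx').1.symm)] at h7
  have hYZ : Y ⊆ Z := (filter_subset _ _).trans hZ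
  have h8 := aux_fib Y (Y.image win) win (fun _ => mem_image_of_mem _) le_rfl
    (b := K * c * (K * (4 ^ I * c))) (by positivity) fun z₁ k1 T'' k2 k3 =>
      unif2_fiber W (hYZ k1) (k2.trans hYZ) k3
  have hz3 := hT (h1 (h3 hz))
  have h9 := aux_pack_in (Y.image win) lo hi (ℓ := w z.1 / 2) (x := L (win z / 16 ^ j))
    (D := R (win z / 16 ^ j) - L (win z / 16 ^ j)) (by linarith [(hw z hz3).1])
    (by linarith [hLR z (hZ hz3), W.lo_lt z (hZ hz3)]) (fun k hk => by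
      obtain ⟨z', k1, rfl⟩ := mem_image.mp hk
      obtain ⟨k2, k3, -⟩ := mem_filter.mp k1
      obtain ⟨z'', k4, k5⟩ := mem_image.mp k3
      have k6 := h5 z'' k4
      rw [k5] at k6
      linarith [(hw z' k2).2]) (fun k hk k' hk' => by
      obtain ⟨z', k1, rfl⟩ := mem_image.mp hk
      obtain ⟨z'', k2, rfl⟩ := mem_image.mp hk'
      exact W.order _ (hYZ k1) _ (hYZ k2)) fun k hk => by
      obtain ⟨z', k1, rfl⟩ := mem_image.mp hk
      have k2 := hLR z' (hYZ k1)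
      rw [(mem_filter.mp k1).2.2] at k2
      exact ⟨k2.1, by linarith [k2.2]⟩
  have h10 : 4 ^ j / K ^ 20 ≤ ((Y.image win).card : ℝ) := by
    refine le_of_mul_le_mul_right (le_trans ?_ (h7.trans h8)) (by positivity)
    calc 4 ^ j / K ^ 20 * (K * c * (K * (4 ^ I * c))) =
          2 ^ j * c / K ^ 9 * (4 ^ I * 2 ^ j * c / K ^ 9) := by
          rw [show (4 : ℝ) ^ j = 2 ^ j * 2 ^ j by rw [← mul_pow]; norm_num]
          field_simp
      _ ≤ _ := by gcongr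
  refine absurd (h z (h1 (h3 hz))) (not_lt.mpr (le_trans ?_ h9))
  have h11 := (hw z hz3).1
  calc 4 ^ j * w z.1 / (2 * K ^ 20) = 4 ^ j / K ^ 20 * (w z.1 / 2) := by field_simp
    _ ≤ _ := by gcongr

/-- Frostman bound for the windows of `Z'` at the scale `w` -/
def UFrost (Z' : Finset (ι × ι)) (win : ι × ι → ℕ) (lo hi : ℕ → ℝ) (w : ι → ℝ) (K B : ℝ) : Prop :=
  ∀ (p : ι) (x R : ℝ), 1 ≤ R → R < B → ∀ T : Finset ℕ, (∀ k ∈ T, ∃ q, (p, q) ∈ Z' ∧ win (p, q) = k ∧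
    x ≤ hi k ∧ lo k ≤ x + R * w p) → (T.card : ℝ) ^ 2 ≤ K ^ 2 * R

theorem unif2_long (W : WinCfg C Q Z s κ μ win lo hi inc I E c K) {Z₃ : Finset (ι × ι)}
    (hZ : Z₃ ⊆ Z) (w : ι → ℝ) (hw : ∀ z ∈ Z₃, 0 < w z.1 ∧ w z.1 / 2 ≤ hi (win z) - lo (win z))
    (hc : 4 ^ I * c * ((4 ^ I) ^ 2 * c) / (4 * K ^ 2) ≤ Z₃.card) :
    ∃ Z₄ ⊆ Z₃, 4 ^ I * c * ((4 ^ I) ^ 2 * c) / K ^ 5 ≤ Z₄.card ∧
      UFrost Z₄ win lo hi w (K ^ 24) ((4 ^ I) ^ 2) := by
  have hK := W.K_ge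
  have hc1 := W.c_ge
  choose L R h1 h2 using fun j : ℕ => aux_hull (Z.image win) lo hi
    (forall_mem_image.mpr W.lo_lt)
    (forall_mem_image.mpr fun z hz => forall_mem_image.mpr (W.order z hz)) (fun k => k / 16 ^ j) fun _ _ h => Nat.div_le_div_right h
  set M := 4 ^ I * c * ((4 ^ I) ^ 2 * c) with hM
  have hM0 : 0 < M := by positivity
  have h3 : M / K ^ 5 ≤ M / (8 * K ^ 2) := by
    gcongr
    exact aux_pow hK 3 le_rfl (by norm_num)
  obtain ⟨Z₄, h4, h5, h6⟩ := aux_remove Z₃ (fun z => ∃ j ≤ 2 * I,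
      R j (win z / 16 ^ j) - L j (win z / 16 ^ j) < 4 ^ j * w z.1 / (2 * K ^ 20))
    (m := M / (8 * K ^ 2)) (b := M / (8 * K ^ 2)) (le_trans (le_of_eq (by field_simp; norm_num)) hc)
    fun T k1 k2 => by
      choose! f k3 k4 using k2
      refine (aux_fib T (range (2 * I + 1)) f (fun z hz => mem_range.mpr (Nat.lt_succ_of_le
        (k3 z hz))) (α := K) (b := 2 * (M / K ^ 7)) (by rw [card_range]; exact W.I_le)
        (by positivity) fun z₀ h₀ T' k5 k6 =>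
        unif2_bad W hZ w hw (k3 z₀ h₀) (fun z hz => h1 _ _ (mem_image_of_mem _ hz)) (k5.trans k1)
          fun z hz => k6 z hz ▸ k4 z (k5 hz)).trans ?_
      have k5 := aux_pow (c := 16) (i := 2) (j := 6) hK 4 le_rfl (by norm_num)
      calc K * (2 * (M / K ^ 7)) = 2 * M / K ^ 6 := by field_simp
        _ ≤ 2 * M / (16 * K ^ 2) := by gcongr
        _ = _ := by field_simp; norm_num
  refine ⟨Z₄, h4, h3.trans h5, fun p x r k1 k2 T k3 => ?_⟩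
  rcases T.eq_empty_or_nonempty with rfl | ⟨k₀, h₀⟩
  · rw [card_empty, Nat.cast_zero, zero_pow two_ne_zero]
    positivity
  obtain ⟨q₀, k4, -⟩ := k3 k₀ h₀
  have k5 := (hw _ (h4 k4)).1
  obtain ⟨n, k6, k7⟩ := exists_nat_pow_near k1 (by norm_num : (1 : ℝ) < 4)
  have k8 : n + 1 ≤ 2 * I := by
    have k9 := k6.trans_lt k2
    rw [← pow_mul, pow_lt_pow_iff_right₀ (by norm_num)] at k9
    omega
  have k9 : ∀ b ∈ T.image (· / 16 ^ (n + 1)), ∃ q, (p, q) ∈ Z₄ ∧ win (p, q) / 16 ^ (n + 1) = b ∧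
      x ≤ hi (win (p, q)) ∧ lo (win (p, q)) ≤ x + r * w p := fun b hb => by
    obtain ⟨k, k9, rfl⟩ := mem_image.mp hb
    obtain ⟨q, k10, rfl, k11⟩ := k3 k k9
    exact ⟨q, k10, rfl, k11⟩
  have k10 := aux_pack_meet (T.image (· / 16 ^ (n + 1))) (L (n + 1)) (R (n + 1)) (x := x)
    (ℓ := 4 ^ (n + 1) * w p / (2 * K ^ 20)) (D := r * w p) (by positivity) (by positivity)
    (fun b hb => by
      obtain ⟨q, l1, rfl, -⟩ := k9 b hb
      exact not_lt.mp fun l2 => h6 _ l1 ⟨_, k8, l2⟩)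
    (fun b hb b' hb' => by
      obtain ⟨q, l1, rfl, -⟩ := k9 b hb
      obtain ⟨q', l2, rfl, -⟩ := k9 b' hb'
      exact h2 _ _ (mem_image_of_mem _ (hZ (h4 l1))) _ (mem_image_of_mem _ (hZ (h4 l2))))
    fun b hb => by
      obtain ⟨q, l1, rfl, l2, l3⟩ := k9 b hb
      have l4 := h1 (n + 1) _ (mem_image_of_mem _ (hZ (h4 l1)))
      exact ⟨l2.trans l4.2, l4.1.trans l3⟩
  have k11 : ((T.image (· / 16 ^ (n + 1))).card : ℝ) ≤ 4 * K ^ 20 := by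
    have l1 : (1 : ℝ) ≤ K ^ 20 := one_le_pow₀ (by linarith)
    refine le_of_mul_le_mul_right (k10.trans ?_) (by positivity)
    calc r * w p + 2 * (4 ^ (n + 1) * w p / (2 * K ^ 20)) ≤
          4 ^ (n + 1) * w p + 2 * K ^ 20 * (4 ^ (n + 1) * w p / (2 * K ^ 20)) := by
          gcongr
          linarith
      _ = _ := by field_simp; norm_num
  have k12 := aux_fib T _ (· / 16 ^ (n + 1)) (fun _ => mem_image_of_mem _) k11
    (b := K * 2 ^ (n + 1)) (by positivity) fun k _ T' l1 l2 => le_trans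
      (Nat.cast_le.mpr (card_le_card fun k' hk' => mem_filter.mpr ⟨by
        obtain ⟨q, l3, rfl, -⟩ := k3 k' (l1 hk')
        exact (W.mem _ (hZ (h4 l3))).1, l2 k' hk'⟩))
      (W.fine _ k8 p (mem_union_left _ (mem_product.mp (W.sub (hZ (h4 k4)))).1) _)
  calc (T.card : ℝ) ^ 2 ≤ (4 * K ^ 20 * (K * 2 ^ (n + 1))) ^ 2 := by gcongr
    _ = 64 * K ^ 42 * 4 ^ n := by
      rw [show (4 : ℝ) ^ n = 2 ^ n * 2 ^ n by rw [← mul_pow]; norm_num]
      ring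
    _ ≤ K ^ 48 * r := by
      gcongr
      exact aux_pow hK 6 le_rfl (by norm_num)
    _ = _ := by ring

theorem unif2_frost (W : WinCfg C Q Z s κ μ win lo hi inc I E c K) {Z' : Finset (ι × ι)} {γ s₁ : ℝ}
    (S : Scaled Z Z' s win lo hi γ s₁ ((4 ^ I * c) * ((4 ^ I) ^ 2 * c)) K) :
    ∃ θ : ℝ, ∃ Z₄ ⊆ Z, 4 ^ I * c * ((4 ^ I) ^ 2 * c) / K ^ 5 ≤ Z₄.card ∧
      (∀ z ∈ Z₄, hi (win z) - lo (win z) ≤ θ * γ * (s z.1 - s₁)) ∧ ∀ B,
      UFrost Z₄ win lo hi (fun p => θ * γ * (s p - s₁)) (K ^ 24) B := by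
  have hK := W.K_ge
  have hc1 := W.c_ge
  have hK1 : K ≤ K ^ 24 := le_self_pow₀ (by linarith) (by norm_num)
  set M := 4 ^ I * c * ((4 ^ I) ^ 2 * c) with hM
  have hM0 : 0 < M := by positivity
  suffices h : ∃ θ : ℝ, ∃ Z₄ ⊆ Z, M / K ^ 5 ≤ Z₄.card ∧
      (∀ z ∈ Z₄, hi (win z) - lo (win z) ≤ θ * γ * (s z.1 - s₁)) ∧
      UFrost Z₄ win lo hi (fun p => θ * γ * (s p - s₁)) (K ^ 24) ((4 ^ I) ^ 2) by
    obtain ⟨θ, Z₄, h1, h2, h3, h4⟩ := h
    refine ⟨θ, Z₄, h1, h2, h3, fun B p x r k1 _ T k2 => ?_⟩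
    rcases lt_or_ge r ((4 ^ I) ^ 2) with k3 | k3
    · exact h4 p x r k1 k3 T k2
    · have k4 : (T.card : ℝ) ≤ K * 4 ^ I := le_trans (Nat.cast_le.mpr (card_le_card fun k hk => by
        obtain ⟨q, k4, k5, -⟩ := k2 k hk
        exact mem_usedW.mpr ⟨q, h1 k4, k5⟩)) (unif1_used W p)
      calc (T.card : ℝ) ^ 2 ≤ (K * 4 ^ I) ^ 2 := by gcongr
        _ = K ^ 2 * (4 ^ I) ^ 2 := by ring
        _ ≤ _ := by gcongr
  have hpos : ∀ z ∈ Z', 0 < hi (win z) - lo (win z) := fun z hz => sub_pos.mpr (W.lo_lt _ (S.sub hz))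
  obtain ⟨T, h1, h2, h3⟩ := unif2_half Z' fun z =>
    hi (win z) - lo (win z) ≤ 1 / (4 ^ I) ^ 2 * γ * (s z.1 - s₁)
  have h4 : M / K / 2 ≤ T.card := le_trans (by gcongr; exact S.card) h2
  rcases h3 with h3 | h3
  · refine ⟨_, T, h1.trans S.sub, le_trans ?_ h4, h3, fun p x r k1 k2 T' k3 => ?_⟩
    · rw [div_div]
      gcongr
      rw [mul_comm]
      simpa using aux_pow (c := 2) (i := 1) (j := 5) hK 1 (by norm_num) (by norm_num)
    · have k4 : (T'.card : ℝ) ≤ K := le_trans (Nat.cast_le.mpr (card_le_card fun k hk => by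
        obtain ⟨q, k4, rfl, k5, k6⟩ := k3 k hk
        refine mem_image_of_mem _ (mem_filter.mpr ⟨h1 k4, rfl, k5, k6.trans ?_⟩)
        have k7 := (hpos _ (h1 k4)).trans_le (S.len _ (h1 k4))
        have k8 : r / (4 ^ I) ^ 2 ≤ 1 := (div_le_one (by positivity)).mpr k2.le
        calc x + r * (1 / (4 ^ I) ^ 2 * γ * (s p - s₁)) =
              x + r / (4 ^ I) ^ 2 * (γ * (s p - s₁)) := by ring
          _ ≤ x + 1 * (γ * (s p - s₁)) := by gcongr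
          _ = _ := by ring)) (S.sep p x)
      calc (T'.card : ℝ) ^ 2 ≤ (K ^ 24) ^ 2 * 1 := by rw [mul_one]; gcongr; linarith
        _ ≤ _ := by gcongr
  · choose! f k1 k2 using fun z (hz : z ∈ T) => exists_nat_pow_near
      ((one_le_div (hpos z (h1 hz))).mpr (S.len z (h1 hz))) (by norm_num : (1 : ℝ) < 2)
    have k3 : ∀ z ∈ T, f z ∈ range (4 * I) := fun z hz => by
      have k3 : γ * (s z.1 - s₁) / (hi (win z) - lo (win z)) < 2 ^ (4 * I) := by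
        rw [div_lt_iff₀ (hpos z (h1 hz)), ← div_lt_iff₀' (by positivity),
          show (2 : ℝ) ^ (4 * I) = (4 ^ I) ^ 2 by rw [pow_mul, sq, ← mul_pow]; norm_num]
        refine lt_of_eq_of_lt ?_ (not_le.mp (h3 z hz))
        ring
      exact mem_range.mpr ((pow_lt_pow_iff_right₀ (by norm_num)).mp ((k1 z hz).trans_lt k3))
    obtain ⟨i, Z₃, k4, k5, k6⟩ := aux_pigeon T _ f k3 (α := 2 * K) (b := M / (4 * K ^ 2)) (by
      have := W.I_le
      rw [card_range]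
      push_cast at this ⊢
      linarith) (by positivity) (by positivity) (le_trans (le_of_eq (by field_simp; norm_num)) h4)
    have k7 : ∀ z ∈ Z₃, hi (win z) - lo (win z) ≤ 1 / 2 ^ i * γ * (s z.1 - s₁) := fun z hz => by
      have k7 := k1 z (k4 hz)
      rw [k5 z hz, le_div_iff₀ (hpos z (h1 (k4 hz))), ← le_div_iff₀' (by positivity)] at k7
      exact k7.trans (le_of_eq (by ring))
    obtain ⟨Z₄, k8, k9, k10⟩ := unif2_long W (k4.trans (h1.trans S.sub))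
      (fun p => 1 / 2 ^ i * γ * (s p - s₁)) (fun z hz => ⟨(hpos z (h1 (k4 hz))).trans_le (k7 z hz), by
        have k8 := k2 z (k4 hz)
        rw [k5 z hz, div_lt_iff₀ (hpos z (h1 (k4 hz))), ← div_lt_iff₀' (by positivity)] at k8
        exact le_trans (le_of_eq (by ring)) k8.le⟩) k6
    exact ⟨_, Z₄, k8.trans (k4.trans (h1.trans S.sub)), k9, fun z hz => k7 z (k8 hz), k10⟩

end Vale.Agent.P065
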